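import Crest.Agent.R191.Marker

/-! # R191: nodes versus edges -/

set_option autoImplicit false
set_option linter.unusedSectionVars false

open MeasureTheory Set
open scoped ENNReal

namespace Crest.Agent.R191

variable {Γ X : Type} [Group Γ] [Countable Γ] [MeasurableSpace Γ]
  [MeasurableSingletonClass Γ] [MulAction Γ X] [MeasurableSpace X] [StandardBorelSpace X]
  [MeasurableSMul₂ Γ X] [IsCancelSMul Γ X]
  {μ : Measure X} [IsProbabilityMeasure μ] [SMulInvariantMeasure Γ X μ]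
  {I J : Type} [Countable I] [MeasurableSpace I] [MeasurableSingletonClass I]
  [Countable J] [MeasurableSpace J] [MeasurableSingletonClass J]

namespace BLAux

/-- `p` reaches `Z` using at most `n` edges. -/
def near (G : Gr X I J) (Z : Set (X × I)) : ℕ → X × I → Prop
  | 0, p => p ∈ Z
  | n + 1, p => near G Z n p ∨ ∃ ε, ε ∈ G.E ∧
      ((G.R p (G.o ε) ∧ near G Z n (G.t ε)) ∨ (G.R p (G.t ε) ∧ near G Z n (G.o ε)))

variable {G : Gr X I J} {Z : Set (X × I)}

theorem near_mono {n m : ℕ} (h : n ≤ m) {p : X × I} (hp : near G Z n p) : near G Z m p := by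
  induction h with
  | refl => exact hp
  | step _ ih => exact Or.inl ih

theorem near_R (hE : Equivalence G.R) (hsat : ∀ p ∈ Z, ∀ q, G.R p q → q ∈ Z) :
    ∀ {n : ℕ} {p q : X × I}, G.R p q → near G Z n p → near G Z n q
  | 0, p, q, h, hp => hsat p hp q h
  | _ + 1, _, _, h, Or.inl hp => Or.inl (near_R hE hsat h hp)
  | _ + 1, _, _, h, Or.inr ⟨ε, h1, Or.inl h2⟩ =>
      Or.inr ⟨ε, h1, Or.inl ⟨hE.trans (hE.symm h) h2.1, h2.2⟩⟩
  | _ + 1, _, _, h, Or.inr ⟨ε, h1, Or.inr h2⟩ =>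
      Or.inr ⟨ε, h1, Or.inr ⟨hE.trans (hE.symm h) h2.1, h2.2⟩⟩

theorem near_conn (hE : Equivalence G.R) (hsat : ∀ p ∈ Z, ∀ q, G.R p q → q ∈ Z) {p q : X × I}
    (h : G.Conn p q) : (∃ n, near G Z n p) ↔ ∃ n, near G Z n q := by
  induction h with
  | rel p q hs =>
    rcases hs with hs | ⟨ε, h1, rfl, rfl⟩
    · exact ⟨fun ⟨n, h⟩ => ⟨n, near_R hE hsat hs h⟩,
        fun ⟨n, h⟩ => ⟨n, near_R hE hsat (hE.symm hs) h⟩⟩
    · exact ⟨fun ⟨n, h⟩ => ⟨n + 1, Or.inr ⟨ε, h1, Or.inr ⟨hE.refl _, h⟩⟩⟩,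
        fun ⟨n, h⟩ => ⟨n + 1, Or.inr ⟨ε, h1, Or.inl ⟨hE.refl _, h⟩⟩⟩⟩
  | refl _ => rfl
  | symm _ _ _ ih => exact ih.symm
  | trans _ _ _ _ _ ih ih' => exact ih.trans ih'

theorem meas_adj (h : G.WF Γ) {φ : X × I → Prop} (hφ : Measurable φ) :
    Measurable fun z : (X × I) × (X × J) => z.2 ∈ G.E ∧
      ((G.R z.1 (G.o z.2) ∧ φ (G.t z.2)) ∨ (G.R z.1 (G.t z.2) ∧ φ (G.o z.2))) := by
  have ho := h.mo
  have ht := h.mt
  refine Measurable.and (measurableSet_setOfPred.1 (h.mE.preimage measurable_snd))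
    (Measurable.or (Measurable.and ?_ ?_) (Measurable.and ?_ ?_))
  · exact h.mR.comp (f := fun z : (X × I) × (X × J) => (z.1, G.o z.2)) (by fun_prop)
  · exact hφ.comp (ht.comp measurable_snd)
  · exact h.mR.comp (f := fun z : (X × I) × (X × J) => (z.1, G.t z.2)) (by fun_prop)
  · exact hφ.comp (ho.comp measurable_snd)

theorem orb_adj (h : G.WF Γ) {φ : X × I → Prop} {p : X × I} {ε : X × J}
    (hp : ε ∈ G.E ∧ ((G.R p (G.o ε) ∧ φ (G.t ε)) ∨ (G.R p (G.t ε) ∧ φ (G.o ε)))) :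
    Orb Γ p.1 ε.1 := by
  obtain ⟨h1, h2 | h2⟩ := hp
  · exact (h.orbR _ _ h2.1).trans (h.orbo ε h1).symm
  · exact (h.orbR _ _ h2.1).trans (h.orbt ε h1).symm

theorem meas_near (h : G.WF Γ) (hZ : MeasurableSet Z) : ∀ n, Measurable (near G Z n)
  | 0 => measurableSet_setOfPred.1 hZ
  | n + 1 => (meas_near h hZ n).or (meas_exists Γ measurable_fst
      (f := fun p ε => ε ∈ G.E ∧
        ((G.R p (G.o ε) ∧ near G Z n (G.t ε)) ∨ (G.R p (G.t ε) ∧ near G Z n (G.o ε))))
      (meas_adj h (meas_near h hZ n)) fun _ _ hp => orb_adj h hp)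

/-- `ε` leads from the node of `p` towards `Z`. -/
def desc (G : Gr X I J) (Z : Set (X × I)) (p : X × I) (ε : X × J) : Prop :=
  ∃ n, ¬ near G Z n p ∧ ε ∈ G.E ∧
    ((G.R p (G.o ε) ∧ near G Z n (G.t ε)) ∨ (G.R p (G.t ε) ∧ near G Z n (G.o ε)))

theorem meas_desc (h : G.WF Γ) (hZ : MeasurableSet Z) :
    Measurable fun z : (X × I) × (X × J) => desc G Z z.1 z.2 :=
  Measurable.exists fun n => ((meas_near h hZ n).comp measurable_fst).not.and
    (meas_adj h (meas_near h hZ n))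

theorem exists_desc {p : X × I} (hp : p ∉ Z) :
    ∀ {n : ℕ}, near G Z n p → ∃ ε, desc G Z p ε
  | 0, h => (hp h).elim
  | n + 1, h => by
    by_cases h' : near G Z n p
    · exact exists_desc hp h'
    · obtain ⟨ε, hε⟩ := h.resolve_left h'
      exact ⟨ε, n, h', hε⟩

theorem desc_R (hE : Equivalence G.R) (hsat : ∀ p ∈ Z, ∀ q, G.R p q → q ∈ Z) {p p' : X × I}
    {ε : X × J} (h : desc G Z p ε) (h' : desc G Z p' ε) : G.R p p' := by
  obtain ⟨n, h1, -, h2⟩ := h
  obtain ⟨n', h1', -, h2'⟩ := h'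
  rcases h2 with h2 | h2 <;> rcases h2' with h2' | h2'
  · exact hE.trans h2.1 (hE.symm h2'.1)
  · rcases le_total n n' with hn | hn
    · exact (h1' (near_R hE hsat (hE.symm h2'.1) (near_mono hn h2.2))).elim
    · exact (h1 (near_R hE hsat (hE.symm h2.1) (near_mono hn h2'.2))).elim
  · rcases le_total n n' with hn | hn
    · exact (h1' (near_R hE hsat (hE.symm h2'.1) (near_mono hn h2.2))).elim
    · exact (h1 (near_R hE hsat (hE.symm h2.1) (near_mono hn h2'.2))).elim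
  · exact hE.trans h2.1 (hE.symm h2'.1)

theorem desc_mem (hE : Equivalence G.R) (hsat : ∀ p ∈ Z, ∀ q, G.R p q → q ∈ Z) {p : X × I}
    {ε : X × J} (h : desc G Z p ε) : ε ∈ G.E ∧ ¬ (G.o ε ∈ Z ∧ G.t ε ∈ Z) := by
  obtain ⟨n, h1, h2, h3⟩ := h
  refine ⟨h2, fun hz => h1 (near_mono (Nat.zero_le n) ?_)⟩
  rcases h3 with h3 | h3
  · exact hsat _ hz.1 _ (hE.symm h3.1)
  · exact hsat _ hz.2 _ (hE.symm h3.1)

theorem eqv_conn (G : Gr X I J) : Equivalence G.Conn := Relation.EqvGen.is_equivalence _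

theorem conn_of_R {p q : X × I} (h : G.R p q) : G.Conn p q := .rel _ _ (Or.inl h)

/-- One node per finite component. -/
theorem vOn_roots_le (h : G.WF Γ) {Z : Set (X × I)} (hZ : MeasurableSet Z) (hZP : Z ⊆ G.P)
    (hfin : ∀ p ∈ Z, {q | G.Conn p q}.Finite)
    (huniq : ∀ p ∈ Z, ∀ p' ∈ Z, G.Conn p p' → G.R p p') :
    G.vOn μ Z ≤ ∫⁻ p in G.P, wt G.Conn p ∂(nu μ I) := by
  have hC := eqv_conn G
  have hwC : Measurable (wt G.Conn) := meas_wt Γ h.mConn h.orbConn
  have hm : MeasurableSet {z : (X × I) × (X × I) | z.1 ∈ Z ∧ G.Conn z.1 z.2} :=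
    (hZ.preimage measurable_fst).inter (measurableSet_setOfPred.2 h.mConn)
  rw [Gr.vOn, ← lintegral_indicator hZ, ← lintegral_indicator h.mP]
  refine mtp_le Γ (f := fun p q => {z : (X × I) × (X × I) | z.1 ∈ Z ∧ G.Conn z.1 z.2}.indicator
    (fun z => wt G.R z.1 * wt G.Conn z.2) (p, q))
    (((h.mwt.comp measurable_fst).mul (hwC.comp measurable_snd)).indicator hm)
    (fun p q hq => h.orbConn _ _ (mem_of_indicator_ne_zero hq).2) (fun p => ?_) (fun q => ?_)
  · by_cases hp : p ∈ Z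
    · rw [indicator_of_mem hp]
      have e : ∀ q, {z : (X × I) × (X × I) | z.1 ∈ Z ∧ G.Conn z.1 z.2}.indicator
          (fun z => wt G.R z.1 * wt G.Conn z.2) (p, q) =
          wt G.R p * {q | G.Conn p q}.indicator (wt G.Conn) q := by
        intro q
        by_cases hq : G.Conn p q
        · rw [indicator_of_mem (by exact ⟨hp, hq⟩), indicator_of_mem (by exact hq)]
        · rw [indicator_of_notMem (fun h' => hq h'.2),
            indicator_of_notMem (s := {q | G.Conn p q}) (by exact hq), mul_zero]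
      simp only [e, ENNReal.tsum_mul_left]
      rw [tsum_wt_eq_one hC (hfin p hp), mul_one]
    · rw [indicator_of_notMem hp]; exact zero_le
  · by_cases hq : ∃ p0 ∈ Z, G.Conn p0 q
    · obtain ⟨p0, hp0, hq⟩ := hq
      rw [indicator_of_mem ((h.satConn hq).1 (hZP hp0))]
      calc _ ≤ ∑' p, {p | G.R p0 p}.indicator (wt G.R) p * wt G.Conn q := by
            refine ENNReal.tsum_le_tsum fun p => ?_
            by_cases hp : p ∈ Z ∧ G.Conn p q
            · rw [indicator_of_mem (by exact hp), indicator_of_mem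
                (by exact huniq p0 hp0 p hp.1 (hC.trans hq (hC.symm hp.2)))]
            · rw [indicator_of_notMem (by exact hp)]; exact zero_le
        _ ≤ wt G.Conn q := by
            rw [ENNReal.tsum_mul_right]
            exact mul_le_of_le_one_left' (tsum_wt_le_one h.eqv p0)
    · refine le_of_eq_of_le (ENNReal.tsum_eq_zero.2 fun p => ?_) zero_le
      exact indicator_of_notMem (fun h' => hq ⟨p, h'.1, h'.2⟩) _

/-- The nodes meeting the markers have vanishing measure. -/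
theorem tendsto_vOn (h : G.WF Γ) (hv : G.v μ ≠ ⊤) {Z : ℕ → Set (X × I)}
    (hZ : ∀ n, MeasurableSet (Z n)) (hZa : Antitone Z)
    (hinf : ∀ p, (∀ n, p ∈ Z n) → {q | G.R p q}.Infinite) :
    Filter.Tendsto (fun n => G.vOn μ (Z n ∩ G.P)) Filter.atTop (nhds 0) := by
  let m : Measure (X × I) := ((nu μ I).restrict G.P).withDensity (wt G.R)
  have hm : ∀ s, MeasurableSet s → m s = G.vOn μ (s ∩ G.P) := fun s hs => by
    rw [withDensity_apply _ hs, Measure.restrict_restrict hs]; rfl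
  have h0 : m (Z 0) ≠ ⊤ := by
    rw [hm _ (hZ 0)]
    exact ne_top_of_le_ne_top hv (lintegral_mono_set inter_subset_right)
  have ht := tendsto_measure_iInter_atTop (μ := m) (fun n => (hZ n).nullMeasurableSet) hZa ⟨0, h0⟩
  have e : m (⋂ n, Z n) = 0 := by
    rw [hm _ (MeasurableSet.iInter hZ), Gr.vOn,
      setLIntegral_congr_fun ((MeasurableSet.iInter hZ).inter h.mP) (g := fun _ => 0)
        fun p hp => wt_eq_zero.2 (hinf p (mem_iInter.1 hp.1)), lintegral_zero]
  rw [e] at ht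
  refine ht.congr fun n => hm _ (hZ n)

end BLAux

open BLAux

/-- If every node is connected to the saturated set `Z`, the nodes outside `Z` are at most as many
as the edges that do not have both ends in `Z`.

Proof.  Let `near n p` say that `p` reaches `Z` using at most `n` edges: `near 0 p := p ∈ Z`,
`near (n+1) p := near n p ∨ ∃ ε ∈ E, (R p (o ε) ∧ near n (t ε)) ∨ (R p (t ε) ∧ near n (o ε))`.
Each `near n` is measurable (`meas_exists`) and `R`-invariant, and `∃ n, near n ·` is invariant under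
`Conn`.  Call `(p, ε)` *descending* if `ε ∈ E` and for some `n`, `¬ near n p` and
(`R p (o ε) ∧ near n (t ε)` or `R p (t ε) ∧ near n (o ε)`).  Apply `mtp_le` to
`f p ε = wt R p` if `(p, ε)` is descending, else `0`.  A point `p ∈ P \ Z` has a descending edge
(take the least `n` with `near (n+1) p`).  For a fixed `ε` all descending `p` lie in one class (if
`p ~ o ε`, `p' ~ t ε` with `¬ near n (o ε)`, `near n (t ε)`, `¬ near n' (t ε)`, `near n' (o ε)`, compare
`n`, `n'` using monotonicity), so `ε` receives at most `1` (`tsum_wt_le_one`), and nothing if both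
ends are in `Z`. -/
theorem BL {G : Gr X I J} (h : G.WF Γ) {Z : Set (X × I)} (hZ : MeasurableSet Z)
    (hsat : ∀ p ∈ Z, ∀ q, G.R p q → q ∈ Z) (hc : ∀ p ∈ G.P, ∃ q ∈ Z, G.Conn p q) :
    G.vOn μ (G.P \ Z) ≤ nu μ J {ε | ε ∈ G.E ∧ ¬ (G.o ε ∈ Z ∧ G.t ε ∈ Z)} := by
  have hm : MeasurableSet {z : (X × I) × (X × J) | desc G Z z.1 z.2} :=
    measurableSet_setOfPred.2 (meas_desc h hZ)
  have hD : MeasurableSet {ε | ε ∈ G.E ∧ ¬ (G.o ε ∈ Z ∧ G.t ε ∈ Z)} :=
    h.mE.inter ((hZ.preimage h.mo).inter (hZ.preimage h.mt)).compl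
  rw [Gr.vOn, ← lintegral_indicator (h.mP.diff hZ), ← lintegral_indicator_one hD]
  refine mtp_le Γ (f := fun p ε => {z : (X × I) × (X × J) | desc G Z z.1 z.2}.indicator
    (fun z => wt G.R z.1) (p, ε)) ((h.mwt.comp measurable_fst).indicator hm) ?_ (fun p => ?_)
    (fun ε => ?_)
  · intro p ε hp
    obtain ⟨n, -, hn⟩ := mem_of_indicator_ne_zero hp
    exact orb_adj h hn
  · by_cases hp : p ∈ G.P \ Z
    · rw [indicator_of_mem hp]
      obtain ⟨q, hq, hpq⟩ := hc p hp.1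
      obtain ⟨n, hn⟩ := (near_conn h.eqv hsat hpq).2 ⟨0, hq⟩
      obtain ⟨ε, hε⟩ := exists_desc hp.2 hn
      refine le_trans (le_of_eq ?_) (ENNReal.le_tsum ε)
      rw [indicator_of_mem (by exact hε)]
    · rw [indicator_of_notMem hp]; exact zero_le
  · by_cases hε : ∃ p0, desc G Z p0 ε
    · obtain ⟨p0, hp0⟩ := hε
      rw [indicator_of_mem (by exact desc_mem h.eqv hsat hp0)]
      refine le_trans (ENNReal.tsum_le_tsum fun p => ?_) (tsum_wt_le_one h.eqv p0)
      by_cases hp : desc G Z p ε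
      · rw [indicator_of_mem (by exact hp), indicator_of_mem (by exact desc_R h.eqv hsat hp0 hp)]
      · rw [indicator_of_notMem (by exact hp)]; exact zero_le
    · refine le_of_eq_of_le (ENNReal.tsum_eq_zero.2 fun p => ?_) zero_le
      rw [indicator_of_notMem]
      exact fun h' => hε ⟨p, h'⟩

/-- Contracting all edges decreases the number of nodes by at most the number of edges.

Proof.  Apply `exists_roots` and `exists_markers` to `G.Conn`.  Let `Zf` be the `R`-saturation of the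
roots of finite `Conn`-classes and `Z n` the `R`-saturation of `U n`.  `BL` for `Zf ∪ Z n` gives
`v ≤ vOn (P ∩ Zf) + vOn (P ∩ Z n) + e`.  `vOn (P ∩ Zf) ≤ ∫_P wt Conn` by `mtp_le` with
`f p q = wt R p * wt Conn q` if `p ∈ P ∩ Zf` and `Conn p q` (the senders to `q` form one
`R`-class; `Gr.WF.satConn`).  `vOn (P ∩ Z n) → 0`: use the finite measure
`((nu μ I).restrict P).withDensity (wt R)` and continuity from above (or dominated convergence); a
point with a finite `R`-class is not in all `Z n` (pigeonhole, `U` antitone, `⋂ U n = ∅`), and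
points with an infinite `R`-class have weight zero. -/
theorem LL {G : Gr X I J} (h : G.WF Γ) (hv : G.v μ ≠ ⊤) :
    G.v μ ≤ ∫⁻ p in G.P, wt G.Conn p ∂(nu μ I) + G.e μ := by
  have hC := eqv_conn G
  obtain ⟨T, hT, hT1, hT2⟩ := exists_roots (Γ := Γ) h.mConn h.orbConn hC
  obtain ⟨U, hU, hUa, hU0, hU1⟩ := exists_markers (Γ := Γ) h.mConn h.orbConn hC
  have hsatm : ∀ s : Set (X × I), MeasurableSet s → MeasurableSet {p | ∃ q, G.R p q ∧ q ∈ s} :=
    fun s hs => measurableSet_setOfPred.2 (meas_exists Γ measurable_fst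
      (f := fun p q => G.R p q ∧ q ∈ s)
      (h.mR.and (measurableSet_setOfPred.1 (hs.preimage measurable_snd)))
      fun p q hq => h.orbR _ _ hq.1)
  let T' : Set (X × I) := T ∩ {q | {s | G.Conn q s}.Finite}
  have hT' : MeasurableSet T' :=
    hT.inter (measurableSet_setOfPred.2 (meas_finite Γ measurable_fst h.mConn h.orbConn))
  let Zf : Set (X × I) := {p | ∃ q, G.R p q ∧ q ∈ T'}
  let Z : ℕ → Set (X × I) := fun n => {p | ∃ q, G.R p q ∧ q ∈ U n}
  have hZf : MeasurableSet Zf := hsatm _ hT'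
  have hZ : ∀ n, MeasurableSet (Z n) := fun n => hsatm _ (hU n)
  have hcl : ∀ p q, G.Conn p q → {s | G.Conn p s} = {s | G.Conn q s} := fun p q hpq => by
    ext s; exact ⟨fun h' => hC.trans (hC.symm hpq) h', fun h' => hC.trans hpq h'⟩
  have h1 : G.vOn μ (Zf ∩ G.P) ≤ ∫⁻ p in G.P, wt G.Conn p ∂(nu μ I) := by
    refine vOn_roots_le h (hZf.inter h.mP) inter_subset_right ?_ ?_
    · rintro p ⟨⟨q, hpq, hq⟩, -⟩
      rw [hcl p q (conn_of_R hpq)]; exact hq.2
    · rintro p ⟨⟨q, hpq, hq⟩, -⟩ p' ⟨⟨q', hpq', hq'⟩, -⟩ hpp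
      have : q = q' := hT2 q hq.1 q' hq'.1
        (hC.trans (hC.symm (conn_of_R hpq)) (hC.trans hpp (conn_of_R hpq')))
      subst this
      exact h.eqv.trans hpq (h.eqv.symm hpq')
  have h2 := tendsto_vOn h hv hZ (fun n m hnm p ⟨q, hq, hq'⟩ => ⟨q, hq, hUa hnm hq'⟩) (by
    intro p hp hfin
    have : ∀ᶠ n in Filter.atTop, ∀ q ∈ {q | G.R p q}, q ∉ U n := by
      refine (Filter.eventually_all_finite hfin).2 fun q _ => ?_
      have : q ∉ ⋂ n, U n := by rw [hU0]; exact notMem_empty q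
      obtain ⟨n, hn⟩ := not_forall.1 (fun h' => this (mem_iInter.2 h'))
      exact Filter.eventually_atTop.2 ⟨n, fun m hm h' => hn (hUa hm h')⟩
    obtain ⟨n, hn⟩ := this.exists
    obtain ⟨q, hq, hq'⟩ := hp n
    exact hn q hq hq')
  have h3 : ∀ n, G.v μ ≤ ∫⁻ p in G.P, wt G.Conn p ∂(nu μ I) + G.e μ + G.vOn μ (Z n ∩ G.P) := by
    intro n
    have hb := BL (μ := μ) h (hZf.union (hZ n)) (by
      rintro p (⟨s, hs, hs'⟩ | ⟨s, hs, hs'⟩) q hq
      · exact Or.inl ⟨s, h.eqv.trans (h.eqv.symm hq) hs, hs'⟩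
      · exact Or.inr ⟨s, h.eqv.trans (h.eqv.symm hq) hs, hs'⟩) (by
      intro p _
      by_cases hf : {q | G.Conn p q}.Finite
      · obtain ⟨q, hq, hpq⟩ := hT1 p hf
        refine ⟨q, Or.inl ⟨q, h.eqv.refl q, hq, ?_⟩, hpq⟩
        change {s | G.Conn q s}.Finite
        rw [← hcl p q hpq]; exact hf
      · obtain ⟨q, hq, hpq⟩ := hU1 n p hf
        exact ⟨q, Or.inr ⟨q, h.eqv.refl q, hq⟩, hpq⟩)
    have hb' : G.vOn μ (G.P \ (Zf ∪ Z n)) ≤ G.e μ :=
      hb.trans (measure_mono fun ε hε => hε.1)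
    calc G.v μ ≤ G.vOn μ (((Zf ∩ G.P) ∪ (G.P \ (Zf ∪ Z n))) ∪ (Z n ∩ G.P)) := by
          refine lintegral_mono_set fun p hp => ?_
          by_cases h1 : p ∈ Zf
          · exact Or.inl (Or.inl ⟨h1, hp⟩)
          · by_cases h2 : p ∈ Z n
            · exact Or.inr ⟨h2, hp⟩
            · exact Or.inl (Or.inr ⟨hp, fun h' => h'.elim h1 h2⟩)
      _ ≤ G.vOn μ (Zf ∩ G.P) + G.vOn μ (G.P \ (Zf ∪ Z n)) + G.vOn μ (Z n ∩ G.P) :=
          (lintegral_union_le _ _ _).trans (add_le_add_left (lintegral_union_le _ _ _) _)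
      _ ≤ _ := add_le_add_left (add_le_add h1 hb') _
  have h4 := (tendsto_const_nhds (x := ∫⁻ p in G.P, wt G.Conn p ∂(nu μ I) + G.e μ)).add h2
  rw [add_zero] at h4
  exact ge_of_tendsto' h4 h3

end Crest.Agent.R191
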