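import Crest.Agent.R191.Defs

/-! # R191: the Bernoulli shift with base `ℕ → Bool` -/

set_option autoImplicit false
set_option linter.unusedSectionVars false

open MeasureTheory Set
open scoped ENNReal

namespace Crest.Agent.R191

/-- configurations -/
def Om (Γ : Type) : Type := Γ × ℕ → Bool

variable {Γ : Type} [Group Γ] [Countable Γ]

instance : MeasurableSpace (Om Γ) := MeasurableSpace.pi

instance : StandardBorelSpace (Om Γ) := inferInstanceAs (StandardBorelSpace (Γ × ℕ → Bool))

instance : MulAction Γ (Om Γ) where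
  smul g x := fun c => x (g⁻¹ * c.1, c.2)
  one_smul x := by
    funext c
    show x (1⁻¹ * c.1, c.2) = x c
    simp
  mul_smul g h x := by
    funext c
    show x ((g * h)⁻¹ * c.1, c.2) = x (h⁻¹ * (g⁻¹ * c.1), c.2)
    simp [mul_assoc]

theorem Om.smul_apply (g : Γ) (x : Om Γ) (c : Γ × ℕ) : (g • x) c = x (g⁻¹ * c.1, c.2) := rfl

/-- the fair coin -/
noncomputable def coin : Measure Bool := ProbabilityTheory.uniformOn univ

instance : IsProbabilityMeasure coin := by unfold coin; infer_instance

/-- the Bernoulli measure -/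
noncomputable def bern (Γ : Type) : Measure (Om Γ) := Measure.infinitePi fun _ : Γ × ℕ => coin

instance : IsProbabilityMeasure (bern Γ) := by
  unfold bern; exact inferInstanceAs (IsProbabilityMeasure (Measure.infinitePi _))

/-- `Measure.infinitePi_map_piCongrLeft` or `measurePreserving` of a reindexing. -/
theorem bern_mp (g : Γ) : MeasurePreserving (fun x : Om Γ => g • x) (bern Γ) (bern Γ) := by
  classical
  have hm : Measurable (fun x : Om Γ => g • x) :=
    measurable_pi_lambda _ fun c => measurable_pi_apply ((g⁻¹ * c.1, c.2) : Γ × ℕ)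
  refine ⟨hm, ?_⟩
  let e : Γ × ℕ ≃ Γ × ℕ := (Equiv.mulLeft g⁻¹).prodCongr (Equiv.refl ℕ)
  refine Measure.eq_infinitePi (fun _ : Γ × ℕ => coin) fun s t ht => ?_
  have hpi : MeasurableSet (Set.pi (s : Set (Γ × ℕ)) t) :=
    MeasurableSet.pi s.countable_toSet fun i _ => ht i
  have h1 : (fun x : Om Γ => g • x) ⁻¹' (Set.pi (s : Set (Γ × ℕ)) t) =
      Set.pi ((s.map e.toEmbedding : Finset (Γ × ℕ)) : Set (Γ × ℕ)) fun c => t (e.symm c) := by
    ext x
    constructor
    · intro hx c hc
      obtain ⟨d, hd, rfl⟩ := Finset.mem_map.1 (Finset.mem_coe.1 hc)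
      have := hx d (Finset.mem_coe.2 hd)
      simp only [Equiv.coe_toEmbedding, Equiv.symm_apply_apply]
      exact this
    · intro hx d hd
      have := hx (e d) (Finset.mem_coe.2 (Finset.mem_map.2 ⟨d, Finset.mem_coe.1 hd, rfl⟩))
      simp only [Equiv.symm_apply_apply] at this
      exact this
  have h2 := Measure.map_apply (μ := bern Γ) hm (s := Set.pi (s : Set (Γ × ℕ)) t) hpi
  refine h2.trans ?_
  rw [h1]
  refine (Measure.infinitePi_pi (fun _ : Γ × ℕ => coin) (fun c _ => ht _)).trans ?_
  rw [Finset.prod_map]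
  simp

/-- `Measure.infinitePi_pi` -/
theorem bern_cyl (V : Finset (Γ × ℕ)) (w : Γ × ℕ → Bool) :
    bern Γ {x | ∀ c ∈ V, x c = w c} = 2⁻¹ ^ V.card := by
  have h1 : ∀ b : Bool, coin {b} = 2⁻¹ := by
    intro b
    unfold coin
    rw [ProbabilityTheory.uniformOn_univ]
    simp
  have h2 := Measure.infinitePi_pi (fun _ : Γ × ℕ => coin) (s := V) (t := fun c => {w c})
    (fun c _ => measurableSet_singleton _)
  simp only [h1, Finset.prod_const] at h2
  exact h2

/-- A fixed point of `g ≠ 1` has `x (g⁻¹, n) = x (1, n)` for all `n`; the conditions for `n < k` have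
probability `2⁻¹ ^ k` (a union of `2 ^ k` cylinders on `2 k` coordinates). -/
theorem bern_free {g : Γ} (hg : g ≠ 1) : bern Γ {x | g • x = x} = 0 := by
  classical
  have key : ∀ k : ℕ, bern Γ {x | g • x = x} ≤ 2⁻¹ ^ k := by
    intro k
    let V : Finset (Γ × ℕ) := ({1, g⁻¹} : Finset Γ) ×ˢ Finset.range k
    have hV : V.card = 2 * k := by
      have : (1 : Γ) ≠ g⁻¹ := fun h => hg (by rw [← inv_inv g, ← h, inv_one])
      simp [V, Finset.card_pair this]
    let W : (Fin k → Bool) → Γ × ℕ → Bool := fun w c => if h : c.2 < k then w ⟨c.2, h⟩ else false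
    have hsub : {x : Om Γ | g • x = x} ⊆ ⋃ w : Fin k → Bool, {x : Om Γ | ∀ c ∈ V, x c = W w c} := by
      intro x hx
      refine mem_iUnion.2 ⟨fun n => x (1, n.1), ?_⟩
      rintro ⟨a, n⟩ hc
      simp only [V, Finset.mem_product, Finset.mem_insert, Finset.mem_singleton,
        Finset.mem_range] at hc
      obtain ⟨ha, hn⟩ := hc
      simp only [W, dif_pos hn]
      rcases ha with rfl | rfl
      · rfl
      · have := congrFun (show g • x = x from hx) (1, n)
        rw [Om.smul_apply] at this
        simpa using this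
    calc bern Γ {x | g • x = x}
        ≤ ∑' w : Fin k → Bool, bern Γ {x : Om Γ | ∀ c ∈ V, x c = W w c} :=
          (measure_mono hsub).trans (measure_iUnion_le _)
      _ = (2 : ℝ≥0∞) ^ k * 2⁻¹ ^ (2 * k) := by
          simp only [bern_cyl, hV]
          simp
      _ = 2⁻¹ ^ k := by
          rw [two_mul, pow_add, ← mul_assoc, ← mul_pow, ENNReal.mul_inv_cancel (by simp) (by simp),
            one_pow, one_mul]
  have hlim : Filter.Tendsto (fun k : ℕ => (2⁻¹ : ℝ≥0∞) ^ k) Filter.atTop (nhds 0) :=
    ENNReal.tendsto_pow_atTop_nhds_zero_of_lt_one (by simp)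
  exact le_antisymm (ge_of_tendsto' hlim key) (by simp)

/-- Approximation by sets depending on finitely many coordinates
(`measurableCylinders` is a set algebra generating the sigma-algebra;
`Measure.MeasureDense.of_generateFrom_isSetAlgebra_finite` or `exists_measure_symmDiff_lt…`). -/
theorem bern_approx {A : Set (Om Γ)} (hA : MeasurableSet A) {ε : ℝ≥0∞} (hε : ε ≠ 0) :
    ∃ (C : Set (Om Γ)) (W : Finset (Γ × ℕ)), MeasurableSet C ∧
      (∀ x y : Om Γ, (∀ c ∈ W, x c = y c) → (x ∈ C ↔ y ∈ C)) ∧ bern Γ (symmDiff A C) ≤ ε := by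
  obtain ⟨t, ht, hlt⟩ := exists_measure_symmDiff_lt_of_generateFrom_isSetRing
    (μ := bern Γ) (C := measurableCylinders fun _ : Γ × ℕ => Bool)
    isSetRing_measurableCylinders
    ⟨{univ}, countable_singleton _,
      singleton_subset_iff.2 (univ_mem_measurableCylinders fun _ : Γ × ℕ => Bool), by simp⟩
    generateFrom_measurableCylinders.symm hA (pos_iff_ne_zero.2 hε)
  obtain ⟨W, S, hS, rfl⟩ := (mem_measurableCylinders t).1 ht
  refine ⟨cylinder W S, W, hS.cylinder W, fun x y hxy => ?_, ?_⟩
  · have : W.restrict x = W.restrict y := funext fun c => hxy c.1 c.2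
    show W.restrict x ∈ S ↔ W.restrict y ∈ S
    rw [this]
  · exact (congrArg (bern Γ) (symmDiff_comm _ _)).le.trans hlt.le

end Crest.Agent.R191
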