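import Crest.Agent.R191.Closure
import Crest.Agent.Lib.Transport.Basic

/-! # R191: choice of the set of faces -/

set_option autoImplicit false
set_option linter.unusedSectionVars false

open MeasureTheory Set
open scoped ENNReal

namespace Crest.Agent.R191

variable {Γ X : Type} [Group Γ] [Countable Γ] [MeasurableSpace Γ]
  [MeasurableSingletonClass Γ] [MulAction Γ X] [MeasurableSpace X] [StandardBorelSpace X]
  [MeasurableSMul₂ Γ X] [IsCancelSMul Γ X]
  {μ : Measure X} [IsProbabilityMeasure μ] [SMulInvariantMeasure Γ X μ]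
  {I J : Type} [Countable I] [MeasurableSpace I] [MeasurableSingletonClass I]
  [Countable J] [MeasurableSpace J] [MeasurableSingletonClass J]
  {Λ : Subgroup Γ} {a : Γ} {τ : Fin 100 → Γ} {st : I} {G : Gr X I J}

namespace ChooseAux

/-- pointwise counting inequality -/
theorem count_ineq (T : Fin 100 → Prop) [DecidablePred T] :
    (∑ i, if (T i ∧ ∃ i', i' ≠ i ∧ T i') then 1 else 0) + 2 * (if ∃ i, T i then 1 else 0) ≤
      2 * ∑ i, (if T i then 1 else 0 : ℕ) := by
  classical
  by_cases h2 : ∃ i i', i' ≠ i ∧ T i ∧ T i'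
  · obtain ⟨i, i', hne, hi, hi'⟩ := h2
    have h1 : (∑ i, if (T i ∧ ∃ i', i' ≠ i ∧ T i') then 1 else 0) ≤
        ∑ i, (if T i then 1 else 0 : ℕ) := by
      refine Finset.sum_le_sum fun j _ => ?_
      by_cases hj : T j <;> simp [hj]
      split_ifs <;> simp
    have h3 : 2 ≤ ∑ i, (if T i then 1 else 0 : ℕ) := by
      calc 2 = ∑ j ∈ {i', i}, (if T j then 1 else 0 : ℕ) := by
            rw [Finset.sum_pair hne]; simp [hi, hi']
        _ ≤ _ := Finset.sum_le_sum_of_subset (Finset.subset_univ _)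
    rw [if_pos ⟨i, hi⟩]
    omega
  · have h1 : (∑ i, if (T i ∧ ∃ i', i' ≠ i ∧ T i') then 1 else 0 : ℕ) = 0 := by
      refine Finset.sum_eq_zero fun j _ => if_neg ?_
      rintro ⟨hj, i', hne, hi'⟩
      exact h2 ⟨j, i', hne, hj, hi'⟩
    rw [h1, zero_add]
    split_ifs with h
    · obtain ⟨i, hi⟩ := h
      have : (if T i then 1 else 0 : ℕ) ≤ ∑ i, (if T i then 1 else 0 : ℕ) :=
        Finset.single_le_sum (f := fun i => (if T i then 1 else 0 : ℕ))
          (fun _ _ => Nat.zero_le _) (Finset.mem_univ i)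
      rw [if_pos hi] at this
      omega
    · omega

/-- one peeling step -/
def step (τ : Fin 100 → Γ) (A : Set X) : Set X :=
  {y | y ∈ A ∧ 41 ≤ {i | ∃ i', i' ≠ i ∧ (τ i')⁻¹ • τ i • y ∈ A}.ncard}

theorem meas_step {A : Set X} (hA : MeasurableSet A) : MeasurableSet (step τ A) := by
  refine hA.inter (measurableSet_setOfPred.2 ?_)
  refine (Measurable.of_discrete (f := fun n : ℕ => 41 ≤ n)).comp
    (measurable_ncard.comp (measurable_set_iff.2 fun i => ?_))
  refine Measurable.exists fun i' => Measurable.and measurable_const ?_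
  exact measurableSet_setOfPred.1 (hA.preimage (by fun_prop))

theorem step_le {c : ℝ≥0∞} (hexp : Exp τ μ c) {A : Set X} (hA : MeasurableSet A)
    (hc : μ A ≤ c) : 41 * μ (step τ A) ≤ 40 * μ A := by
  classical
  set B : Fin 100 → Set X := fun i => {x | (τ i)⁻¹ • x ∈ A} with hB
  have mB : ∀ i, MeasurableSet (B i) := fun i => hA.preimage (by fun_prop)
  have μB : ∀ i, μ (B i) = μ A := fun i => measure_preimage_smul μ (τ i)⁻¹ A
  set D : Fin 100 → Set X := fun i => {x | x ∈ B i ∧ ∃ i', i' ≠ i ∧ x ∈ B i'} with hD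
  have mD : ∀ i, MeasurableSet (D i) := fun i =>
    (mB i).inter (measurableSet_setOfPred.2 (Measurable.exists fun i' =>
      Measurable.and measurable_const (measurableSet_setOfPred.1 (mB i'))))
  have mU : MeasurableSet {x | ∃ i, x ∈ B i} :=
    measurableSet_setOfPred.2 (Measurable.exists fun i => measurableSet_setOfPred.1 (mB i))
  have mD' : ∀ i, MeasurableSet ((τ i • ·) ⁻¹' D i) := fun i => (mD i).preimage (by fun_prop)
  have h1 : 41 * μ (step τ A) ≤ ∑ i, μ (D i) := by
    calc 41 * μ (step τ A) = ∫⁻ y, (step τ A).indicator (fun _ => 41) y ∂μ := by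
          rw [lintegral_indicator_const (meas_step hA)]
      _ ≤ ∫⁻ y, ∑ i, ((τ i • ·) ⁻¹' D i).indicator 1 y ∂μ := by
          refine lintegral_mono fun y => ?_
          by_cases hy : y ∈ step τ A
          · rw [indicator_of_mem hy]
            obtain ⟨hyA, hy⟩ := hy
            have e : ∑ i, ((τ i • ·) ⁻¹' D i).indicator (1 : X → ℝ≥0∞) y =
                (({i | ∃ i', i' ≠ i ∧ (τ i')⁻¹ • τ i • y ∈ A}.ncard : ℕ) : ℝ≥0∞) := by
              rw [Set.ncard_eq_toFinset_card', Finset.card_eq_sum_ones, Set.toFinset_ofPred,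
                Finset.sum_filter, Nat.cast_sum]
              refine Finset.sum_congr rfl fun i _ => ?_
              by_cases h : ∃ i', i' ≠ i ∧ (τ i')⁻¹ • τ i • y ∈ A
              · rw [if_pos h, indicator_of_mem]
                · simp
                · exact ⟨by simpa [hB] using hyA, h⟩
              · rw [if_neg h, indicator_of_notMem]
                · simp
                · exact fun h' => h h'.2
            rw [e]
            exact (Nat.cast_le (α := ℝ≥0∞)).2 hy
          · rw [indicator_of_notMem hy]; exact zero_le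
      _ = ∑ i, μ (D i) := by
          rw [lintegral_finsetSum _ fun i _ => measurable_one.indicator (mD' i)]
          refine Finset.sum_congr rfl fun i _ => ?_
          rw [lintegral_indicator_one (mD' i), measure_preimage_smul]
  have h2 : ∑ i, μ (D i) + 2 * μ {x | ∃ i, x ∈ B i} ≤ 2 * ∑ i, μ (B i) := by
    have e1 : ∑ i, μ (D i) + 2 * μ {x | ∃ i, x ∈ B i} =
        ∫⁻ x, ((∑ i, (D i).indicator 1 x) + 2 * {x | ∃ i, x ∈ B i}.indicator 1 x) ∂μ := by
      rw [lintegral_add_left (Finset.measurable_sum _ fun i _ => measurable_one.indicator (mD i)),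
        lintegral_finsetSum _ fun i _ => measurable_one.indicator (mD i),
        lintegral_const_mul _ (measurable_one.indicator mU), lintegral_indicator_one mU]
      congr 1
      exact Finset.sum_congr rfl fun i _ => (lintegral_indicator_one (mD i)).symm
    have e2 : 2 * ∑ i, μ (B i) = ∫⁻ x, 2 * ∑ i, (B i).indicator 1 x ∂μ := by
      rw [lintegral_const_mul _
          (Finset.measurable_sum _ fun i _ => measurable_one.indicator (mB i)),
        lintegral_finsetSum _ fun i _ => measurable_one.indicator (mB i)]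
      congr 1
      exact Finset.sum_congr rfl fun i _ => (lintegral_indicator_one (mB i)).symm
    rw [e1, e2]
    refine lintegral_mono fun x => ?_
    have h := count_ineq (fun i => x ∈ B i)
    have h' : (((∑ i, if (x ∈ B i ∧ ∃ i', i' ≠ i ∧ x ∈ B i') then 1 else 0) +
        2 * (if ∃ i, x ∈ B i then 1 else 0) : ℕ) : ℝ≥0∞) ≤
        ((2 * ∑ i, (if x ∈ B i then 1 else 0 : ℕ) : ℕ) : ℝ≥0∞) := Nat.cast_le.2 h
    push_cast at h'
    simpa only [indicator_apply, Pi.one_apply, mem_ofPred_eq, hD] using h'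
  have h3 : 80 * μ A ≤ μ {x | ∃ i, x ∈ B i} := hexp A hA hc
  simp only [μB, Finset.sum_const, Finset.card_univ, Fintype.card_fin, nsmul_eq_mul] at h2
  have h4 : 41 * μ (step τ A) + 160 * μ A ≤ 40 * μ A + 160 * μ A := by
    calc 41 * μ (step τ A) + 160 * μ A = 41 * μ (step τ A) + 2 * (80 * μ A) := by ring
      _ ≤ ∑ i, μ (D i) + 2 * μ {x | ∃ i, x ∈ B i} := by gcongr
      _ ≤ 2 * (((100 : ℕ) : ℝ≥0∞) * μ A) := h2
      _ = 40 * μ A + 160 * μ A := by push_cast; ring
  exact (ENNReal.add_le_add_iff_right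
    (ENNReal.mul_ne_top (by simp) (measure_ne_top μ A))).1 h4

theorem nullSingleton [Infinite Γ] : NullSingletonClass μ := by
  constructor
  intro x
  by_contra h
  have hd : Pairwise (Function.onFun Disjoint fun g : Γ => ({g • x} : Set X)) := by
    intro g g' hne
    simp only [Function.onFun, disjoint_singleton]
    exact fun e => hne (IsCancelSMul.right_cancel _ _ _ e)
  have h1 := measure_iUnion (μ := μ) hd fun g => measurableSet_singleton _
  have h2 : ∀ g : Γ, μ {g • x} = μ {x} := fun g => by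
    rw [← measure_preimage_smul μ g {g • x}]
    congr 1
    ext y
    simp
  simp only [h2] at h1
  rw [ENNReal.tsum_const_eq_top_of_ne_zero h] at h1
  exact measure_ne_top μ _ h1

theorem readable_mono {S S' : Set X} (hS : S ⊆ S') {y : X} (h : Readable τ G S y) :
    Readable τ G S' y :=
  let ⟨i, c, h⟩ := h; ⟨i, c, fun m hm => cl_mono hS (h m hm)⟩

/-- finitely many premises -/
theorem readable_of_stages {S : ℕ → Set X} (hS : Monotone S) {y : X} {i : Fin 100}
    {c : Fin 100 → X × I}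
    (h : ∀ m, m ≠ i → ∃ n, Cl τ G (S n) (some (τ m • y)) (c m) (c (m + 1))) :
    ∃ n, Readable τ G (S n) y := by
  classical
  choose! N hN using h
  refine ⟨Finset.univ.sup N, i, c, fun m hm => cl_mono (hS ?_) (hN m hm)⟩
  exact Finset.le_sup (f := N) (Finset.mem_univ m)

/-- the increasing sequence of sets of faces -/
def seq (τ : Fin 100 → Γ) (G : Gr X I J) : ℕ → Set X
  | 0 => ∅
  | n + 1 => seq τ G n ∪ {y | Readable τ G (seq τ G n) y}

theorem seq_mono : Monotone (seq τ G) :=
  monotone_nat_of_le_succ fun _ => subset_union_left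

theorem seq_readable : ∀ (n : ℕ) {y : X}, y ∈ seq τ G (n + 1) → Readable τ G (seq τ G n) y
  | 0, _, h => h.elim (fun h => h.elim) id
  | n + 1, _, h => h.elim
      (fun h => readable_mono (seq_mono (Nat.le_succ n)) (seq_readable n h)) id

end ChooseAux

open ChooseAux

/-- Peeling.  Proof: `Rr (n+1) = {y ∈ Rr n | at least 41 slots i have some i' ≠ i with
(τ i')⁻¹ • τ i • y ∈ Rr n}`.  With `A = Rr n` and `mult x = #{i | (τ i)⁻¹ • x ∈ A}` one has
`∫ mult = 100 μ A`, and (invariance of `μ`)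
`41 μ (Rr (n+1)) ≤ ∑ i, μ {y ∈ A | slot i shared} = ∫ mult · 1[mult ≥ 2]`, while pointwise
`mult · 1[mult ≥ 2] + 2 · 1[mult ≥ 1] ≤ 2 mult`; with `hexp`, `41 μ (Rr (n+1)) + 160 μ A ≤ 200 μ A`.
So `μ (Rr n) ≤ (40/41)^n → 0`. -/
theorem peel {c : ℝ≥0∞} (hexp : Exp τ μ c) {S : Set X} (hS : MeasurableSet S) (hc : μ S ≤ c) :
    ∃ Rr : ℕ → Set X, (∀ n, MeasurableSet (Rr n)) ∧ Antitone Rr ∧ Rr 0 = S ∧
      μ (⋂ n, Rr n) = 0 ∧ ∀ n y, y ∈ Rr n → y ∉ Rr (n + 1) →
        {i | ∃ i', i' ≠ i ∧ (τ i')⁻¹ • τ i • y ∈ Rr n}.ncard ≤ 40 := by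
  let Rr : ℕ → Set X := fun n => (step τ)^[n] S
  have hs : ∀ n, Rr (n + 1) = step τ (Rr n) := fun n => Function.iterate_succ_apply' _ _ _
  have hm : ∀ n, MeasurableSet (Rr n) := fun n => by
    induction n with
    | zero => exact hS
    | succ n ih => rw [hs]; exact meas_step ih
  have ha : Antitone Rr := antitone_nat_of_succ_le fun n => by
    rw [hs]; exact fun y hy => hy.1
  have hle : ∀ n, μ (Rr n) ≤ (40 / 41) ^ n := fun n => by
    induction n with
    | zero => simpa using prob_le_one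
    | succ n ih =>
      have h := step_le hexp (hm n) ((measure_mono (ha (Nat.zero_le n))).trans hc)
      rw [← hs] at h
      have h2 : μ (Rr (n + 1)) ≤ 40 / 41 * μ (Rr n) := by
        rw [mul_comm, ← mul_div_assoc, ENNReal.le_div_iff_mul_le (by simp) (by simp), mul_comm,
          mul_comm (μ _)]
        exact h
      calc μ (Rr (n + 1)) ≤ 40 / 41 * μ (Rr n) := h2
        _ ≤ 40 / 41 * (40 / 41) ^ n := by gcongr
        _ = _ := by rw [pow_succ']
  refine ⟨Rr, hm, ha, rfl, ?_, ?_⟩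
  · have ht : Filter.Tendsto (fun n : ℕ => (40 / 41 : ℝ≥0∞) ^ n) Filter.atTop (nhds 0) := by
      refine ENNReal.tendsto_pow_atTop_nhds_zero_of_lt_one ?_
      rw [ENNReal.div_lt_iff (by simp) (by simp)]
      norm_num
    refine le_antisymm (ge_of_tendsto' ht fun n => ?_) zero_le
    exact (measure_mono (iInter_subset _ n)).trans (hle n)
  · intro n y hy hy'
    rw [hs] at hy'
    by_contra h
    exact hy' ⟨hy, by omega⟩

/-- Between a small set and a large set there is a set of intermediate measure.  Proof: `μ` has no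
atoms (the points `g • x` are distinct and have equal mass, `Γ` is infinite), so
`Crest.Agent.Lib.Transport.exists_map_eq_volume` gives a uniform `U : X → unitInterval`; the sets
`A ∪ (B ∩ {U ≤ k/N})` increase from `A` (a.e.) to `B` in steps of measure at most `1/N ≤ c`. -/
theorem exists_between [Infinite Γ] {A B : Set X} (hA : MeasurableSet A) (hB : MeasurableSet B)
    (hAB : A ⊆ B) {c : ℝ≥0∞} (hc : c ≠ 0) (h1 : μ A ≤ c) (h2 : c ≤ μ B) :
    ∃ C, MeasurableSet C ∧ A ⊆ C ∧ C ⊆ B ∧ c ≤ μ C ∧ μ C ≤ 2 * c := by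
  classical
  have : NullSingletonClass μ := nullSingleton (Γ := Γ)
  obtain ⟨U, hU, hUm⟩ := Crest.Agent.Lib.Transport.exists_map_eq_volume μ
  obtain ⟨N, hN⟩ := ENNReal.exists_inv_nat_lt hc
  have hN0 : N ≠ 0 := by
    rintro rfl
    simp at hN
  have hNpos : (0 : ℝ) < N := by exact_mod_cast Nat.pos_of_ne_zero hN0
  let C : ℕ → Set X := fun k => A ∪ (B ∩ {x | (U x : ℝ) < k / N})
  have mU : Measurable fun x => (U x : ℝ) := measurable_subtype_coe.comp hU
  have mC : ∀ k, MeasurableSet (C k) := fun k =>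
    hA.union (hB.inter (measurableSet_lt mU measurable_const))
  have hCB : ∀ k, C k ⊆ B := fun k => union_subset hAB inter_subset_left
  have hex : ∃ k, c ≤ μ (C k) := by
    refine ⟨N + 1, h2.trans (measure_mono fun x hx => Or.inr ⟨hx, ?_⟩)⟩
    have := (U x).2.2
    show (U x : ℝ) < _
    rw [lt_div_iff₀ hNpos]
    push_cast
    nlinarith
  have hstep : ∀ k, μ (C (k + 1)) ≤ μ (C k) + c := fun k => by
    have hsub : C (k + 1) ⊆ C k ∪ U ⁻¹' (Subtype.val ⁻¹' Ico ((k : ℝ) / N) ((k + 1) / N)) := by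
      rintro x (hx | ⟨hx, hx'⟩)
      · exact Or.inl (Or.inl hx)
      · by_cases h : (U x : ℝ) < k / N
        · exact Or.inl (Or.inr ⟨hx, h⟩)
        · exact Or.inr ⟨not_lt.1 h, by simpa using hx'⟩
    refine (measure_mono hsub).trans ((measure_union_le _ _).trans ?_)
    gcongr
    rw [← Measure.map_apply hU (measurableSet_Ico.preimage measurable_subtype_coe), hUm,
      unitInterval.volume_apply]
    refine (measure_mono (image_preimage_subset _ _)).trans ?_
    rw [Real.volume_Ico]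
    refine le_trans (le_of_eq ?_) hN.le
    rw [← sub_div, add_sub_cancel_left, one_div, ENNReal.ofReal_inv_of_pos hNpos,
      ENNReal.ofReal_natCast]
  refine ⟨C (Nat.find hex), mC _, subset_union_left, hCB _, Nat.find_spec hex, ?_⟩
  rcases hk : Nat.find hex with _ | k
  · have : C 0 = A := by
      refine union_eq_left.2 ?_
      rintro x ⟨_, hx⟩
      have := (U x).2.1
      simp only [mem_ofPred_eq, Nat.cast_zero, zero_div] at hx
      linarith
    rw [this, two_mul]
    exact h1.trans le_self_add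
  · have := Nat.find_min hex (m := k) (by omega)
    rw [two_mul]
    exact (hstep k).trans (by gcongr; exact (not_le.1 this).le)

/-- Proof.  Let `S 0 = ∅`, `S (n+1) = S n ∪ {y | Readable τ G (S n) y}` (measurable by
`meas_readable`); every `y ∈ S (n+1)` is readable for `S n` (`cl_mono`).
* If `μ (S n) ≤ 10 δ` for all `n`, put `S∞ = ⋃ S n`; `μ S∞ ≤ 10 δ`, and readable faces for `S∞` are in
  `S∞` (`cl_iUnion`), so `cl_complete` applies to `S∞`.
* Otherwise take `n` with `μ (S n) ≤ 10 δ < μ (S (n+1))` and `S∞` from `exists_between`: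
  `10 δ ≤ μ S∞ ≤ 20 δ` and every `y ∈ S∞` is readable for `S∞`.
Peel `S∞`, and consider `S' T = S∞ \ Rr T` (monotone in `T`, with union `S∞ \ ⋂ Rr`).  For `y` outside
the null set `⋃ g, g • ⋂ Rr`, a derivation for `S∞` based in the orbit of `y` is a derivation for
`⋃ T, S' T` (`cl_local`, `cl_mono`), hence for some `S' T` (`cl_iUnion`).  By continuity from below
the measure of `{y ∈ S' T | Readable (S' T) y}` tends to `μ S∞ ≥ 10 δ > 5 δ`, respectively that of
`{x | Cl (S' T) (some x) ⋆ ⋆}` tends to `1`.  Let `lev y` be the least `n` with `y ∉ Rr (n+1)` (or `0`). -/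
theorem choose_faces (hG : G.Adm Λ a st) (hD : GD Λ a τ) {δ : ℝ≥0∞} (hδ : δ ≠ 0)
    (hδ1 : 20 * δ ≤ 1) (hexp : Exp τ μ (20 * δ)) :
    ∃ (S : Set X) (T : ℕ) (lev : X → ℕ), MeasurableSet S ∧ Measurable lev ∧
      (∀ y ∈ S, lev y < T ∧ 60 ≤ {i | FreeSlot τ S lev y i}.ncard) ∧
      (5 * δ ≤ μ {y | y ∈ S ∧ Readable τ G S y} ∨
        2⁻¹ ≤ μ {x | Cl τ G S (some x) (x, st) (a • x, st)}) := by
  classical
  have hinf := hD.inf
  have : Infinite Γ := Infinite.of_injective _ (Subtype.val_injective (p := (· ∈ Λ)))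
  have hδt : δ ≠ ⊤ := by
    rintro rfl
    simp at hδ1
  have mseq : ∀ n, MeasurableSet (seq τ G n) := fun n => by
    induction n with
    | zero => exact MeasurableSet.empty
    | succ n ih => exact ih.union (meas_readable hG hD.cyc ih)
  -- the set `S∞`
  obtain ⟨S, mS, hS, hcase⟩ : ∃ S : Set X, MeasurableSet S ∧ μ S ≤ 20 * δ ∧
      ((10 * δ ≤ μ S ∧ ∀ y ∈ S, Readable τ G S y) ∨
        ∀ x, Cl τ G S (some x) (x, st) (a • x, st)) := by
    by_cases h : ∀ n, μ (seq τ G n) ≤ 10 * δ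
    · refine ⟨⋃ n, seq τ G n, MeasurableSet.iUnion mseq, ?_, Or.inr (cl_complete hG hD ?_)⟩
      · rw [seq_mono.measure_iUnion]
        exact (iSup_le h).trans (by gcongr; norm_num)
      · rintro y ⟨i, c, hc⟩
        obtain ⟨n, hn⟩ := readable_of_stages seq_mono fun m hm => cl_iUnion seq_mono (hc m hm)
        exact mem_iUnion.2 ⟨n + 1, Or.inr hn⟩
    · push Not at h
      have h0 : Nat.find h ≠ 0 := by
        intro h0
        have := Nat.find_spec h
        rw [h0] at this
        simp [ChooseAux.seq] at this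
      obtain ⟨n, hn⟩ := Nat.exists_eq_succ_of_ne_zero h0
      have h1 : μ (seq τ G n) ≤ 10 * δ := not_lt.1 (Nat.find_min h (by omega))
      have h2 : 10 * δ < μ (seq τ G (n + 1)) := by
        have := Nat.find_spec h
        rwa [hn] at this
      obtain ⟨C, mC, hC1, hC2, hC3, hC4⟩ := exists_between (Γ := Γ) (μ := μ) (mseq n)
        (mseq (n + 1)) (seq_mono (Nat.le_succ n)) (mul_ne_zero (by simp) hδ) h1 h2.le
      refine ⟨C, mC, hC4.trans (le_of_eq (by ring)), Or.inl ⟨hC3, fun y hy => ?_⟩⟩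
      exact readable_mono hC1 (seq_readable n (hC2 hy))
  obtain ⟨Rr, mR, aR, R0, Rnull, Rcnt⟩ := peel hexp mS hS
  let S' : ℕ → Set X := fun T => S \ Rr T
  have hS'm : Monotone S' := fun T T' h => sdiff_subset_sdiff_right (aR h)
  have hex : ∀ y, ∃ n, y ∉ Rr (n + 1) ∨ y ∈ ⋂ m, Rr m := fun y => by
    by_cases h : y ∈ ⋂ m, Rr m
    · exact ⟨0, Or.inr h⟩
    · obtain ⟨m, hm⟩ := not_forall.1 fun h' => h (mem_iInter.2 h')
      exact ⟨m, Or.inl fun h' => hm (aR (Nat.le_succ m) h')⟩
  let lev : X → ℕ := fun y => Nat.find (hex y)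
  have mlev : Measurable lev :=
    measurable_find hex fun n => (mR (n + 1)).compl.union (MeasurableSet.iInter mR)
  have hlev : ∀ y ∈ S, ∀ n, y ∉ Rr n → lev y < n := fun y hy n hn => by
    rcases n with _ | n
    · exact (hn (R0 ▸ hy)).elim
    · exact Nat.lt_succ_of_le (Nat.find_min' (hex y) (Or.inl hn))
  have hfree : ∀ T, ∀ y ∈ S' T, lev y < T ∧ 60 ≤ {i | FreeSlot τ (S' T) lev y i}.ncard := by
    intro T y hy
    refine ⟨hlev y hy.1 T hy.2, ?_⟩
    have h1 : y ∈ Rr (lev y) := by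
      by_contra h
      exact lt_irrefl _ (hlev y hy.1 _ h)
    have h2 : y ∉ Rr (lev y + 1) :=
      (Nat.find_spec (hex y)).resolve_right fun h => hy.2 (mem_iInter.1 h T)
    have h3 := Rcnt _ y h1 h2
    have h4 : {i | ∃ i', i' ≠ i ∧ (τ i')⁻¹ • τ i • y ∈ Rr (lev y)}ᶜ ⊆
        {i | FreeSlot τ (S' T) lev y i} := by
      intro i hi i' hne hi'
      exact hlev _ hi'.1 _ fun h => hi ⟨i', hne, h⟩
    have h5 := Set.ncard_le_ncard h4 (toFinite _)
    have h6 := Set.ncard_add_ncard_compl {i | ∃ i', i' ≠ i ∧ (τ i')⁻¹ • τ i • y ∈ Rr (lev y)}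
    rw [Nat.card_eq_fintype_card, Fintype.card_fin] at h6
    omega
  -- the exceptional null set
  let N : Set X := ⋃ g : Γ, (g • ·) ⁻¹' ⋂ m, Rr m
  have hN : μ N = 0 := measure_iUnion_null fun g => by rw [measure_preimage_smul, Rnull]
  have hloc : ∀ y ∉ N, ∀ {o : Option X} {p q : X × I}, Orb Γ y p.1 → Cl τ G S o p q →
      ∃ T, Cl τ G (S' T) o p q := by
    intro y hy o p q hyp h
    refine cl_iUnion hS'm (cl_mono ?_ (cl_local hG hD.cyc h))
    rintro z ⟨hz, hz'⟩
    obtain ⟨g, rfl⟩ := hyp.trans hz'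
    have : g • y ∉ ⋂ m, Rr m := fun h => hy (mem_iUnion.2 ⟨g, h⟩)
    obtain ⟨m, hm⟩ := not_forall.1 fun h' => this (mem_iInter.2 h')
    exact mem_iUnion.2 ⟨m, hz, hm⟩
  rcases hcase with ⟨h1, h2⟩ | h
  · let E : ℕ → Set X := fun T => {y | y ∈ S' T ∧ Readable τ G (S' T) y}
    have hE : Monotone E := fun T T' h y hy => ⟨hS'm h hy.1, readable_mono (hS'm h) hy.2⟩
    have hsub : S \ N ⊆ ⋃ T, E T := by
      rintro y ⟨hy, hyN⟩
      obtain ⟨i, c, hc⟩ := h2 y hy
      obtain ⟨T, hT⟩ := readable_of_stages hS'm fun m hm => hloc y hyN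
        ((Orb.smul (τ m) y).trans ((cl_orb hG hD.cyc (hc m hm)).2 _ rfl).1.of_sub) (hc m hm)
      have : y ∉ ⋂ m, Rr m := fun h => hyN (mem_iUnion.2 ⟨1, by simpa using h⟩)
      obtain ⟨m, hm⟩ := not_forall.1 fun h' => this (mem_iInter.2 h')
      exact mem_iUnion.2 ⟨max T m, hS'm (le_max_right _ _) ⟨hy, hm⟩,
        readable_mono (hS'm (le_max_left _ _)) hT⟩
    have h3 : 5 * δ < ⨆ T, μ (E T) := by
      rw [← hE.measure_iUnion]
      refine lt_of_lt_of_le ?_ (measure_mono hsub)
      rw [measure_sdiff_null hN]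
      refine lt_of_lt_of_le ?_ h1
      exact ENNReal.mul_lt_mul_left hδ hδt (by norm_num)
    obtain ⟨T, hT⟩ := lt_iSup_iff.1 h3
    exact ⟨S' T, T, lev, mS.diff (mR T), mlev, hfree T, Or.inl hT.le⟩
  · let E : ℕ → Set X := fun T => {x | Cl τ G (S' T) (some x) (x, st) (a • x, st)}
    have hE : Monotone E := fun T T' h y hy => cl_mono (hS'm h) hy
    have hsub : univ \ N ⊆ ⋃ T, E T := fun y hy =>
      mem_iUnion.2 (hloc y hy.2 (Orb.refl _) (h y))
    have h3 : 2⁻¹ < ⨆ T, μ (E T) := by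
      rw [← hE.measure_iUnion]
      refine lt_of_lt_of_le ?_ (measure_mono hsub)
      rw [measure_sdiff_null hN, measure_univ]
      simp
    obtain ⟨T, hT⟩ := lt_iSup_iff.1 h3
    exact ⟨S' T, T, lev, mS.diff (mR T), mlev, hfree T, Or.inr hT.le⟩

end Crest.Agent.R191
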