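import Crest.Agent.R191.Meas

/-! # R191: the closure `Cl`: basic properties and measurability -/

set_option autoImplicit false
set_option linter.unusedSectionVars false

open MeasureTheory Set
open scoped ENNReal

namespace Crest.Agent.R191

variable {Γ X : Type} [Group Γ] [Countable Γ] [MeasurableSpace Γ]
  [MeasurableSingletonClass Γ] [MulAction Γ X] [MeasurableSpace X] [StandardBorelSpace X]
  [MeasurableSMul₂ Γ X] [IsCancelSMul Γ X]
  {μ : Measure X} [IsProbabilityMeasure μ] [SMulInvariantMeasure Γ X μ]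
  {I J : Type} [Countable I] [MeasurableSpace I] [MeasurableSingletonClass I]
  [Countable J] [MeasurableSpace J] [MeasurableSingletonClass J]
  {Λ : Subgroup Γ} {a : Γ} {τ : Fin 100 → Γ} {st : I} {G : Gr X I J}

namespace ClosureAux

theorem succ_ne (i : Fin 100) : i + 1 ≠ i := by
  intro h
  exact absurd (add_eq_left.mp h) (by decide)

theorem pred_ne (i : Fin 100) : i - 1 ≠ i := by
  intro h
  exact absurd (sub_eq_self.mp h) (by decide)

theorem orb_cyc (hcyc : ∀ m, τ (m + 1) * (a * τ m)⁻¹ ∈ Λ) (m : Fin 100) (y : X) :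
    Orb Λ (a • τ m • y) (τ (m + 1) • y) :=
  orb_sub_iff.2 ⟨_, hcyc m, by simp only [smul_smul]; congr 1; group⟩

theorem close_orb (hcyc : ∀ m, τ (m + 1) * (a * τ m)⁻¹ ∈ Λ) {y : X} {c : Fin 100 → X × I}
    {i : Fin 100}
    (h : ∀ m, m ≠ i → Orb Λ (τ m • y) (c m).1 ∧ Orb Λ (a • τ m • y) (c (m + 1)).1)
    (m : Fin 100) : Orb Λ (τ m • y) (c m).1 := by
  by_cases hm : m = i
  · subst hm
    have h1 := (h _ (pred_ne m)).2
    have h2 := orb_cyc hcyc (m - 1) y
    rw [sub_add_cancel] at h1 h2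
    exact h2.symm.trans h1
  · exact (h m hm).1

end ClosureAux

open ClosureAux

/-- Soundness (induction on `Cl`; for `close`, `c i` is the target of the edge `i - 1 ≠ i` and
`c (i+1)` the origin of the edge `i + 1 ≠ i`; use `hcyc`). -/
theorem cl_orb (hG : G.Adm Λ a st) (hcyc : ∀ m, τ (m + 1) * (a * τ m)⁻¹ ∈ Λ) {S : Set X}
    {o : Option X} {p q : X × I} (h : Cl τ G S o p q) :
    (o = none → Orb Λ p.1 q.1) ∧ ∀ x, o = some x → Orb Λ x p.1 ∧ Orb Λ (a • x) q.1 := by
  induction h with
  | base h => exact ⟨fun _ => hG.sR _ _ h, fun _ e => nomatch e⟩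
  | symm _ ih => exact ⟨fun _ => (ih.1 rfl).symm, fun _ e => nomatch e⟩
  | trans _ _ ih ih' => exact ⟨fun _ => (ih.1 rfl).trans (ih'.1 rfl), fun _ e => nomatch e⟩
  | orig h =>
    refine ⟨fun e => (nomatch e), fun x e => ?_⟩
    obtain rfl := Option.some.inj e
    exact ⟨hG.so _ h, hG.st' _ h⟩
  | congr _ _ _ ih ih1 ih2 =>
    refine ⟨fun e => (nomatch e), fun x e => ?_⟩
    obtain rfl := Option.some.inj e
    exact ⟨(ih.2 _ rfl).1.trans (ih1.1 rfl), (ih.2 _ rfl).2.trans (ih2.1 rfl)⟩
  | foldO _ _ ih ih' =>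
    exact ⟨fun _ => (ih.2 _ rfl).2.symm.trans (ih'.2 _ rfl).2, fun _ e => nomatch e⟩
  | foldT _ _ ih ih' =>
    exact ⟨fun _ => (ih.2 _ rfl).1.symm.trans (ih'.2 _ rfl).1, fun _ e => nomatch e⟩
  | close c i _ _ ih =>
    refine ⟨fun e => (nomatch e), fun x e => ?_⟩
    obtain rfl := Option.some.inj e
    have := close_orb hcyc fun m hm => (ih m hm).2 _ rfl
    exact ⟨this i, (orb_cyc hcyc i _).trans (this (i + 1))⟩

theorem cl_P (hG : G.WF Γ) {S : Set X} {o : Option X} {p q : X × I} (h : Cl τ G S o p q) :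
    (o = none → (p ∈ G.P ↔ q ∈ G.P)) ∧ ∀ x, o = some x → p ∈ G.P ∧ q ∈ G.P := by
  induction h with
  | base h =>
    exact ⟨fun _ => ⟨fun hp => hG.sat _ hp _ h, fun hq => hG.sat _ hq _ (hG.eqv.symm h)⟩,
      fun _ e => nomatch e⟩
  | symm _ ih => exact ⟨fun _ => (ih.1 rfl).symm, fun _ e => nomatch e⟩
  | trans _ _ ih ih' => exact ⟨fun _ => (ih.1 rfl).trans (ih'.1 rfl), fun _ e => nomatch e⟩
  | orig h => exact ⟨fun e => (nomatch e), fun _ _ => ⟨hG.oP _ h, hG.tP _ h⟩⟩
  | congr _ _ _ ih ih1 ih2 =>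
    exact ⟨fun e => (nomatch e), fun _ _ =>
      ⟨(ih1.1 rfl).1 (ih.2 _ rfl).1, (ih2.1 rfl).1 (ih.2 _ rfl).2⟩⟩
  | foldO _ _ ih ih' =>
    exact ⟨fun _ => iff_of_true (ih.2 _ rfl).2 (ih'.2 _ rfl).2, fun _ e => nomatch e⟩
  | foldT _ _ ih ih' =>
    exact ⟨fun _ => iff_of_true (ih.2 _ rfl).1 (ih'.2 _ rfl).1, fun _ e => nomatch e⟩
  | close c i _ _ ih =>
    refine ⟨fun e => (nomatch e), fun _ _ => ⟨?_, ((ih _ (succ_ne i)).2 _ rfl).1⟩⟩
    have := ((ih _ (pred_ne i)).2 _ rfl).2
    rwa [sub_add_cancel] at this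

theorem cl_equivalence (hG : G.WF Γ) (S : Set X) : Equivalence (Cl τ G S none) :=
  ⟨fun p => .base (hG.eqv.refl p), .symm, .trans⟩

theorem cl_mono {S S' : Set X} (hS : S ⊆ S') {o : Option X} {p q : X × I}
    (h : Cl τ G S o p q) : Cl τ G S' o p q := by
  induction h with
  | base h => exact .base h
  | symm _ ih => exact .symm ih
  | trans _ _ ih ih' => exact .trans ih ih'
  | orig h => exact .orig h
  | congr _ _ _ ih ih1 ih2 => exact .congr ih ih1 ih2
  | foldO _ _ ih ih' => exact .foldO ih ih'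
  | foldT _ _ ih ih' => exact .foldT ih ih'
  | close c i hy _ ih => exact .close c i (hS hy) ih

/-- finitary (for `close` take the maximum over the finitely many premises) -/
theorem cl_iUnion {S : ℕ → Set X} (hS : Monotone S) {o : Option X} {p q : X × I}
    (h : Cl τ G (⋃ n, S n) o p q) : ∃ n, Cl τ G (S n) o p q := by
  have up : ∀ {n m : ℕ} {o : Option X} {p q : X × I}, n ≤ m → Cl τ G (S n) o p q →
      Cl τ G (S m) o p q := fun h => cl_mono (hS h)
  induction h with
  | base h => exact ⟨0, .base h⟩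
  | symm _ ih => exact let ⟨n, h⟩ := ih; ⟨n, .symm h⟩
  | trans _ _ ih ih' =>
    obtain ⟨n, h⟩ := ih
    obtain ⟨m, h'⟩ := ih'
    exact ⟨n + m, .trans (up (by omega) h) (up (by omega) h')⟩
  | orig h => exact ⟨0, .orig h⟩
  | congr _ _ _ ih ih1 ih2 =>
    obtain ⟨n, h⟩ := ih
    obtain ⟨m, h1⟩ := ih1
    obtain ⟨k, h2⟩ := ih2
    exact ⟨n + m + k, .congr (up (by omega) h) (up (by omega) h1) (up (by omega) h2)⟩
  | foldO _ _ ih ih' =>
    obtain ⟨n, h⟩ := ih
    obtain ⟨m, h'⟩ := ih'
    exact ⟨n + m, .foldO (up (by omega) h) (up (by omega) h')⟩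
  | foldT _ _ ih ih' =>
    obtain ⟨n, h⟩ := ih
    obtain ⟨m, h'⟩ := ih'
    exact ⟨n + m, .foldT (up (by omega) h) (up (by omega) h')⟩
  | @close y c i hy _ ih =>
    obtain ⟨n, hn⟩ := mem_iUnion.1 hy
    have : ∀ m, ∃ k, m ≠ i → Cl τ G (S k) (some (τ m • y)) (c m) (c (m + 1)) := by
      intro m
      by_cases hm : m = i
      · exact ⟨0, fun h => (h hm).elim⟩
      · exact let ⟨k, hk⟩ := ih m hm; ⟨k, fun _ => hk⟩
    choose k hk using this
    refine ⟨n + Finset.univ.sup k, .close c i (hS (by omega) hn) fun m hm => up ?_ (hk m hm)⟩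
    have := Finset.le_sup (f := k) (Finset.mem_univ m)
    omega

/-- only faces in the orbit matter -/
theorem cl_local (hG : G.Adm Λ a st) (hcyc : ∀ m, τ (m + 1) * (a * τ m)⁻¹ ∈ Λ) {S : Set X}
    {o : Option X} {p q : X × I} (h : Cl τ G S o p q) :
    Cl τ G (S ∩ {y | Orb Γ p.1 y}) o p q := by
  suffices H : ∀ x₀ : X, Orb Γ x₀ p.1 → Cl τ G (S ∩ {y | Orb Γ x₀ y}) o p q from
    H _ (Orb.refl _)
  intro x₀
  induction h with
  | base h => exact fun _ => .base h
  | symm h ih =>
    exact fun hx => .symm (ih (hx.trans ((cl_orb hG hcyc h).1 rfl).of_sub.symm))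
  | trans h _ ih ih' =>
    exact fun hx => .trans (ih hx) (ih' (hx.trans ((cl_orb hG hcyc h).1 rfl).of_sub))
  | orig h => exact fun _ => .orig h
  | congr h h1 _ ih ih1 ih2 =>
    intro hx
    have e1 := hx.trans ((cl_orb hG hcyc h1).1 rfl).of_sub.symm
    have e2 := (cl_orb hG hcyc h).2 _ rfl
    exact .congr (ih e1) (ih1 e1)
      (ih2 (((e1.trans e2.1.of_sub.symm).trans (Orb.smul a _)).trans e2.2.of_sub))
  | foldO h _ ih ih' =>
    intro hx
    have e2 := (cl_orb hG hcyc h).2 _ rfl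
    have e1 := ((hx.trans e2.2.of_sub.symm).trans (Orb.smul a _).symm).trans e2.1.of_sub
    exact .foldO (ih e1) (ih' e1)
  | foldT h h' ih ih' =>
    intro hx
    have e2 := (cl_orb hG hcyc h).2 _ rfl
    have e3 := (cl_orb hG hcyc h').2 _ rfl
    exact .foldT (ih hx) (ih' ((hx.trans e2.1.of_sub.symm).trans e3.1.of_sub))
  | @close y c i hy h ih =>
    intro hx
    have e := close_orb hcyc fun m hm => (cl_orb hG hcyc (h m hm)).2 _ rfl
    have ey : Orb Γ x₀ y := (hx.trans (e i).of_sub.symm).trans (Orb.smul (τ i) y).symm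
    exact .close c i ⟨hy, ey⟩ fun m hm =>
      ih m hm ((ey.trans (Orb.smul (τ m) y)).trans (e m).of_sub)

namespace ClosureAux

/-- one application of a rule -/
def Op (τ : Fin 100 → Γ) (G : Gr X I J) (S : Set X) (T : Option X → X × I → X × I → Prop) :
    Option X → X × I → X × I → Prop
  | none, p, q => G.R p q ∨ T none q p ∨ (∃ r, T none p r ∧ T none r q) ∨
      (∃ x, ∃ p', T (some x) p' p ∧ T (some x) p' q) ∨
      (∃ x, ∃ q', T (some x) p q' ∧ T (some x) q q')
  | some x, p, q => (∃ j, (x, j) ∈ G.E ∧ p = G.o (x, j) ∧ q = G.t (x, j)) ∨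
      (∃ p', ∃ q', T (some x) p' q' ∧ T none p' p ∧ T none q' q) ∨
      (∃ i, ∃ c : Fin 100 → X × I, (τ i)⁻¹ • x ∈ S ∧ p = c i ∧ q = c (i + 1) ∧
        ∀ m, m ≠ i → T (some (τ m • (τ i)⁻¹ • x)) (c m) (c (m + 1)))

/-- stages of the closure -/
def Stage (τ : Fin 100 → Γ) (G : Gr X I J) (S : Set X) : ℕ → Option X → X × I → X × I → Prop
  | 0 => fun _ _ _ => False
  | n + 1 => Op τ G S (Stage τ G S n)

theorem op_mono {S : Set X} {T T' : Option X → X × I → X × I → Prop}
    (h : ∀ o p q, T o p q → T' o p q) {o : Option X} {p q : X × I} (H : Op τ G S T o p q) :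
    Op τ G S T' o p q := by
  cases o with
  | none =>
    rcases H with H | H | ⟨r, H, H'⟩ | ⟨x, r, H, H'⟩ | ⟨x, r, H, H'⟩
    · exact Or.inl H
    · exact Or.inr (Or.inl (h _ _ _ H))
    · exact Or.inr (Or.inr (Or.inl ⟨r, h _ _ _ H, h _ _ _ H'⟩))
    · exact Or.inr (Or.inr (Or.inr (Or.inl ⟨x, r, h _ _ _ H, h _ _ _ H'⟩)))
    · exact Or.inr (Or.inr (Or.inr (Or.inr ⟨x, r, h _ _ _ H, h _ _ _ H'⟩)))
  | some x =>
    rcases H with H | ⟨p', q', H, H1, H2⟩ | ⟨i, c, H1, H2, H3, H⟩
    · exact Or.inl H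
    · exact Or.inr (Or.inl ⟨p', q', h _ _ _ H, h _ _ _ H1, h _ _ _ H2⟩)
    · exact Or.inr (Or.inr ⟨i, c, H1, H2, H3, fun m hm => h _ _ _ (H m hm)⟩)

theorem stage_succ {S : Set X} : ∀ (n : ℕ) (o : Option X) (p q : X × I),
    Stage τ G S n o p q → Stage τ G S (n + 1) o p q
  | 0, _, _, _, h => h.elim
  | n + 1, _, _, _, h => op_mono (stage_succ n) h

theorem stage_mono {S : Set X} {n m : ℕ} (hnm : n ≤ m) {o : Option X} {p q : X × I}
    (h : Stage τ G S n o p q) : Stage τ G S m o p q := by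
  induction hnm with
  | refl => exact h
  | step _ ih => exact stage_succ _ _ _ _ ih

theorem cl_of_stage {S : Set X} : ∀ (n : ℕ) (o : Option X) (p q : X × I),
    Stage τ G S n o p q → Cl τ G S o p q
  | 0, _, _, _, h => h.elim
  | n + 1, o, p, q, h => by
    have H : Op τ G S (Cl τ G S) o p q := op_mono (cl_of_stage n) h
    cases o with
    | none =>
      rcases H with H | H | ⟨r, H, H'⟩ | ⟨x, r, H, H'⟩ | ⟨x, r, H, H'⟩
      · exact .base H
      · exact .symm H
      · exact .trans H H'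
      · exact .foldO H H'
      · exact .foldT H H'
    | some x =>
      rcases H with ⟨j, H, rfl, rfl⟩ | ⟨p', q', H, H1, H2⟩ | ⟨i, c, H1, rfl, rfl, H⟩
      · exact .orig H
      · exact .congr H H1 H2
      · have := Cl.close c i H1 H
        rwa [smul_inv_smul] at this

theorem cl_iff_stage {S : Set X} {o : Option X} {p q : X × I} :
    Cl τ G S o p q ↔ ∃ n, Stage τ G S n o p q := by
  refine ⟨fun h => ?_, fun ⟨n, h⟩ => cl_of_stage n _ _ _ h⟩
  induction h with
  | base h => exact ⟨1, Or.inl h⟩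
  | symm _ ih => exact let ⟨n, h⟩ := ih; ⟨n + 1, Or.inr (Or.inl h)⟩
  | trans _ _ ih ih' =>
    obtain ⟨n, h⟩ := ih
    obtain ⟨m, h'⟩ := ih'
    exact ⟨n + m + 1, Or.inr (Or.inr (Or.inl
      ⟨_, stage_mono (by omega) h, stage_mono (by omega) h'⟩))⟩
  | @orig ε h => exact ⟨1, Or.inl ⟨ε.2, h, rfl, rfl⟩⟩
  | congr _ _ _ ih ih1 ih2 =>
    obtain ⟨n, h⟩ := ih
    obtain ⟨m, h1⟩ := ih1
    obtain ⟨k, h2⟩ := ih2
    exact ⟨n + m + k + 1, Or.inr (Or.inl ⟨_, _, stage_mono (by omega) h,
      stage_mono (by omega) h1, stage_mono (by omega) h2⟩)⟩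
  | foldO _ _ ih ih' =>
    obtain ⟨n, h⟩ := ih
    obtain ⟨m, h'⟩ := ih'
    exact ⟨n + m + 1, Or.inr (Or.inr (Or.inr (Or.inl
      ⟨_, _, stage_mono (by omega) h, stage_mono (by omega) h'⟩)))⟩
  | foldT _ _ ih ih' =>
    obtain ⟨n, h⟩ := ih
    obtain ⟨m, h'⟩ := ih'
    exact ⟨n + m + 1, Or.inr (Or.inr (Or.inr (Or.inr
      ⟨_, _, stage_mono (by omega) h, stage_mono (by omega) h'⟩)))⟩
  | @close y c i hy _ ih =>
    have : ∀ m, ∃ k, m ≠ i → Stage τ G S k (some (τ m • y)) (c m) (c (m + 1)) := by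
      intro m
      by_cases hm : m = i
      · exact ⟨0, fun h => (h hm).elim⟩
      · exact let ⟨k, hk⟩ := ih m hm; ⟨k, fun _ => hk⟩
    choose k hk using this
    refine ⟨Finset.univ.sup k + 1, Or.inr (Or.inr ⟨i, c, by rwa [inv_smul_smul], rfl, rfl,
      fun m hm => ?_⟩)⟩
    rw [inv_smul_smul]
    exact stage_mono (Finset.le_sup (f := k) (Finset.mem_univ m)) (hk m hm)

theorem meas_existsPi {W : Type} [MeasurableSpace W] {b : W → X} (_hb : Measurable b)
    {f : W → (Fin 100 → X × I) → Prop}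
    (hf : ∀ c : Fin 100 → Γ × I, Measurable fun w => f w fun m => par Γ (b w) (c m))
    (ho : ∀ w c, f w c → ∀ m, Orb Γ (b w) (c m).1) : Measurable fun w => ∃ c, f w c := by
  have : (fun w => ∃ c, f w c) =
      fun w => ∃ c : Fin 100 → Γ × I, f w fun m => par Γ (b w) (c m) := by
    ext w
    refine ⟨fun ⟨c, h⟩ => ?_, fun ⟨c, h⟩ => ⟨_, h⟩⟩
    choose d hd using fun m => (mem_range_par Γ).2 (ho w c h m)
    refine ⟨d, ?_⟩
    rwa [show (fun m => par Γ (b w) (d m)) = c from funext hd]
  rw [this]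
  exact Measurable.exists hf

theorem meas_eq {W : Type} [MeasurableSpace W] {p q : W → X × I} (hp : Measurable p)
    (hq : Measurable q) : Measurable fun w => p w = q w :=
  measurableSet_setOfPred.1 (measurableSet_eq_fun hp hq)

theorem meas_stage (hG : G.Adm Λ a st) (hcyc : ∀ m, τ (m + 1) * (a * τ m)⁻¹ ∈ Λ) {S : Set X}
    (hS : MeasurableSet S) (n : ℕ) :
    (∀ (W : Type) [MeasurableSpace W] (p q : W → X × I), Measurable p → Measurable q →
      Measurable fun w => Stage τ G S n none (p w) (q w)) ∧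
    (∀ (W : Type) [MeasurableSpace W] (x : W → X) (p q : W → X × I), Measurable x →
      Measurable p → Measurable q → Measurable fun w => Stage τ G S n (some (x w)) (p w) (q w)) := by
  induction n with
  | zero => exact ⟨fun _ _ _ _ _ _ => measurable_const, fun _ _ _ _ _ _ _ _ => measurable_const⟩
  | succ n ih =>
    obtain ⟨ihQ, ihE⟩ := ih
    have oQ : ∀ {p q : X × I}, Stage τ G S n none p q → Orb Γ p.1 q.1 := fun h =>
      ((cl_orb hG hcyc (cl_of_stage _ _ _ _ h)).1 rfl).of_sub
    have oE : ∀ {x : X} {p q : X × I}, Stage τ G S n (some x) p q →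
        Orb Λ x p.1 ∧ Orb Λ (a • x) q.1 := fun h => (cl_orb hG hcyc (cl_of_stage _ _ _ _ h)).2 _ rfl
    have oE1 : ∀ {x : X} {p q : X × I}, Stage τ G S n (some x) p q → Orb Γ x p.1 :=
      fun h => (oE h).1.of_sub
    have oE2 : ∀ {x : X} {p q : X × I}, Stage τ G S n (some x) p q → Orb Γ x q.1 :=
      fun h => (Orb.smul a _).trans (oE h).2.of_sub
    constructor
    · intro W _ p q hp hq
      refine Measurable.or (hG.wf.mR.comp (hp.prodMk hq)) (Measurable.or (ihQ W q p hq hp)
        (Measurable.or ?_ (Measurable.or ?_ ?_)))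
      · refine meas_exists Γ (b := fun w => (p w).1) hp.fst
          (f := fun w r => Stage τ G S n none (p w) r ∧ Stage τ G S n none r (q w))
          (Measurable.and (ihQ _ (fun z : W × (X × I) => p z.1) Prod.snd (by fun_prop)
            measurable_snd) (ihQ _ Prod.snd (fun z : W × (X × I) => q z.1) measurable_snd
            (by fun_prop))) fun w r h => oQ h.1
      · refine meas_existsX Γ (b := fun w => (p w).1) hp.fst
          (f := fun w x => ∃ p', Stage τ G S n (some x) p' (p w) ∧ Stage τ G S n (some x) p' (q w))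
          ?_ fun w x ⟨_, h⟩ => (oE2 h.1).symm
        refine meas_exists Γ (b := fun z : W × X => z.2) measurable_snd
          (f := fun z p' => Stage τ G S n (some z.2) p' (p z.1) ∧
            Stage τ G S n (some z.2) p' (q z.1))
          (Measurable.and
            (ihE _ (fun z : (W × X) × (X × I) => z.1.2) Prod.snd (fun z => p z.1.1)
              (by fun_prop) measurable_snd (by fun_prop))
            (ihE _ (fun z : (W × X) × (X × I) => z.1.2) Prod.snd (fun z => q z.1.1)
              (by fun_prop) measurable_snd (by fun_prop))) fun z r h => oE1 h.1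
      · refine meas_existsX Γ (b := fun w => (p w).1) hp.fst
          (f := fun w x => ∃ q', Stage τ G S n (some x) (p w) q' ∧ Stage τ G S n (some x) (q w) q')
          ?_ fun w x ⟨_, h⟩ => (oE1 h.1).symm
        refine meas_exists Γ (b := fun z : W × X => z.2) measurable_snd
          (f := fun z q' => Stage τ G S n (some z.2) (p z.1) q' ∧
            Stage τ G S n (some z.2) (q z.1) q')
          (Measurable.and
            (ihE _ (fun z : (W × X) × (X × I) => z.1.2) (fun z => p z.1.1) Prod.snd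
              (by fun_prop) (by fun_prop) measurable_snd)
            (ihE _ (fun z : (W × X) × (X × I) => z.1.2) (fun z => q z.1.1) Prod.snd
              (by fun_prop) (by fun_prop) measurable_snd)) fun z r h => oE2 h.1
    · intro W _ x p q hx hp hq
      refine Measurable.or (Measurable.exists fun j => ?_) (Measurable.or ?_
        (Measurable.exists fun i => ?_))
      · have hj : Measurable fun w => (x w, j) := hx.prodMk measurable_const
        exact Measurable.and ((measurableSet_setOfPred.1 hG.wf.mE).comp hj)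
          (Measurable.and (meas_eq hp (hG.wf.mo.comp hj)) (meas_eq hq (hG.wf.mt.comp hj)))
      · refine meas_exists Γ (b := x) hx
          (f := fun w p' => ∃ q', Stage τ G S n (some (x w)) p' q' ∧ Stage τ G S n none p' (p w) ∧
            Stage τ G S n none q' (q w)) ?_ fun w r ⟨_, h⟩ => oE1 h.1
        refine meas_exists Γ (b := fun z : W × (X × I) => x z.1) (by fun_prop)
          (f := fun z q' => Stage τ G S n (some (x z.1)) z.2 q' ∧
            Stage τ G S n none z.2 (p z.1) ∧ Stage τ G S n none q' (q z.1))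
          (Measurable.and
            (ihE _ (fun z : (W × (X × I)) × (X × I) => x z.1.1) (fun z => z.1.2) Prod.snd
              (by fun_prop) (by fun_prop) measurable_snd)
            (Measurable.and
              (ihQ _ (fun z : (W × (X × I)) × (X × I) => z.1.2) (fun z => p z.1.1)
                (by fun_prop) (by fun_prop))
              (ihQ _ Prod.snd (fun z : (W × (X × I)) × (X × I) => q z.1.1)
                measurable_snd (by fun_prop)))) fun z r h => oE2 h.1
      · refine meas_existsPi (Γ := Γ) hx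
          (f := fun w c => (τ i)⁻¹ • x w ∈ S ∧ p w = c i ∧ q w = c (i + 1) ∧
            ∀ m, m ≠ i → Stage τ G S n (some (τ m • (τ i)⁻¹ • x w)) (c m) (c (m + 1)))
          (fun c => ?_) (fun w c h m => ?_)
        · refine Measurable.and ((measurableSet_setOfPred.1 hS).comp (hx.const_smul _))
            (Measurable.and (meas_eq hp (meas_par Γ hx _))
              (Measurable.and (meas_eq hq (meas_par Γ hx _)) ?_))
          exact Measurable.forall fun m => measurable_const.imp
            (ihE _ _ _ _ ((hx.const_smul _).const_smul _) (meas_par Γ hx _) (meas_par Γ hx _))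
        · exact ((Orb.smul (τ i)⁻¹ _).trans (Orb.smul (τ m) _)).trans
            (close_orb hcyc (fun m hm => oE (h.2.2.2 m hm)) m).of_sub

end ClosureAux

/-- Measurability.  Proof: define stages `(Q n, Ed n)` by recursion (`Q 0 = G.R`,
`Ed 0 x p q := ∃ j, (x, j) ∈ E ∧ p = o (x, j) ∧ q = t (x, j)`, stage `n+1` = stage `n` or one rule
applied to stage `n`), show `Cl = ⋃ stages` (monotonicity, finitely many premises) and
measurability of the stages by induction; all quantifiers range over the orbit by `cl_orb`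
(`meas_exists`, `meas_existsX`; for `c : Fin 100 → X × I` quantify over `Fin 100 → Γ × I` with
`par`). -/
theorem cl_meas (hG : G.Adm Λ a st) (hcyc : ∀ m, τ (m + 1) * (a * τ m)⁻¹ ∈ Λ) {S : Set X}
    (hS : MeasurableSet S) :
    (Measurable fun z : (X × I) × (X × I) => Cl τ G S none z.1 z.2) ∧
      Measurable fun z : X × (X × I) × (X × I) => Cl τ G S (some z.1) z.2.1 z.2.2 := by
  have H := meas_stage hG hcyc hS
  constructor
  · simp only [cl_iff_stage]
    exact Measurable.exists fun n => (H n).1 _ _ _ measurable_fst measurable_snd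
  · simp only [cl_iff_stage]
    exact Measurable.exists fun n => (H n).2 _ _ _ _ measurable_fst (by fun_prop) (by fun_prop)

theorem meas_readable (hG : G.Adm Λ a st) (hcyc : ∀ m, τ (m + 1) * (a * τ m)⁻¹ ∈ Λ) {S : Set X}
    (hS : MeasurableSet S) : MeasurableSet {y | Readable τ G S y} := by
  refine measurableSet_setOfPred.2 (Measurable.exists fun i => ?_)
  refine meas_existsPi (Γ := Γ) measurable_id (fun c => ?_) (fun y c h m => ?_)
  · refine Measurable.forall fun m => measurable_const.imp ?_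
    exact (cl_meas hG hcyc hS).2.comp
      (f := fun y : X => (τ m • y, par Γ y (c m), par Γ y (c (m + 1))))
      ((measurable_const_smul _).prodMk
        ((meas_par Γ measurable_id _).prodMk (meas_par Γ measurable_id _)))
  · exact (Orb.smul (τ m) y).trans
      (close_orb hcyc (fun m hm => (cl_orb hG hcyc (h m hm)).2 _ rfl) m).of_sub

/-- If every readable face is allowed, the closure contains all edges between stars
(`GD.complete` with `V = X × I`, `b = Prod.fst`, `Q = Cl none`, `Ed x = Cl (some x)`; `Adm.gen`). -/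
theorem cl_complete (hG : G.Adm Λ a st) (hD : GD Λ a τ) {S : Set X}
    (hS : ∀ y, Readable τ G S y → y ∈ S) (x : X) :
    Cl τ G S (some x) (x, st) (a • x, st) := by
  refine hD.complete X (X × I) Prod.fst (Cl τ G S none) (fun x => Cl τ G S (some x))
    (cl_equivalence hG.wf S) (fun p q h => (cl_orb hG hD.cyc h).1 rfl)
    (fun x p q h => (cl_orb hG hD.cyc h).2 _ rfl) (fun x p q p' q' => .congr)
    (fun x p q q' => .foldO) (fun x p p' q => .foldT)
    (fun y c i h => .close c i (hS y ⟨i, c, h⟩) h) x _ _ (Orb.refl _) (Orb.refl _) ?_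
  refine Relation.EqvGen.mono ?_ _ _ (hG.gen x)
  rintro p q (h | ⟨ε, hε, rfl, rfl⟩)
  · exact Or.inl (.base h)
  · exact Or.inr ⟨ε.1, .orig hε⟩

end Crest.Agent.R191
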