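import Crest.Agent.R191.SubdivAux

/-! # R191: replacing an edge of a face by the other 99 edges -/

set_option autoImplicit false
set_option linter.unusedSectionVars false

open MeasureTheory Set
open scoped ENNReal

namespace Crest.Agent.R191

variable {Γ X : Type} [Group Γ] [Countable Γ] [MeasurableSpace Γ]
  [MeasurableSingletonClass Γ] [MulAction Γ X] [MeasurableSpace X] [StandardBorelSpace X]
  [MeasurableSMul₂ Γ X] [IsCancelSMul Γ X]
  {μ : Measure X} [IsProbabilityMeasure μ] [SMulInvariantMeasure Γ X μ]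
  {I J : Type} [Countable I] [MeasurableSpace I] [MeasurableSingletonClass I]
  [Countable J] [MeasurableSpace J] [MeasurableSingletonClass J]
  {I₁ J₁ : Type} [Countable I₁] [MeasurableSpace I₁] [MeasurableSingletonClass I₁]
  [Countable J₁] [MeasurableSpace J₁] [MeasurableSingletonClass J₁]

theorem meas_removed (τ : Fin 100 → Γ) {F : Set (X × (Fin 100 → J₁))} (hF : MeasurableSet F)
    {sl : X × (Fin 100 → J₁) → Fin 100} (hsl : Measurable sl) :
    MeasurableSet (removed τ F sl) :=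
  SubdivAux.meas_removed' τ hF hsl

/-- One of the permutations can be chosen to make the cyclic product trivial.
Proof: put `β (i+1+k) = ρ (i+k) ⋯ ρ (i+1)` for `k < 100` and `π = (β i)⁻¹`; then the updated family is
`m ↦ β (m+1) * (β m)⁻¹`, and for such a family `d m := (β m)⁻¹ (c m)` is constant along 99 steps of the
cycle, hence constant. -/
theorem exists_faceRel {Z : Type} (ρ : Fin 100 → Equiv.Perm Z) (i : Fin 100) :
    ∃ π : Equiv.Perm Z, FaceRel (Function.update ρ i π) := by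
  let γ : ℕ → Equiv.Perm Z := fun k =>
    Nat.rec 1 (fun k g => ρ (i + 1 + Fin.ofNat 100 k) * g) k
  have hγ : ∀ k, γ (k + 1) = ρ (i + 1 + Fin.ofNat 100 k) * γ k := fun k => rfl
  let β : Fin 100 → Equiv.Perm Z := fun m => γ (m - (i + 1)).val
  have hβ : ∀ m, m ≠ i → β (m + 1) = ρ m * β m := by
    intro m hm
    have h1 : (m + 1 - (i + 1)).val = (m - (i + 1)).val + 1 := by
      have h2 : m + 1 - (i + 1) = (m - (i + 1)) + 1 := by abel
      rw [h2, Fin.val_add_one_of_lt]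
      refine Fin.lt_last_iff_ne_last.2 fun h => hm ?_
      have h3 : m - (i + 1) + 1 = 0 := by rw [h]; rfl
      have h4 : m - i = 0 := by rw [← h3]; abel
      exact sub_eq_zero.1 h4
    simp only [β]
    rw [h1, hγ, Fin.ofNat_val_eq_self, add_sub_cancel]
  refine ⟨β (i + 1) * (β i)⁻¹, fun c k hk => ?_⟩
  have h1 : ∀ m, Function.update ρ i (β (i + 1) * (β i)⁻¹) m = β (m + 1) * (β m)⁻¹ := by
    intro m
    by_cases hm : m = i
    · subst hm; simp
    · rw [Function.update_of_ne hm, hβ m hm, mul_inv_cancel_right]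
  have h2 : ∀ m, (β m)⁻¹ (c m) = (β (k + 1))⁻¹ (c (k + 1)) := by
    intro m
    refine SubdivAux.cyc_ind (P := fun m => (β m)⁻¹ (c m) = (β (k + 1))⁻¹ (c (k + 1))) k rfl
      (fun m hm ih => ?_) m
    rw [← ih, ← hk m hm, h1]
    simp
  rw [h1, Equiv.Perm.mul_apply, h2]
  simp

/-- Subdivision.  Write `Φ = Fin 100 → J₁`, and
`D = {(y, (j, φ)) | f = (y, φ) ∈ F₀, ε = (τ (sl f) • y, j) ∈ Θ.E, lab ε = φ (sl f)}`, `s = ν D`.
By `hfree` the map `D → Θ.E`, `(y, (j, φ)) ↦ ε` is injective with image the edges whose label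
`(x, lab (x, j))` is removed.  Take `I' = I ⊕ (J × Φ × Fin 100)`, `J' = J ⊕ (J × Φ × Fin 100)`,
`ι' = inl ∘ ι`;
* `P' = inl P ∪ {(y, inr (j, φ, m)) | (y, (j, φ)) ∈ D, m ≠ sl f, m ≠ sl f + 1}`;
* `R'` is `Θ.R` on `inl` points and equality otherwise (new nodes have weight `1`);
* `E' = {(x, inl j) | (x, j) ∈ Θ.E, (x, lab (x, j)) ∉ removed} ∪
  {(x, inr (j, φ, m)) | y = (τ m)⁻¹ • x, (y, (j, φ)) ∈ D, m ≠ sl f}`;
* `c (y, j, φ, m) = inl (Θ.o ε)` if `m = sl f`, `inl (Θ.t ε)` if `m = sl f + 1`, else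
  `(y, inr (j, φ, m))`; the new edge `m` goes from `c … m` to `c … (m+1)` and has label `φ m`.
Then `v' = v + 98 s`, `e' = ν(kept) + 99 s`, `ν(kept) + s ≤ e`.  For `SP`: given `σ'`, `m'`, let `σ` be
`σ'` modified at the removed edges `slot f (sl f)`, `f ∈ F₀` (unique `f`), by `exists_faceRel`; no other
slot of a face in `F₀ ∪ F₁` is removed, so `σ` satisfies `FaceRel` on `F₀ ∪ F₁`; `m = m' ∘ inl` is
compatible with all edges of `Θ` (for a subdivided edge use `FaceRel` with the points `m' (c … k)`). -/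
theorem subdivide (τ : Fin 100 → Γ) {H : Gr X I₁ J₁} {F₀ F₁ : Set (X × (Fin 100 → J₁))}
    (hF₀ : MeasurableSet F₀) {sl : X × (Fin 100 → J₁) → Fin 100} (hsl : Measurable sl)
    (hfree : ∀ f ∈ F₀, ∀ f' ∈ F₀ ∪ F₁, ∀ m, slot τ f' m = slot τ f (sl f) → f' = f ∧ m = sl f)
    {Θ : Gr X I J} (hΘ : Θ.WF Γ) {lab : X × J → J₁} (hlab : Measurable lab) {ι : I₁ → I}
    (hι : Function.Injective ι) (hconn : ∀ p ∈ Θ.P, ∃ q ∈ H.P, Θ.Conn p (q.1, ι q.2))
    (hSP : SP τ H (F₀ ∪ F₁) Θ lab ι) (he : Θ.e μ ≠ ⊤) (hv : Θ.v μ ≠ ⊤) :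
    ∃ (I' J' : Type) (_ : Countable I') (_ : MeasurableSpace I') (_ : MeasurableSingletonClass I')
      (_ : Countable J') (_ : MeasurableSpace J') (_ : MeasurableSingletonClass J')
      (Θ' : Gr X I' J') (lab' : X × J' → J₁) (ι' : I₁ → I'),
      Θ'.WF Γ ∧ Measurable lab' ∧ Function.Injective ι' ∧
      (∀ p ∈ Θ'.P, ∃ q ∈ H.P, Θ'.Conn p (q.1, ι' q.2)) ∧
      SP τ (H.withE (H.E \ removed τ F₀ sl)) F₁ Θ' lab' ι' ∧
      Θ'.e μ ≠ ⊤ ∧ Θ'.v μ ≠ ⊤ ∧ Θ.v μ + Θ'.e μ ≤ Θ'.v μ + Θ.e μ := by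
  classical
  have hKD := SubdivAux.nu_KE_D_le (μ := μ) (τ := τ) hF₀ hsl hΘ hlab
    (fun f hf f' hf' h => (hfree f hf f' (Or.inl hf') _ h).1)
  have hKD' := ne_top_of_le_ne_top he hKD
  have hK := (ENNReal.add_ne_top.1 hKD').1
  have hD := (ENNReal.add_ne_top.1 hKD').2
  have hN := SubdivAux.nu_NN_ne_top (μ := μ) (τ := τ) hF₀ hsl hΘ hlab hD
  have hNE := SubdivAux.nu_NE_le (μ := μ) (τ := τ) hF₀ hsl hΘ hlab
  have hc : ∀ p ∈ Θ.P, ∃ q ∈ H.P, (SubdivAux.sub τ F₀ sl Θ lab).Conn (SubdivAux.up p)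
      (q.1, (Sum.inl ∘ ι) q.2) := fun p hp => by
    obtain ⟨q, hq, h⟩ := hconn p hp
    exact ⟨q, hq, SubdivAux.conn_up h⟩
  refine ⟨I ⊕ (SubdivAux.Wd J J₁ × Fin 100), J ⊕ (SubdivAux.Wd J J₁ × Fin 100), inferInstance,
    inferInstance, inferInstance, inferInstance, inferInstance, inferInstance,
    SubdivAux.sub τ F₀ sl Θ lab, SubdivAux.lab' lab, Sum.inl ∘ ι,
    SubdivAux.sub_WF hF₀ hsl hΘ hlab, SubdivAux.meas_lab' hlab, Sum.inl_injective.comp hι,
    ?_, ?_, ?_, ?_, ?_⟩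
  · rintro ⟨x, i | w⟩ hp
    · exact hc (x, i) hp
    · obtain ⟨q, hq, h⟩ := hc _ (hΘ.tP _ hp.1.2.1)
      have h1 := SubdivAux.conn_cc hp.1 w.2
      have h2 : SubdivAux.cc τ sl Θ (x, w.1) w.2 = (x, Sum.inr w) := by
        unfold SubdivAux.cc
        rw [if_neg hp.2.1, if_neg hp.2.2]
      rw [h2] at h1
      exact ⟨q, hq, .trans _ _ _ (.symm _ _ h1) h⟩
  · intro Z σ' m' hF hR hE
    choose π hπ using fun f : X × (Fin 100 → J₁) =>
      exists_faceRel (fun k => σ' (slot τ f k)) (sl f)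
    let σ : X × J₁ → Equiv.Perm Z := fun e =>
      if h : e ∈ removed τ F₀ sl then π h.choose else σ' e
    have hσ1 : ∀ e, e ∉ removed τ F₀ sl → σ e = σ' e := fun e h => dif_neg h
    have hσ2 : ∀ f ∈ F₀, σ (slot τ f (sl f)) = π f := fun f hf => by
      have h : slot τ f (sl f) ∈ removed τ F₀ sl := ⟨f, hf, rfl⟩
      have h1 : σ (slot τ f (sl f)) = π h.choose := dif_pos h
      rw [h1, (hfree f hf _ (Or.inl h.choose_spec.1) _ h.choose_spec.2.symm).1]
    have hσ3 : ∀ f ∈ F₀ ∪ F₁, ∀ k, slot τ f k ∈ removed τ F₀ sl → f ∈ F₀ ∧ k = sl f := by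
      rintro f hf k ⟨f', hf', h⟩
      obtain ⟨rfl, h2⟩ := hfree f' hf' f hf k h
      exact ⟨hf', h2⟩
    have hσ4 : ∀ f ∈ F₀,
        (fun k => σ (slot τ f k)) = Function.update (fun k => σ' (slot τ f k)) (sl f) (π f) := by
      intro f hf
      funext k
      by_cases hk : k = sl f
      · subst hk
        rw [Function.update_self, hσ2 f hf]
      · rw [Function.update_of_ne hk, hσ1 _ fun h => hk (hσ3 f (Or.inl hf) k h).2]
    have key := hSP Z σ (fun p => m' (SubdivAux.up p)) ?_ ?_ ?_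
    · refine ⟨key.1, fun ε hε => ?_⟩
      have := key.2 ε hε.1
      rwa [hσ1 ε hε.2] at this
    · intro f hf
      by_cases h0 : f ∈ F₀
      · rw [hσ4 f h0]
        exact hπ f
      · have h1 : (fun k => σ (slot τ f k)) = fun k => σ' (slot τ f k) :=
          funext fun k => hσ1 _ fun h => h0 (hσ3 f hf k h).1
        rw [h1]
        exact hF f (hf.resolve_left h0)
    · intro p q h
      exact hR _ _ (Or.inl ⟨p.2, q.2, rfl, rfl, h⟩)
    · intro ε hε
      by_cases h2 : (ε.1, lab ε) ∈ removed τ F₀ sl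
      · obtain ⟨d, hd, rfl⟩ := SubdivAux.exists_D hε h2
        have h3 := hπ (SubdivAux.fc d) (fun k => m' (SubdivAux.cc τ sl Θ d k))
          (sl (SubdivAux.fc d)) (fun k hk => by
            rw [Function.update_of_ne hk]
            have h4 := hE _ (SubdivAux.new_mem hd hk)
            rw [SubdivAux.new_o, SubdivAux.new_t] at h4
            exact h4)
        rw [Function.update_self, SubdivAux.cc_sl, SubdivAux.cc_sl_succ] at h3
        rw [← SubdivAux.slot_eps hd, hσ2 _ hd.1]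
        exact h3
      · rw [hσ1 _ h2]
        exact hE (SubdivAux.up ε) ⟨hε, h2⟩
  · rw [SubdivAux.sub_e hF₀ hsl hΘ hlab]
    exact ENNReal.add_ne_top.2 ⟨hK, ne_top_of_le_ne_top (ENNReal.add_ne_top.2 ⟨hN, hD⟩) hNE⟩
  · rw [SubdivAux.sub_v hF₀ hsl hΘ hlab]
    exact ENNReal.add_ne_top.2 ⟨hv, hN⟩
  · rw [SubdivAux.sub_e hF₀ hsl hΘ hlab, SubdivAux.sub_v hF₀ hsl hΘ hlab, add_assoc]
    refine add_le_add le_rfl ((add_le_add le_rfl hNE).trans ?_)
    rw [add_left_comm]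
    exact add_le_add le_rfl hKD

end Crest.Agent.R191
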