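import Crest.Agent.R191.Pack
import Crest.Agent.R191.Subdiv

/-! # R191: collapsing faces from free edges -/

set_option autoImplicit false
set_option linter.unusedSectionVars false

open MeasureTheory Set
open scoped ENNReal

namespace Crest.Agent.R191

variable {Γ X : Type} [Group Γ] [Countable Γ] [MeasurableSpace Γ]
  [MeasurableSingletonClass Γ] [MulAction Γ X] [MeasurableSpace X] [StandardBorelSpace X]
  [MeasurableSMul₂ Γ X] [IsCancelSMul Γ X]
  {μ : Measure X} [IsProbabilityMeasure μ] [SMulInvariantMeasure Γ X μ]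
  {I J : Type} [Countable I] [MeasurableSpace I] [MeasurableSingletonClass I]
  [Countable J] [MeasurableSpace J] [MeasurableSingletonClass J]
  {Λ : Subgroup Γ} {a : Γ} {τ : Fin 100 → Γ} {st : I} {G : Gr X I J}

namespace CollapseAux

/-- Induction around the cycle, skipping one step. -/
theorem cyc_ind {P : Fin 100 → Prop} (i : Fin 100) (h0 : P (i + 1))
    (hs : ∀ m, m ≠ i → P m → P (m + 1)) (m : Fin 100) : P m := by
  have key : ∀ n : ℕ, n < 100 → ∀ m : Fin 100, m.val = (i.val + 1 + n) % 100 → P m := by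
    intro n
    induction n with
    | zero =>
      intro _ m hm
      have : m = i + 1 := by
        apply Fin.ext
        rw [Fin.val_add]
        simpa using hm
      rw [this]; exact h0
    | succ n ih =>
      intro hn m hm
      have hlt : (i.val + 1 + n) % 100 < 100 := Nat.mod_lt _ (by norm_num)
      have h1 := ih (by omega) ⟨_, hlt⟩ rfl
      have h2 : (⟨_, hlt⟩ : Fin 100) ≠ i := by
        intro h
        have h3 := congrArg Fin.val h
        have h4 := i.isLt
        simp only at h3
        omega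
      have h3 : m = (⟨_, hlt⟩ : Fin 100) + 1 := by
        apply Fin.ext
        rw [Fin.val_add]
        have : ((1 : Fin 100) : ℕ) = 1 := rfl
        rw [this]
        simp only
        omega
      rw [h3]; exact hs _ h2 h1
  have hi := i.isLt
  have hm := m.isLt
  exact key ((m.val + 199 - i.val) % 100) (Nat.mod_lt _ (by norm_num)) m (by omega)

theorem meas_slot (τ : Fin 100 → Γ) {W : Type} [MeasurableSpace W]
    {f : W → X × (Fin 100 → J)} (hf : Measurable f) {sl : W → Fin 100} (hsl : Measurable sl) :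
    Measurable fun w => slot τ (f w) (sl w) := by
  unfold slot
  refine Measurable.prodMk (((Measurable.of_discrete (f := τ)).comp hsl).smul hf.fst) ?_
  exact (Measurable.of_discrete (f := fun z : (Fin 100 → J) × Fin 100 => z.1 z.2)).comp
    (hf.snd.prodMk hsl)

end CollapseAux

open CollapseAux

/-- A free slot determines the face.  Proof: `τ m • y' = τ i • y`; if `m ≠ i` then
`y' = (τ m)⁻¹ • τ i • y ∈ S` has smaller level.  So `m = i`, `y' = y`, and foldedness propagates the
equality of slots around the cycle. -/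
theorem face_free (hF : G.Folded) (hG : G.WF Γ) {S : Set X} {lev : X → ℕ}
    {f f' : X × (Fin 100 → J)} (hf : f ∈ faces τ G S) (hf' : f' ∈ faces τ G S) {i m : Fin 100}
    (hi : FreeSlot τ S lev f.1 i) (he : slot τ f' m = slot τ f i) (hl : lev f.1 ≤ lev f'.1) :
    f' = f ∧ m = i := by
  obtain ⟨y, φ⟩ := f
  obtain ⟨y', φ'⟩ := f'
  have he1 : τ m • y' = τ i • y := congrArg Prod.fst he
  have hmi : m = i := by
    by_contra hne
    have hy : y' = (τ m)⁻¹ • τ i • y := by rw [← he1, inv_smul_smul]
    have h1 := hi m hne (by rw [← hy]; exact hf'.1)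
    simp only at h1 hl
    rw [← hy] at h1
    omega
  subst hmi
  have hy : y' = y := MulAction.injective (τ m) he1
  subst hy
  refine ⟨?_, rfl⟩
  have step : ∀ k, φ' k = φ k → φ' (k + 1) = φ (k + 1) := by
    intro k hk
    have e : slot τ (y', φ') k = slot τ (y', φ) k := Prod.ext rfl hk
    have h1 := (hf.2 k).2
    have h2 := (hf'.2 k).2
    rw [e] at h2
    exact hF (τ (k + 1) • y') _ _ (hf'.2 (k + 1)).1 (hf.2 (k + 1)).1
      (Or.inl (hG.eqv.trans (hG.eqv.symm h2) h1))
  have he2 : φ' m = φ m := congrArg Prod.snd he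
  have := cyc_ind (P := fun k => φ' k = φ k) m (step m he2) fun k _ hk => step k hk
  exact Prod.ext rfl (funext this)

/-- Two free slots that coincide belong to the same face. -/
theorem CollapseAux.free_free (hF : G.Folded) (hG : G.WF Γ) {S : Set X} {lev : X → ℕ}
    {f f' : X × (Fin 100 → J)} (hf : f ∈ faces τ G S) (hf' : f' ∈ faces τ G S) {i i' : Fin 100}
    (hi : FreeSlot τ S lev f.1 i) (hi' : FreeSlot τ S lev f'.1 i')
    (he : slot τ f' i' = slot τ f i) : f' = f ∧ i' = i := by
  rcases le_total (lev f.1) (lev f'.1) with h | h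
  · exact face_free hF hG hf hf' hi he h
  · have := face_free hF hG hf' hf hi' he.symm h
    exact ⟨this.1.symm, this.2.symm⟩

theorem meas_freeSlot {S : Set X} (hS : MeasurableSet S) {lev : X → ℕ} (hlev : Measurable lev)
    (i : Fin 100) : Measurable fun y => FreeSlot τ S lev y i := by
  unfold FreeSlot
  refine Measurable.forall fun i' => Measurable.imp measurable_const ?_
  have h1 : Measurable fun y : X => (τ i')⁻¹ • τ i • y := by fun_prop
  refine Measurable.imp (measurableSet_setOfPred.1 (hS.preimage h1)) ?_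
  exact (Measurable.of_discrete (f := fun z : ℕ × ℕ => z.1 < z.2)).comp
    ((hlev.comp h1).prodMk hlev)

/-- The ends of a removed edge stay connected. -/
theorem CollapseAux.conn_removed (hG : G.WF Γ) (hF : G.Folded) {S : Set X} {lev : X → ℕ} {T : ℕ}
    (hT : ∀ y ∈ S, lev y < T) {sl : X × (Fin 100 → J) → Fin 100}
    (hfr : ∀ f ∈ faces τ G S, FreeSlot τ S lev f.1 (sl f)) (n : ℕ) :
    ∀ f ∈ faces τ G S, T - lev f.1 ≤ n →
      (G.withE (G.E \ removed τ (faces τ G S) sl)).Conn (G.o (slot τ f (sl f)))
        (G.t (slot τ f (sl f))) := by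
  induction n with
  | zero =>
    intro f hf h
    have := hT _ hf.1
    omega
  | succ n ih =>
    intro f hf h
    have hedge : ∀ m, m ≠ sl f → (G.withE (G.E \ removed τ (faces τ G S) sl)).Conn
        (G.o (slot τ f m)) (G.t (slot τ f m)) := by
      intro m hm
      by_cases hr : slot τ f m ∈ removed τ (faces τ G S) sl
      · obtain ⟨f', hf', e⟩ := hr
        rw [e]
        refine ih f' hf' ?_
        by_contra hlt
        have h1 : lev f'.1 ≤ lev f.1 := by omega
        obtain ⟨h2, h3⟩ := face_free hF hG hf' hf (hfr f' hf') e h1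
        subst h2
        exact hm h3
      · exact .rel _ _ (Or.inr ⟨slot τ f m, ⟨(hf.2 m).1, hr⟩, rfl, rfl⟩)
    have hR : ∀ m, (G.withE (G.E \ removed τ (faces τ G S) sl)).Conn
        (G.t (slot τ f m)) (G.o (slot τ f (m + 1))) := fun m => .rel _ _ (Or.inl (hf.2 m).2)
    have := cyc_ind (P := fun m => (G.withE (G.E \ removed τ (faces τ G S) sl)).Conn
      (G.t (slot τ f (sl f))) (G.o (slot τ f m))) (sl f) (hR _)
      (fun m hm h => .trans _ _ _ h (.trans _ _ _ (hedge m hm) (hR m))) (sl f)
    exact .symm _ _ this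

theorem CollapseAux.conn_withE (hG : G.WF Γ) (hF : G.Folded) {S : Set X} {lev : X → ℕ} {T : ℕ}
    (hT : ∀ y ∈ S, lev y < T) {sl : X × (Fin 100 → J) → Fin 100}
    (hfr : ∀ f ∈ faces τ G S, FreeSlot τ S lev f.1 (sl f)) {p q : X × I} (h : G.Conn p q) :
    (G.withE (G.E \ removed τ (faces τ G S) sl)).Conn p q := by
  induction h with
  | rel p q h =>
    rcases h with h | ⟨ε, hε, rfl, rfl⟩
    · exact .rel _ _ (Or.inl h)
    · by_cases hr : ε ∈ removed τ (faces τ G S) sl
      · obtain ⟨f, hf, rfl⟩ := hr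
        exact conn_removed hG hF hT hfr _ f hf le_rfl
      · exact .rel _ _ (Or.inr ⟨ε, ⟨hε, hr⟩, rfl, rfl⟩)
  | refl _ => exact .refl _
  | symm _ _ _ ih => exact .symm _ _ ih
  | trans _ _ _ _ _ ih ih' => exact .trans _ _ _ ih ih'

/-- Removing one free slot from every face.
* Admissible: every edge of `G` has its ends connected in the smaller graph, by induction on
  `T - lev`: the other 99 slots of a face `f` are either kept or removed for a face of strictly
  larger level (`face_free`).
* `f ↦ slot τ f (sl f)` is a bijection from the faces onto the removed edges (`nu_le_of_rel` both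
  ways).
* a second free slot of `f` is kept and determines `f`. -/
theorem collapse (hG : G.Adm Λ a st) (hF : G.Folded) {S : Set X} (hS : MeasurableSet S)
    {lev : X → ℕ} (hlev : Measurable lev) {T : ℕ}
    (hT : ∀ y ∈ S, lev y < T ∧ 60 ≤ {i | FreeSlot τ S lev y i}.ncard)
    {sl : X × (Fin 100 → J) → Fin 100} (hsl : Measurable sl)
    (hfr : ∀ f ∈ faces τ G S, FreeSlot τ S lev f.1 (sl f)) :
    (G.withE (G.E \ removed τ (faces τ G S) sl)).Adm Λ a st ∧
      G.e μ = nu μ J (G.E \ removed τ (faces τ G S) sl) + nu μ (Fin 100 → J) (faces τ G S) ∧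
      nu μ (Fin 100 → J) (faces τ G S) ≤ nu μ J (G.E \ removed τ (faces τ G S) sl) := by
  have hW := hG.wf
  have hFm : MeasurableSet (faces τ G S) := meas_faces τ hW hS
  have hRm : MeasurableSet (removed τ (faces τ G S) sl) := meas_removed τ hFm hsl
  have hT' : ∀ y ∈ S, lev y < T := fun y hy => (hT y hy).1
  refine ⟨?_, ?_, ?_⟩
  · refine ⟨⟨hW.mP, hW.mR, hW.mE.diff hRm, hW.mo, hW.mt, hW.eqv, hW.orbR,
      fun ε h => hW.orbo ε h.1, fun ε h => hW.orbt ε h.1, hW.sat, fun ε h => hW.oP ε h.1,
      fun ε h => hW.tP ε h.1⟩, hG.sR, fun ε h => hG.so ε h.1, fun ε h => hG.st' ε h.1,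
      hG.starP, hG.starR, fun p hp => ?_, fun x => conn_withE hW hF hT' hfr (hG.gen x)⟩
    obtain ⟨x, hx⟩ := hG.conn p hp
    exact ⟨x, conn_withE hW hF hT' hfr hx⟩
  · have hsub : removed τ (faces τ G S) sl ⊆ G.E := by
      rintro ε ⟨f, hf, rfl⟩
      exact (hf.2 _).1
    have hφ : Measurable fun f : X × (Fin 100 → J) => slot τ f (sl f) :=
      meas_slot τ measurable_id hsl
    have h1 : nu μ (Fin 100 → J) (faces τ G S) ≤ nu μ J (removed τ (faces τ G S) sl) := by
      refine nu_le_of_injOn Γ hφ hFm hRm (fun f _ => Orb.smul _ _) (fun f hf => ⟨f, hf, rfl⟩) ?_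
      intro f hf f' hf' e
      exact (free_free hF hW hf' hf (hfr f' hf') (hfr f hf) e).1
    have h2 : nu μ J (removed τ (faces τ G S) sl) ≤ nu μ (Fin 100 → J) (faces τ G S) := by
      refine nu_le_of_rel Γ (M := fun ε f => ε = slot τ f (sl f)) ?_ ?_ hRm hFm ?_ ?_
      · exact measurableSet_setOfPred.1
          (measurableSet_eq_fun measurable_fst (hφ.comp measurable_snd))
      · rintro ε f rfl
        exact (Orb.smul _ _).symm
      · exact fun ε hε => hε
      · rintro ε _ ε' _ f _ rfl rfl
        rfl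
    rw [le_antisymm h1 h2, Gr.e, ← measure_union disjoint_sdiff_left hRm,
      sdiff_union_of_subset hsub]
  · refine nu_le_of_rel Γ
      (M := fun f ε => ∃ i, FreeSlot τ S lev f.1 i ∧ ε = slot τ f i) ?_ ?_ hFm
      (hW.mE.diff hRm) ?_ ?_
    · refine Measurable.exists fun i => Measurable.and
        ((meas_freeSlot hS hlev i).comp measurable_fst.fst) ?_
      exact measurableSet_setOfPred.1
        (measurableSet_eq_fun measurable_snd (meas_slot τ measurable_fst measurable_const))
    · rintro f ε ⟨i, _, rfl⟩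
      exact Orb.smul _ _
    · intro f hf
      have h2 : 1 < {i | FreeSlot τ S lev f.1 i}.ncard := lt_of_lt_of_le (by norm_num) (hT _ hf.1).2
      obtain ⟨i, hi, hne⟩ := Set.exists_ne_of_one_lt_ncard h2 (sl f)
      refine ⟨slot τ f i, ⟨(hf.2 i).1, ?_⟩, i, hi, rfl⟩
      rintro ⟨f', hf', e⟩
      obtain ⟨h3, h4⟩ := free_free hF hW hf' hf (hfr f' hf') hi e
      subst h3
      exact hne h4
    · rintro f hf f' hf' ε _ ⟨i, hi, e⟩ ⟨i', hi', e'⟩
      exact (free_free hF hW hf' hf hi' hi (e.symm.trans e')).1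

end Crest.Agent.R191
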