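import Crest.Agent.R191.Word

/-! # R191: completeness of folded closed graphs -/

set_option autoImplicit false

namespace Crest.Agent.R191

namespace CompleteAux

section path

variable {Γ X V : Type} [Group Γ] [MulAction Γ X]

/-- A signed edge. -/
def SE (Ed : X → V → V → Prop) (x : X) (z : Γ × Bool) (u u' : V) : Prop :=
  if z.2 = true then Ed (z.1 • x) u u' else Ed (z.1 • x) u' u

/-- Paths of signed edges. -/
inductive Path (Q : V → V → Prop) (Ed : X → V → V → Prop) (x : X) : V → List (Γ × Bool) → V → Prop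
  | nil {u v : V} : Q u v → Path Q Ed x u [] v
  | cons {u u' v : V} {z : Γ × Bool} {L : List (Γ × Bool)} :
      SE Ed x z u u' → Path Q Ed x u' L v → Path Q Ed x u (z :: L) v

variable {Q : V → V → Prop} {Ed : X → V → V → Prop} {x : X}

theorem SE.congr (hE : ∀ x p q p' q', Ed x p q → Q p p' → Q q q' → Ed x p' q')
    {z : Γ × Bool} {u u' v v' : V} (h : SE Ed x z u u') (h1 : Q u v) (h2 : Q u' v') :
    SE Ed x z v v' := by
  unfold SE at h ⊢
  split_ifs at h ⊢
  · exact hE _ _ _ _ _ h h1 h2
  · exact hE _ _ _ _ _ h h2 h1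

theorem SE.flip {z : Γ × Bool} {u u' : V} (h : SE Ed x z u u') : SE Ed x (z.1, !z.2) u' u := by
  obtain ⟨g, s⟩ := z
  cases s <;> simpa [SE] using h

theorem Path.left (hQ : Equivalence Q)
    (hE : ∀ x p q p' q', Ed x p q → Q p p' → Q q q' → Ed x p' q')
    {u u' v : V} {L : List (Γ × Bool)} (h : Path Q Ed x u L v) (h' : Q u' u) :
    Path Q Ed x u' L v := by
  cases h with
  | nil h => exact .nil (hQ.trans h' h)
  | cons h1 h2 => exact .cons (h1.congr hE (hQ.symm h') (hQ.refl _)) h2

theorem Path.append (hQ : Equivalence Q)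
    (hE : ∀ x p q p' q', Ed x p q → Q p p' → Q q q' → Ed x p' q')
    {u v w : V} {L L' : List (Γ × Bool)} (h : Path Q Ed x u L v) (h' : Path Q Ed x v L' w) :
    Path Q Ed x u (L ++ L') w := by
  induction h with
  | nil h => exact h'.left hQ hE h
  | cons h1 _ ih => exact .cons h1 (ih h')

theorem Path.split (hQ : Equivalence Q) {L L' : List (Γ × Bool)} :
    ∀ {u w : V}, Path Q Ed x u (L ++ L') w → ∃ v, Path Q Ed x u L v ∧ Path Q Ed x v L' w := by
  induction L with
  | nil => exact fun h => ⟨_, .nil (hQ.refl _), h⟩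
  | cons z L ih =>
    intro u w h
    cases h with
    | cons h1 h2 =>
      obtain ⟨v, h3, h4⟩ := ih h2
      exact ⟨v, .cons h1 h3, h4⟩

theorem Path.rev (hQ : Equivalence Q)
    (hE : ∀ x p q p' q', Ed x p q → Q p p' → Q q q' → Ed x p' q')
    {u v : V} {L : List (Γ × Bool)} (h : Path Q Ed x u L v) :
    Path Q Ed x v (FreeGroup.invRev L) u := by
  induction h with
  | nil h => exact .nil (hQ.symm h)
  | cons h1 _ ih =>
    rw [FreeGroup.invRev_cons]
    exact ih.append hQ hE (.cons h1.flip (.nil (hQ.refl _)))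

theorem Path.nodes {u v : V} {L : List (Γ × Bool)} (h : Path Q Ed x u L v) :
    ∃ c : ℕ → V, c 0 = u ∧ Q (c L.length) v ∧
      ∀ k (hk : k < L.length), SE Ed x L[k] (c k) (c (k + 1)) := by
  induction h with
  | @nil u v h => exact ⟨fun _ => u, rfl, h, fun k hk => absurd hk (by simp)⟩
  | @cons u u' v z L h1 _ ih =>
    obtain ⟨c, h2, h3, h4⟩ := ih
    refine ⟨fun k => Nat.casesOn k u c, rfl, h3, fun k hk => ?_⟩
    cases k with
    | zero => simpa [h2] using h1
    | succ k => simpa using h4 k (by simpa using hk)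

end path

/-- The word read along a path. -/
def word {Γ : Type} [Group Γ] (π : Γ →* Lam) (L : List (Γ × Bool)) : List (Lam × Bool) :=
  L.map fun z => (π z.1, z.2)

theorem word_invRev {Γ : Type} [Group Γ] (π : Γ →* Lam) (L : List (Γ × Bool)) :
    word π (FreeGroup.invRev L) = FreeGroup.invRev (word π L) := by
  simp [word, FreeGroup.invRev, Function.comp_def]

theorem mk_cons (l : Lam) (s : Bool) (w : List (Lam × Bool)) :
    PresentedGroup.mk rels (FreeGroup.mk ((l, s) :: w)) =
      (if s = true then bb l else (bb l)⁻¹) * PresentedGroup.mk rels (FreeGroup.mk w) := by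
  rw [← List.singleton_append, ← FreeGroup.mul_mk, map_mul]
  congr 1
  cases s
  · have : FreeGroup.mk [(l, false)] = (FreeGroup.of l)⁻¹ := by
      simp [FreeGroup.of, FreeGroup.inv_mk, FreeGroup.invRev]
    rw [this, map_inv]
    rfl
  · rfl

theorem mk_const (l : Lam) (s : Bool) : ∀ (w : List (Lam × Bool)),
    FreeGroup.IsReduced ((l, s) :: w) → (∀ z ∈ w, z.1 = l) →
    PresentedGroup.mk rels (FreeGroup.mk ((l, s) :: w)) =
      bb l ^ (if s = true then (w.length + 1 : ℤ) else -(w.length + 1 : ℤ)) := by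
  intro w
  induction w with
  | nil =>
    intro _ _
    rw [mk_cons]
    cases s <;> simp [← FreeGroup.one_eq_mk]
  | cons z w ih =>
    intro hr hl
    obtain ⟨l', s'⟩ := z
    obtain rfl : l' = l := hl _ (List.mem_cons_self ..)
    rw [FreeGroup.isReduced_cons_cons] at hr
    obtain rfl : s = s' := hr.1 rfl
    rw [mk_cons, ih hr.2 fun z hz => hl z (List.mem_cons_of_mem _ hz)]
    cases s
    · simp only [Bool.false_eq_true, if_false, List.length_cons]
      rw [← zpow_neg_one, ← zpow_add]
      congr 1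
      push_cast
      ring
    · simp only [if_true, List.length_cons]
      rw [← zpow_one_add]
      congr 1
      push_cast
      ring

theorem fin_facts (m i : Fin 100) (h : m ≠ i) :
    (m - (i + 1)).val < 99 ∧ (m + 1 - (i + 1)).val = (m - (i + 1)).val + 1 := by
  have h' : m.val ≠ i.val := fun e => h (Fin.ext e)
  have := m.2
  have := i.2
  simp only [Fin.val_add, Fin.val_sub, Fin.val_one]
  omega

theorem fin_facts2 (i : Fin 100) : (i - (i + 1)).val = 99 := by
  have := i.2
  simp only [Fin.val_add, Fin.val_sub, Fin.val_one]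
  omega

end CompleteAux

open CompleteAux in
/-- Proof.  `κ` identifies the cosets `Λ g` with elements of `NN`, and the `K`-edge `g` with the
edge `κ g → κ g * b_{π g}` of the Cayley graph.  Fix `x`, `p`, `q`.  A *path* from `p` to `q` is a list
of signed edges `(g, ±)` with intermediate nodes, `Ed (g • x) · ·` forwards or backwards, starting
at a node `Q`-related to `p` and ending exactly at (or `Q`-related to) `q`; absorb `Q`-steps with the
congruence hypothesis (all labels are in the orbit of `x`).  Define for instance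
`Path : V → List (Γ × Bool) → V → Prop` inductively and take a path of minimal length.  For a node
`v` with `b v = g • x` put `kv v = κ g` (well defined by freeness and `h1`); along a path `kv` is
multiplied by the word `w = [(π g, ±)]`, so `mk w = (κ 1)⁻¹ * κ a = bb 1` (`h2`, `π 1 = 1`).
* `w` is reduced: consecutive letters `(l, +), (l, -)` come from edges `g`, `g'` with
  `κ g * b_l = κ g' * b_l`, `π g = π g'`, so `g = g'` (`h3`) and folding shortens the path; the same
  for `(l, -), (l, +)`.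
* `NoRun w`: for edges `g 0, …, g 98` spelling `run y i` put `ŷ = (τ (i+1))⁻¹ * g 0`; by induction
  (`h3`, `h4`, `hcyc`, `h1`, `h2`) `g k = τ (i+1+k) * ŷ`; closing up gives an edge labelled
  `τ i • ŷ • x` from the end of the run to its start, which shortens the path.  Inverse runs:
  reverse the path.
By `word_lemma` all letters are `1`; reduced means all signs agree; `bb_zpow_inj` gives
`w = [(1, true)]`, an edge `g` with `π g = 1 = π 1`, `κ g = κ 1`, so `g = 1`. -/
theorem complete_of_word {Γ : Type} [Group Γ] {Λ : Subgroup Γ} {a : Γ} {τ : Fin 100 → Γ}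
    (π : Γ →* Lam) (κ : Γ → NN) (h1 : ∀ l ∈ Λ, ∀ g, κ (l * g) = κ g)
    (h2 : ∀ g, κ (a * g) = κ g * bb (π g)) (h3 : ∀ g g', κ g = κ g' → π g = π g' → g = g')
    (h4 : ∀ i, π (τ i) = sg i) (hcyc : ∀ m, τ (m + 1) * (a * τ m)⁻¹ ∈ Λ) :
    Complete Λ a τ := by
  intro X V _ _ b Q Ed hQ hQo hEo hE hfO hfT hcl x p q hp hq hconn
  classical
  -- the `NN`-valued position of a node
  let kv : V → NN := fun u => if h : ∃ g : Γ, b u = g • x then κ h.choose else 1
  have hkv : ∀ u (g : Γ), b u = g • x → kv u = κ g := by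
    intro u g hg
    have h : ∃ g : Γ, b u = g • x := ⟨g, hg⟩
    have : h.choose = g := IsCancelSMul.right_cancel _ _ x (h.choose_spec.symm.trans hg)
    simp only [kv, dif_pos h, this]
  have hkv' : ∀ u (g : Γ), Orb Λ (g • x) (b u) → kv u = κ g := by
    rintro u g ⟨l, hl⟩
    rw [hkv u (l * g) (by rw [hl, mul_smul]; rfl), h1 _ l.2]
  have hEk : ∀ (g : Γ) u u', Ed (g • x) u u' → kv u = κ g ∧ kv u' = κ g * bb (π g) := by
    intro g u u' h
    obtain ⟨h5, h6⟩ := hEo _ _ _ h
    rw [← mul_smul] at h6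
    exact ⟨hkv' u g h5, (hkv' u' _ h6).trans (h2 g)⟩
  have hQorb : ∀ u v, Q u v → Orb Γ x (b u) → Orb Γ x (b v) := by
    rintro u v h ⟨g, hg⟩
    obtain ⟨l, hl⟩ := hQo u v h
    exact ⟨l * g, by rw [hl, hg, mul_smul]; rfl⟩
  have hQk : ∀ u v, Q u v → kv u = kv v := by
    intro u v h
    by_cases hu : Orb Γ x (b u)
    · obtain ⟨g, hg⟩ := hu
      rw [hkv u g hg, hkv' v g (hg ▸ hQo u v h)]
    · have hv : ¬ Orb Γ x (b v) := fun hv => hu (hQorb v u (hQ.symm h) hv)
      unfold Orb at hu hv
      simp only [kv]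
      rw [dif_neg hu, dif_neg hv]
  have hPk : ∀ u L v, Path Q Ed x u L v →
      kv v = kv u * PresentedGroup.mk rels (FreeGroup.mk (word π L)) := by
    intro u L v h
    induction h with
    | nil h => simpa [word, ← FreeGroup.one_eq_mk] using (hQk _ _ h).symm
    | @cons u u' v z L h5 _ ih =>
      obtain ⟨g, s⟩ := z
      have e : word π ((g, s) :: L) = (π g, s) :: word π L := rfl
      rw [ih, e, mk_cons, ← mul_assoc]
      congr 1
      cases s
      · obtain ⟨h6, h7⟩ := hEk g u' u h5
        simp [h6, h7]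
      · obtain ⟨h6, h7⟩ := hEk g u u' h5
        simp [h6, h7]
  -- existence of a path
  have hex : ∀ u v, Relation.EqvGen (fun p q => Q p q ∨ ∃ x, Ed x p q) u v →
      (Orb Γ x (b u) ↔ Orb Γ x (b v)) ∧
        (Orb Γ x (b u) → ∃ L : List (Γ × Bool), Path Q Ed x u L v) := by
    intro u v h
    induction h with
    | rel u v h =>
      rcases h with h | ⟨y, h⟩
      · exact ⟨⟨hQorb u v h, hQorb v u (hQ.symm h)⟩, fun _ => ⟨[], .nil h⟩⟩
      · obtain ⟨⟨l, hl⟩, ⟨l', hl'⟩⟩ := hEo _ _ _ h
        have hl2 : b u = (l : Γ) • y := hl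
        have hl3 : b v = (l' : Γ) • a • y := hl'
        have hy : Orb Γ x (b u) → ∃ g : Γ, y = g • x := by
          rintro ⟨g, hg⟩
          exact ⟨(l : Γ)⁻¹ * g, by rw [mul_smul, ← hg, hl2, inv_smul_smul]⟩
        refine ⟨⟨fun hu => ?_, ?_⟩, fun hu => ?_⟩
        · obtain ⟨g, rfl⟩ := hy hu
          exact ⟨l' * (a * g), by rw [hl3, mul_smul, mul_smul]⟩
        · rintro ⟨g, hg⟩
          exact ⟨l * (a⁻¹ * ((l' : Γ)⁻¹ * g)), by
            rw [mul_smul, mul_smul, mul_smul, ← hg, hl3, inv_smul_smul, inv_smul_smul, hl2]⟩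
        · obtain ⟨g, rfl⟩ := hy hu
          exact ⟨[(g, true)], .cons (u' := v) h (.nil (hQ.refl _))⟩
    | refl u => exact ⟨Iff.rfl, fun _ => ⟨[], .nil (hQ.refl _)⟩⟩
    | symm u v _ ih =>
      refine ⟨ih.1.symm, fun hv => ?_⟩
      obtain ⟨L, hL⟩ := ih.2 (ih.1.2 hv)
      exact ⟨_, hL.rev hQ hE⟩
    | trans u v w _ _ ih1 ih2 =>
      refine ⟨ih1.1.trans ih2.1, fun hu => ?_⟩
      obtain ⟨L, hL⟩ := ih1.2 hu
      obtain ⟨L', hL'⟩ := ih2.2 (ih1.1.1 hu)
      exact ⟨_, hL.append hQ hE hL'⟩
  have hex2 : ∃ n, ∃ L : List (Γ × Bool), Path Q Ed x p L q ∧ L.length = n := by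
    obtain ⟨l, hl⟩ := hp
    obtain ⟨L, hL⟩ := (hex p q hconn).2 ⟨l, hl⟩
    exact ⟨_, L, hL, rfl⟩
  obtain ⟨L, hL, hlen⟩ := Nat.find_spec hex2
  have hmin : ∀ L' : List (Γ × Bool), Path Q Ed x p L' q → L.length ≤ L'.length :=
    fun L' h => hlen ▸ Nat.find_min' hex2 ⟨L', h, rfl⟩
  -- shortcuts are impossible
  have hshort : ∀ L₁ M L₂ : List (Γ × Bool), L = L₁ ++ M ++ L₂ →
      (∀ u v, Path Q Ed x u M v → ∃ M' : List (Γ × Bool), Path Q Ed x u M' v ∧
        M'.length < M.length) → False := by
    intro L₁ M L₂ e h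
    rw [e] at hL
    obtain ⟨v, h5, h6⟩ := hL.split hQ
    obtain ⟨u, h7, h8⟩ := h5.split hQ
    obtain ⟨M', h9, h10⟩ := h u v h8
    have := hmin _ ((h7.append hQ hE h9).append hQ hE h6)
    rw [e] at this
    simp only [List.length_append] at this
    omega
  have hinf : ∀ w : List (Lam × Bool), w <:+: word π L →
      ∃ L₁ M L₂ : List (Γ × Bool), L = L₁ ++ M ++ L₂ ∧ word π M = w := by
    rintro w ⟨w₁, w₂, h⟩
    obtain ⟨L₃, L₂, e1, e2, -⟩ := List.map_eq_append_iff.1 h.symm
    obtain ⟨L₁, M, e3, -, e4⟩ := List.map_eq_append_iff.1 e2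
    exact ⟨L₁, M, L₂, by rw [e1, e3], e4⟩
  have hred : FreeGroup.IsReduced (word π L) := by
    rw [FreeGroup.IsReduced, List.isChain_iff_forall_rel_of_append_cons_cons]
    rintro ⟨l, s⟩ ⟨l', s'⟩ w₁ w₂ e (rfl : l = l')
    by_contra hs
    obtain ⟨L₁, M, L₂, e1, e2⟩ := hinf [(l, s), (l, s')] ⟨w₁, w₂, by simp [e]⟩
    refine hshort L₁ M L₂ e1 fun u v h => ?_
    obtain ⟨⟨g, t⟩, M₁, rfl, e3, e4⟩ := List.map_eq_cons_iff.1 e2
    obtain ⟨⟨g', t'⟩, M₂, rfl, e5, e6⟩ := List.map_eq_cons_iff.1 e4
    obtain rfl : M₂ = [] := List.map_eq_nil_iff.1 e6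
    obtain ⟨e7, rfl⟩ := Prod.mk.inj e3
    obtain ⟨e8, rfl⟩ := Prod.mk.inj e5
    simp only at e7 e8 hs
    refine ⟨[], .nil ?_, by simp⟩
    cases h with
    | @cons _ u' _ _ _ h5 h6 =>
      cases h6 with
      | @cons _ u'' _ _ _ h7 h8 =>
        cases h8 with
        | nil h9 =>
          refine hQ.trans ?_ h9
          cases t <;> cases t'
          · exact absurd rfl hs
          · obtain rfl : g = g' :=
              h3 g g' ((hEk g _ _ h5).1.symm.trans (hEk g' _ _ h7).1) (e7.trans e8.symm)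
            exact hfO _ _ _ _ h5 h7
          · have e9 := (hEk g _ _ h5).2.symm.trans (hEk g' _ _ h7).2
            rw [e7, e8] at e9
            obtain rfl : g = g' := h3 g g' (mul_right_cancel e9) (e7.trans e8.symm)
            exact hfT _ _ _ _ h5 h7
          · exact absurd rfl hs
  have hrun : ∀ (y : Lam) (i : Fin 100) (M : List (Γ × Bool)) u v, word π M = run y i →
      Path Q Ed x u M v → M.length = 99 ∧ ∃ g : Γ, Ed (g • x) v u := by
    intro y i M u v e h
    have hM : M.length = 99 := by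
      have := congrArg List.length e
      simpa only [word, run, List.length_map, List.length_ofFn] using this
    refine ⟨hM, ?_⟩
    obtain ⟨c, hc0, hc1, hc2⟩ := h.nodes
    have hz : ∀ k (hk : k < M.length), π M[k].1 = sg (i + 1 + ⟨k, by omega⟩) * y ∧
        Ed (M[k].1 • x) (c k) (c (k + 1)) := by
      intro k hk
      have e1 : (word π M)[k]'(by simpa [word] using hk) =
          (run y i)[k]'(by simp only [run, List.length_ofFn]; omega) := by
        simp only [e]
      simp only [word, run, List.getElem_map, List.getElem_ofFn, Prod.mk.injEq] at e1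
      have := hc2 k hk
      rw [SE, if_pos e1.2] at this
      exact ⟨e1.1, this⟩
    set yh : Γ := (τ (i + 1))⁻¹ * (M[0]'(by omega)).1 with hyh
    have hπ : π yh = y := by
      rw [hyh, map_mul, map_inv, h4, (hz 0 (by omega)).1]
      simp
    have hg : ∀ k (hk : k < M.length), M[k].1 = τ (i + 1 + ⟨k, by omega⟩) * yh := by
      intro k
      induction k with
      | zero => intro hk; simp [hyh]
      | succ k ih =>
        intro hk
        have hk' : k < M.length := by omega
        refine h3 _ _ ?_ (by rw [(hz _ hk).1, map_mul, h4, hπ])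
        have e1 := (hEk _ _ _ (hz _ hk).2).1
        have e2 := (hEk _ _ _ (hz _ hk').2).2
        have e3 : (i + 1 + ⟨k + 1, by omega⟩ : Fin 100) = i + 1 + ⟨k, by omega⟩ + 1 := by
          rw [add_assoc (i + 1)]
          congr 1
          apply Fin.ext
          simp only [Fin.val_add, Fin.val_one]
          omega
        rw [← e1, e2, ← h2, ih hk', e3,
          ← h1 _ (hcyc (i + 1 + ⟨k, by omega⟩)) (a * (τ _ * yh))]
        congr 1
        group
    have := hcl (yh • x) (fun m => c (m - (i + 1)).val) i (fun m hm => by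
      obtain ⟨f1, f2⟩ := fin_facts m i hm
      have hk : (m - (i + 1)).val < M.length := by omega
      have := (hz _ hk).2
      rw [hg _ hk, mul_smul] at this
      simp only [f2]
      convert this using 3
      simp)
    simp only [fin_facts2, sub_self, Fin.val_zero, hc0] at this
    rw [← mul_smul] at this
    exact ⟨_, hE _ _ _ _ _ this (hM ▸ hc1) (hQ.refl _)⟩
  have hno : NoRun (word π L) := by
    intro y i
    constructor
    · intro h
      obtain ⟨L₁, M, L₂, e1, e2⟩ := hinf _ h
      refine hshort L₁ M L₂ e1 fun u v h => ?_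
      obtain ⟨h5, g, h6⟩ := hrun y i M u v e2 h
      exact ⟨[(g, false)], .cons (u' := v) h6 (.nil (hQ.refl _)), by simp [h5]⟩
    · intro h
      obtain ⟨L₁, M, L₂, e1, e2⟩ := hinf _ h
      refine hshort L₁ M L₂ e1 fun u v h => ?_
      obtain ⟨h5, g, h6⟩ := hrun y i (FreeGroup.invRev M) v u
        (by rw [word_invRev, e2, FreeGroup.invRev_invRev]) (h.rev hQ hE)
      rw [FreeGroup.invRev_length] at h5
      exact ⟨[(g, true)], .cons (u' := v) h6 (.nil (hQ.refl _)), by simp [h5]⟩
  have hkp : kv p = κ 1 := hkv' p 1 (by rwa [one_smul])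
  have hmk : PresentedGroup.mk rels (FreeGroup.mk (word π L)) = bb 1 ^ (1 : ℤ) := by
    have e1 := hPk _ _ _ hL
    have e2 := h2 1
    rw [mul_one, map_one] at e2
    rw [hkv' q a hq, hkp, e2] at e1
    rw [zpow_one]
    exact (mul_left_cancel e1).symm
  have hall := word_lemma _ hred hno 1 1 hmk
  cases hL with
  | nil h =>
    have : bb 1 ^ (0 : ℤ) = bb 1 ^ (1 : ℤ) := by
      rw [← hmk]
      simp [word, ← FreeGroup.one_eq_mk]
    exact absurd (bb_zpow_inj 1 this) (by norm_num)
  | @cons _ u' _ z L' h5 h6 =>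
    obtain ⟨g, s⟩ := z
    have e : word π ((g, s) :: L') = (π g, s) :: word π L' := rfl
    rw [e] at hall hred hmk
    have hg1 : π g = 1 := hall _ (List.mem_cons_self ..)
    rw [hg1] at hred hmk
    rw [mk_const 1 s _ hred fun z hz => hall z (List.mem_cons_of_mem _ hz)] at hmk
    have e2 := bb_zpow_inj 1 hmk
    cases s
    · simp only [Bool.false_eq_true, if_false] at e2
      omega
    · simp only [if_true, word, List.length_map] at e2
      obtain rfl : L' = [] := List.length_eq_zero_iff.1 (by omega)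
      cases h6 with
      | nil h7 =>
        obtain rfl : g = 1 := h3 g 1 ((hEk g _ _ h5).1.symm.trans hkp) (by rw [hg1, map_one])
        have h8 : Ed ((1 : Γ) • x) p u' := h5
        rw [one_smul] at h8
        exact hE _ _ _ _ _ h8 (hQ.refl _) h7

end Crest.Agent.R191
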