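import Crest.Agent.R191.BL

/-! # R191: degrees, hairs and branch points -/

set_option autoImplicit false
set_option linter.unusedSectionVars false

open MeasureTheory Set
open scoped ENNReal

namespace Crest.Agent.R191

variable {Γ X : Type} [Group Γ] [Countable Γ] [MeasurableSpace Γ]
  [MeasurableSingletonClass Γ] [MulAction Γ X] [MeasurableSpace X] [StandardBorelSpace X]
  [MeasurableSMul₂ Γ X] [IsCancelSMul Γ X]
  {μ : Measure X} [IsProbabilityMeasure μ] [SMulInvariantMeasure Γ X μ]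
  {I J : Type} [Countable I] [MeasurableSpace I] [MeasurableSingletonClass I]
  [Countable J] [MeasurableSpace J] [MeasurableSingletonClass J]
  {Λ : Subgroup Γ} {a : Γ} {τ : Fin 100 → Γ} {st : I} {G : Gr X I J}

theorem Gr.WF.mnd (h : G.WF Γ) : Measurable G.nd := by
  unfold Gr.nd
  have h1 : Measurable fun d : X × (J × Bool) => ((d.1, d.2.1) : X × J) := by fun_prop
  refine Measurable.ite ?_ (h.mt.comp h1) (h.mo.comp h1)
  exact measurableSet_eq_fun (by fun_prop) measurable_const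

theorem Gr.WF.mends (h : G.WF Γ) : MeasurableSet G.ends := by
  have h1 : Measurable fun d : X × (J × Bool) => ((d.1, d.2.1) : X × J) := by fun_prop
  exact h.mE.preimage h1

theorem Gr.WF.orbnd (h : G.WF Γ) : ∀ d ∈ G.ends, Orb Γ d.1 (G.nd d).1 := by
  intro d hd
  unfold Gr.nd
  split_ifs
  · exact h.orbt _ hd
  · exact h.orbo _ hd

theorem Gr.WF.mdeg (h : G.WF Γ) : Measurable G.deg := by
  refine meas_encard Γ measurable_fst (f := fun p d => d ∈ G.ends ∧ G.R p (G.nd d)) ?_ ?_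
  · refine Measurable.and (measurableSet_setOfPred.1 (h.mends.preimage measurable_snd)) ?_
    exact h.mR.comp (f := fun z : (X × I) × (X × (J × Bool)) => (z.1, G.nd z.2))
      (measurable_fst.prodMk (h.mnd.comp measurable_snd))
  · rintro p d ⟨h1, h2⟩
    exact (h.orbR _ _ h2).trans (h.orbnd d h1).symm

theorem Gr.WF.deg_congr (h : G.WF Γ) {p q : X × I} (hpq : G.R p q) : G.deg p = G.deg q := by
  unfold Gr.deg
  congr 1
  ext d
  exact ⟨fun h' => ⟨h'.1, h.eqv.trans (h.eqv.symm hpq) h'.2⟩,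
    fun h' => ⟨h'.1, h.eqv.trans hpq h'.2⟩⟩

theorem Gr.WF.mhair (h : G.WF Γ) : MeasurableSet G.hair := by
  exact h.mP.inter ((measurableSet_setOfPred.2 (meas_finite Γ measurable_fst h.mR h.orbR)).inter
    (h.mdeg (measurableSet_singleton 1)))

theorem Gr.WF.mbranch (h : G.WF Γ) : MeasurableSet G.branch := by
  refine h.mends.inter (MeasurableSet.union ?_ ?_)
  · exact (measurableSet_setOfPred.2
      ((meas_finite Γ measurable_fst h.mR h.orbR).comp h.mnd)).compl
  · exact (h.mdeg.comp h.mnd) (MeasurableSet.of_discrete (s := {n : ℕ∞ | 3 ≤ n}))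

theorem Gr.WF.mtrueE (h : G.WF Γ) : MeasurableSet (G.trueE a st) := by
  refine h.mE.inter (MeasurableSet.inter ?_ ?_)
  · exact measurableSet_setOfPred.2 (h.mR.comp (f := fun ε : X × J => (G.o ε, (ε.1, st)))
      (h.mo.prodMk (by fun_prop)))
  · exact measurableSet_setOfPred.2 (h.mR.comp (f := fun ε : X × J => (G.t ε, (a • ε.1, st)))
      (h.mt.prodMk (by fun_prop)))

/-- stars are infinite nodes (freeness) -/
theorem Gr.Adm.star_infinite (hG : G.Adm Λ a st) (hΛ : Infinite Λ) (x : X) :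
    {q | G.R (x, st) q}.Infinite := by
  refine infinite_of_injective_forall_mem (f := fun l : Λ => (((l : Γ) • x, st) : X × I)) ?_ ?_
  · intro l l' h
    simp only [Prod.mk.injEq, and_true] at h
    exact Subtype.ext (IsCancelSMul.right_cancel _ _ _ h)
  · exact fun l => hG.starR x l l.2

namespace HairAux

theorem conn_closed {S : Set (X × I)} (hS : ∀ u v, G.Step u v → (u ∈ S ↔ v ∈ S)) {u v : X × I}
    (h : G.Conn u v) : u ∈ S ↔ v ∈ S := by
  induction h with
  | rel u v h => exact hS u v h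
  | refl _ => rfl
  | symm _ _ _ ih => exact ih.symm
  | trans _ _ _ _ _ ih ih' => exact ih.trans ih'

theorem finite_congr (h : G.WF Γ) {p q : X × I} (hpq : G.R p q) (hp : {r | G.R p r}.Finite) :
    {r | G.R q r}.Finite :=
  hp.subset fun _ hr => h.eqv.trans hpq hr

theorem hair_sat (h : G.WF Γ) {p q : X × I} (hp : p ∈ G.hair) (hpq : G.R p q) : q ∈ G.hair :=
  ⟨h.sat p hp.1 q hpq, finite_congr h hpq hp.2.1, (h.deg_congr hpq).symm.trans hp.2.2⟩

theorem hair_uniq {p : X × I} (hp : p ∈ G.hair) {d d' : X × (J × Bool)} (hd : d ∈ G.ends)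
    (hd' : d' ∈ G.ends) (h1 : G.R p (G.nd d)) (h2 : G.R p (G.nd d')) : d = d' := by
  obtain ⟨d0, h0⟩ := encard_eq_one.1 hp.2.2
  have e1 : d ∈ ({d0} : Set _) := h0 ▸ ⟨hd, h1⟩
  have e2 : d' ∈ ({d0} : Set _) := h0 ▸ ⟨hd', h2⟩
  exact e1.trans e2.symm

theorem hair_ex {p : X × I} (hp : p ∈ G.hair) : ∃ d, d ∈ G.ends ∧ G.R p (G.nd d) := by
  obtain ⟨d0, h0⟩ := encard_eq_one.1 hp.2.2
  have : d0 ∈ {d | d ∈ G.ends ∧ G.R p (G.nd d)} := h0 ▸ mem_singleton d0
  exact ⟨d0, this⟩

theorem deg_ne_zero (hG : G.Adm Λ a st) (hΛ : Infinite Λ) {p : X × I} (hp : p ∈ G.P)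
    (hf : {q | G.R p q}.Finite) : G.deg p ≠ 0 := by
  intro h0
  have h := hG.wf
  have h1 : ∀ d ∈ G.ends, ¬ G.R p (G.nd d) := fun d hd hr =>
    (encard_eq_zero.1 h0).subset ⟨hd, hr⟩
  obtain ⟨x, hx⟩ := hG.conn p hp
  have h2 := conn_closed (S := {q | G.R p q}) (fun u v huv => by
    rcases huv with huv | ⟨ε, hε, rfl, rfl⟩
    · exact ⟨fun h' => h.eqv.trans h' huv, fun h' => h.eqv.trans h' (h.eqv.symm huv)⟩
    · exact ⟨fun h' => (h1 (ε.1, ε.2, false) hε h').elim,
        fun h' => (h1 (ε.1, ε.2, true) hε h').elim⟩) hx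
  exact hG.star_infinite hΛ x (finite_congr h (h2.1 (h.eqv.refl p)) hf)

theorem not_two_hairs (hG : G.Adm Λ a st) (hΛ : Infinite Λ) {ε : X × J} (hε : ε ∈ G.E)
    (h1 : G.o ε ∈ G.hair) (h2 : G.t ε ∈ G.hair) : False := by
  have h := hG.wf
  have key : ∀ d ∈ G.ends, (G.R (G.o ε) (G.nd d) ∨ G.R (G.t ε) (G.nd d)) → (d.1, d.2.1) = ε := by
    rintro d hd (hr | hr)
    · rw [hair_uniq h1 hd (d' := (ε.1, ε.2, false)) hε hr (h.eqv.refl _)]
    · rw [hair_uniq h2 hd (d' := (ε.1, ε.2, true)) hε hr (h.eqv.refl _)]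
  obtain ⟨x, hx⟩ := hG.conn _ h1.1
  have h3 := conn_closed (S := {q | G.R (G.o ε) q ∨ G.R (G.t ε) q}) (fun u v huv => by
    rcases huv with huv | ⟨ε', hε', rfl, rfl⟩
    · exact ⟨fun h' => h'.imp (fun h' => h.eqv.trans h' huv) (fun h' => h.eqv.trans h' huv),
        fun h' => h'.imp (fun h' => h.eqv.trans h' (h.eqv.symm huv))
          (fun h' => h.eqv.trans h' (h.eqv.symm huv))⟩
    · constructor
      · intro h'
        have : ε' = ε := key (ε'.1, ε'.2, false) hε' h'
        rw [this]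
        exact Or.inr (h.eqv.refl _)
      · intro h'
        have : ε' = ε := key (ε'.1, ε'.2, true) hε' h'
        rw [this]
        exact Or.inl (h.eqv.refl _)) hx
  rcases h3.1 (Or.inl (h.eqv.refl _)) with h4 | h4
  · exact hG.star_infinite hΛ x (finite_congr h h4 h1.2.1)
  · exact hG.star_infinite hΛ x (finite_congr h h4 h2.2.1)

theorem nu_ends (h : G.WF Γ) : nu μ (J × Bool) G.ends = 2 * G.e μ := by
  unfold Gr.e
  rw [nu_apply h.mends, nu_apply h.mE, ENNReal.tsum_prod', ← ENNReal.tsum_mul_left]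
  refine tsum_congr fun j => ?_
  rw [tsum_fintype, Fintype.sum_bool, two_mul]
  rfl

theorem wt_deg (h : G.WF Γ) {S : Set (X × I)} (hS : MeasurableSet S)
    (hsat : ∀ p q, G.R p q → (p ∈ S ↔ q ∈ S)) :
    ∫⁻ p, wt G.R p * S.indicator 1 p * (G.deg p : ℝ≥0∞) ∂(nu μ I) =
      nu μ (J × Bool) {d | d ∈ G.ends ∧ {q | G.R (G.nd d) q}.Finite ∧ G.nd d ∈ S} := by
  have h1 := wt_mtp Γ (μ := μ) h.mR h.orbR h.eqv h.mends h.mnd h.orbnd
    (φ := S.indicator 1) (measurable_one.indicator hS) (fun p q hpq => by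
      by_cases hp : p ∈ S
      · rw [indicator_of_mem hp, indicator_of_mem ((hsat p q hpq).1 hp)]
        rfl
      · rw [indicator_of_notMem hp, indicator_of_notMem (fun hq => hp ((hsat p q hpq).2 hq))])
  refine h1.trans ?_
  have h2 : ∀ d, S.indicator (1 : X × I → ℝ≥0∞) (G.nd d) = (G.nd ⁻¹' S).indicator 1 d :=
    fun d => rfl
  simp only [h2]
  rw [lintegral_indicator_one (h.mnd hS), Measure.restrict_apply (h.mnd hS)]
  congr 1
  ext d
  exact ⟨fun h' => ⟨h'.2.1, h'.2.2, h'.1⟩, fun h' => ⟨h'.2.2, h'.1, h'.2.1⟩⟩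

open Classical in
theorem enat_ineq (n : ℕ∞) (hn : n ≠ 0) :
    (if 3 ≤ n then (1 : ℝ≥0∞) else 0) * (n : ℝ≥0∞) + 6 * 1
      ≤ 3 * (n : ℝ≥0∞) + 3 * (if n = 1 then 1 else 0) := by
  induction n using ENat.recTopCoe with
  | top => simp
  | coe n =>
    have hn' : n ≠ 0 := fun h => hn (by simp [h])
    simp only [ENat.toENNReal_coe, Nat.ofNat_le_cast, Nat.cast_eq_one]
    split_ifs with h1 h2 h2
    · omega
    · norm_cast
      omega
    · subst h2
      norm_num
    · norm_cast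
      omega

/-- the pruned graph -/
def pr (G : Gr X I J) : Gr X I J where
  P := G.P \ G.hair
  R := G.R
  E := {ε | ε ∈ G.E ∧ G.o ε ∉ G.hair ∧ G.t ε ∉ G.hair}
  o := G.o
  t := G.t

theorem pr_wf (h : G.WF Γ) : (pr G).WF Γ where
  mP := h.mP.diff h.mhair
  mR := h.mR
  mE := h.mE.inter ((h.mo h.mhair).compl.inter (h.mt h.mhair).compl)
  mo := h.mo
  mt := h.mt
  eqv := h.eqv
  orbR := h.orbR
  orbo := fun ε hε => h.orbo ε hε.1
  orbt := fun ε hε => h.orbt ε hε.1
  sat := fun p hp q hq => ⟨h.sat p hp.1 q hq, fun h' => hp.2 (hair_sat h h' (h.eqv.symm hq))⟩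
  oP := fun ε hε => ⟨h.oP ε hε.1, hε.2.1⟩
  tP := fun ε hε => ⟨h.tP ε hε.1, hε.2.2⟩

open Classical in
/-- the retraction to the pruned graph -/
noncomputable def rt (G : Gr X I J) (p : X × I) : X × I :=
  if hp : p ∈ G.hair then
    G.nd ((hair_ex hp).choose.1, (hair_ex hp).choose.2.1, !(hair_ex hp).choose.2.2)
  else p

theorem rt_of_not {p : X × I} (hp : p ∉ G.hair) : rt G p = p := dif_neg hp

theorem rt_of_hair {p : X × I} (hp : p ∈ G.hair) {d : X × (J × Bool)} (hd : d ∈ G.ends)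
    (hr : G.R p (G.nd d)) : rt G p = G.nd (d.1, d.2.1, !d.2.2) := by
  unfold rt
  rw [dif_pos hp, hair_uniq hp (hair_ex hp).choose_spec.1 hd (hair_ex hp).choose_spec.2 hr]

theorem conn_rt (hG : G.Adm Λ a st) (hΛ : Infinite Λ) {p q : X × I} (hpq : G.Conn p q) :
    (pr G).Conn (rt G p) (rt G q) := by
  have h := hG.wf
  induction hpq with
  | rel p q hs =>
    rcases hs with hs | ⟨ε, hε, rfl, rfl⟩
    · by_cases hp : p ∈ G.hair
      · obtain ⟨d, hd, hr⟩ := hair_ex hp
        rw [rt_of_hair hp hd hr,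
          rt_of_hair (hair_sat h hp hs) hd (h.eqv.trans (h.eqv.symm hs) hr)]
        exact .refl _
      · rw [rt_of_not hp, rt_of_not (fun hq => hp (hair_sat h hq (h.eqv.symm hs)))]
        exact .rel _ _ (Or.inl hs)
    · by_cases h1 : G.o ε ∈ G.hair
      · have h2 : G.t ε ∉ G.hair := not_two_hairs hG hΛ hε h1
        rw [rt_of_hair h1 (d := (ε.1, ε.2, false)) hε (h.eqv.refl _), rt_of_not h2]
        exact .refl _
      · by_cases h2 : G.t ε ∈ G.hair
        · rw [rt_of_hair h2 (d := (ε.1, ε.2, true)) hε (h.eqv.refl _), rt_of_not h1]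
          exact .refl _
        · rw [rt_of_not h1, rt_of_not h2]
          exact .rel _ _ (Or.inr ⟨ε, ⟨hε, h1, h2⟩, rfl, rfl⟩)
  | refl _ => exact .refl _
  | symm _ _ _ ih => exact .symm _ _ ih
  | trans _ _ _ _ _ ih ih' => exact .trans _ _ _ ih ih'

theorem pr_adm (hG : G.Adm Λ a st) (hΛ : Infinite Λ) : (pr G).Adm Λ a st := by
  have hs : ∀ x, (x, st) ∉ G.hair := fun x hx => hG.star_infinite hΛ x hx.2.1
  refine ⟨pr_wf hG.wf, hG.sR, fun ε hε => hG.so ε hε.1, fun ε hε => hG.st' ε hε.1,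
    fun x => ⟨hG.starP x, hs x⟩, hG.starR, fun p hp => ?_, fun x => ?_⟩
  · obtain ⟨x, hx⟩ := hG.conn p hp.1
    have := conn_rt hG hΛ hx
    rw [rt_of_not hp.2, rt_of_not (hs x)] at this
    exact ⟨x, this⟩
  · have := conn_rt hG hΛ (hG.gen x)
    rwa [rt_of_not (hs _), rt_of_not (hs _)] at this

end HairAux

/-- `BL` with `Z = {p | ∃ x, R p (x, st)}`, on which the weight vanishes. -/
theorem true_le (hG : G.Adm Λ a st) (hΛ : Infinite Λ) :
    G.v μ + nu μ J (G.trueE a st) ≤ G.e μ := by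
  have h := hG.wf
  set Z : Set (X × I) := {p | ∃ x, G.R p (x, st)} with hZ
  have hZm : MeasurableSet Z := by
    refine measurableSet_setOfPred.2 (meas_existsX Γ measurable_fst
      (f := fun (p : X × I) x => G.R p (x, st)) ?_ fun p x hp => h.orbR _ _ hp)
    exact h.mR.comp (f := fun z : (X × I) × X => (z.1, (z.2, st))) (by fun_prop)
  have h1 := BL (μ := μ) h hZm
    (fun p ⟨x, hx⟩ q hq => ⟨x, h.eqv.trans (h.eqv.symm hq) hx⟩)
    (fun p hp => let ⟨x, hx⟩ := hG.conn p hp; ⟨(x, st), ⟨x, h.eqv.refl _⟩, hx⟩)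
  have h2 : G.v μ ≤ G.vOn μ (G.P \ Z) := by
    unfold Gr.v Gr.vOn
    rw [← lintegral_indicator h.mP, ← lintegral_indicator (h.mP.diff hZm)]
    refine lintegral_mono fun p => ?_
    by_cases hp : p ∈ G.P
    · by_cases hz : p ∈ Z
      · obtain ⟨x, hx⟩ := hz
        rw [indicator_of_mem hp, wt_congr h.eqv hx, wt_eq_zero.2 (hG.star_infinite hΛ x)]
        exact zero_le
      · rw [indicator_of_mem hp, indicator_of_mem (show p ∈ G.P \ Z from ⟨hp, hz⟩)]
    · rw [indicator_of_notMem hp]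
      exact zero_le
  refine (add_le_add (h2.trans h1) le_rfl).trans ?_
  rw [← measure_union _ h.mtrueE]
  · refine measure_mono ?_
    rintro ε (hε | hε)
    · exact hε.1
    · exact hε.1
  · rw [Set.disjoint_left]
    exact fun ε h1 h2 => h1.2 ⟨⟨_, h2.2.1⟩, ⟨_, h2.2.2⟩⟩

/-- Proof.  `ν ends = 2 e`.  By `wt_mtp` (with `D = ends`, `n = nd`; `cnt {d | …} = deg p`),
`∫ wt · deg = ν {ends at finite nodes}` and `∫ wt · 1[3 ≤ deg] · deg = ν {ends at finite nodes of
degree ≥ 3}`.  A point of `P` with a finite class has `deg ≥ 1` (it is connected to a star, which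
is infinite), and then `1[3 ≤ deg] · deg + 6 ≤ 3 deg + 3 · 1[deg = 1]`. -/
theorem branch_count (hG : G.Adm Λ a st) (hΛ : Infinite Λ) :
    nu μ (J × Bool) G.branch + 6 * G.v μ ≤ 6 * G.e μ + 3 * G.vOn μ G.hair := by
  classical
  have h := hG.wf
  have hfin : MeasurableSet {d | d ∈ G.ends ∧ {q | G.R (G.nd d) q}.Finite} :=
    h.mends.inter (measurableSet_setOfPred.2
      ((meas_finite Γ measurable_fst h.mR h.orbR).comp h.mnd))
  have h3 : MeasurableSet {p | 3 ≤ G.deg p} :=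
    h.mdeg (MeasurableSet.of_discrete (s := {n : ℕ∞ | 3 ≤ n}))
  have hA := HairAux.wt_deg (μ := μ) h MeasurableSet.univ (fun _ _ _ => Iff.rfl)
  have hB := HairAux.wt_deg (μ := μ) h h3
    (fun p q hpq => by simp only [mem_ofPred_eq, h.deg_congr hpq])
  have hdm : Measurable fun p => ((G.deg p : ℕ∞) : ℝ≥0∞) :=
    (Measurable.of_discrete (f := fun n : ℕ∞ => (n : ℝ≥0∞))).comp h.mdeg
  have hpt : ∀ p, wt G.R p * {p | 3 ≤ G.deg p}.indicator 1 p * (G.deg p : ℝ≥0∞)
      + 6 * G.P.indicator (wt G.R) p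
      ≤ 3 * (wt G.R p * (univ : Set (X × I)).indicator 1 p * (G.deg p : ℝ≥0∞))
        + 3 * G.hair.indicator (wt G.R) p := by
    intro p
    by_cases hf : {q | G.R p q}.Finite
    swap
    · have h0 : wt G.R p = 0 := wt_eq_zero.2 hf
      simp [indicator_apply, h0]
    have key : {p | 3 ≤ G.deg p}.indicator 1 p * (G.deg p : ℝ≥0∞) + 6 * G.P.indicator 1 p
        ≤ 3 * (G.deg p : ℝ≥0∞) + 3 * G.hair.indicator 1 p := by
      by_cases hp : p ∈ G.P
      · have hne := HairAux.deg_ne_zero hG hΛ hp hf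
        simp only [indicator_apply, mem_ofPred_eq, Gr.hair, hp, hf, true_and, if_true,
          Pi.one_apply]
        exact HairAux.enat_ineq _ hne
      · rw [indicator_of_notMem hp, mul_zero, add_zero]
        refine le_trans ?_ le_self_add
        refine mul_le_mul_left ?_ _
        by_cases h3 : 3 ≤ G.deg p <;> simp [h3]
    have e1 : G.P.indicator (wt G.R) p = wt G.R p * G.P.indicator 1 p := by
      by_cases hp : p ∈ G.P <;> simp [hp]
    have e2 : G.hair.indicator (wt G.R) p = wt G.R p * G.hair.indicator 1 p := by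
      by_cases hp : p ∈ G.hair <;> simp [hp]
    rw [e1, e2, indicator_univ, Pi.one_apply, mul_one]
    calc _ = wt G.R p * ({p | 3 ≤ G.deg p}.indicator 1 p * (G.deg p : ℝ≥0∞)
          + 6 * G.P.indicator 1 p) := by ring
      _ ≤ wt G.R p * (3 * (G.deg p : ℝ≥0∞) + 3 * G.hair.indicator 1 p) := mul_le_mul_right key _
      _ = _ := by ring
  have hint := lintegral_mono (μ := nu μ I) hpt
  rw [lintegral_add_right _ ((h.mwt.indicator h.mP).const_mul 6),
    lintegral_add_right _ ((h.mwt.indicator h.mhair).const_mul 3),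
    lintegral_const_mul _ (h.mwt.indicator h.mP), lintegral_const_mul _ (h.mwt.indicator h.mhair),
    lintegral_const_mul' _ _ (by simp), hA, hB, lintegral_indicator h.mP,
    lintegral_indicator h.mhair] at hint
  have h4 : nu μ (J × Bool) G.branch
      ≤ nu μ (J × Bool) (G.ends \ {d | d ∈ G.ends ∧ {q | G.R (G.nd d) q}.Finite})
        + nu μ (J × Bool) {d | d ∈ G.ends ∧ {q | G.R (G.nd d) q}.Finite ∧
            G.nd d ∈ {p | 3 ≤ G.deg p}} := by
    refine le_trans (measure_mono ?_) (measure_union_le _ _)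
    intro d hd
    by_cases hf : {q | G.R (G.nd d) q}.Finite
    · exact Or.inr ⟨hd.1, hf, hd.2.resolve_left (fun h' => h' hf)⟩
    · exact Or.inl ⟨hd.1, fun h' => hf h'.2⟩
  have h5 : nu μ (J × Bool) (G.ends \ {d | d ∈ G.ends ∧ {q | G.R (G.nd d) q}.Finite})
      + nu μ (J × Bool) {d | d ∈ G.ends ∧ {q | G.R (G.nd d) q}.Finite ∧ G.nd d ∈ univ}
      = 2 * G.e μ := by
    rw [← HairAux.nu_ends h]
    simp only [mem_univ, and_true]
    rw [add_comm, ← measure_inter_add_sdiff G.ends hfin]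
    congr 2
    ext d
    exact ⟨fun h' => ⟨h'.1, h'⟩, fun h' => h'.2⟩
  have h6 : 6 * G.e μ = 3 * (2 * G.e μ) := by ring
  rw [h6, ← h5, mul_add, add_assoc]
  refine le_trans (add_le_add h4 le_rfl) ?_
  rw [add_assoc]
  refine add_le_add ?_ hint
  exact le_mul_of_one_le_left zero_le (by norm_num)

/-- Removing all hairs.  Proof: `P' = P \ hair`, `E' = {ε ∈ E | o ε ∉ hair ∧ t ε ∉ hair}`, same `R`.
No edge has hairs at both ends (the two classes would form a whole component without a star; a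
loop gives degree `≥ 2`).  For a hair `p` let `r p` be the other end of its unique edge, otherwise
`r p = p`; by induction `Conn p q → Conn' (r p) (r q)`.  `vOn hair = ∫ wt · 1_hair · deg =
ν {ends at hairs}` (`wt_mtp`) `≤ ν (E \ E')` (`nu_le_of_injOn`). -/
theorem prune (hG : G.Adm Λ a st) (hΛ : Infinite Λ) :
    ∃ G' : Gr X I J, G'.Adm Λ a st ∧ G'.e μ + G.vOn μ G.hair ≤ G.e μ ∧
      G.v μ ≤ G'.v μ + G.vOn μ G.hair := by
  have h := hG.wf
  refine ⟨HairAux.pr G, HairAux.pr_adm hG hΛ, ?_, ?_⟩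
  · have hE' := (HairAux.pr_wf h).mE
    have hB := HairAux.wt_deg (μ := μ) h h.mhair
      (fun p q hpq => ⟨fun hp => HairAux.hair_sat h hp hpq,
        fun hq => HairAux.hair_sat h hq (h.eqv.symm hpq)⟩)
    have h1 : G.vOn μ G.hair = ∫⁻ p, wt G.R p * G.hair.indicator 1 p * (G.deg p : ℝ≥0∞)
        ∂(nu μ I) := by
      unfold Gr.vOn
      rw [← lintegral_indicator h.mhair]
      refine lintegral_congr fun p => ?_
      by_cases hp : p ∈ G.hair
      · simp [hp, hp.2.2]
      · simp [hp]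
    have h2 : nu μ (J × Bool) {d | d ∈ G.ends ∧ {q | G.R (G.nd d) q}.Finite ∧ G.nd d ∈ G.hair}
        ≤ nu μ J (G.E \ (HairAux.pr G).E) := by
      refine nu_le_of_injOn Γ (φ := fun d : X × (J × Bool) => ((d.1, d.2.1) : X × J))
        (by fun_prop) ?_ (h.mE.diff hE') (fun _ _ => Orb.refl _) ?_ ?_
      · exact h.mends.inter ((measurableSet_setOfPred.2
          ((meas_finite Γ measurable_fst h.mR h.orbR).comp h.mnd)).inter (h.mnd h.mhair))
      · rintro ⟨x, j, b⟩ ⟨h1, -, h2⟩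
        refine ⟨h1, fun h3 => ?_⟩
        cases b
        · exact h3.2.1 h2
        · exact h3.2.2 h2
      · rintro ⟨x, j, b⟩ ⟨h1, -, h2⟩ ⟨x', j', b'⟩ ⟨-, -, h2'⟩ he
        simp only [Prod.mk.injEq] at he
        obtain ⟨rfl, rfl⟩ := he
        cases b <;> cases b'
        · rfl
        · exact (HairAux.not_two_hairs hG hΛ h1 h2 h2').elim
        · exact (HairAux.not_two_hairs hG hΛ h1 h2' h2).elim
        · rfl
    rw [h1, hB]
    refine le_trans (add_le_add le_rfl h2) ?_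
    unfold Gr.e
    rw [← measure_inter_add_sdiff G.E hE']
    exact add_le_add (measure_mono fun ε hε => ⟨hε.1, hε⟩) le_rfl
  · unfold Gr.v Gr.vOn
    refine le_trans (lintegral_mono_set ?_) (lintegral_union_le _ _ _)
    intro p hp
    by_cases hh : p ∈ G.hair
    · exact Or.inr hh
    · exact Or.inl ⟨hp, hh⟩

end Crest.Agent.R191
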