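import Crest.Agent.R191.Collapse
import Crest.Agent.R191.Hair

/-! # R191: good and bad faces -/

set_option autoImplicit false
set_option linter.unusedSectionVars false

open MeasureTheory Set
open scoped ENNReal

namespace Crest.Agent.R191

variable {Γ X : Type} [Group Γ] [Countable Γ] [MeasurableSpace Γ]
  [MeasurableSingletonClass Γ] [MulAction Γ X] [MeasurableSpace X] [StandardBorelSpace X]
  [MeasurableSMul₂ Γ X] [IsCancelSMul Γ X]
  {μ : Measure X} [IsProbabilityMeasure μ] [SMulInvariantMeasure Γ X μ]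
  {I J : Type} [Countable I] [MeasurableSpace I] [MeasurableSingletonClass I]
  [Countable J] [MeasurableSpace J] [MeasurableSingletonClass J]
  {Λ : Subgroup Γ} {a : Γ} {τ : Fin 100 → Γ} {st : I} {G : Gr X I J}

namespace CountAux

/-- the end of the edge `ε` -/
def en (ε : X × J) (b : Bool) : X × (J × Bool) := (ε.1, (ε.2, b))

@[simp] theorem nd_en_true (G : Gr X I J) (ε : X × J) : G.nd (en ε true) = G.t ε := by
  simp [Gr.nd, en]

@[simp] theorem nd_en_false (G : Gr X I J) (ε : X × J) : G.nd (en ε false) = G.o ε := by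
  simp [Gr.nd, en]

@[simp] theorem en_mem_ends (G : Gr X I J) (ε : X × J) (b : Bool) : en ε b ∈ G.ends ↔ ε ∈ G.E :=
  Iff.rfl

theorem en_inj {ε ε' : X × J} {b b' : Bool} (h : en ε b = en ε' b') : ε = ε' ∧ b = b' := by
  simp only [en, Prod.mk.injEq] at h
  exact ⟨Prod.ext h.1 h.2.1, h.2.2⟩

theorem eq_en (d : X × (J × Bool)) : d = en (d.1, d.2.1) d.2.2 := rfl

theorem meas_slot {W : Type} [MeasurableSpace W] (τ : Fin 100 → Γ) {f : W → X × (Fin 100 → J)}
    (hf : Measurable f) {m : W → Fin 100} (hm : Measurable m) :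
    Measurable fun w => slot τ (f w) (m w) := by
  unfold slot
  refine Measurable.prodMk ?_ ?_
  · exact ((Measurable.of_discrete (f := τ)).comp hm).smul (measurable_fst.comp hf)
  · exact (Measurable.of_discrete (f := fun z : (Fin 100 → J) × Fin 100 => z.1 z.2)).comp
      ((measurable_snd.comp hf).prodMk hm)

/-- the ends at the node of `p` -/
def at' (G : Gr X I J) (p : X × I) : Set (X × (J × Bool)) := {d | d ∈ G.ends ∧ G.R p (G.nd d)}

theorem deg_eq (G : Gr X I J) (p : X × I) : G.deg p = (at' G p).encard := rfl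

theorem at_withE (G : Gr X I J) (D : Set (X × J)) (p : X × I) :
    at' (G.withE (G.E \ D)) p = {d | d ∈ at' G p ∧ (d.1, d.2.1) ∉ D} := by
  ext d
  simp only [at', Gr.ends, Gr.withE, Gr.nd, mem_ofPred_eq, mem_sdiff]
  tauto

theorem corner_mem (hG : G.WF Γ) {S : Set X} {f : X × (Fin 100 → J)} (hf : f ∈ faces τ G S)
    (i : Fin 100) {p : X × I} (hp : G.R p (G.t (slot τ f i))) :
    en (slot τ f i) true ∈ at' G p ∧ en (slot τ f (i + 1)) false ∈ at' G p := by
  refine ⟨⟨(hf.2 i).1, by simpa using hp⟩, ⟨(hf.2 (i + 1)).1, ?_⟩⟩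
  rw [nd_en_false]
  exact hG.eqv.trans hp (hf.2 i).2

theorem corner_ne (ε ε' : X × J) : en ε true ≠ en ε' false := fun h => by
  simpa using (en_inj h).2

theorem two_le_deg (hG : G.WF Γ) {S : Set X} {f : X × (Fin 100 → J)} (hf : f ∈ faces τ G S)
    (i : Fin 100) {p : X × I} (hp : G.R p (G.t (slot τ f i))) : 2 ≤ G.deg p := by
  obtain ⟨h1, h2⟩ := corner_mem hG hf i hp
  rw [deg_eq, ← encard_pair (corner_ne (slot τ f i) (slot τ f (i + 1)))]
  refine encard_le_encard ?_
  rintro d (rfl | rfl)
  · exact h1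
  · exact h2

theorem at_eq_pair (hG : G.WF Γ) {S : Set X} {f : X × (Fin 100 → J)} (hf : f ∈ faces τ G S)
    (i : Fin 100) {p : X × I} (hp : G.R p (G.t (slot τ f i))) (h3 : ¬ 3 ≤ G.deg p) :
    at' G p = {en (slot τ f i) true, en (slot τ f (i + 1)) false} := by
  obtain ⟨h1, h2⟩ := corner_mem hG hf i hp
  refine Subset.antisymm (fun d hd => ?_) ?_
  · by_contra hn
    refine h3 ?_
    have e : (insert d {en (slot τ f i) true, en (slot τ f (i + 1)) false} :
        Set (X × (J × Bool))).encard = 3 := by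
      rw [encard_insert_of_notMem hn, encard_pair (corner_ne _ _)]
      norm_num
    rw [deg_eq, ← e]
    refine encard_le_encard ?_
    rintro d' (rfl | rfl | rfl)
    · exact hd
    · exact h1
    · exact h2
  · rintro d (rfl | rfl)
    · exact h1
    · exact h2

/-- an edge of a face does not end at a node of degree one -/
theorem two_le_deg_of_slot (hG : G.WF Γ) {S : Set X} {f : X × (Fin 100 → J)}
    (hf : f ∈ faces τ G S) (i : Fin 100) (b : Bool) {p : X × I}
    (hp : en (slot τ f i) b ∈ at' G p) : 2 ≤ G.deg p := by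
  cases b
  · refine two_le_deg hG hf (i - 1) ?_
    have h1 := (hf.2 (i - 1)).2
    rw [sub_add_cancel] at h1
    have h2 := hp.2
    rw [nd_en_false] at h2
    exact hG.eqv.trans h2 (hG.eqv.symm h1)
  · exact two_le_deg hG hf i (by simpa using hp.2)

theorem face_free' (hF : G.Folded) (hG : G.WF Γ) {S : Set X} {lev : X → ℕ}
    {f f' : X × (Fin 100 → J)} (hf : f ∈ faces τ G S) (hf' : f' ∈ faces τ G S) {i m : Fin 100}
    (hi : FreeSlot τ S lev f.1 i) (hm : FreeSlot τ S lev f'.1 m)
    (he : slot τ f' m = slot τ f i) : f' = f ∧ m = i := by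
  rcases le_total (lev f.1) (lev f'.1) with h | h
  · exact face_free hF hG hf hf' hi he h
  · obtain ⟨h1, h2⟩ := face_free hF hG hf' hf hm he.symm h
    exact ⟨h1.symm, h2.symm⟩

theorem twenty_le {U : Set (Fin 100)} (hU : 60 ≤ U.ncard) :
    20 ≤ {i | i ∈ U ∧ i + 1 ∈ U}.ncard := by
  have h1 : ((fun i : Fin 100 => i + 1) ⁻¹' U).ncard = U.ncard :=
    ncard_preimage_of_injective_subset_range (add_left_injective 1)
      (fun i _ => ⟨i - 1, sub_add_cancel i 1⟩)
  have h2 := ncard_union_add_ncard_inter U ((fun i : Fin 100 => i + 1) ⁻¹' U)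
  have h3 : (U ∪ (fun i : Fin 100 => i + 1) ⁻¹' U).ncard ≤ 100 := by
    simpa using ncard_le_card (U ∪ (fun i : Fin 100 => i + 1) ⁻¹' U)
  have h4 : {i | i ∈ U ∧ i + 1 ∈ U} = U ∩ (fun i : Fin 100 => i + 1) ⁻¹' U := rfl
  rw [h4]
  omega

/-- good corners -/
def Good (τ : Fin 100 → Γ) (G : Gr X I J) (S : Set X) (lev : X → ℕ) (f : X × (Fin 100 → J))
    (i : Fin 100) : Prop :=
  FreeSlot τ S lev f.1 i ∧ FreeSlot τ S lev f.1 (i + 1) ∧
    {q | G.R (G.t (slot τ f i)) q}.Finite ∧ ¬ 3 ≤ G.deg (G.t (slot τ f i))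

theorem meas_good (hG : G.WF Γ) {S : Set X} (hS : MeasurableSet S) {lev : X → ℕ}
    (hlev : Measurable lev) (i : Fin 100) : Measurable fun f => Good τ G S lev f i := by
  have ht : Measurable fun f : X × (Fin 100 → J) => G.t (slot τ f i) :=
    hG.mt.comp (meas_slot τ measurable_id measurable_const)
  refine ((meas_freeSlot hS hlev i).comp measurable_fst).and
    (((meas_freeSlot hS hlev (i + 1)).comp measurable_fst).and (Measurable.and ?_ ?_))
  · exact (meas_finite Γ measurable_fst hG.mR hG.orbR).comp ht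
  · exact ((Measurable.of_discrete (f := fun n : ℕ∞ => 3 ≤ n)).comp (hG.mdeg.comp ht)).not

theorem bad_le (hG : G.WF Γ) (hF : G.Folded) {S : Set X} (hS : MeasurableSet S)
    {lev : X → ℕ} (hlev : Measurable lev)
    (hT : ∀ y ∈ S, 60 ≤ {i | FreeSlot τ S lev y i}.ncard) :
    20 * nu μ (Fin 100 → J) {f | f ∈ faces τ G S ∧ ¬ ∃ j, Good τ G S lev f j} ≤
      nu μ (J × Bool) G.branch := by
  have hB : MeasurableSet {f | f ∈ faces τ G S ∧ ¬ ∃ j, Good τ G S lev f j} :=
    (meas_faces τ hG hS).inter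
      (measurableSet_setOfPred.2 (Measurable.exists fun j => meas_good hG hS hlev j).not)
  have := nu_le_of_cnt Γ (μ := μ)
    (M := fun (f : X × (Fin 100 → J)) (d : X × (J × Bool)) =>
      ∃ i, FreeSlot τ S lev f.1 i ∧ d = en (slot τ f i) true) ?_ ?_ hB hG.mbranch
    (c := 20) (d := 1) ?_ ?_
  · simpa using this
  · refine Measurable.exists fun i => Measurable.and
      ((meas_freeSlot hS hlev i).comp (measurable_fst.comp measurable_fst)) ?_
    have h1 : Measurable fun z : (X × (Fin 100 → J)) × (X × (J × Bool)) => slot τ z.1 i :=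
      meas_slot τ measurable_fst measurable_const
    refine measurableSet_setOfPred.1 (measurableSet_eq_fun measurable_snd ?_)
    unfold en
    fun_prop
  · rintro f d ⟨i, -, rfl⟩
    exact Orb.smul _ _
  · rintro f ⟨hf, hn⟩
    set A : Set (Fin 100) := {i | i ∈ {i | FreeSlot τ S lev f.1 i} ∧
      i + 1 ∈ {i | FreeSlot τ S lev f.1 i}} with hA
    have h1 : 20 ≤ A.ncard := twenty_le (hT _ hf.1)
    have h2 : InjOn (fun i => en (slot τ f i) true) A := fun i hi j hj h =>
      (face_free' hF hG hf hf hj.1 hi.1 (en_inj h).1).2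
    have h3 : (20 : ℕ∞) ≤ ((fun i => en (slot τ f i) true) '' A).encard := by
      rw [h2.encard_image, ← (toFinite A).cast_ncard_eq]
      exact_mod_cast h1
    refine le_trans ?_ (cnt_mono (s := (fun i => en (slot τ f i) true) '' A) ?_)
    · unfold cnt
      exact_mod_cast h3
    · rintro _ ⟨i, hi, rfl⟩
      refine ⟨⟨(hf.2 i).1, ?_⟩, i, hi.1, rfl⟩
      rw [nd_en_true]
      by_contra hc
      rw [not_or, Set.not_infinite] at hc
      exact hn ⟨i, hi.1, hi.2, hc.1, hc.2⟩
  · intro d _
    refine cnt_le_one ?_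
    rintro f ⟨hf, i, hi, rfl⟩ f' ⟨hf', i', hi', h⟩
    exact (face_free' hF hG hf'.1 hf.1 hi' hi (en_inj h).1).1

end CountAux

open CountAux in
/-- Proof.  Call `(f, i)` a *good corner* if the slots `i` and `i + 1` are free, and the middle node
`t (slot f i)` has a finite class and not `3 ≤ deg`.  Let `sl f` be a good corner if there is one,
else any free slot (`meas_choice_idx`); let `g` be the measure of the faces having a good corner.
* At most 40 slots are not free, so at least 20 `i` have `i`, `i + 1` free.  For a face without good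
  corner each of them gives the edge end `(slot f i, true) ∈ branch`; these ends are distinct and
  determine `f` (`face_free`), so `20 ν(bad) ≤ ν branch` (`nu_le_of_cnt`).
* The two ends `(slot f i, true)`, `(slot f (i+1), false)` are distinct and at the same node; so
  edges of faces do not end at hairs, and `G.hair ⊆ G'.hair`.  The set `M` of points `R`-related to
  the middle node of a good face is disjoint from `G.hair` and contained in `G'.hair` (the end
  `(slot f (sl f), true)` is removed, `slot f (sl f + 1)` is kept by `face_free`), and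
  `g ≤ vOn M` by `wt_mtp` (`φ = 1`; a node is the middle node of at most one good face). -/
theorem count_faces (hG : G.Adm Λ a st) (hF : G.Folded) {S : Set X} (hS : MeasurableSet S)
    {lev : X → ℕ} (hlev : Measurable lev)
    (hT : ∀ y ∈ S, 60 ≤ {i | FreeSlot τ S lev y i}.ncard) :
    ∃ (sl : X × (Fin 100 → J) → Fin 100) (g : ℝ≥0∞), Measurable sl ∧
      (∀ f ∈ faces τ G S, FreeSlot τ S lev f.1 (sl f)) ∧
      20 * nu μ (Fin 100 → J) (faces τ G S) ≤ nu μ (J × Bool) G.branch + 20 * g ∧
      G.vOn μ G.hair + g ≤ G.vOn μ (G.withE (G.E \ removed τ (faces τ G S) sl)).hair := by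
  have hW := hG.wf
  have hFm := meas_faces τ hW hS
  have hgm : Measurable fun f => ∃ j, Good τ G S lev f j :=
    Measurable.exists fun j => meas_good hW hS hlev j
  obtain ⟨sl, hsl, hsl'⟩ := meas_choice_idx
    (f := fun (f : X × (Fin 100 → J)) (i : Fin 100) =>
      (f ∈ faces τ G S → FreeSlot τ S lev f.1 i) ∧
        ((∃ j, Good τ G S lev f j) → Good τ G S lev f i))
    (fun i => ((measurableSet_setOfPred.1 hFm).imp
      ((meas_freeSlot hS hlev i).comp measurable_fst)).and (hgm.imp (meas_good hW hS hlev i)))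
    (by
      intro f
      by_cases h : ∃ j, Good τ G S lev f j
      · obtain ⟨j, hj⟩ := h
        exact ⟨j, fun _ => hj.1, fun _ => hj⟩
      · by_cases hf : f ∈ faces τ G S
        · have h1 := hT _ hf.1
          obtain ⟨i, hi⟩ : {i | FreeSlot τ S lev f.1 i}.Nonempty :=
            nonempty_of_ncard_ne_zero (by omega)
          exact ⟨i, fun _ => hi, fun h' => (h h').elim⟩
        · exact ⟨0, fun h' => (hf h').elim, fun h' => (h h').elim⟩)
  set D : Set (X × (Fin 100 → J)) := {f | f ∈ faces τ G S ∧ ∃ j, Good τ G S lev f j} with hD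
  have hDm : MeasurableSet D := hFm.inter (measurableSet_setOfPred.2 hgm)
  have hfree : ∀ f ∈ faces τ G S, FreeSlot τ S lev f.1 (sl f) := fun f hf => (hsl' f).1 hf
  have hgood : ∀ f ∈ D, Good τ G S lev f (sl f) := fun f hf => (hsl' f).2 hf.2
  refine ⟨sl, nu μ (Fin 100 → J) D, hsl, hfree, ?_, ?_⟩
  · have h1 : nu μ (Fin 100 → J) (faces τ G S) ≤
        nu μ (Fin 100 → J) {f | f ∈ faces τ G S ∧ ¬ ∃ j, Good τ G S lev f j} +
          nu μ (Fin 100 → J) D := by
      refine le_trans (measure_mono ?_) (measure_union_le _ _)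
      intro f hf
      by_cases h : ∃ j, Good τ G S lev f j
      · exact Or.inr ⟨hf, h⟩
      · exact Or.inl ⟨hf, h⟩
    calc 20 * nu μ (Fin 100 → J) (faces τ G S)
        ≤ 20 * (nu μ (Fin 100 → J) {f | f ∈ faces τ G S ∧ ¬ ∃ j, Good τ G S lev f j} +
          nu μ (Fin 100 → J) D) := by gcongr
      _ = 20 * nu μ (Fin 100 → J) {f | f ∈ faces τ G S ∧ ¬ ∃ j, Good τ G S lev f j} +
          20 * nu μ (Fin 100 → J) D := mul_add _ _ _
      _ ≤ _ := by gcongr; exact bad_le hW hF hS hlev hT
  · set G' := G.withE (G.E \ removed τ (faces τ G S) sl) with hG'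
    have hsub : G.hair ⊆ G'.hair := by
      rintro p ⟨h1, h2, h3⟩
      refine ⟨h1, h2, ?_⟩
      rw [deg_eq, hG', at_withE, ← h3, deg_eq]
      congr 1
      ext d
      refine ⟨fun h => h.1, fun h => ⟨h, ?_⟩⟩
      rintro ⟨f, hf, he⟩
      have h4 : en (slot τ f (sl f)) d.2.2 ∈ at' G p := by rw [← he]; exact h
      have h5 := two_le_deg_of_slot hW hf _ _ h4
      rw [h3] at h5
      exact absurd h5 (by norm_num)
    have hn : Measurable fun f : X × (Fin 100 → J) => G.t (slot τ f (sl f)) :=
      hW.mt.comp (meas_slot τ measurable_id hsl)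
    have hmid : ∀ f ∈ D, ∀ p, G.R p (G.t (slot τ f (sl f))) → p ∈ G'.hair \ G.hair := by
      intro f hf p hp
      obtain ⟨g1, g2, g3, g4⟩ := hgood f hf
      have hpair := at_eq_pair hW hf.1 (sl f) hp (by rwa [hW.deg_congr hp])
      refine ⟨⟨hW.sat _ (hW.tP _ (hf.1.2 _).1) _ (hW.eqv.symm hp), ?_, ?_⟩, ?_⟩
      · exact g3.subset fun q hq => hW.eqv.trans (hW.eqv.symm hp) hq
      · rw [deg_eq, hG', at_withE, hpair, encard_eq_one]
        refine ⟨en (slot τ f (sl f + 1)) false, ?_⟩
        ext d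
        constructor
        · rintro ⟨rfl | rfl, h⟩
          · exact (h ⟨f, hf.1, rfl⟩).elim
          · rfl
        · rintro rfl
          refine ⟨Or.inr rfl, ?_⟩
          rintro ⟨f', hf', he⟩
          obtain ⟨rfl, h⟩ := face_free' hF hW hf.1 hf' g2 (hfree f' hf') he.symm
          have : (1 : Fin 100) = 0 := by simpa using h.symm
          exact absurd this (by decide)
      · rintro ⟨-, -, h3⟩
        have h5 := two_le_deg hW hf.1 _ hp
        rw [h3] at h5
        exact absurd h5 (by norm_num)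
    have hone : ∀ p, {f | f ∈ D ∧ G.R p (G.t (slot τ f (sl f)))}.Subsingleton := by
      rintro p f ⟨hf, hp⟩ f' ⟨hf', hp'⟩
      have hpair := at_eq_pair hW hf.1 (sl f) hp (by rw [hW.deg_congr hp]; exact (hgood f hf).2.2.2)
      have h1 := (corner_mem hW hf'.1 (sl f') hp').1
      rw [hpair] at h1
      rcases h1 with h1 | h1
      · exact (face_free' hF hW hf.1 hf'.1 (hfree f hf.1) (hfree f' hf'.1) (en_inj h1).1).1.symm
      · exact (corner_ne _ _ h1).elim
    have hm := wt_mtp Γ (μ := μ) hW.mR hW.orbR hW.eqv hDm hn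
      (fun f hf => (Orb.smul (τ (sl f)) f.1).trans (hW.orbt _ (hf.1.2 _).1))
      (φ := fun _ => 1) measurable_const (fun _ _ _ => rfl)
    have hDe : {d | d ∈ D ∧ {q | G.R (G.t (slot τ d (sl d))) q}.Finite} = D := by
      ext f
      exact ⟨fun h => h.1, fun h => ⟨h, (hgood f h).2.2.1⟩⟩
    rw [hDe, setLIntegral_one] at hm
    have hle : nu μ (Fin 100 → J) D ≤ G.vOn μ (G'.hair \ G.hair) := by
      rw [← hm]
      refine le_trans (lintegral_mono fun p => ?_) (lintegral_indicator_le _ _)
      by_cases hp : p ∈ G'.hair \ G.hair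
      · rw [indicator_of_mem hp, mul_one]
        exact mul_le_of_le_one_right' (cnt_le_one (hone p))
      · have : {f | f ∈ D ∧ G.R p (G.t (slot τ f (sl f)))} = ∅ :=
          eq_empty_of_forall_notMem fun f hf => hp (hmid f hf.1 p hf.2)
        rw [cnt_eq_zero.2 this, mul_zero]
        exact zero_le
    have hsplit := lintegral_inter_add_sdiff (μ := nu μ I) (wt G.R) G'.hair hW.mhair
    rw [inter_eq_self_of_subset_right hsub] at hsplit
    calc G.vOn μ G.hair + nu μ (Fin 100 → J) D
        ≤ G.vOn μ G.hair + G.vOn μ (G'.hair \ G.hair) := by gcongr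
      _ = G.vOn μ G'.hair := hsplit

end Crest.Agent.R191
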