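import Mathlib
import Crest.Prelude.Def_Cost

/-!
# R191 (S0291): definitions

Throughout, a countable group `Γ` acts freely (`IsCancelSMul`), measurably and preserving a
probability measure `μ` on a standard Borel space `X`.  "Index types" `A` are countable with the
discrete sigma-algebra (`[Countable A] [MeasurableSpace A] [MeasurableSingletonClass A]`), and
`nu μ A = μ × counting measure` on `X × A`.  Relations between points of `X × A`, `X × B` are jointly
measurable and *orbital* (only relate points whose `X`-coordinates are in one `Γ`-orbit).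

A *graph* `G : Gr X I J` has nodes = classes of the equivalence relation `G.R` on the points of
`G.P ⊆ X × I` and edges `G.E ⊆ X × J` with origin `G.o` and target `G.t`.  `G.e μ` is the measure
of the edges, `G.v μ` "the measure of the set of classes" (each point of a class of `n` points has
weight `1/n`, infinite classes have weight `0`).

Given a subgroup `Λ` and `a : Γ`, the *model graph* `K` has as vertices the `Λ`-orbits, and for each
`x : X` an edge labelled `x` from `Λ x` to `Λ a x`.  An admissible graph (`Gr.Adm`) lies over `K`: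
the node `(x, i)` lies over `Λ x` and the edge `(x, j)` over the `K`-edge `x`.  Given
`τ : Fin 100 → Γ` with `τ (m+1) ∈ Λ a τ m` (cyclically), each `y : X` gives a *face* of `K`, the
closed path of the edges `τ 0 • y, …, τ 99 • y`.
-/

set_option autoImplicit false

open MeasureTheory Set
open scoped ENNReal

namespace Crest.Agent.R191

instance instSingletonSum {A B : Type} [MeasurableSpace A] [MeasurableSingletonClass A]
    [MeasurableSpace B] [MeasurableSingletonClass B] : MeasurableSingletonClass (A ⊕ B) :=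
  ⟨fun x => by
    rcases x with a | b
    · simpa using (measurableSet_singleton a).inl_image (β := B)
    · simpa using (measurableSet_singleton b).inr_image (α := A)⟩

/-- `y` is in the `G`-orbit of `x` (used with `G := Γ` and with `G := ↥Λ`). -/
def Orb (G : Type) {X : Type} [SMul G X] (x y : X) : Prop := ∃ g : G, y = g • x

/-- `μ × counting measure`. -/
noncomputable def nu {X : Type} [MeasurableSpace X] (μ : Measure X) (A : Type)
    [MeasurableSpace A] : Measure (X × A) := μ.prod Measure.count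

/-- The cardinality of a set, in `ℝ≥0∞`. -/
noncomputable def cnt {N : Type} (s : Set N) : ℝ≥0∞ := (s.encard : ℝ≥0∞)

/-- Weight of a point: one over the size of its class (`0` for an infinite class). -/
noncomputable def wt {N : Type} (R : N → N → Prop) (p : N) : ℝ≥0∞ := (cnt {q | R p q})⁻¹

/-- A graph: nodes are `R`-classes of points of `P`, edges are the points of `E`. -/
structure Gr (X I J : Type) where
  P : Set (X × I)
  R : X × I → X × I → Prop
  E : Set (X × J)
  o : X × J → X × I
  t : X × J → X × I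

namespace Gr

variable {X I J : Type}

/-- measure of the edges -/
noncomputable def e [MeasurableSpace X] [MeasurableSpace J] (G : Gr X I J) (μ : Measure X) :
    ℝ≥0∞ := nu μ J G.E

/-- measure of the nodes lying in `s` -/
noncomputable def vOn [MeasurableSpace X] [MeasurableSpace I] (G : Gr X I J) (μ : Measure X)
    (s : Set (X × I)) : ℝ≥0∞ := ∫⁻ p in s, wt G.R p ∂(nu μ I)

/-- measure of the nodes -/
noncomputable def v [MeasurableSpace X] [MeasurableSpace I] (G : Gr X I J) (μ : Measure X) :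
    ℝ≥0∞ := G.vOn μ G.P

def Step (G : Gr X I J) (p q : X × I) : Prop := G.R p q ∨ ∃ ε ∈ G.E, p = G.o ε ∧ q = G.t ε

/-- connected in the graph -/
def Conn (G : Gr X I J) : X × I → X × I → Prop := Relation.EqvGen G.Step

/-- Well-formed: measurable, orbital, `P` is a union of classes and contains the ends of edges. -/
structure WF (Γ : Type) [SMul Γ X] [MeasurableSpace X] [MeasurableSpace I] [MeasurableSpace J]
    (G : Gr X I J) : Prop where
  mP : MeasurableSet G.P
  mR : Measurable fun z : (X × I) × (X × I) => G.R z.1 z.2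
  mE : MeasurableSet G.E
  mo : Measurable G.o
  mt : Measurable G.t
  eqv : Equivalence G.R
  orbR : ∀ p q, G.R p q → Orb Γ p.1 q.1
  orbo : ∀ ε ∈ G.E, Orb Γ ε.1 (G.o ε).1
  orbt : ∀ ε ∈ G.E, Orb Γ ε.1 (G.t ε).1
  sat : ∀ p ∈ G.P, ∀ q, G.R p q → q ∈ G.P
  oP : ∀ ε ∈ G.E, G.o ε ∈ G.P
  tP : ∀ ε ∈ G.E, G.t ε ∈ G.P

/-- Admissible: lies over the model graph `K`, contains the "star" nodes `{(y, st) | y ∈ Λ x}`,
every node is connected to a star, and the stars over the two ends of a `K`-edge are connected. -/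
structure Adm {Γ : Type} [Group Γ] [MulAction Γ X] [MeasurableSpace X] [MeasurableSpace I]
    [MeasurableSpace J] (Λ : Subgroup Γ) (a : Γ) (st : I) (G : Gr X I J) : Prop where
  wf : G.WF Γ
  sR : ∀ p q, G.R p q → Orb Λ p.1 q.1
  so : ∀ ε ∈ G.E, Orb Λ ε.1 (G.o ε).1
  st' : ∀ ε ∈ G.E, Orb Λ (a • ε.1) (G.t ε).1
  starP : ∀ x, (x, st) ∈ G.P
  starR : ∀ x, ∀ l ∈ Λ, G.R (x, st) (l • x, st)
  conn : ∀ p ∈ G.P, ∃ x, G.Conn p (x, st)
  gen : ∀ x, G.Conn (x, st) (a • x, st)

/-- Folded with respect to the labelling `(x, j) ↦ (x, lab (x, j))`: two edges with the same label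
and a common origin node or a common target node coincide. -/
def FoldedBy {L : Type} (G : Gr X I J) (lab : X × J → L) : Prop :=
  ∀ x j j', (x, j) ∈ G.E → (x, j') ∈ G.E → lab (x, j) = lab (x, j') →
    (G.R (G.o (x, j)) (G.o (x, j')) ∨ G.R (G.t (x, j)) (G.t (x, j'))) → j = j'

/-- Folded over `K` (the label of `(x, j)` is `x`). -/
def Folded (G : Gr X I J) : Prop :=
  ∀ x j j', (x, j) ∈ G.E → (x, j') ∈ G.E →
    (G.R (G.o (x, j)) (G.o (x, j')) ∨ G.R (G.t (x, j)) (G.t (x, j'))) → j = j'

/-- The same graph with another edge set. -/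
def withE (G : Gr X I J) (E' : Set (X × J)) : Gr X I J := { G with E := E' }

/-- The node at an end of an edge (`true` = target, `false` = origin). -/
def nd (G : Gr X I J) (d : X × (J × Bool)) : X × I :=
  if d.2.2 = true then G.t (d.1, d.2.1) else G.o (d.1, d.2.1)

/-- Edge ends. -/
def ends (G : Gr X I J) : Set (X × (J × Bool)) := {d | (d.1, d.2.1) ∈ G.E}

/-- Degree of the node of `p`. -/
noncomputable def deg (G : Gr X I J) (p : X × I) : ℕ∞ :=
  {d | d ∈ G.ends ∧ G.R p (G.nd d)}.encard

/-- Points of finite nodes of degree one. -/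
def hair (G : Gr X I J) : Set (X × I) := {p | p ∈ G.P ∧ {q | G.R p q}.Finite ∧ G.deg p = 1}

/-- Edge ends at infinite nodes or at nodes of degree at least three. -/
def branch (G : Gr X I J) : Set (X × (J × Bool)) :=
  {d | d ∈ G.ends ∧ ({q | G.R (G.nd d) q}.Infinite ∨ 3 ≤ G.deg (G.nd d))}

/-- Edges between the stars over the ends of their `K`-edge. -/
def trueE {Γ : Type} [SMul Γ X] (G : Gr X I J) (a : Γ) (st : I) : Set (X × J) :=
  {ε | ε ∈ G.E ∧ G.R (G.o ε) (ε.1, st) ∧ G.R (G.t ε) (a • ε.1, st)}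

end Gr

section faces

variable {Γ X I J : Type} [Group Γ] [MulAction Γ X]

/-- The `m`-th edge of the face `f` (whose label is `f.1`). -/
def slot (τ : Fin 100 → Γ) (f : X × (Fin 100 → J)) (m : Fin 100) : X × J := (τ m • f.1, f.2 m)

/-- Closed paths in `G` over the faces of `K` with label in `S`. -/
def faces (τ : Fin 100 → Γ) (G : Gr X I J) (S : Set X) : Set (X × (Fin 100 → J)) :=
  {f | f.1 ∈ S ∧ ∀ m, slot τ f m ∈ G.E ∧ G.R (G.t (slot τ f m)) (G.o (slot τ f (m + 1)))}

/-- The edges `slot f (sl f)`, `f ∈ F`. -/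
def removed (τ : Fin 100 → Γ) (F : Set (X × (Fin 100 → J))) (sl : X × (Fin 100 → J) → Fin 100) :
    Set (X × J) := {ε | ∃ f ∈ F, ε = slot τ f (sl f)}

/-- The `K`-edge `τ i • y` lies on no other face `y' ∈ S` with `lev y ≤ lev y'`. -/
def FreeSlot (τ : Fin 100 → Γ) (S : Set X) (lev : X → ℕ) (y : X) (i : Fin 100) : Prop :=
  ∀ i', i' ≠ i → (τ i')⁻¹ • τ i • y ∈ S → lev ((τ i')⁻¹ • τ i • y) < lev y

/-- The cyclic product of the permutations `ρ 0, …, ρ 99` is trivial. -/
def FaceRel {Z : Type} (ρ : Fin 100 → Equiv.Perm Z) : Prop :=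
  ∀ (c : Fin 100 → Z) (i : Fin 100), (∀ m, m ≠ i → ρ m (c m) = c (m + 1)) → ρ i (c i) = c (i + 1)

/-- "`Θ → H ∪ F` is surjective on fundamental groups and bijective on components", semantically.
`Θ` maps to `H` by `(x, j) ↦ (x, lab (x, j))`, and the points `(x, i)` of `H` are the points
`(x, ι i)` of `Θ`. -/
def SP (τ : Fin 100 → Γ) {I₁ J₁ : Type} (H : Gr X I₁ J₁) (F : Set (X × (Fin 100 → J₁)))
    (Θ : Gr X I J) (lab : X × J → J₁) (ι : I₁ → I) : Prop :=
  ∀ (Z : Type) (σ : X × J₁ → Equiv.Perm Z) (m : X × I → Z),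
    (∀ f ∈ F, FaceRel fun k => σ (slot τ f k)) →
    (∀ p q, Θ.R p q → m p = m q) →
    (∀ ε ∈ Θ.E, σ (ε.1, lab ε) (m (Θ.o ε)) = m (Θ.t ε)) →
    (∀ p q, H.R p q → m (p.1, ι p.2) = m (q.1, ι q.2)) ∧
      ∀ ε ∈ H.E, σ ε (m ((H.o ε).1, ι (H.o ε).2)) = m ((H.t ε).1, ι (H.t ε).2)

/-- Closure of `G` under folding and under closing up paths that read 99 consecutive edges of a
face with label in `S`.  `Cl τ G S none p q`: the points `p`, `q` are identified;
`Cl τ G S (some x) p q`: there is an edge labelled `x` from `p` to `q`. -/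
inductive Cl (τ : Fin 100 → Γ) (G : Gr X I J) (S : Set X) : Option X → X × I → X × I → Prop
  | base {p q : X × I} : G.R p q → Cl τ G S none p q
  | symm {p q : X × I} : Cl τ G S none p q → Cl τ G S none q p
  | trans {p q r : X × I} : Cl τ G S none p q → Cl τ G S none q r → Cl τ G S none p r
  | orig {ε : X × J} : ε ∈ G.E → Cl τ G S (some ε.1) (G.o ε) (G.t ε)
  | congr {x : X} {p q p' q' : X × I} : Cl τ G S (some x) p q → Cl τ G S none p p' →
      Cl τ G S none q q' → Cl τ G S (some x) p' q'
  | foldO {x : X} {p q q' : X × I} : Cl τ G S (some x) p q → Cl τ G S (some x) p q' →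
      Cl τ G S none q q'
  | foldT {x : X} {p p' q : X × I} : Cl τ G S (some x) p q → Cl τ G S (some x) p' q →
      Cl τ G S none p p'
  | close {y : X} (c : Fin 100 → X × I) (i : Fin 100) : y ∈ S →
      (∀ m, m ≠ i → Cl τ G S (some (τ m • y)) (c m) (c (m + 1))) →
      Cl τ G S (some (τ i • y)) (c i) (c (i + 1))

/-- 99 consecutive edges of the face `y` can be read in the closure. -/
def Readable (τ : Fin 100 → Γ) (G : Gr X I J) (S : Set X) (y : X) : Prop :=
  ∃ (i : Fin 100) (c : Fin 100 → X × I),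
    ∀ m, m ≠ i → Cl τ G S (some (τ m • y)) (c m) (c (m + 1))

end faces

section group

variable {Γ : Type} [Group Γ]

/-- The hypergraph `g ↦ {τ i * g}` is a tree: an element of maximal `ℓ` shares at most one of
its images. -/
def Leaf (τ : Fin 100 → Γ) : Prop :=
  ∃ (ℓ : Γ → ℕ) (i0 : Γ → Fin 100), ∀ (g g' : Γ) (i j : Fin 100),
    τ i * g = τ j * g' → g ≠ g' → ℓ g' ≤ ℓ g → i = i0 g

/-- A folded graph over `K` in which every 99-reading of a face closes up contains the `K`-edge
between any two connected nodes over the ends of a `K`-edge. -/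
def Complete (Λ : Subgroup Γ) (a : Γ) (τ : Fin 100 → Γ) : Prop :=
  ∀ (X V : Type) [MulAction Γ X] [IsCancelSMul Γ X] (b : V → X) (Q : V → V → Prop)
    (Ed : X → V → V → Prop), Equivalence Q →
    (∀ p q, Q p q → Orb Λ (b p) (b q)) →
    (∀ x p q, Ed x p q → Orb Λ x (b p) ∧ Orb Λ (a • x) (b q)) →
    (∀ x p q p' q', Ed x p q → Q p p' → Q q q' → Ed x p' q') →
    (∀ x p q q', Ed x p q → Ed x p q' → Q q q') →
    (∀ x p p' q, Ed x p q → Ed x p' q → Q p p') →
    (∀ (y : X) (c : Fin 100 → V) (i : Fin 100),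
      (∀ m, m ≠ i → Ed (τ m • y) (c m) (c (m + 1))) → Ed (τ i • y) (c i) (c (i + 1))) →
    ∀ x p q, Orb Λ x (b p) → Orb Λ (a • x) (b q) →
      Relation.EqvGen (fun p q => Q p q ∨ ∃ x, Ed x p q) p q → Ed x p q

/-- Everything the lower bound needs about the group. -/
structure GD (Λ : Subgroup Γ) (a : Γ) (τ : Fin 100 → Γ) : Prop where
  inf : Infinite Λ
  gen : Subgroup.closure (insert a (Λ : Set Γ)) = ⊤
  cyc : ∀ m, τ (m + 1) * (a * τ m)⁻¹ ∈ Λ
  inj : Function.Injective τ
  complete : Complete Λ a τ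

/-- Small sets expand. -/
def Exp {X : Type} [MulAction Γ X] [MeasurableSpace X] (τ : Fin 100 → Γ) (μ : Measure X)
    (c : ℝ≥0∞) : Prop :=
  ∀ A : Set X, MeasurableSet A → μ A ≤ c → 80 * μ A ≤ μ {x | ∃ i, (τ i)⁻¹ • x ∈ A}

end group

end Crest.Agent.R191
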