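import Mathlib

/-! # R191: Shannon entropy of finite families of events -/

set_option autoImplicit false
set_option linter.unusedSectionVars false

open MeasureTheory Set

namespace Crest.Agent.R191

variable {Ω ι : Type} [MeasurableSpace Ω] [DecidableEq ι]

/-- The atom of the events `ξ s`, `s ∈ S`, on which exactly the events with index in `T` occur. -/
def atom (ξ : ι → Set Ω) (S T : Finset ι) : Set Ω := {y | ∀ s ∈ S, y ∈ ξ s ↔ s ∈ T}

/-- Entropy of the partition generated by the events `ξ s`, `s ∈ S`. -/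
noncomputable def ent (μ : Measure Ω) (ξ : ι → Set Ω) (S : Finset ι) : ℝ :=
  ∑ T ∈ S.powerset, Real.negMulLog (μ.real (atom ξ S T))

variable {μ : Measure Ω} [IsProbabilityMeasure μ] {ξ : ι → Set Ω}

namespace EntropyAux

theorem meas_atom (hξ : ∀ s, MeasurableSet (ξ s)) (S T : Finset ι) :
    MeasurableSet (atom ξ S T) := by
  have : atom ξ S T = ⋂ s ∈ S, {y | y ∈ ξ s ↔ s ∈ T} := by
    ext y; simp [atom]
  rw [this]
  refine Finset.measurableSet_biInter _ fun s _ => ?_
  by_cases h : s ∈ T
  · simpa [h] using hξ s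
  · have : {y | y ∈ ξ s ↔ s ∈ T} = (ξ s)ᶜ := by ext y; simp [h]
    rw [this]
    exact (hξ s).compl

theorem atom_insert {S T : Finset ι} {u : ι} (hu : u ∉ S) (hT : T ∈ S.powerset) :
    atom ξ (insert u S) T = atom ξ S T \ ξ u := by
  have : u ∉ T := fun h => hu (Finset.mem_powerset.mp hT h)
  ext y
  simp [atom, this, and_comm]

theorem atom_insert_insert {S T : Finset ι} {u : ι} (hu : u ∉ S) :
    atom ξ (insert u S) (insert u T) = atom ξ S T ∩ ξ u := by
  ext y
  simp only [atom, Finset.mem_insert, forall_eq_or_imp, true_or, iff_true, mem_ofPred_eq,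
    mem_inter_iff]
  rw [and_comm]
  refine and_congr_left fun _ => forall_congr' fun s => forall_congr' fun hs => ?_
  have : s ≠ u := fun h => hu (h ▸ hs)
  simp [this]

theorem sum_insert {S : Finset ι} {u : ι} (hu : u ∉ S) (F : Set Ω → Finset ι → ℝ) :
    ∑ T ∈ (insert u S).powerset, F (atom ξ (insert u S) T) T =
      ∑ T ∈ S.powerset, (F (atom ξ S T ∩ ξ u) (insert u T) + F (atom ξ S T \ ξ u) T) := by
  rw [Finset.sum_powerset_insert hu, add_comm, Finset.sum_add_distrib]
  congr 1
  · exact Finset.sum_congr rfl fun T _ => by rw [atom_insert_insert hu]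
  · exact Finset.sum_congr rfl fun T hT => by rw [atom_insert hu hT]

theorem split (hξ : ∀ s, MeasurableSet (ξ s)) (A : Set Ω) (u : ι) :
    μ.real (A ∩ ξ u) + μ.real (A \ ξ u) = μ.real A :=
  measureReal_inter_add_sdiff (hξ u)

theorem idc {α : Type} (A B C : Set α) : (A ∩ B) \ C = A \ C ∩ B := by
  ext; simp only [mem_inter_iff, mem_sdiff]; tauto

theorem ddc {α : Type} (A B C : Set α) : (A \ B) \ C = (A \ C) \ B := by
  ext; simp only [mem_sdiff]; tauto

theorem sum_atom_inter (hξ : ∀ s, MeasurableSet (ξ s)) (S : Finset ι) (A : Set Ω) :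
    ∑ T ∈ S.powerset, μ.real (atom ξ S T ∩ A) = μ.real A := by
  induction S using Finset.induction_on with
  | empty => simp [atom]
  | insert u S hu ih =>
    rw [sum_insert hu (fun B _ => μ.real (B ∩ A)), ← ih]
    refine Finset.sum_congr rfl fun T _ => ?_
    rw [← split hξ (atom ξ S T ∩ A) u, inter_right_comm, idc]

/-- The two-point conditional entropy functional. -/
noncomputable def g (a b : ℝ) : ℝ := Real.negMulLog a + Real.negMulLog b - Real.negMulLog (a + b)

theorem sub_le_mul_log {x y : ℝ} (hx : 0 < x) (hy : 0 < y) :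
    x - y ≤ x * Real.log x - x * Real.log y := by
  have h := Real.log_le_sub_one_of_pos (div_pos hy hx)
  rw [Real.log_div hy.ne' hx.ne'] at h
  have h2 := mul_le_mul_of_nonneg_left h hx.le
  have h3 : x * (y / x - 1) = y - x := by field_simp
  linarith

theorem four {a s A N : ℝ} (ha : 0 ≤ a) (hs : a ≤ s) (hA : a ≤ A) (hN : A ≤ N) :
    a - s * A / N ≤ a * Real.log a - a * Real.log s - a * Real.log A + a * Real.log N := by
  rcases ha.eq_or_lt with rfl | ha
  · have : 0 ≤ s * A / N := div_nonneg (mul_nonneg hs hA) (hA.trans hN)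
    linarith
  · have h1 : 0 < s := ha.trans_le hs
    have h2 : 0 < A := ha.trans_le hA
    have h3 : 0 < N := h2.trans_le hN
    have h := sub_le_mul_log ha (div_pos (mul_pos h1 h2) h3)
    rw [Real.log_div (mul_pos h1 h2).ne' h3.ne', Real.log_mul h1.ne' h2.ne'] at h
    linarith

theorem g_superadd {a b c d : ℝ} (ha : 0 ≤ a) (hb : 0 ≤ b) (hc : 0 ≤ c) (hd : 0 ≤ d) :
    g a b + g c d ≤ g (a + c) (b + d) := by
  have h1 := four (s := a + b) (A := a + c) (N := a + c + (b + d)) ha (by linarith) (by linarith)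
    (by linarith)
  have h2 := four (s := a + b) (A := b + d) (N := a + c + (b + d)) hb (by linarith) (by linarith)
    (by linarith)
  have h3 := four (s := c + d) (A := a + c) (N := a + c + (b + d)) hc (by linarith) (by linarith)
    (by linarith)
  have h4 := four (s := c + d) (A := b + d) (N := a + c + (b + d)) hd (by linarith) (by linarith)
    (by linarith)
  have h5 : (a + b) * (a + c) / (a + c + (b + d)) + (a + b) * (b + d) / (a + c + (b + d)) +
      (c + d) * (a + c) / (a + c + (b + d)) + (c + d) * (b + d) / (a + c + (b + d)) =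
      a + c + (b + d) := by
    rw [← add_div, ← add_div, ← add_div, ← mul_self_div_self (a + c + (b + d)),
      mul_self_div_self]
    rw [show (a + b) * (a + c) + (a + b) * (b + d) + (c + d) * (a + c) + (c + d) * (b + d) =
      (a + c + (b + d)) * (a + c + (b + d)) by ring, mul_self_div_self]
  simp only [g, Real.negMulLog]
  linarith

theorem ent_insert (hξ : ∀ s, MeasurableSet (ξ s)) {S : Finset ι} {u : ι} (hu : u ∉ S) :
    ent μ ξ (insert u S) - ent μ ξ S =
      ∑ T ∈ S.powerset, g (μ.real (atom ξ S T ∩ ξ u)) (μ.real (atom ξ S T \ ξ u)) := by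
  unfold ent
  rw [sum_insert hu (fun B _ => Real.negMulLog (μ.real B)), ← Finset.sum_sub_distrib]
  refine Finset.sum_congr rfl fun T _ => ?_
  rw [g, split hξ]

theorem ent_step (hξ : ∀ s, MeasurableSet (ξ s)) {S : Finset ι} {s u : ι} (hs : s ∉ S)
    (hu : u ∉ insert s S) :
    ent μ ξ (insert u (insert s S)) - ent μ ξ (insert s S) ≤ ent μ ξ (insert u S) - ent μ ξ S := by
  rw [ent_insert hξ hu, ent_insert hξ (fun h => hu (Finset.mem_insert_of_mem h)),
    sum_insert hs (fun B _ => g (μ.real (B ∩ ξ u)) (μ.real (B \ ξ u)))]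
  refine Finset.sum_le_sum fun T _ => ?_
  refine (g_superadd measureReal_nonneg measureReal_nonneg measureReal_nonneg
    measureReal_nonneg).trans (le_of_eq ?_)
  rw [← split hξ (atom ξ S T ∩ ξ u) s, ← split hξ (atom ξ S T \ ξ u) s, inter_right_comm,
    idc _ (ξ u), idc _ (ξ s), ddc]

end EntropyAux

open EntropyAux

theorem sum_atom (hξ : ∀ s, MeasurableSet (ξ s)) (S : Finset ι) :
    ∑ T ∈ S.powerset, μ.real (atom ξ S T) = 1 := by
  simpa using sum_atom_inter (μ := μ) hξ S univ

theorem sum_atom_card (hξ : ∀ s, MeasurableSet (ξ s)) (S : Finset ι) :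
    ∑ T ∈ S.powerset, μ.real (atom ξ S T) * T.card = ∑ s ∈ S, μ.real (ξ s) := by
  induction S using Finset.induction_on with
  | empty => simp
  | insert u S hu ih =>
    rw [sum_insert hu (fun B T => μ.real B * T.card), Finset.sum_insert hu, ← ih,
      ← sum_atom_inter hξ S (ξ u), ← Finset.sum_add_distrib]
    refine Finset.sum_congr rfl fun T hT => ?_
    rw [Finset.card_insert_of_notMem (fun h => hu (Finset.mem_powerset.mp hT h)),
      ← split hξ (atom ξ S T) u]
    push_cast
    ring

theorem ent_empty : ent μ ξ ∅ = 0 := by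
  simp [ent, atom]

theorem ent_singleton (hξ : ∀ s, MeasurableSet (ξ s)) (u : ι) :
    ent μ ξ {u} = Real.negMulLog (μ.real (ξ u)) + Real.negMulLog (1 - μ.real (ξ u)) := by
  have h := ent_insert (μ := μ) hξ (Finset.notMem_empty u)
  have h2 := split (μ := μ) hξ univ u
  simp only [univ_inter, probReal_univ] at h2
  have h3 : μ.real (univ \ ξ u) = 1 - μ.real (ξ u) := by linarith
  simpa [ent_empty, atom, g, h3] using h

/-- Gibbs' inequality (`log t ≤ t - 1`). -/
theorem ent_le_gibbs (hξ : ∀ s, MeasurableSet (ξ s)) (S : Finset ι) {q : Finset ι → ℝ}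
    (hq : ∀ T ∈ S.powerset, 0 < q T) (h1 : ∑ T ∈ S.powerset, q T ≤ 1) :
    ent μ ξ S ≤ ∑ T ∈ S.powerset, μ.real (atom ξ S T) * (-Real.log (q T)) := by
  have h2 : ∑ T ∈ S.powerset, (μ.real (atom ξ S T) - q T) ≤ ∑ T ∈ S.powerset,
      (μ.real (atom ξ S T) * (-Real.log (q T)) - Real.negMulLog (μ.real (atom ξ S T))) := by
    refine Finset.sum_le_sum fun T hT => ?_
    rcases (measureReal_nonneg (μ := μ) (s := atom ξ S T)).eq_or_lt with h | h
    · rw [← h]
      have := hq T hT
      simp only [zero_mul, Real.negMulLog_zero]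
      linarith
    · have := sub_le_mul_log h (hq T hT)
      simp only [Real.negMulLog]
      linarith
  rw [Finset.sum_sub_distrib, Finset.sum_sub_distrib, sum_atom hξ] at h2
  unfold ent
  linarith

theorem ent_singleton_le (hξ : ∀ s, MeasurableSet (ξ s)) (u : ι) :
    ent μ ξ {u} ≤ Real.log 2 := by
  rw [ent_singleton hξ, ← Real.binEntropy_eq_negMulLog_add_negMulLog_one_sub]
  exact Real.binEntropy_le_log_two

/-- Submodularity: conditioning on more reduces the entropy of `ξ u`.
Proof: with `p(T) = μ (atom S T)`, `p(T, b)` the masses of its two halves cut by `ξ u`, and `p'` the same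
for `S'`, the claim is `∑ p(T,b) log (p(T) p'(T ∩ S', b) / (p(T,b) p'(T ∩ S'))) ≤ 0`, by
`log t ≤ t - 1` and `∑_{T : T ∩ S' = T'} p(T) = p'(T')`.  (Equivalently: the function
`(a, b) ↦ negMulLog a + negMulLog b - negMulLog (a + b)` is superadditive on `[0, ∞)²`, which gives
the case `S = insert s S'`; then induct.) -/
theorem ent_insert_le (hξ : ∀ s, MeasurableSet (ξ s)) {S S' : Finset ι} (hS : S' ⊆ S) {u : ι}
    (hu : u ∉ S) : ent μ ξ (insert u S) - ent μ ξ S ≤ ent μ ξ (insert u S') - ent μ ξ S' := by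
  have key : ∀ D : Finset ι, Disjoint D S' → u ∉ D ∪ S' →
      ent μ ξ (insert u (D ∪ S')) - ent μ ξ (D ∪ S') ≤ ent μ ξ (insert u S') - ent μ ξ S' := by
    intro D
    induction D using Finset.induction_on with
    | empty => intro _ _; simp
    | insert s D hs ih =>
      intro hd hu
      rw [Finset.disjoint_insert_left] at hd
      rw [Finset.insert_union] at hu ⊢
      exact (ent_step hξ (by simp [hs, hd.1]) hu).trans
        (ih hd.2 fun h => hu (Finset.mem_insert_of_mem h))
  have := key (S \ S') Finset.sdiff_disjoint (by rwa [Finset.sdiff_union_of_subset hS])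
  rwa [Finset.sdiff_union_of_subset hS] at this

/-- An event determined by the events of `S` does not add entropy. -/
theorem ent_insert_of_det (hξ : ∀ s, MeasurableSet (ξ s)) {S : Finset ι} {u : ι}
    (h : ∀ x y, (∀ s ∈ S, x ∈ ξ s ↔ y ∈ ξ s) → (x ∈ ξ u ↔ y ∈ ξ u)) :
    ent μ ξ (insert u S) = ent μ ξ S := by
  by_cases hu : u ∈ S
  · rw [Finset.insert_eq_of_mem hu]
  rw [← sub_eq_zero, ent_insert hξ hu]
  refine Finset.sum_eq_zero fun T _ => ?_
  rcases (atom ξ S T ∩ ξ u).eq_empty_or_nonempty with h1 | ⟨x, hx, hxu⟩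
  · simp [h1, g]
  · have : atom ξ S T \ ξ u = ∅ := by
      refine eq_empty_of_forall_notMem fun y hy => hy.2 ((h x y fun s hs => ?_).mp hxu)
      rw [hx s hs, hy.1 s hs]
    simp [this, g]

/-- Invariance under a relabelling realised by a measure preserving map. -/
theorem ent_image (hξ : ∀ s, MeasurableSet (ξ s)) {e : ι → ι} (he : Function.Injective e)
    {φ : Ω → Ω} (hφ : MeasurePreserving φ μ μ) (h : ∀ s, ξ (e s) = φ ⁻¹' ξ s) (S : Finset ι) :
    ent μ ξ (S.image e) = ent μ ξ S := by
  unfold ent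
  rw [Finset.powerset_image, Finset.sum_image
    (fun T _ T' _ h => Finset.image_injective he h)]
  refine Finset.sum_congr rfl fun T _ => ?_
  have : atom ξ (S.image e) (T.image e) = φ ⁻¹' atom ξ S T := by
    ext y
    simp [atom, h, he.eq_iff]
  rw [this, hφ.measureReal_preimage (meas_atom hξ S T).nullMeasurableSet]

/-- Independent fair coins. -/
theorem ent_of_uniform (S : Finset ι)
    (h : ∀ T ∈ S.powerset, μ.real (atom ξ S T) = (2⁻¹ : ℝ) ^ S.card) :
    ent μ ξ S = S.card * Real.log 2 := by
  unfold ent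
  rw [Finset.sum_congr rfl fun T hT => by rw [h T hT], Finset.sum_const, Finset.card_powerset,
    nsmul_eq_mul, Real.negMulLog, Real.log_pow, Real.log_inv]
  push_cast
  have : (2 : ℝ) ^ S.card * 2⁻¹ ^ S.card = 1 := by rw [← mul_pow]; simp
  linear_combination (S.card * Real.log 2) * this

end Crest.Agent.R191
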