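import Crest.Agent.R191.Bern
import Crest.Agent.R191.Entropy

/-! # R191: expansion of small sets in the Bernoulli shift -/

set_option autoImplicit false
set_option linter.unusedSectionVars false

open MeasureTheory Set
open scoped ENNReal

namespace Crest.Agent.R191

namespace ExpandAux

section general
variable {Ω ι : Type} [MeasurableSpace Ω] [DecidableEq ι] {μ : Measure Ω} [IsProbabilityMeasure μ]
  {ξ : ι → Set Ω}

theorem ent_union_le (hξ : ∀ s, MeasurableSet (ξ s)) (S N : Finset ι) (c : ℝ)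
    (h : ∀ u ∈ N, u ∉ S ∧ ∃ S' ⊆ S, ent μ ξ (insert u S') - ent μ ξ S' ≤ c) :
    ent μ ξ (S ∪ N) ≤ ent μ ξ S + N.card * c := by
  induction N using Finset.induction_on with
  | empty => simp
  | insert u N hu ih =>
    have ih' := ih fun w hw => h w (Finset.mem_insert_of_mem hw)
    obtain ⟨huS, S', hS', hc⟩ := h u (Finset.mem_insert_self _ _)
    have h1 : S ∪ insert u N = insert u (S ∪ N) := by
      ext x; simp only [Finset.mem_union, Finset.mem_insert]; tauto
    have h2 : u ∉ S ∪ N := by
      simp only [Finset.mem_union, not_or]; exact ⟨huS, hu⟩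
    have h3 := ent_insert_le (μ := μ) hξ (hS'.trans (Finset.subset_union_left (s₂ := N))) h2
    rw [h1, Finset.card_insert_of_notMem hu]
    push_cast
    linarith

theorem ent_union_of_det (hξ : ∀ s, MeasurableSet (ξ s)) (S N : Finset ι)
    (h : ∀ u ∈ N, ∀ x y, (∀ s ∈ S, x ∈ ξ s ↔ y ∈ ξ s) → (x ∈ ξ u ↔ y ∈ ξ u)) :
    ent μ ξ (N ∪ S) = ent μ ξ S := by
  induction N using Finset.induction_on with
  | empty => simp
  | insert u N hu ih =>
    have ih' := ih fun w hw => h w (Finset.mem_insert_of_mem hw)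
    rw [Finset.insert_union, ent_insert_of_det hξ, ih']
    intro x y hxy
    exact h u (Finset.mem_insert_self _ _) x y fun s hs => hxy s (Finset.mem_union_right _ hs)

theorem ent_relabel {κ : Type} [DecidableEq κ] {f : κ → ι} (hf : Function.Injective f)
    (S : Finset κ) : ent μ ξ (S.image f) = ent μ (fun k => ξ (f k)) S := by
  unfold ent
  rw [Finset.powerset_image, Finset.sum_image fun a _ b _ h => Finset.image_injective hf h]
  refine Finset.sum_congr rfl fun T _ => ?_
  congr 2
  ext y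
  simp only [atom, Set.mem_ofPred_eq, Finset.forall_mem_image, hf.mem_finset_image]

end general

variable {Γ : Type} [Group Γ] [Countable Γ]

/-- the events -/
def ev (C : Set (Om Γ)) : Γ ⊕ (Γ × ℕ) → Set (Om Γ)
  | .inl g => {x | g⁻¹ • x ∈ C}
  | .inr c => {x | x c = true}

/-- left multiplication on the indices -/
def mv (g : Γ) : Γ ⊕ (Γ × ℕ) → Γ ⊕ (Γ × ℕ)
  | .inl h => .inl (g * h)
  | .inr c => .inr (g * c.1, c.2)

theorem mv_inj (g : Γ) : Function.Injective (mv g) := by
  rintro (a | ⟨a, n⟩) (b | ⟨b, m⟩) h <;> simp_all [mv]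

theorem ev_meas {C : Set (Om Γ)} (hC : MeasurableSet C) (s : Γ ⊕ (Γ × ℕ)) :
    MeasurableSet (ev C s) := by
  rcases s with g | c
  · exact (bern_mp g⁻¹).measurable hC
  · have : Measurable fun x : Om Γ => x c := measurable_pi_apply c
    exact this (measurableSet_singleton true)

theorem ev_mv (C : Set (Om Γ)) (g : Γ) (s : Γ ⊕ (Γ × ℕ)) :
    ev C (mv g s) = (fun x : Om Γ => g⁻¹ • x) ⁻¹' ev C s := by
  rcases s with h | c
  · ext x; simp [ev, mv, mul_smul]
  · ext x; simp [ev, mv, Om.smul_apply]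

open Classical in
theorem ent_coins (C : Set (Om Γ)) (U : Finset (Γ × ℕ)) :
    ent (bern Γ) (ev C) (U.image Sum.inr) = U.card * Real.log 2 := by
  rw [ent_of_uniform, Finset.card_image_of_injective _ Sum.inr_injective]
  intro T _
  have : atom (ev C) (U.image Sum.inr) T =
      {x : Om Γ | ∀ c ∈ U, x c = (fun c => decide (Sum.inr c ∈ T)) c} := by
    ext x
    simp only [atom, Set.mem_ofPred_eq, Finset.forall_mem_image, ev]
    refine forall₂_congr fun c _ => ?_
    cases x c <;> simp
  rw [this, Measure.real, bern_cyl, Finset.card_image_of_injective _ Sum.inr_injective]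
  simp

open Classical in
/-- the translates of a finite set of coordinates -/
noncomputable def tV (τ : Fin 100 → Γ) (V : Finset (Γ × ℕ)) : Finset (Γ × ℕ) :=
  Finset.univ.biUnion fun i => V.image fun c => (τ i * c.1, c.2)

theorem mem_tV {τ : Fin 100 → Γ} {V : Finset (Γ × ℕ)} {d : Γ × ℕ} :
    d ∈ tV τ V ↔ ∃ i, ∃ c ∈ V, (τ i * c.1, c.2) = d := by
  classical
  simp only [tV, Finset.mem_biUnion, Finset.mem_univ, true_and, Finset.mem_image]

open Classical in
theorem psi_le {τ : Fin 100 → Γ} (hinj : Function.Injective τ) (hleaf : Leaf τ)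
    {C : Set (Om Γ)} (hC : MeasurableSet C) (V : Finset (Γ × ℕ)) :
    ent (bern Γ) (ev C) ((Finset.univ.image fun i => Sum.inl (τ i)) ∪ (tV τ V).image Sum.inr) -
        99 * ent (bern Γ) (ev C) (insert (Sum.inl 1) (V.image Sum.inr)) -
        (((tV τ V).card : ℝ) - 99 * V.card) * Real.log 2 ≤
      ent (bern Γ) (ev C) (Finset.univ.image fun i => Sum.inl (τ i)) -
        99 * ent (bern Γ) (ev C) {Sum.inl 1} := by
  obtain ⟨ℓ, i0, hl⟩ := hleaf
  have hξ := ev_meas hC
  induction V using Finset.induction_on_max_value (fun c : Γ × ℕ => ℓ c.1) with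
  | empty =>
    have : tV τ (∅ : Finset (Γ × ℕ)) = ∅ := by
      ext d; simp [mem_tV]
    simp [this]
  | insert v V hv hmax ih =>
    set A0 : Finset (Γ ⊕ (Γ × ℕ)) := Finset.univ.image fun i => Sum.inl (τ i) with hA0
    set f : Fin 100 → Γ × ℕ := fun i => (τ i * v.1, v.2) with hf
    have hfinj : Function.Injective f := by
      intro i j h
      simp only [hf, Prod.mk.injEq, mul_left_inj, and_true] at h
      exact hinj h
    set N : Finset (Γ × ℕ) := Finset.univ.image f \ tV τ V with hN
    have htV : tV τ (insert v V) = tV τ V ∪ N := by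
      ext d
      simp only [hN, Finset.union_sdiff_self_eq_union, Finset.mem_union, mem_tV, Finset.mem_insert,
        Finset.mem_image, Finset.mem_univ, true_and, hf]
      constructor
      · rintro ⟨i, c, rfl | hc, h⟩
        · exact Or.inr ⟨i, h⟩
        · exact Or.inl ⟨i, c, hc, h⟩
      · rintro (⟨i, c, hc, h⟩ | ⟨i, h⟩)
        · exact ⟨i, c, Or.inr hc, h⟩
        · exact ⟨i, v, Or.inl rfl, h⟩
    have hdisj : Disjoint (tV τ V) N := Finset.disjoint_sdiff
    have hN99 : 99 ≤ N.card := by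
      have hsub : (Finset.univ.erase (i0 v.1)).image f ⊆ N := by
        intro d hd
        obtain ⟨i, hi, rfl⟩ := Finset.mem_image.1 hd
        refine Finset.mem_sdiff.2 ⟨Finset.mem_image_of_mem _ (Finset.mem_univ _), fun h => ?_⟩
        obtain ⟨j, c, hc, hj⟩ := mem_tV.1 h
        simp only [hf, Prod.mk.injEq] at hj
        refine (Finset.mem_erase.1 hi).1 (hl v.1 c.1 i j hj.1.symm (fun hvc => hv ?_) (hmax c hc))
        have : v = c := Prod.ext hvc hj.2.symm
        rwa [this]
      have := Finset.card_le_card hsub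
      rwa [Finset.card_image_of_injective _ hfinj, Finset.card_erase_of_mem (Finset.mem_univ _),
        Finset.card_univ, Fintype.card_fin] at this
    set B : Finset (Γ ⊕ (Γ × ℕ)) := insert (Sum.inl 1) (V.image Sum.inr) with hB
    have hB' : insert (Sum.inl 1) ((insert v V).image Sum.inr) = insert (Sum.inr v) B := by
      rw [Finset.image_insert, hB, Finset.insert_comm]
    have hvB : Sum.inr v ∉ B := by
      simp [hB, hv]
    set c : ℝ := ent (bern Γ) (ev C) (insert (Sum.inr v) B) - ent (bern Γ) (ev C) B with hc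
    have hc2 : c ≤ Real.log 2 := by
      have h1 := ent_insert_le (μ := bern Γ) hξ (Finset.empty_subset B) hvB
      have h2 := ent_singleton_le (μ := bern Γ) hξ (Sum.inr v)
      have h3 : ent (bern Γ) (ev C) ∅ = 0 := ent_empty
      rw [h3, insert_empty_eq] at h1
      linarith
    have hstep := ent_union_le (μ := bern Γ) hξ (A0 ∪ (tV τ V).image Sum.inr) (N.image Sum.inr) c
      (by
        intro u hu
        obtain ⟨d, hd, rfl⟩ := Finset.mem_image.1 hu
        obtain ⟨hd1, hd2⟩ := Finset.mem_sdiff.1 hd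
        obtain ⟨i, -, rfl⟩ := Finset.mem_image.1 hd1
        refine ⟨?_, B.image (mv (τ i)), ?_, ?_⟩
        · simp only [hA0, Finset.mem_union, Finset.mem_image, Finset.mem_univ, true_and,
            reduceCtorEq, exists_false, false_or, Sum.inr.injEq, exists_eq_right]
          exact hd2
        · intro s hs
          obtain ⟨t, ht, rfl⟩ := Finset.mem_image.1 hs
          rcases Finset.mem_insert.1 ht with rfl | ht
          · exact Finset.mem_union_left _
              (Finset.mem_image.2 ⟨i, Finset.mem_univ _, by simp [mv]⟩)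
          · obtain ⟨w, hw, rfl⟩ := Finset.mem_image.1 ht
            exact Finset.mem_union_right _
              (Finset.mem_image.2 ⟨_, mem_tV.2 ⟨i, w, hw, rfl⟩, rfl⟩)
        · have e1 : insert (Sum.inr (f i)) (B.image (mv (τ i))) =
              (insert (Sum.inr v) B).image (mv (τ i)) := by
            rw [Finset.image_insert (mv (τ i)) (Sum.inr v) B]; rfl
          rw [e1, ent_image hξ (mv_inj _) (bern_mp (τ i)⁻¹) (ev_mv C (τ i)),
            ent_image hξ (mv_inj _) (bern_mp (τ i)⁻¹) (ev_mv C (τ i))])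
    rw [Finset.card_image_of_injective _ Sum.inr_injective] at hstep
    rw [htV, hB', Finset.image_union, ← Finset.union_assoc, Finset.card_union_of_disjoint hdisj,
      Finset.card_insert_of_notMem hv]
    push_cast
    have hN99' : (99 : ℝ) ≤ N.card := by exact_mod_cast hN99
    have : ((N.card : ℝ) - 99) * (c - Real.log 2) ≤ 0 :=
      mul_nonpos_of_nonneg_of_nonpos (by linarith) (by linarith)
    nlinarith

theorem expand_gen {Ω κ : Type} [Fintype κ] [DecidableEq κ] (hκ : Fintype.card κ = 100)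
    [MeasurableSpace Ω] {μ : Measure Ω} [IsProbabilityMeasure μ]
    {ξ : κ → Set Ω} (hξ : ∀ i, MeasurableSet (ξ i)) {p : ℝ} (hp : ∀ i, μ.real (ξ i) = p)
    (hp1 : p ≤ 2e-14)
    (h : 99 * (Real.negMulLog p + Real.negMulLog (1 - p)) ≤ ent μ ξ Finset.univ) :
    80 * p ≤ μ.real (⋃ i, ξ i) := by
  by_contra hlt
  push Not at hlt
  set q : ℝ := μ.real (⋃ i, ξ i) with hq
  have hq0 : 0 ≤ q := measureReal_nonneg
  have hp0 : 0 < p := by linarith
  have hp2 : p < 1 / 2 := by linarith [show (2e-14 : ℝ) < 1 / 2 by norm_num]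
  set L : ℝ := -Real.log p with hL
  have hlog2 := Real.log_two_gt_d9
  have hlog2' := Real.log_two_lt_d9
  have hL31 : 31 ≤ L := by
    have h1 : p ≤ (2 ^ 45)⁻¹ := hp1.trans (by norm_num)
    have h2 := Real.log_le_log hp0 h1
    rw [Real.log_inv, Real.log_pow] at h2
    push_cast at h2
    linarith
  have h100 : Real.log 100 ≤ 4.86 := by
    have h2 := Real.log_le_log (by norm_num : (0 : ℝ) < 100) (by norm_num : (100 : ℝ) ≤ 2 ^ 7)
    rw [Real.log_pow] at h2
    push_cast at h2
    linarith
  have h101 : Real.log (1 + 100⁻¹) ≤ 100⁻¹ := by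
    have := Real.log_le_sub_one_of_pos (by norm_num : (0 : ℝ) < 1 + 100⁻¹)
    linarith
  have h1p : -Real.log (1 - p) ≤ 2 * p := by
    have h1 := Real.one_sub_inv_le_log_of_pos (by linarith : 0 < 1 - p)
    have h2 : (1 - p)⁻¹ ≤ 1 + 2 * p := by
      rw [inv_le_iff_one_le_mul₀ (by linarith)]
      nlinarith
    linarith
  let w : Finset κ → ℝ := fun T =>
    if T = ∅ then 1 - p else p * (100⁻¹ : ℝ) ^ T.card / (1 + 100⁻¹) ^ 100
  have hw0 : ∀ T ∈ (Finset.univ : Finset κ).powerset, 0 < w T := by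
    intro T _
    simp only [w]
    split_ifs
    · linarith
    · positivity
  have hbin : ∑ T ∈ (Finset.univ : Finset κ).powerset, (100⁻¹ : ℝ) ^ T.card =
      (1 + 100⁻¹) ^ 100 := by
    have := Finset.prod_one_add (f := fun _ : κ => (100⁻¹ : ℝ)) Finset.univ
    simp only [Finset.prod_const, Finset.card_univ, hκ] at this
    exact this.symm
  have hw1 : ∑ T ∈ (Finset.univ : Finset κ).powerset, w T ≤ 1 := by
    calc ∑ T ∈ (Finset.univ : Finset κ).powerset, w T
        ≤ ∑ T ∈ (Finset.univ : Finset κ).powerset,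
          ((if T = ∅ then 1 - p else 0) +
            p / (1 + 100⁻¹) ^ 100 * (100⁻¹ : ℝ) ^ T.card) := by
          refine Finset.sum_le_sum fun T _ => ?_
          simp only [w]
          split_ifs
          · have : 0 ≤ p / (1 + 100⁻¹) ^ 100 * (100⁻¹ : ℝ) ^ T.card := by positivity
            linarith
          · rw [zero_add, div_mul_eq_mul_div]
      _ = 1 := by
          rw [Finset.sum_add_distrib, ← Finset.mul_sum, hbin, Finset.sum_ite_eq',
            if_pos (Finset.empty_mem_powerset _), div_mul_cancel₀ _ (by positivity)]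
          ring
  have hg := ent_le_gibbs (μ := μ) hξ Finset.univ hw0 hw1
  have hat : μ.real (atom ξ Finset.univ ∅) = 1 - q := by
    have : atom ξ Finset.univ ∅ = (⋃ i, ξ i)ᶜ := by
      ext y; simp [atom]
    rw [this, probReal_compl_eq_one_sub (MeasurableSet.iUnion hξ)]
  have hb : ∑ T ∈ (Finset.univ : Finset κ).powerset,
      μ.real (atom ξ Finset.univ T) * (-Real.log (w T)) ≤
      ∑ T ∈ (Finset.univ : Finset κ).powerset,
        ((if T = ∅ then 2 * p - (1 - q) * (L + 1) else 0) +
          (L + 1) * μ.real (atom ξ Finset.univ T) +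
          4.86 * (μ.real (atom ξ Finset.univ T) * T.card)) := by
    refine Finset.sum_le_sum fun T _ => ?_
    have hm : 0 ≤ μ.real (atom ξ Finset.univ T) := measureReal_nonneg
    simp only [w]
    split_ifs with hT
    · subst hT
      rw [hat] at hm ⊢
      have h0 : 0 ≤ -Real.log (1 - p) := by
        have := Real.log_nonpos (by linarith : 0 ≤ 1 - p) (by linarith)
        linarith
      simp only [Finset.card_empty, Nat.cast_zero, mul_zero, add_zero]
      nlinarith
    · rw [Real.log_div (by positivity) (by positivity), Real.log_mul hp0.ne' (by positivity),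
        Real.log_pow, Real.log_pow, Real.log_inv]
      have hc : (0 : ℝ) ≤ T.card := Nat.cast_nonneg _
      have : -(Real.log p + T.card * -Real.log 100 - (100 : ℕ) * Real.log (1 + 100⁻¹)) ≤
          L + 1 + 4.86 * T.card := by
        push_cast
        nlinarith
      nlinarith
  rw [Finset.sum_add_distrib, Finset.sum_add_distrib, ← Finset.mul_sum, ← Finset.mul_sum,
    sum_atom hξ, sum_atom_card hξ, Finset.sum_ite_eq', if_pos (Finset.empty_mem_powerset _)] at hb
  simp only [hp, Finset.sum_const, Finset.card_univ, hκ, nsmul_eq_mul] at hb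
  push_cast at hb
  have hn1 : 0 ≤ Real.negMulLog (1 - p) := Real.negMulLog_nonneg (by linarith) (by linarith)
  have hn2 : Real.negMulLog p = p * L := by
    rw [Real.negMulLog, hL]; ring
  have hqL : q * (L + 1) ≤ 80 * p * (L + 1) :=
    mul_le_mul_of_nonneg_right hlt.le (by linarith)
  nlinarith

end ExpandAux

open ExpandAux

variable {Γ : Type} [Group Γ] [Countable Γ] {τ : Fin 100 → Γ}

/-- The entropy inequality `H(⋁ τ i C) ≥ 99 H(C)`.

Proof.  Index events by `ι = Γ ⊕ (Γ × ℕ)`: `ξ (inl g) = {x | g⁻¹ • x ∈ C}`, `ξ (inr c) = {x | x c = true}`;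
`Γ` acts on `ι` by left multiplication and `ξ (g • s) = (g⁻¹ • ·) ⁻¹' ξ s` (`ent_image`).  For a finite
`V ⊆ Γ × ℕ` let `τV = ⋃ i, τ i • V`, `a V = ent ({inl (τ i) | i} ∪ inr τV)`, `b V = ent ({inl 1} ∪ inr V)`
and `Ψ V = a V - 99 b V - (|τV| - 99 |V|) log 2`.  Claim `Ψ V ≤ Ψ ∅`, by induction on `|V|`: choose
`v = (g, n) ∈ V` with `ℓ g` maximal, `V' = V.erase v`.  At most one of the 100 distinct points
`τ i • v` lies in `τV'` (`Leaf`); let `N ≥ 99` be the number of new ones and
`c = b V - b V' ≤ log 2` (`ent_insert_le` with `S' = ∅`, `ent_singleton_le`).  Adding the new points one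
at a time, each increases `a` by at most `c` (`ent_insert_le` with `S' = τ i • ({inl 1} ∪ inr V')`, and
`ent_image`).  So `Ψ V - Ψ V' ≤ (N - 99) (c - log 2) ≤ 0`.  For `V = W` the events `inl _` are
determined (`ent_insert_of_det`), so `Ψ W = 0` by `ent_of_uniform`, `bern_cyl`.  Finally rewrite
`a ∅` as the entropy of the family indexed by `Fin 100` (or state the two sides through atoms). -/
theorem ent_face (hinj : Function.Injective τ) (hleaf : Leaf τ) {C : Set (Om Γ)}
    (hC : MeasurableSet C) {W : Finset (Γ × ℕ)}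
    (hW : ∀ x y : Om Γ, (∀ c ∈ W, x c = y c) → (x ∈ C ↔ y ∈ C)) :
    99 * (Real.negMulLog ((bern Γ).real C) + Real.negMulLog (1 - (bern Γ).real C)) ≤
      ent (bern Γ) (fun i : Fin 100 => {x | (τ i)⁻¹ • x ∈ C}) Finset.univ := by
  classical
  have hξ := ev_meas hC
  have h := psi_le hinj hleaf hC W
  have h1 : ent (bern Γ) (ev C)
      ((Finset.univ.image fun i => Sum.inl (τ i)) ∪ (tV τ W).image Sum.inr) =
      (tV τ W).card * Real.log 2 := by
    rw [ent_union_of_det hξ, ent_coins]
    intro u hu x y hxy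
    obtain ⟨i, -, rfl⟩ := Finset.mem_image.1 hu
    refine hW _ _ fun c hc => ?_
    have := hxy (Sum.inr (τ i * c.1, c.2))
      (Finset.mem_image.2 ⟨_, mem_tV.2 ⟨i, c, hc, rfl⟩, rfl⟩)
    simp only [ev, Set.mem_ofPred_eq] at this
    simp only [Om.smul_apply, inv_inv]
    exact Bool.eq_iff_iff.2 this
  have h2 : ent (bern Γ) (ev C) (insert (Sum.inl 1) (W.image Sum.inr)) =
      W.card * Real.log 2 := by
    rw [ent_insert_of_det hξ, ent_coins]
    intro x y hxy
    simp only [ev, Set.mem_ofPred_eq, inv_one, one_smul]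
    refine hW _ _ fun c hc => ?_
    have := hxy (Sum.inr c) (Finset.mem_image_of_mem _ hc)
    simp only [ev, Set.mem_ofPred_eq] at this
    exact Bool.eq_iff_iff.2 this
  have h3 : ent (bern Γ) (ev C) (Finset.univ.image fun i => Sum.inl (τ i)) =
      ent (bern Γ) (fun i : Fin 100 => {x | (τ i)⁻¹ • x ∈ C}) Finset.univ :=
    ent_relabel (Sum.inl_injective.comp hinj) _
  have h4 : ent (bern Γ) (ev C) {Sum.inl 1} =
      Real.negMulLog ((bern Γ).real C) + Real.negMulLog (1 - (bern Γ).real C) := by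
    rw [ent_singleton hξ]
    simp [ev]
  rw [h1, h2, h3, h4] at h
  linarith

/-- Proof.  Let `q = μ (⋃ ξ i) < 80 p`, `p > 0`.  Gibbs with `q ∅ = 1 - p`,
`q T = p r^|T| / (1+r)^100`, `r = 1/100` (total mass `≤ 1` by the binomial theorem) gives
`ent ≤ -log (1-p) + q (log (1/p) + 100 log (1 + r)) + 100 p log 100 ≤ 2p + 80 p (log (1/p) + 1) + 461 p`
(`sum_atom_card`; the atom `∅` has mass `1 - q`), while `ent ≥ 99 p log (1/p)`.  So
`19 log (1/p) ≤ 543`, impossible for `p ≤ 2·10⁻¹⁴` (`log (1/p) ≥ 31`). -/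
theorem expand_of_ent {Ω : Type} [MeasurableSpace Ω] {μ : Measure Ω} [IsProbabilityMeasure μ]
    {ξ : Fin 100 → Set Ω} (hξ : ∀ i, MeasurableSet (ξ i)) {p : ℝ} (hp : ∀ i, μ.real (ξ i) = p)
    (hp1 : p ≤ 2e-14)
    (h : 99 * (Real.negMulLog p + Real.negMulLog (1 - p)) ≤ ent μ ξ Finset.univ) :
    80 * p ≤ μ.real (⋃ i, ξ i) :=
  expand_gen (Fintype.card_fin 100) hξ hp hp1 h

/-- Approximate `A` by `C` within `ε ≤ 10⁻¹⁴`:
`μ (⋃ τ i A) ≥ μ (⋃ τ i C) - 100 ε ≥ 80 μ C - 100 ε ≥ 80 μ A - 180 ε`. -/
theorem bern_exp (hinj : Function.Injective τ) (hleaf : Leaf τ) :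
    Exp τ (bern Γ) (ENNReal.ofReal 1e-14) := by
  intro A hA hA1
  set U : Set (Om Γ) := {x | ∃ i, (τ i)⁻¹ • x ∈ A} with hU
  have hA2 : (bern Γ).real A ≤ 1e-14 := ENNReal.toReal_le_of_le_ofReal (by norm_num) hA1
  have key : ∀ ε : ℝ, 0 < ε → ε ≤ 1e-14 →
      80 * (bern Γ).real A ≤ (bern Γ).real U + 180 * ε := by
    intro ε hε hε1
    obtain ⟨C, W, hC, hW, hAC⟩ := bern_approx hA (ε := ENNReal.ofReal ε) (by simpa using hε)
    have hAC' : (bern Γ).real (symmDiff A C) ≤ ε := ENNReal.toReal_le_of_le_ofReal hε.le hAC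
    have h1 : (bern Γ).real C ≤ (bern Γ).real A + ε := by
      have : C ⊆ A ∪ symmDiff A C := by
        intro x hx
        by_cases hxA : x ∈ A
        · exact Or.inl hxA
        · exact Or.inr (Or.inr ⟨hx, hxA⟩)
      have := (measureReal_mono (μ := bern Γ) this).trans (measureReal_union_le _ _)
      linarith
    have h2 : (bern Γ).real A ≤ (bern Γ).real C + ε := by
      have : A ⊆ C ∪ symmDiff A C := by
        intro x hx
        by_cases hxC : x ∈ C
        · exact Or.inl hxC
        · exact Or.inr (Or.inl ⟨hx, hxC⟩)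
      have := (measureReal_mono (μ := bern Γ) this).trans (measureReal_union_le _ _)
      linarith
    have hpre : ∀ (g : Γ) {D : Set (Om Γ)}, MeasurableSet D →
        (bern Γ).real {x | g • x ∈ D} = (bern Γ).real D := fun g D hD =>
      (bern_mp g).measureReal_preimage hD.nullMeasurableSet
    have h3 := expand_of_ent (μ := bern Γ) (ξ := fun i : Fin 100 => {x | (τ i)⁻¹ • x ∈ C})
      (fun i => (bern_mp (τ i)⁻¹).measurable hC) (fun i => hpre _ hC)
      (by linarith [show (2e-14 : ℝ) = 1e-14 + 1e-14 by norm_num]) (ent_face hinj hleaf hC hW)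
    have h4 : (⋃ i : Fin 100, {x : Om Γ | (τ i)⁻¹ • x ∈ C}) ⊆
        U ∪ ⋃ i : Fin 100, {x : Om Γ | (τ i)⁻¹ • x ∈ symmDiff A C} := by
      intro x hx
      obtain ⟨i, hi⟩ := mem_iUnion.1 hx
      by_cases hxA : (τ i)⁻¹ • x ∈ A
      · exact Or.inl ⟨i, hxA⟩
      · exact Or.inr (mem_iUnion.2 ⟨i, Or.inr ⟨hi, hxA⟩⟩)
    have h5 := (measureReal_mono (μ := bern Γ) h4).trans (measureReal_union_le _ _)
    have h6 := measureReal_iUnion_fintype_le (μ := bern Γ)
      (fun i : Fin 100 => {x : Om Γ | (τ i)⁻¹ • x ∈ symmDiff A C})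
    simp only [hpre _ (hA.symmDiff hC), Finset.sum_const, Finset.card_univ, Fintype.card_fin,
      nsmul_eq_mul] at h6
    push_cast at h6
    linarith
  have hreal : 80 * (bern Γ).real A ≤ (bern Γ).real U := by
    refine le_of_forall_pos_le_add fun δ hδ => ?_
    have := key (min (δ / 180) 1e-14) (lt_min (by positivity) (by norm_num)) (min_le_right _ _)
    have h2 := min_le_left (δ / 180) 1e-14
    linarith
  rw [← ENNReal.toReal_le_toReal (by finiteness) (measure_ne_top _ _), ENNReal.toReal_mul]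
  simpa [Measure.real] using hreal

end Crest.Agent.R191
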