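import Crest.Agent.R191.BL

/-! # R191: Stallings folding -/

set_option autoImplicit false
set_option linter.unusedSectionVars false

open MeasureTheory Set
open scoped ENNReal

namespace Crest.Agent.R191

variable {Γ X : Type} [Group Γ] [Countable Γ] [MeasurableSpace Γ]
  [MeasurableSingletonClass Γ] [MulAction Γ X] [MeasurableSpace X] [StandardBorelSpace X]
  [MeasurableSMul₂ Γ X] [IsCancelSMul Γ X]
  {μ : Measure X} [IsProbabilityMeasure μ] [SMulInvariantMeasure Γ X μ]
  {I J : Type} [Countable I] [MeasurableSpace I] [MeasurableSingletonClass I]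
  [Countable J] [MeasurableSpace J] [MeasurableSingletonClass J]

namespace FoldAux

/-- The graph of links: the link `(x, n)` joins the ends (of type `!b`) of the edges `(x, j)`,
`(x, j')`, where `en n = (j, j', b)`. -/
def Lk (G : Gr X I J) (en : ℕ → J × J × Bool) (D : Set (X × ℕ)) : Gr X I ℕ where
  P := G.P
  R := G.R
  E := D
  o d := G.nd (d.1, ((en d.2).1, !(en d.2).2.2))
  t d := G.nd (d.1, ((en d.2).2.1, !(en d.2).2.2))

/-- Edges that have not been killed by a link in `D`. -/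
def alive (G : Gr X I J) (en : ℕ → J × J × Bool) (D : Set (X × ℕ)) : Set (X × J) :=
  {ε | ε ∈ G.E ∧ ∀ n, (ε.1, n) ∈ D → (en n).2.1 ≠ ε.2}

/-- The fold number `n` is performed at `x`. -/
def K {L : Type} (G : Gr X I J) (en : ℕ → J × J × Bool) (enc : J → ℕ) (lab : X × J → L)
    (D : Set (X × ℕ)) (n : ℕ) (x : X) : Prop :=
  enc (en n).1 < enc (en n).2.1 ∧ (x, (en n).1) ∈ alive G en D ∧
    (x, (en n).2.1) ∈ alive G en D ∧ lab (x, (en n).1) = lab (x, (en n).2.1) ∧
    (Lk G en D).Conn (G.nd (x, ((en n).1, (en n).2.2))) (G.nd (x, ((en n).2.1, (en n).2.2)))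

/-- The links created before time `n`. -/
def DD {L : Type} (G : Gr X I J) (en : ℕ → J × J × Bool) (enc : J → ℕ) (lab : X × J → L) :
    ℕ → Set (X × ℕ)
  | 0 => ∅
  | n + 1 => DD G en enc lab n ∪ {d | d.2 = n ∧ K G en enc lab (DD G en enc lab n) n d.1}

/-- All links. -/
def DI {L : Type} (G : Gr X I J) (en : ℕ → J × J × Bool) (enc : J → ℕ) (lab : X × J → L) :
    Set (X × ℕ) := {d | K G en enc lab (DD G en enc lab d.2) d.2 d.1}

variable {L : Type} {G : Gr X I J} {en : ℕ → J × J × Bool} {enc : J → ℕ} {lab : X × J → L}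

theorem mem_DD {n : ℕ} {d : X × ℕ} :
    d ∈ DD G en enc lab n ↔ d.2 < n ∧ d ∈ DI G en enc lab := by
  induction n with
  | zero => simp [DD]
  | succ n ih =>
    simp only [DD, mem_union, ih, mem_ofPred_eq]
    constructor
    · rintro (⟨h1, h2⟩ | ⟨h1, h2⟩)
      · exact ⟨Nat.lt_succ_of_lt h1, h2⟩
      · refine ⟨by omega, ?_⟩
        show K G en enc lab (DD G en enc lab d.2) d.2 d.1
        rw [h1]; exact h2
    · rintro ⟨h1, h2⟩
      rcases Nat.lt_succ_iff_lt_or_eq.1 h1 with h | h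
      · exact Or.inl ⟨h, h2⟩
      · refine Or.inr ⟨h, ?_⟩
        have h3 : K G en enc lab (DD G en enc lab d.2) d.2 d.1 := h2
        rw [h] at h3; exact h3

theorem DD_sub (n : ℕ) : DD G en enc lab n ⊆ DI G en enc lab := fun _ h => (mem_DD.1 h).2

theorem DD_mono {m n : ℕ} (h : m ≤ n) : DD G en enc lab m ⊆ DD G en enc lab n := fun _ hd =>
  mem_DD.2 ⟨lt_of_lt_of_le (mem_DD.1 hd).1 h, (mem_DD.1 hd).2⟩

theorem alive_anti {D D' : Set (X × ℕ)} (h : D ⊆ D') : alive G en D' ⊆ alive G en D :=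
  fun _ hε => ⟨hε.1, fun n hn => hε.2 n (h hn)⟩

theorem conn_mono {D D' : Set (X × ℕ)} (h : D ⊆ D') {p q : X × I} (hc : (Lk G en D).Conn p q) :
    (Lk G en D').Conn p q := by
  refine Relation.EqvGen.mono ?_ _ _ hc
  rintro p q (h1 | ⟨ε, h1, h2⟩)
  · exact Or.inl h1
  · exact Or.inr ⟨ε, h h1, h2⟩

theorem conn_compact {p q : X × I} (hc : (Lk G en (DI G en enc lab)).Conn p q) :
    ∃ n, (Lk G en (DD G en enc lab n)).Conn p q := by
  induction hc with
  | rel p q h =>
    rcases h with h | ⟨ε, h1, h2⟩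
    · exact ⟨0, .rel _ _ (Or.inl h)⟩
    · exact ⟨ε.2 + 1, .rel _ _ (Or.inr ⟨ε, mem_DD.2 ⟨Nat.lt_succ_self _, h1⟩, h2⟩)⟩
  | refl _ => exact ⟨0, .refl _⟩
  | symm _ _ _ ih => exact let ⟨n, h⟩ := ih; ⟨n, .symm _ _ h⟩
  | trans _ _ _ _ _ ih ih' =>
    obtain ⟨n, h⟩ := ih
    obtain ⟨m, h'⟩ := ih'
    exact ⟨max n m, .trans _ _ _ (conn_mono (DD_mono (le_max_left _ _)) h)
      (conn_mono (DD_mono (le_max_right _ _)) h')⟩

theorem meas_nd (h : G.WF Γ) : Measurable G.nd := by
  unfold Gr.nd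
  refine Measurable.ite ?_ (h.mt.comp (by fun_prop)) (h.mo.comp (by fun_prop))
  exact measurableSet_eq_fun (by fun_prop) measurable_const

theorem orb_nd (h : G.WF Γ) {x : X} {j : J} (hj : (x, j) ∈ G.E) (b : Bool) :
    Orb Γ x (G.nd (x, (j, b))).1 := by
  cases b
  · exact h.orbo _ hj
  · exact h.orbt _ hj

theorem nd_mem (h : G.WF Γ) {x : X} {j : J} (hj : (x, j) ∈ G.E) (b : Bool) :
    G.nd (x, (j, b)) ∈ G.P := by
  cases b
  · exact h.oP _ hj
  · exact h.tP _ hj

theorem wf_Lk (h : G.WF Γ) {D : Set (X × ℕ)} (hD : MeasurableSet D)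
    (hV : ∀ d ∈ D, (d.1, (en d.2).1) ∈ G.E ∧ (d.1, (en d.2).2.1) ∈ G.E) :
    (Lk G en D).WF Γ where
  mP := h.mP
  mR := h.mR
  mE := hD
  mo := (meas_nd h).comp (measurable_fst.prodMk
    ((Measurable.of_discrete (f := fun n => ((en n).1, !(en n).2.2))).comp measurable_snd))
  mt := (meas_nd h).comp (measurable_fst.prodMk
    ((Measurable.of_discrete (f := fun n => ((en n).2.1, !(en n).2.2))).comp measurable_snd))
  eqv := h.eqv
  orbR := h.orbR
  orbo := fun d hd => orb_nd h (hV d hd).1 _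
  orbt := fun d hd => orb_nd h (hV d hd).2 _
  sat := h.sat
  oP := fun d hd => nd_mem h (hV d hd).1 _
  tP := fun d hd => nd_mem h (hV d hd).2 _

theorem valid_DI (d : X × ℕ) (hd : d ∈ DI G en enc lab) :
    (d.1, (en d.2).1) ∈ G.E ∧ (d.1, (en d.2).2.1) ∈ G.E := ⟨hd.2.1.1, hd.2.2.1.1⟩

theorem meas_alive (h : G.WF Γ) {D : Set (X × ℕ)} (hD : MeasurableSet D) :
    MeasurableSet (alive G en D) := by
  refine h.mE.inter (measurableSet_setOfPred.2 (Measurable.forall fun n => Measurable.imp ?_ ?_))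
  · exact measurableSet_setOfPred.1
      (hD.preimage (f := fun ε : X × J => (ε.1, n)) (by fun_prop))
  · exact (Measurable.of_discrete (f := fun j => (en n).2.1 ≠ j)).comp measurable_snd

variable [Countable L] [MeasurableSpace L] [MeasurableSingletonClass L]

theorem meas_K (h : G.WF Γ) (hlab : Measurable lab) {D : Set (X × ℕ)} (hD : MeasurableSet D)
    (hV : ∀ d ∈ D, (d.1, (en d.2).1) ∈ G.E ∧ (d.1, (en d.2).2.1) ∈ G.E) (n : ℕ) :
    Measurable (K G en enc lab D n) := by
  refine measurable_const.and (Measurable.and ?_ (Measurable.and ?_ (Measurable.and ?_ ?_)))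
  · exact measurableSet_setOfPred.1 ((meas_alive h hD).preimage measurable_prodMk_right)
  · exact measurableSet_setOfPred.1 ((meas_alive h hD).preimage measurable_prodMk_right)
  · exact measurableSet_setOfPred.1 (measurableSet_eq_fun (hlab.comp measurable_prodMk_right)
      (hlab.comp measurable_prodMk_right))
  · exact (wf_Lk h hD hV).mConn.comp (((meas_nd h).comp measurable_prodMk_right).prodMk
      ((meas_nd h).comp measurable_prodMk_right))

theorem meas_DD (h : G.WF Γ) (hlab : Measurable lab) (n : ℕ) :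
    MeasurableSet (DD G en enc lab n) := by
  induction n with
  | zero => exact MeasurableSet.empty
  | succ n ih =>
    refine ih.union (measurableSet_setOfPred.2 (Measurable.and ?_ ?_))
    · exact (Measurable.of_discrete (f := fun m : ℕ => m = n)).comp measurable_snd
    · exact (meas_K h hlab ih (fun d hd => valid_DI d (DD_sub n hd)) n).comp measurable_fst

theorem meas_DI (h : G.WF Γ) (hlab : Measurable lab) : MeasurableSet (DI G en enc lab) := by
  have : DI G en enc lab = ⋃ n, DD G en enc lab n := by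
    ext d
    simp only [mem_iUnion]
    exact ⟨fun hd => ⟨d.2 + 1, mem_DD.2 ⟨Nat.lt_succ_self _, hd⟩⟩, fun ⟨n, hn⟩ => DD_sub n hn⟩
  rw [this]
  exact MeasurableSet.iUnion fun n => meas_DD h hlab n

theorem injOn_DI : InjOn (fun d : X × ℕ => (d.1, (en d.2).2.1)) (DI G en enc lab) := by
  have key : ∀ x m n, (x, m) ∈ DI G en enc lab → (x, n) ∈ DI G en enc lab → m < n →
      (en m).2.1 ≠ (en n).2.1 := fun x m n hm hn hmn =>
    hn.2.2.1.2 m (mem_DD.2 ⟨hmn, hm⟩)
  rintro ⟨x, m⟩ hm ⟨y, n⟩ hn he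
  simp only [Prod.mk.injEq] at he
  obtain ⟨rfl, he⟩ := he
  rcases lt_trichotomy m n with hmn | hmn | hmn
  · exact (key x m n hm hn hmn he).elim
  · rw [hmn]
  · exact (key x n m hn hm hmn he.symm).elim

theorem not_conn (hen : ∀ c n, ∃ m, n ≤ m ∧ en m = c) {x : X} {j j' : J} {b : Bool}
    (hj : (x, j) ∈ alive G en (DI G en enc lab)) (hj' : (x, j') ∈ alive G en (DI G en enc lab))
    (hl : lab (x, j) = lab (x, j')) (hlt : enc j < enc j') :
    ¬ (Lk G en (DI G en enc lab)).Conn (G.nd (x, (j, b))) (G.nd (x, (j', b))) := by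
  intro hc
  obtain ⟨n, hn⟩ := conn_compact hc
  obtain ⟨m, hnm, hm⟩ := hen (j, j', b) n
  have hK : (x, m) ∈ DI G en enc lab := by
    show K G en enc lab (DD G en enc lab m) m x
    unfold K
    rw [hm]
    exact ⟨hlt, alive_anti (DD_sub m) hj, alive_anti (DD_sub m) hj', hl,
      conn_mono (DD_mono hnm) hn⟩
  exact hj'.2 m hK (by rw [hm])

theorem folded (hen : ∀ c n, ∃ m, n ≤ m ∧ en m = c) (henc : Function.Injective enc)
    {x : X} {j j' : J} {b : Bool}
    (hj : (x, j) ∈ alive G en (DI G en enc lab)) (hj' : (x, j') ∈ alive G en (DI G en enc lab))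
    (hl : lab (x, j) = lab (x, j'))
    (hc : (Lk G en (DI G en enc lab)).Conn (G.nd (x, (j, b))) (G.nd (x, (j', b)))) : j = j' := by
  rcases lt_trichotomy (enc j) (enc j') with h | h | h
  · exact (not_conn hen hj hj' hl h hc).elim
  · exact henc h
  · exact (not_conn hen hj' hj hl.symm h (.symm _ _ hc)).elim

theorem both_conn {x : X} {n : ℕ} (hn : (x, n) ∈ DI G en enc lab) (b : Bool) :
    (Lk G en (DI G en enc lab)).Conn (G.nd (x, ((en n).1, b))) (G.nd (x, ((en n).2.1, b))) := by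
  by_cases hb : b = (en n).2.2
  · rw [hb]; exact conn_mono (DD_sub n) hn.2.2.2.2
  · have hb' : b = !(en n).2.2 := by
      revert hb; cases b <;> cases (en n).2.2 <;> simp
    rw [hb']
    exact .rel _ _ (Or.inr ⟨(x, n), hn, rfl, rfl⟩)

theorem survivor (x : X) : ∀ (k : ℕ) (j : J), enc j = k → (x, j) ∈ G.E →
    ∃ j', (x, j') ∈ alive G en (DI G en enc lab) ∧ lab (x, j') = lab (x, j) ∧
      ∀ b, (Lk G en (DI G en enc lab)).Conn (G.nd (x, (j, b))) (G.nd (x, (j', b))) := by
  intro k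
  induction k using Nat.strong_induction_on with
  | _ k ih =>
    intro j hk hj
    by_cases ha : (x, j) ∈ alive G en (DI G en enc lab)
    · exact ⟨j, ha, rfl, fun b => .refl _⟩
    · have : ∃ n, (x, n) ∈ DI G en enc lab ∧ (en n).2.1 = j := by
        by_contra hc
        exact ha ⟨hj, fun n hn he => hc ⟨n, hn, he⟩⟩
      obtain ⟨n, hn, rfl⟩ := this
      obtain ⟨j', h1, h2, h3⟩ := ih _ (hk ▸ hn.1) (en n).1 rfl (valid_DI _ hn).1
      exact ⟨j', h1, h2.trans hn.2.2.2.1, fun b =>
        .trans _ _ _ (.symm _ _ (both_conn hn b)) (h3 b)⟩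

end FoldAux

open FoldAux in
/-- Folding does not increase `e - v`.

Proof.  Fix an injection `enc : J → ℕ` and a sequence `en : ℕ → J × J` in which every pair occurs
infinitely often (if `J` is empty take `G' = G`).  Define states `(R n, A n)`, `R 0 = G.R`,
`A 0 = G.E`.  With `(j, j') = en n` let `K n x` say: `enc j < enc j'`, `(x, j), (x, j') ∈ A n`, equal
labels, and `R n (o (x,j)) (o (x,j')) ∨ R n (t (x,j)) (t (x,j'))`.  Put
`A (n+1) = A n \ {(x, j') | K n x}` and let `R (n+1)` be generated (`EqvGen`) by `R n` and the links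
`(l (x,n), r (x,n))` for `K n x`, where the link is `(t (x,j), t (x,j'))` if
`R n (o (x,j)) (o (x,j'))` and `(o (x,j), o (x,j'))` otherwise.  All this is measurable and orbital by
induction (`meas_eqvGen`, `meas_existsX`).  Let `Lk : Gr X I ℕ` be the graph with `P`, `R` of `G`,
edges `{(x, n) | K n x}` and ends `l`, `r`.  Then `G'.R := Lk.Conn = ⋃ n, R n`, `G'.E := ⋂ n, A n`.
`LL` for `Lk` gives `v ≤ v' + ν(links)`, and `ν(links) ≤ ν(E \ E')` by the injection
`(x, n) ↦ (x, (en n).2)` (an edge is killed only once; `nu_le_of_injOn`).  Folded: a violating pair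
is `R n`-related at some stage and would be killed the next time the pair comes up.  Parallel
survivor: strong induction on `enc j`. -/
theorem fold {L : Type} [Countable L] [MeasurableSpace L] [MeasurableSingletonClass L]
    {G : Gr X I J} (h : G.WF Γ) {lab : X × J → L} (hlab : Measurable lab) (hv : G.v μ ≠ ⊤) :
    ∃ G' : Gr X I J, G'.WF Γ ∧ G'.P = G.P ∧ G'.o = G.o ∧ G'.t = G.t ∧ G'.E ⊆ G.E ∧
      (∀ p q, G.R p q → G'.R p q) ∧ G'.FoldedBy lab ∧
      (∀ x j, (x, j) ∈ G.E → ∃ j', (x, j') ∈ G'.E ∧ lab (x, j') = lab (x, j) ∧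
        G'.R (G.o (x, j)) (G.o (x, j')) ∧ G'.R (G.t (x, j)) (G.t (x, j'))) ∧
      G.v μ + G'.e μ ≤ G'.v μ + G.e μ := by
  classical
  rcases isEmpty_or_nonempty J with hE | hN
  · exact ⟨G, h, rfl, rfl, rfl, Subset.rfl, fun _ _ h => h, fun _ j => (hE.false j).elim,
      fun _ j => (hE.false j).elim, le_rfl⟩
  obtain ⟨enc, henc⟩ := exists_injective_nat J
  obtain ⟨f, hf⟩ := exists_surjective_nat (J × J × Bool)
  let en : ℕ → J × J × Bool := fun n => f (Nat.unpair n).1
  have hen : ∀ c n, ∃ m, n ≤ m ∧ en m = c := fun c n => by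
    obtain ⟨k, rfl⟩ := hf c
    exact ⟨Nat.pair k n, Nat.right_le_pair _ _, by simp [en]⟩
  have hD : MeasurableSet (DI G en enc lab) := meas_DI h hlab
  have hW : (Lk G en (DI G en enc lab)).WF Γ := wf_Lk h hD valid_DI
  have hA : MeasurableSet (alive G en (DI G en enc lab)) := meas_alive h hD
  have hsub : alive G en (DI G en enc lab) ⊆ G.E := fun _ hε => hε.1
  refine ⟨⟨G.P, (Lk G en (DI G en enc lab)).Conn, alive G en (DI G en enc lab), G.o, G.t⟩,
    ⟨h.mP, hW.mConn, hA, h.mo, h.mt, Relation.EqvGen.is_equivalence _, hW.orbConn,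
      fun ε hε => h.orbo ε hε.1, fun ε hε => h.orbt ε hε.1,
      fun p hp q hq => (hW.satConn hq).1 hp, fun ε hε => h.oP ε hε.1, fun ε hε => h.tP ε hε.1⟩,
    rfl, rfl, rfl, hsub, fun p q hpq => .rel _ _ (Or.inl hpq), ?_, ?_, ?_⟩
  · rintro x j j' hj hj' hl (hc | hc)
    · exact folded (b := false) hen henc hj hj' hl hc
    · exact folded (b := true) hen henc hj hj' hl hc
  · intro x j hj
    obtain ⟨j', h1, h2, h3⟩ := survivor (en := en) (enc := enc) (lab := lab) x _ j rfl hj
    exact ⟨j', h1, h2, h3 false, h3 true⟩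
  · have h1 := LL (μ := μ) hW hv
    have h2 : nu μ ℕ (DI G en enc lab) ≤ nu μ J (G.E \ alive G en (DI G en enc lab)) := by
      refine nu_le_of_injOn Γ (φ := fun d : X × ℕ => (d.1, (en d.2).2.1)) ?_ hD (h.mE.diff hA)
        (fun d _ => Orb.refl _) ?_ injOn_DI
      · exact measurable_fst.prodMk
          ((Measurable.of_discrete (f := fun n => (en n).2.1)).comp measurable_snd)
      · exact fun d hd => ⟨(valid_DI d hd).2, fun ha => ha.2 d.2 hd rfl⟩
    have h3 : nu μ J (G.E \ alive G en (DI G en enc lab)) +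
        nu μ J (alive G en (DI G en enc lab)) = nu μ J G.E := by
      rw [← measure_union disjoint_sdiff_left hA, sdiff_union_of_subset hsub]
    calc G.v μ + nu μ J (alive G en (DI G en enc lab))
        ≤ (∫⁻ p in G.P, wt (Lk G en (DI G en enc lab)).Conn p ∂(nu μ I) +
            nu μ J (G.E \ alive G en (DI G en enc lab))) +
            nu μ J (alive G en (DI G en enc lab)) := by
          gcongr
          exact h1.trans (add_le_add le_rfl h2)
      _ = _ := by rw [add_assoc, h3]; rfl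

end Crest.Agent.R191
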