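import Crest.Agent.R191.Complete

/-! # R191: the group `Γ = NN ⋊ Lam` -/

set_option autoImplicit false

namespace Crest.Agent.R191

namespace GrpAux

open SemidirectProduct

theorem lift_relw {G : Type} [Group G] (f : Lam → G) (y : Lam) :
    FreeGroup.lift f (FreeGroup.mk (relw y)) = (List.ofFn fun i : Fin 100 => f (sg i * y)).prod := by
  unfold relw
  rw [FreeGroup.lift_mk, List.map_ofFn]
  rfl

theorem prod_rel (y : Lam) : (List.ofFn fun i : Fin 100 => bb (sg i * y)).prod = 1 := by
  have h : FreeGroup.lift bb = PresentedGroup.mk rels := by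
    ext l
    rw [FreeGroup.lift_apply_of]
    rfl
  rw [← lift_relw bb, h]
  exact PresentedGroup.one_of_mem ⟨y, rfl⟩

/-- `b_l ↦ b_{l μ⁻¹}` -/
def psi (μ : Lam) : NN →* NN :=
  PresentedGroup.toGroup (f := fun l => bb (l * μ⁻¹)) (by
    rintro _ ⟨y, rfl⟩
    rw [lift_relw]
    simp only [mul_assoc]
    exact prod_rel _)

theorem psi_bb (μ l : Lam) : psi μ (bb l) = bb (l * μ⁻¹) := PresentedGroup.toGroup.of _

theorem psi_comp (μ ν : Lam) : (psi μ).comp (psi ν) = psi (μ * ν) := by
  refine PresentedGroup.ext fun l => ?_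
  change psi μ (psi ν (bb l)) = psi (μ * ν) (bb l)
  rw [psi_bb, psi_bb, psi_bb, mul_inv_rev, mul_assoc]

theorem psi_one : psi 1 = MonoidHom.id _ := by
  refine PresentedGroup.ext fun l => ?_
  change psi 1 (bb l) = bb l
  rw [psi_bb, inv_one, mul_one]

/-- the action of `Lam` on `NN` -/
def phi : Lam →* MulAut NN where
  toFun μ := MonoidHom.toMulEquiv (psi μ) (psi μ⁻¹) (by rw [psi_comp, inv_mul_cancel, psi_one])
    (by rw [psi_comp, mul_inv_cancel, psi_one])
  map_one' := MulEquiv.ext fun x => DFunLike.congr_fun psi_one x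
  map_mul' μ ν := MulEquiv.ext fun x => (DFunLike.congr_fun (psi_comp μ ν) x).symm

theorem phi_bb (μ l : Lam) : phi μ (bb l) = bb (l * μ⁻¹) := psi_bb μ l

abbrev Gam : Type := NN ⋊[phi] Lam

instance : Countable NN := (PresentedGroup.mk_surjective rels).countable

instance : Countable Gam := SemidirectProduct.equivProd.injective.countable

def aa : Gam := (inl (bb 1))⁻¹

def z0 : Lam := (1, Multiplicative.ofAdd 1)

def kap (g : Gam) : NN := g⁻¹.left

def LL : List NN := List.ofFn fun i : Fin 100 => bb (sg i)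

def kk (i : Fin 100) : NN := (LL.take i).prod

def tau (i : Fin 100) : Gam := inr (sg i) * (inl (kk i))⁻¹

theorem kap_inr (l : Lam) (g : Gam) : kap (inr l * g) = kap g := by
  simp only [kap, mul_inv_rev, ← map_inv, mul_left, left_inr, map_one, mul_one]

theorem kap_aa (g : Gam) : kap (aa * g) = kap g * bb (rightHom g) := by
  simp only [kap, aa, mul_inv_rev, inv_inv, mul_left, left_inl, phi_bb, inv_right, one_mul,
    rightHom_eq_right]

theorem eq_of_kap {g g' : Gam} (h : kap g = kap g') (h' : rightHom g = rightHom g') : g = g' := by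
  refine inv_injective (SemidirectProduct.ext h ?_)
  simpa [rightHom_eq_right] using h'

theorem mem_of_kap {g g' : Gam} (h : kap g = kap g') :
    g * g'⁻¹ ∈ (inr : Lam →* Gam).range := by
  refine ⟨rightHom g * (rightHom g')⁻¹, ?_⟩
  rw [eq_mul_inv_iff_mul_eq]
  refine eq_of_kap (by rw [kap_inr, h]) ?_
  simp

theorem right_tau (i : Fin 100) : rightHom (tau i) = sg i := by
  simp [tau]

theorem kap_tau (i : Fin 100) : kap (tau i) = kk i := by
  rw [tau, kap_inr, kap, inv_inv, left_inl]

theorem kk_succ (i : Fin 100) : kk (i + 1) = kk i * bb (sg i) := by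
  have hl : LL.length = 100 := List.length_ofFn
  have h := List.prod_take_succ LL i (by rw [hl]; exact i.2)
  have h2 : LL[(i : ℕ)]'(by rw [hl]; exact i.2) = bb (sg i) := by
    simp only [LL, List.getElem_ofFn]
  rw [h2] at h
  rw [kk, kk, ← h]
  by_cases hi : (i : ℕ) = 99
  · have h3 : ((i + 1 : Fin 100) : ℕ) = 0 := by rw [Fin.val_add, hi]; rfl
    have h4 : LL.prod = 1 := by
      have := prod_rel 1
      simp only [mul_one] at this
      exact this
    rw [h3, hi, List.take_of_length_le (i := 99 + 1) hl.le, h4]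
    rfl
  · have h3 : ((i + 1 : Fin 100) : ℕ) = i + 1 := by
      rw [Fin.val_add]
      exact Nat.mod_eq_of_lt (by have := i.2; change (i : ℕ) + 1 < 100; omega)
    rw [h3]

theorem cyc (m : Fin 100) : tau (m + 1) * (aa * tau m)⁻¹ ∈ (inr : Lam →* Gam).range :=
  mem_of_kap (by rw [kap_aa, kap_tau, kap_tau, right_tau, kk_succ])

theorem closure_lam : Subgroup.closure (insert z0 (Set.range sg)) = ⊤ := by
  rw [eq_top_iff]
  rintro ⟨w, n⟩ -
  have h1 : ((w, 1) : Lam) ∈ Subgroup.closure (insert z0 (Set.range sg)) := by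
    induction w using FreeGroup.induction_on with
    | C1 => exact one_mem _
    | of i => exact Subgroup.subset_closure (Or.inr ⟨i, rfl⟩)
    | inv_of i h => exact inv_mem h
    | mul x y hx hy => exact mul_mem hx hy
  have h2 : ((1, n) : Lam) = z0 ^ n.toAdd := by
    simp [z0, ← ofAdd_zsmul]
  have h3 : ((w, n) : Lam) = (w, 1) * (1, n) := by simp
  rw [h3, h2]
  exact mul_mem h1 (Subgroup.zpow_mem _ (Subgroup.subset_closure (Set.mem_insert _ _)) _)

theorem range_inr : (inr : Lam →* Gam).range =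
    Subgroup.closure (insert (inr z0) (Set.range fun i => inr (sg i))) := by
  rw [MonoidHom.range_eq_map, ← closure_lam, MonoidHom.map_closure, Set.image_insert_eq,
    ← Set.range_comp]
  rfl

theorem gen_of {H : Subgroup Gam} (ha : aa ∈ H) (hl : ∀ l, inr l ∈ H) : H = ⊤ := by
  rw [eq_top_iff]
  intro g _
  rw [← inl_left_mul_inr_right g]
  refine mul_mem ?_ (hl _)
  refine PresentedGroup.generated_by rels (H.comap inl) (fun l => ?_) g.left
  have h : (inl (bb l) : Gam) = inr l⁻¹ * aa⁻¹ * inr l := by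
    have := inl_aut (φ := phi) l⁻¹ (bb 1)
    rw [phi_bb] at this
    simpa [aa] using this
  change inl (bb l) ∈ H
  rw [h]
  exact mul_mem (mul_mem (hl _) (inv_mem ha)) (hl _)

end GrpAux

open GrpAux SemidirectProduct in
/-- Proof.  `φ μ : b_l ↦ b_{l μ⁻¹}` permutes the relators (`relw y ↦ relw (y μ⁻¹)`), so it defines
`φ : Lam →* MulAut NN`.  `Γ = NN ⋊[φ] Lam`, `Λ = range inr`, `π = rightHom`, `a = inl (bb 1)⁻¹`,
`z = inr (1, ofAdd 1)`, `s i = inr (sg i)`, `κ g = (g⁻¹ * inr (π g)).left`, and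
`τ i = inr (sg i) * (inl (k i))⁻¹` with `k i = b_{s_0} ⋯ b_{s_{i-1}}`, so that `κ (τ i) = k i`; `cyc` follows
from `κ (a * τ i) = k i * b_{s_i} = k (i+1)` (for `i = 99` by the relator `relw 1`).  `Leaf` from
`leaf_lam` with `ℓ g = norm (π g).1` (if `π g = π g'` then `i = j`, so `g = g'`).
`χ = (FreeGroup.lift (i ↦ ofAdd i)) ∘ fst ∘ π`. -/
theorem exists_group :
    ∃ (Γ : Type) (_ : Group Γ) (_ : Countable Γ) (Λ : Subgroup Γ) (a z : Γ) (s τ : Fin 100 → Γ)
      (χ : Γ →* Multiplicative ℤ), Group.FG Γ ∧ GD Λ a τ ∧ Leaf τ ∧ ¬ IsOfFinOrder z ∧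
      (∀ i, Commute z (s i)) ∧ Λ = Subgroup.closure (insert z (Set.range s)) ∧
      ∀ i, χ (τ i) = Multiplicative.ofAdd ((i : ℕ) : ℤ) := by
  refine ⟨Gam, inferInstance, inferInstance, (inr : Lam →* Gam).range, aa, inr z0,
    fun i => inr (sg i), tau,
    ((FreeGroup.lift fun i : Fin 100 => Multiplicative.ofAdd ((i : ℕ) : ℤ)).comp
      (MonoidHom.fst _ _)).comp rightHom, ?_, ⟨?_, ?_, cyc, ?_, ?_⟩, ?_, ?_, ?_, range_inr, ?_⟩
  · refine Group.fg_iff.mpr ⟨insert aa (insert (inr z0) (Set.range fun i => inr (sg i))), ?_,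
      ((Set.finite_range _).insert _).insert _⟩
    refine gen_of (Subgroup.subset_closure (Or.inl rfl)) fun l => ?_
    refine Subgroup.closure_mono (Set.subset_insert _ _) ?_
    rw [← range_inr]
    exact ⟨l, rfl⟩
  · exact Infinite.of_injective (fun l : Lam => (⟨inr l, l, rfl⟩ : (inr : Lam →* Gam).range))
      fun _ _ h => inr_injective (congrArg Subtype.val h)
  · exact gen_of (Subgroup.subset_closure (Or.inl rfl))
      fun l => Subgroup.subset_closure (Or.inr ⟨l, rfl⟩)
  · intro i j h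
    apply sg_injective
    rw [← right_tau, h, right_tau]
  · refine complete_of_word rightHom kap ?_ kap_aa (fun _ _ => eq_of_kap) right_tau cyc
    rintro _ ⟨l, rfl⟩ g
    exact kap_inr l g
  · refine ⟨fun g => FreeGroup.norm (rightHom g).1, fun g => leafIdx (rightHom g).1,
      fun g g' i j h hne hl => ?_⟩
    have h2 := congrArg rightHom h
    rw [map_mul, map_mul, right_tau, right_tau] at h2
    refine leaf_lam h2 (fun e => hne ?_) hl
    rw [e] at h2
    rw [sg_injective (mul_right_cancel h2)] at h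
    exact mul_left_cancel h
  · rw [inr_injective.isOfFinOrder_iff]
    intro h
    have := (MonoidHom.snd _ _).isOfFinOrder h
    simp [z0, isOfFinOrder_ofAdd_iff, isOfFinAddOrder_iff_eq_zero] at this
  · intro i
    refine Commute.map ?_ inr
    simp [Commute, SemiconjBy, z0, sg]
  · intro i
    rw [MonoidHom.comp_apply, right_tau]
    simp [sg]

end Crest.Agent.R191
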