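import Crest.Agent.R191.Defs

/-! # R191: the group `N = ⟨b_l (l ∈ Lam) | b_{s_0 y} ⋯ b_{s_99 y}⟩` -/

set_option autoImplicit false

namespace Crest.Agent.R191

/-- `F₁₀₀ × ℤ` -/
abbrev Lam : Type := FreeGroup (Fin 100) × Multiplicative ℤ

/-- the free generators -/
def sg (i : Fin 100) : Lam := (FreeGroup.of i, 1)

/-- the relator of the face `y` -/
def relw (y : Lam) : List (Lam × Bool) := List.ofFn fun i : Fin 100 => (sg i * y, true)

def rels : Set (FreeGroup Lam) := Set.range fun y => FreeGroup.mk (relw y)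

abbrev NN : Type := PresentedGroup rels

/-- generators of `NN` -/
def bb (l : Lam) : NN := PresentedGroup.of l

/-- the 99 letters of the cyclic relator `y` other than the `i`-th one, starting at `i + 1` -/
def run (y : Lam) (i : Fin 100) : List (Lam × Bool) :=
  List.ofFn fun k : Fin 99 => (sg (i + 1 + k.castSucc) * y, true)

def NoRun (w : List (Lam × Bool)) : Prop :=
  ∀ y i, ¬ run y i <:+: w ∧ ¬ FreeGroup.invRev (run y i) <:+: w

theorem sg_injective : Function.Injective sg := fun _ _ h =>
  FreeGroup.of_injective (congrArg Prod.fst h)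

/-- the index `i` such that the reduced word of `w` starts with `(of i)⁻¹` (if any) -/
noncomputable def leafIdx (w : FreeGroup (Fin 100)) : Fin 100 :=
  match w.toWord with
  | [] => 0
  | (i, _) :: _ => i

theorem leafIdx_of_norm_le {w : FreeGroup (Fin 100)} {i : Fin 100}
    (h : FreeGroup.norm (FreeGroup.of i * w) ≤ FreeGroup.norm w) : i = leafIdx w := by
  by_contra hne
  have hr : FreeGroup.IsReduced ((i, true) :: w.toWord) := by
    unfold leafIdx at hne
    have h0 := FreeGroup.isReduced_toWord (x := w)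
    generalize w.toWord = L at hne h0
    rcases L with _ | ⟨⟨j, b⟩, L⟩
    · simp
    · rw [FreeGroup.isReduced_cons_cons]
      exact ⟨fun e => (hne e).elim, h0⟩
  have : (FreeGroup.of i * w).toWord = (i, true) :: w.toWord := by
    conv_lhs => rw [← FreeGroup.mk_toWord (x := w)]
    rw [FreeGroup.of, FreeGroup.mul_mk, FreeGroup.toWord_mk]
    exact hr.reduce_eq
  unfold FreeGroup.norm at h
  rw [this] at h
  simp at h

/-- Leaf lemma in the free group. -/
theorem leaf_free {w w' : FreeGroup (Fin 100)} {i j : Fin 100}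
    (h : FreeGroup.of i * w = FreeGroup.of j * w') (hne : w ≠ w')
    (hl : FreeGroup.norm w' ≤ FreeGroup.norm w) : i = leafIdx w := by
  by_contra hi
  have hij : i ≠ j := by
    rintro rfl
    exact hne (mul_left_cancel h)
  have hr : FreeGroup.IsReduced ((i, true) :: w.toWord) := by
    unfold leafIdx at hi
    have h0 := FreeGroup.isReduced_toWord (x := w)
    generalize w.toWord = L at hi h0
    rcases L with _ | ⟨⟨j, b⟩, L⟩
    · simp
    · rw [FreeGroup.isReduced_cons_cons]
      exact ⟨fun e => (hi e).elim, h0⟩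
  have hr2 : FreeGroup.IsReduced ((j, false) :: (i, true) :: w.toWord) := by
    rw [FreeGroup.isReduced_cons_cons]
    exact ⟨fun e => (hij e.symm).elim, hr⟩
  have e : w' = FreeGroup.mk ((j, false) :: (i, true) :: w.toWord) := by
    have : w' = (FreeGroup.of j)⁻¹ * (FreeGroup.of i * w) := by rw [h]; group
    rw [this]
    conv_lhs => rw [← FreeGroup.mk_toWord (x := w)]
    simp [FreeGroup.of, FreeGroup.inv_mk, FreeGroup.mul_mk, FreeGroup.invRev]
  have : w'.toWord = (j, false) :: (i, true) :: w.toWord := by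
    rw [e, FreeGroup.toWord_mk]; exact hr2.reduce_eq
  unfold FreeGroup.norm at hl
  rw [this] at hl
  simp only [List.length_cons] at hl
  omega

/-- Leaf lemma in `Lam`. -/
theorem leaf_lam {y y' : Lam} {i j : Fin 100} (h : sg i * y = sg j * y') (hne : y ≠ y')
    (hl : FreeGroup.norm y'.1 ≤ FreeGroup.norm y.1) : i = leafIdx y.1 := by
  have h1 := congrArg Prod.fst h
  have h2 := congrArg Prod.snd h
  simp only [sg, Prod.fst_mul, Prod.snd_mul, one_mul] at h1 h2
  exact leaf_free h1 (fun e => hne (Prod.ext e h2)) hl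

/-- the sign character `s i ↦ (-1) ^ i` -/
def sgn : Lam →* ℤˣ :=
  (FreeGroup.lift fun i : Fin 100 => (-1 : ℤˣ) ^ (i : ℕ)).comp (MonoidHom.fst _ _)

/-- `b_l ↦ sgn l ∈ {±1} ⊆ ℤ` on the free group -/
def degF : FreeGroup Lam →* Multiplicative ℤ :=
  FreeGroup.lift fun l => Multiplicative.ofAdd ((sgn l : ℤˣ) : ℤ)

theorem degF_relw (y : Lam) : degF (FreeGroup.mk (relw y)) = 1 := by
  have h : ∀ i : Fin 100, ((sgn (sg i * y) : ℤˣ) : ℤ) = (-1) ^ (i : ℕ) * ((sgn y : ℤˣ) : ℤ) := by
    intro i
    simp [sgn, sg]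
  have h2 : ∑ i : Fin 100, (-1 : ℤ) ^ (i : ℕ) = 0 := by
    rw [Fin.sum_univ_eq_sum_range (fun i => (-1 : ℤ) ^ i) 100, neg_one_geom_sum]
    norm_num
  unfold degF relw
  rw [FreeGroup.lift_mk, List.map_ofFn, List.prod_ofFn]
  simp only [Function.comp_def, cond_true, h]
  rw [← ofAdd_sum, ← Finset.sum_mul, h2, zero_mul, ofAdd_zero]

theorem degF_of_zpow_inj (l : Lam) {m n : ℤ}
    (h : degF (FreeGroup.of l ^ m) = degF (FreeGroup.of l ^ n)) : m = n := by
  simp only [degF, map_zpow, FreeGroup.lift_apply_of, ← ofAdd_zsmul, smul_eq_mul] at h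
  exact mul_right_cancel₀ (Units.ne_zero _) (Multiplicative.ofAdd.injective h)

/-- The generators have infinite order modulo any set of relators. -/
theorem of_zpow_inj {S : Set (FreeGroup Lam)} (hS : S ⊆ rels) (l : Lam) {m n : ℤ}
    (h : (PresentedGroup.of l : PresentedGroup S) ^ m = PresentedGroup.of l ^ n) : m = n := by
  have hk : ∀ r ∈ S, FreeGroup.lift
      (fun l => Multiplicative.ofAdd ((sgn l : ℤˣ) : ℤ)) r = 1 := by
    intro r hr
    obtain ⟨y, rfl⟩ := hS hr
    exact degF_relw y
  have := congrArg (PresentedGroup.toGroup hk) h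
  simp only [map_zpow, PresentedGroup.toGroup.of, ← ofAdd_zsmul, smul_eq_mul] at this
  exact mul_right_cancel₀ (Units.ne_zero _) (Multiplicative.ofAdd.injective this)

theorem bb_zpow_inj (l : Lam) {m n : ℤ} (h : bb l ^ m = bb l ^ n) : m = n :=
  of_zpow_inj subset_rfl l h

end Crest.Agent.R191
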