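import Crest.Agent.R191.InitAux

/-! # R191: the graph of a graphing -/

set_option autoImplicit false
set_option linter.unusedSectionVars false

open MeasureTheory Set
open scoped ENNReal

namespace Crest.Agent.R191

variable {Γ X : Type} [Group Γ] [Countable Γ] [MeasurableSpace Γ]
  [MeasurableSingletonClass Γ] [MulAction Γ X] [MeasurableSpace X] [StandardBorelSpace X]
  [MeasurableSMul₂ Γ X] [IsCancelSMul Γ X]
  {μ : Measure X} [IsProbabilityMeasure μ] [SMulInvariantMeasure Γ X μ]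

namespace InitAux

theorem tsum_ne_top_of_finite {A : Type} {f : A → ℝ≥0∞} {s : Set A} (hs : s.Finite)
    (h0 : ∀ a, a ∉ s → f a = 0) (h1 : ∀ a, f a ≠ ⊤) : ∑' a, f a ≠ ⊤ := by
  rw [tsum_eq_sum (s := hs.toFinset) fun a ha => h0 a (by simpa using ha)]
  exact ENNReal.sum_ne_top.2 fun a _ => h1 a

theorem tsum_sum' {A B : Type} (f : A ⊕ B → ℝ≥0∞) :
    ∑' i, f i = ∑' a, f (.inl a) + ∑' b, f (.inr b) :=
  Summable.tsum_sum ENNReal.summable ENNReal.summable

/-- the equivalence relation generated by the first `m` pieces of a graphing -/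
def Cm (Φ : ℕ → Γ × Set X) (m : ℕ) : X → X → Prop :=
  Relation.EqvGen fun x y => ∃ i < m, x ∈ (Φ i).2 ∧ y = (Φ i).1 • x

theorem Cm_mono {Φ : ℕ → Γ × Set X} {m n : ℕ} (h : m ≤ n) {x y : X} (hc : Cm Φ m x y) :
    Cm Φ n x y := by
  induction hc with
  | rel x y h' =>
    obtain ⟨i, hi, h'⟩ := h'
    exact .rel _ _ ⟨i, hi.trans_le h, h'⟩
  | refl x => exact .refl _
  | symm _ _ _ ih => exact .symm _ _ ih
  | trans _ _ _ _ _ ih ih' => exact .trans _ _ _ ih ih'

theorem exists_Cm {Φ : ℕ → Γ × Set X} {x y : X}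
    (h : Relation.EqvGen (Crest.Dynamics.GraphingStep Φ) x y) : ∃ m, Cm Φ m x y := by
  induction h with
  | rel x y h =>
    obtain ⟨i, h⟩ := h
    exact ⟨i + 1, .rel _ _ ⟨i, Nat.lt_succ_self i, h⟩⟩
  | refl x => exact ⟨0, .refl _⟩
  | symm _ _ _ ih => exact let ⟨m, h⟩ := ih; ⟨m, .symm _ _ h⟩
  | trans _ _ _ _ _ ih ih' =>
    obtain ⟨m, h⟩ := ih
    obtain ⟨n, h'⟩ := ih'
    exact ⟨max m n, .trans _ _ _ (Cm_mono (le_max_left _ _) h) (Cm_mono (le_max_right _ _) h')⟩

theorem meas_Cm {Φ : ℕ → Γ × Set X} (hΦ : ∀ i, MeasurableSet (Φ i).2) (m : ℕ) :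
    Measurable fun z : X × X => Cm Φ m z.1 z.2 := by
  refine meas_eqvGenX Γ ?_ ?_
  · refine Measurable.exists fun i => Measurable.and measurable_const (Measurable.and ?_ ?_)
    · exact measurableSet_setOfPred.1 ((hΦ i).preimage measurable_fst)
    · exact measurableSet_setOfPred.1 (measurableSet_eq_fun measurable_snd (by fun_prop))
  · rintro p q ⟨i, -, -, rfl⟩
    exact Orb.smul _ _

/-- finitely many pieces of the graphing do most of the work -/
theorem exists_bad {Λ : Subgroup Γ} (a : Γ) {Φ : ℕ → Γ × Set X}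
    (hΦ : Crest.Dynamics.Generates μ Φ) {U : Set X} (hU : MeasurableSet U)
    (hUΛ : ∀ x, ∃ l ∈ Λ, l • x ∈ U) {ε : ℝ≥0∞} (hε : ε ≠ 0) :
    ∃ (m : ℕ) (B : Set X), MeasurableSet B ∧ μ B ≤ ε ∧
      ∀ x, x ∉ B → (∃ l ∈ Λ, l • x ∈ U ∧ Cm Φ m x (l • x)) ∧ Cm Φ m x (a • x) := by
  obtain ⟨hm, N, hN, hgen⟩ := hΦ
  set B : ℕ → Set X := fun m =>
    {x | ¬ ((∃ l ∈ Λ, l • x ∈ U ∧ Cm Φ m x (l • x)) ∧ Cm Φ m x (a • x))} with hB
  have hc : ∀ m (g : Γ), Measurable fun x : X => Cm Φ m x (g • x) := fun m g =>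
    (meas_Cm hm m).comp (f := fun x : X => (x, g • x)) (by fun_prop)
  have mB : ∀ m, MeasurableSet (B m) := by
    intro m
    refine measurableSet_setOfPred.2 (Measurable.not (Measurable.and ?_ (hc m a)))
    refine Measurable.exists fun l => Measurable.and measurable_const (Measurable.and ?_ (hc m l))
    exact measurableSet_setOfPred.1 (hU.preimage (measurable_const_smul l))
  have anti : Antitone B := by
    intro m n hmn x hx h
    obtain ⟨⟨l, hl, h1, h2⟩, h3⟩ := h
    exact hx ⟨⟨l, hl, h1, Cm_mono hmn h2⟩, Cm_mono hmn h3⟩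
  have hsub : (⋂ m, B m) ⊆ N := by
    intro x hx
    by_contra hxN
    obtain ⟨l, hl, hlU⟩ := hUΛ x
    obtain ⟨m, h1⟩ := exists_Cm (hgen x hxN l)
    obtain ⟨n, h2⟩ := exists_Cm (hgen x hxN a)
    exact mem_iInter.1 hx (max m n)
      ⟨⟨l, hl, hlU, Cm_mono (le_max_left _ _) h1⟩, Cm_mono (le_max_right _ _) h2⟩
  have ht := tendsto_measure_iInter_atTop (μ := μ) (fun m => (mB m).nullMeasurableSet) anti
    ⟨0, measure_ne_top _ _⟩
  rw [measure_mono_null hsub hN] at ht
  obtain ⟨m, hm'⟩ := (ht.eventually_lt_const (pos_iff_ne_zero.2 hε)).exists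
  exact ⟨m, B m, mB m, hm'.le, fun x hx => not_not.1 hx⟩

/-- index type of the points: chain points, `•` (`inr false`) and `⋆` (`inr true`) -/
abbrev II : Type := (ℕ × ℕ) ⊕ Bool

/-- index type of the steps -/
abbrev JJ : Type := (ℕ × ℕ) ⊕ (ℕ ⊕ Bool)

/-- source of a step -/
def src (k : ℕ → ℕ) : JJ → II
  | .inl (_, 0) => .inr false
  | .inl (i, r + 1) => .inl (i, r)
  | .inr (.inl i) => .inl (i, k i)
  | .inr (.inr false) => .inr false
  | .inr (.inr true) => .inr true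

/-- target of a step -/
def tgt : JJ → II
  | .inl c => .inl c
  | .inr (.inl _) => .inr false
  | .inr (.inr _) => .inr true

/-- position of the source -/
def al (k : ℕ → ℕ) (w : ℕ → ℕ → Γ) : JJ → Γ
  | .inl (i, r) => w i (r - 1)
  | .inr (.inl i) => w i (k i)
  | .inr (.inr _) => 1

/-- position of the target -/
def be (k : ℕ → ℕ) (w : ℕ → ℕ → Γ) (a : Γ) : JJ → Γ
  | .inl (i, r) => w i r
  | .inr (.inl i) => w i (k i)
  | .inr (.inr false) => 1
  | .inr (.inr true) => a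

/-- domain of a step -/
def dom (A : ℕ → Set X) (m : ℕ) (k : ℕ → ℕ) (U B : Set X) : JJ → Set X
  | .inl (i, r) => {x | (i < m ∧ r ≤ k i) ∧ x ∈ A i}
  | .inr (.inl i) => {x | i < m ∧ x ∈ A i}
  | .inr (.inr false) => U ∪ B
  | .inr (.inr true) => B

/-- the points -/
def pts (A : ℕ → Set X) (m : ℕ) (k : ℕ → ℕ) (w : ℕ → ℕ → Γ) : II → Set X
  | .inl (i, r) => (fun x => (w i r)⁻¹ • x) ⁻¹' {x | (i < m ∧ r ≤ k i) ∧ x ∈ A i}
  | .inr _ => univ

theorem meas_sep {p : Prop} {A : Set X} (hA : MeasurableSet A) :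
    MeasurableSet {x | p ∧ x ∈ A} :=
  (MeasurableSet.const p).inter hA

end InitAux

open InitAux in
/-- Proof.  Write `Φ i = (g i, A i)` and `g i = u (k-1) ⋯ u 0` (`k = k i`) with every letter `u r` in
`Λ ∪ {a, a⁻¹}` (`hgen`); let `w i r = u (r-1) ⋯ u 0`.  Take `U` from `exists_small` with `μ U ≤ η/3`.
Let `C m = EqvGen` of the steps of `Φ i`, `i < m` (`meas_eqvGenX`), and
`B m = {x | ¬ ∃ l ∈ Λ, l • x ∈ U ∧ C m x (l • x)}`,
`B' m = {x | ¬ ∃ l ∈ Λ, ∃ l' ∈ Λ, l • x ∈ U ∧ l' • a • x ∈ U ∧ C m (l • x) (l' • a • x)}`.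
Both decrease to null sets (outside `⋃ g, g • N`), so fix `m` with `μ (B m), μ (B' m) ≤ η/3`.
Points: stars `(x, ⋆)` (related along `Λ`-orbits, weight `0`), `(x, •)` and chain points
`(w i r • x, (i, r))` for `i < m`, `r ≤ k i`, `x ∈ A i` (singleton classes); this is `R₀`, with
`v₀ = 1 + ∑ (k i + 1) μ (A i)`.  *Links*: `(x, •) — (x, (i, 0))`, `(g i • x, (i, k i)) — (g i • x, •)` for
`x ∈ A i`; consecutive chain points when the letter is in `Λ`; `(x, •) — (x, ⋆)` for `x ∈ U ∪ B m`.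
*Edges*: for a letter `a` (not in `Λ`) an edge based at `w i r • x` from chain point `r` to `r + 1`, for a
letter `a⁻¹` an edge based at `w i (r+1) • x` from `r + 1` to `r`, and an edge `(x, ⋆) → (a • x, ⋆)`
based at `x ∈ B' m`.  Let `R` be the `Conn` of the link graph; `LL` gives `v₀ ≤ v + ν(links)`, and
`ν(links) + e ≤ ∑ (k i + 2) μ (A i) + η`. -/
theorem init {Λ : Subgroup Γ} {a : Γ} (hΛ : Infinite Λ)
    (hgen : Subgroup.closure (insert a (Λ : Set Γ)) = ⊤) {Φ : ℕ → Γ × Set X}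
    (hΦ : Crest.Dynamics.Generates μ Φ) {η : ℝ≥0∞} (hη : η ≠ 0) :
    ∃ (I J : Type) (_ : Countable I) (_ : MeasurableSpace I) (_ : MeasurableSingletonClass I)
      (_ : Countable J) (_ : MeasurableSpace J) (_ : MeasurableSingletonClass J)
      (st : I) (G : Gr X I J), G.Adm Λ a st ∧ G.e μ ≠ ⊤ ∧
      G.e μ + 1 ≤ G.v μ + Crest.Dynamics.graphingCost μ Φ + η := by
  obtain ⟨U, hU, hUμ, hUΛ⟩ := exists_small (μ := μ) Λ hΛ (ε := η / 3)
    (ENNReal.div_ne_zero.2 ⟨hη, by norm_num⟩)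
  obtain ⟨m, B, hB, hBμ, hgood⟩ := exists_bad (μ := μ) a hΦ hU hUΛ (ε := η / 3)
    (ENNReal.div_ne_zero.2 ⟨hη, by norm_num⟩)
  choose k w hw0 hwk hw using fun i => exists_word hgen (Φ i).1
  set A : ℕ → Set X := fun i => (Φ i).2 with hA
  have mA : ∀ i, MeasurableSet (A i) := hΦ.1
  have hmeq : ∀ c : ℕ × ℕ, μ (pts A m k w (.inl c)) = μ (dom A m k U B (.inl c)) :=
    fun c => measure_preimage_smul μ _ _
  set S : ℝ≥0∞ := ∑' c : ℕ × ℕ, μ (dom A m k U B (.inl c)) with hS
  have hSfin : S ≠ ⊤ := by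
    refine tsum_ne_top_of_finite (s := ⋃ i ∈ Iio m, {i} ×ˢ Iic (k i))
      ((finite_Iio m).biUnion fun i _ => (finite_singleton i).prod (finite_Iic _)) ?_
      fun _ => measure_ne_top _ _
    rintro ⟨i, r⟩ h
    have : ¬ (i < m ∧ r ≤ k i) := fun h' => h (by simpa using h')
    simp [dom, this]
  set C : ℝ≥0∞ := ∑' i : ℕ, μ (dom A m k U B (.inr (.inl i))) with hC
  have hCfin : C ≠ ⊤ := by
    refine tsum_ne_top_of_finite (finite_Iio m) ?_ fun _ => measure_ne_top _ _
    intro i h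
    have : ¬ i < m := h
    simp [dom, this]
  have hCle : C ≤ Crest.Dynamics.graphingCost μ Φ :=
    ENNReal.tsum_le_tsum fun i => measure_mono fun x hx => hx.2
  have hPsum : ∑' i, μ (pts A m k w i) = S + 1 + 1 := by
    rw [tsum_sum', tsum_bool]
    simp only [hmeq]
    simp [pts, add_assoc, hS]
  have hDsum : ∑' j, μ (dom A m k U B j) = S + (C + (μ (U ∪ B) + μ B)) := by
    rw [tsum_sum', tsum_sum' fun j => μ (dom A m k U B (.inr j)), tsum_bool]
    rfl
  have hη3 : μ (U ∪ B) + μ B ≤ η := by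
    calc μ (U ∪ B) + μ B ≤ η / 3 + η / 3 + η / 3 :=
          add_le_add ((measure_union_le _ _).trans (add_le_add hUμ hBμ)) hBμ
      _ = η := ENNReal.add_thirds η
  obtain ⟨G, hG, he, hle⟩ := abs2 (μ := μ) (Λ := Λ) (a := a) (.inr true : II) (pts A m k w)
    (dom A m k U B) (al k w) (be k w a) (src k) tgt
    (by
      rintro (⟨i, r⟩ | b)
      · exact (meas_sep (mA i)).preimage (measurable_const_smul _)
      · exact MeasurableSet.univ)
    (by
      rintro (⟨i, r⟩ | i | _ | _)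
      · exact meas_sep (mA i)
      · exact meas_sep (mA i)
      · exact hU.union hB
      · exact hB)
    (fun x => mem_univ x)
    (by
      rintro (⟨i, _ | r⟩ | i | _ | _)
      · exact Or.inl (by simp [al, be])
      · exact hw i r
      · exact Or.inl (by simp [al, be])
      · exact Or.inl (by simp [al, be])
      · exact Or.inr (Or.inl (by simp [al, be])))
    (by
      rintro (⟨i, _ | r⟩ | i | _ | _) x hx
      · exact mem_univ _
      · refine ⟨⟨hx.1.1, Nat.le_of_succ_le hx.1.2⟩, ?_⟩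
        simpa [al] using hx.2
      · refine ⟨⟨hx.1, le_rfl⟩, ?_⟩
        simpa [al] using hx.2
      · exact mem_univ _
      · exact mem_univ _)
    (by
      rintro (⟨i, r⟩ | i | _ | _) x hx
      · refine ⟨hx.1, ?_⟩
        simpa [be] using hx.2
      · exact mem_univ _
      · exact mem_univ _
      · exact mem_univ _)
    (by
      intro Q hQ hst hstep
      have h1 : ∀ i < m, ∀ x ∈ A i, ∀ r ≤ k i, Q (x, .inr false) (w i r • x, .inl (i, r)) := by
        intro i hi x hx r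
        induction r with
        | zero =>
          intro hr
          have := hstep (.inl (i, 0)) x ⟨⟨hi, hr⟩, hx⟩
          simpa [al, be, src, tgt, hw0] using this
        | succ r ih =>
          intro hr
          exact hQ.trans (ih (Nat.le_of_succ_le hr)) (hstep (.inl (i, r + 1)) x ⟨⟨hi, hr⟩, hx⟩)
      have h2 : ∀ x y, Cm Φ m x y → Q (x, .inr false) (y, .inr false) := by
        intro x y h
        induction h with
        | rel x y h =>
          obtain ⟨i, hi, hx, rfl⟩ := h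
          rw [← hwk i]
          exact hQ.trans (h1 i hi x hx _ le_rfl) (hstep (.inr (.inl i)) x ⟨hi, hx⟩)
        | refl x => exact hQ.refl _
        | symm _ _ _ ih => exact hQ.symm ih
        | trans _ _ _ _ _ ih ih' => exact hQ.trans ih ih'
      have h3 : ∀ x ∈ U ∪ B, Q (x, .inr false) (x, .inr true) := by
        intro x hx
        have := hstep (.inr (.inr false)) x hx
        simpa [al, be, src, tgt] using this
      have h4 : ∀ x, Q (x, .inr false) (x, .inr true) := by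
        intro x
        by_cases hx : x ∈ B
        · exact h3 x (Or.inr hx)
        · obtain ⟨l, hl, hlU, hc⟩ := (hgood x hx).1
          exact hQ.trans (h2 _ _ hc) (hQ.trans (h3 _ (Or.inl hlU)) (hQ.symm (hst x l hl)))
      refine ⟨?_, fun x => ?_⟩
      · rintro (⟨i, r⟩ | _ | _) x hx
        · refine ⟨(w i r)⁻¹ • x, hQ.trans ?_ (h4 _)⟩
          have := h1 i hx.1.1 _ hx.2 r hx.1.2
          rw [smul_inv_smul] at this
          exact hQ.symm this
        · exact ⟨x, h4 x⟩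
        · exact ⟨x, hQ.refl _⟩
      · by_cases hx : x ∈ B
        · have := hstep (.inr (.inr true)) x hx
          simpa [al, be, src, tgt] using this
        · exact hQ.trans (hQ.symm (h4 x)) (hQ.trans (h2 _ _ (hgood x hx).2) (h4 _)))
    (by
      rw [hPsum]
      exact ENNReal.add_ne_top.2 ⟨ENNReal.add_ne_top.2 ⟨hSfin, ENNReal.one_ne_top⟩,
        ENNReal.one_ne_top⟩)
    (by
      rw [hDsum]
      exact ENNReal.add_ne_top.2 ⟨hSfin, ENNReal.add_ne_top.2 ⟨hCfin,
        ENNReal.add_ne_top.2 ⟨measure_ne_top _ _, measure_ne_top _ _⟩⟩⟩)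
  refine ⟨II, JJ, inferInstance, inferInstance, inferInstance, inferInstance, inferInstance,
    inferInstance, .inr true, G, hG, he, ?_⟩
  rw [hPsum, hDsum] at hle
  refine (ENNReal.add_le_add_iff_right
    (ENNReal.add_ne_top.2 ⟨hSfin, ENNReal.one_ne_top⟩ : S + 1 ≠ ⊤)).1 ?_
  calc G.e μ + 1 + (S + 1) = G.e μ + (S + 1 + 1) := by ring
    _ ≤ G.v μ + (S + (C + (μ (U ∪ B) + μ B))) + 1 := hle
    _ ≤ G.v μ + (S + (Crest.Dynamics.graphingCost μ Φ + η)) + 1 := by gcongr
    _ = G.v μ + Crest.Dynamics.graphingCost μ Φ + η + (S + 1) := by ring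

end Crest.Agent.R191
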