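import Crest.Agent.R191.BL

/-! # R191: graphs given by systems of steps (auxiliary results for `Init`) -/

set_option autoImplicit false
set_option linter.unusedSectionVars false

open MeasureTheory Set
open scoped ENNReal

namespace Crest.Agent.R191.InitAux

variable {Γ X : Type} [Group Γ] [Countable Γ] [MeasurableSpace Γ]
  [MeasurableSingletonClass Γ] [MulAction Γ X] [MeasurableSpace X] [StandardBorelSpace X]
  [MeasurableSMul₂ Γ X] [IsCancelSMul Γ X]
  {μ : Measure X} [IsProbabilityMeasure μ] [SMulInvariantMeasure Γ X μ]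
  {I J : Type} [Countable I] [MeasurableSpace I] [MeasurableSingletonClass I]
  [Countable J] [MeasurableSpace J] [MeasurableSingletonClass J]

theorem meas_fib {D : J → Set X} (hD : ∀ j, MeasurableSet (D j)) :
    MeasurableSet {ε : X × J | ε.1 ∈ D ε.2} := by
  have : {ε : X × J | ε.1 ∈ D ε.2} = ⋃ j, D j ×ˢ {j} := by
    ext ⟨x, j⟩; simp
  rw [this]
  exact MeasurableSet.iUnion fun j => (hD j).prod (measurableSet_singleton j)

theorem nu_fib {D : J → Set X} (hD : ∀ j, MeasurableSet (D j)) :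
    nu μ J {ε : X × J | ε.1 ∈ D ε.2} = ∑' j, μ (D j) := by
  rw [nu_apply (meas_fib hD)]
  rfl

/-- stars are related along `Λ`-orbits -/
def R0 (Λ : Subgroup Γ) (st : I) (p q : X × I) : Prop :=
  p = q ∨ (p.2 = st ∧ q.2 = st ∧ Orb Λ p.1 q.1)

theorem R0_orb {Λ : Subgroup Γ} {st : I} {p q : X × I} (h : R0 Λ st p q) : Orb Λ p.1 q.1 := by
  rcases h with rfl | h
  · exact Orb.refl _
  · exact h.2.2

theorem R0_eqv (Λ : Subgroup Γ) (st : I) : Equivalence (R0 (X := X) Λ st) := by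
  refine ⟨fun p => Or.inl rfl, ?_, ?_⟩
  · rintro p q (rfl | h)
    · exact Or.inl rfl
    · exact Or.inr ⟨h.2.1, h.1, h.2.2.symm⟩
  · rintro p q r (rfl | h) h'
    · exact h'
    · rcases h' with rfl | h'
      · exact Or.inr h
      · exact Or.inr ⟨h.1, h'.2.1, h.2.2.trans h'.2.2⟩

theorem R0_meas (Λ : Subgroup Γ) (st : I) :
    Measurable fun z : (X × I) × (X × I) => R0 Λ st z.1 z.2 := by
  unfold R0
  refine Measurable.or
    (measurableSet_setOfPred.1 (measurableSet_eq_fun measurable_fst measurable_snd))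
    (Measurable.and ?_ (Measurable.and ?_ ?_))
  · exact measurableSet_setOfPred.1 (measurableSet_eq_fun (by fun_prop) measurable_const)
  · exact measurableSet_setOfPred.1 (measurableSet_eq_fun (by fun_prop) measurable_const)
  · simp only [orb_sub_iff]
    refine Measurable.exists fun l => Measurable.and measurable_const ?_
    exact measurableSet_setOfPred.1 (measurableSet_eq_fun (by fun_prop) (by fun_prop))

/-- A system of steps `(x, s j) → (u j • x, t j)`, `x ∈ D j`, with `u j ∈ Λ ∪ {a}`. -/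
theorem abs1 {Λ : Subgroup Γ} {a : Γ} (st : I) (Pt : I → Set X) (D : J → Set X) (u : J → Γ)
    (s t : J → I) (hPt : ∀ i, MeasurableSet (Pt i)) (hD : ∀ j, MeasurableSet (D j))
    (hst : ∀ x, x ∈ Pt st) (hu : ∀ j, u j ∈ Λ ∨ u j = a)
    (hs : ∀ j, ∀ x ∈ D j, x ∈ Pt (s j)) (ht : ∀ j, ∀ x ∈ D j, u j • x ∈ Pt (t j))
    (hconn : ∀ Q : X × I → X × I → Prop, Equivalence Q →
      (∀ x, ∀ l ∈ Λ, Q (x, st) (l • x, st)) → (∀ j, ∀ x ∈ D j, Q (x, s j) (u j • x, t j)) →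
      (∀ i, ∀ x ∈ Pt i, ∃ y, Q (x, i) (y, st)) ∧ ∀ x, Q (x, st) (a • x, st))
    (hP : ∑' i, μ (Pt i) ≠ ⊤) (hE : ∑' j, μ (D j) ≠ ⊤) :
    ∃ G : Gr X I J, G.Adm Λ a st ∧ G.e μ ≠ ⊤ ∧
      G.e μ + ∑' i, μ (Pt i) ≤ G.v μ + ∑' j, μ (D j) + 1 := by
  classical
  set P : Set (X × I) := {p | p.1 ∈ Pt p.2} with hPdef
  set E : Set (X × J) := {ε | ε.1 ∈ D ε.2} with hEdef
  have mP : MeasurableSet P := meas_fib hPt
  have mE : MeasurableSet E := meas_fib hD
  set T : Set (X × J) := {ε | u ε.2 ∈ Λ} with hTdef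
  have mT : MeasurableSet T :=
    measurable_snd (MeasurableSet.of_discrete (s := {j | u j ∈ Λ}))
  set o : X × J → X × I := fun ε => (ε.1, s ε.2) with ho
  set tt : X × J → X × I := fun ε => (u ε.2 • ε.1, t ε.2) with htt
  have ms : Measurable s := Measurable.of_discrete
  have mt : Measurable t := Measurable.of_discrete
  have mu : Measurable u := Measurable.of_discrete
  have mo : Measurable o := by rw [ho]; fun_prop
  have mtt : Measurable tt := by rw [htt]; fun_prop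
  let L : Gr X I J := ⟨P, R0 Λ st, E ∩ T, o, tt⟩
  have hL : L.WF Γ :=
    { mP := mP
      mR := R0_meas Λ st
      mE := mE.inter mT
      mo := mo
      mt := mtt
      eqv := R0_eqv Λ st
      orbR := fun p q h => (R0_orb h).of_sub
      orbo := fun ε _ => Orb.refl _
      orbt := fun ε _ => Orb.smul _ _
      sat := by
        rintro p hp q (rfl | h)
        · exact hp
        · show q.1 ∈ Pt q.2
          rw [h.2.1]; exact hst _
      oP := fun ε hε => hs _ _ hε.1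
      tP := fun ε hε => ht _ _ hε.1 }
  have hLΛ : ∀ p q, L.Conn p q → Orb Λ p.1 q.1 := by
    intro p q h
    refine orb_eqvGen (G := Λ) (b := Prod.fst) ?_ h
    rintro p q (h | ⟨ε, hε, rfl, rfl⟩)
    · exact R0_orb h
    · exact orb_sub_iff.2 ⟨u ε.2, hε.2, rfl⟩
  let G : Gr X I J := ⟨P, L.Conn, E \ T, o, tt⟩
  have hG : G.WF Γ :=
    { mP := mP
      mR := hL.mConn
      mE := mE.diff mT
      mo := mo
      mt := mtt
      eqv := Relation.EqvGen.is_equivalence _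
      orbR := hL.orbConn
      orbo := fun ε _ => Orb.refl _
      orbt := fun ε _ => Orb.smul _ _
      sat := fun p hp q h => (hL.satConn h).1 hp
      oP := fun ε hε => hs _ _ hε.1
      tP := fun ε hε => ht _ _ hε.1 }
  have hstar : ∀ x, ∀ l ∈ Λ, G.R (x, st) (l • x, st) := fun x l hl =>
    Relation.EqvGen.rel _ _ (Or.inl (Or.inr ⟨rfl, rfl, orb_sub_iff.2 ⟨l, hl, rfl⟩⟩))
  have hc := hconn G.Conn (Relation.EqvGen.is_equivalence _)
    (fun x l hl => Relation.EqvGen.rel _ _ (Or.inl (hstar x l hl)))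
    (fun j x hx => by
      by_cases hj : u j ∈ Λ
      · exact Relation.EqvGen.rel _ _ (Or.inl
          (Relation.EqvGen.rel _ _ (Or.inr ⟨(x, j), ⟨hx, hj⟩, rfl, rfl⟩)))
      · exact Relation.EqvGen.rel _ _ (Or.inr ⟨(x, j), ⟨hx, hj⟩, rfl, rfl⟩))
  have hsplit : L.e μ + G.e μ = ∑' j, μ (D j) := by
    rw [← nu_fib hD]
    exact measure_inter_add_sdiff E mT
  have hnuP : nu μ I P = ∑' i, μ (Pt i) := nu_fib hPt
  have hLv : L.v μ ≤ nu μ I P := by
    calc L.v μ ≤ ∫⁻ _ in P, 1 ∂(nu μ I) := lintegral_mono fun p => wt_le_one hL.eqv p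
      _ = nu μ I P := by simp
  have hLv' : nu μ I P ≤ L.v μ + 1 := by
    set S : Set (X × I) := {p | p.2 = st} with hS
    have mS : MeasurableSet S := measurable_snd (measurableSet_singleton st)
    have h1 : nu μ I S = 1 := by
      rw [nu_apply mS, tsum_eq_single st]
      · simp [hS]
      · intro i hi; simp [hS, hi]
    have h2 : nu μ I (P \ S) ≤ L.v μ := by
      calc nu μ I (P \ S) = ∫⁻ _ in P \ S, 1 ∂(nu μ I) := by simp
        _ = ∫⁻ p in P \ S, wt L.R p ∂(nu μ I) := by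
          refine setLIntegral_congr_fun (mP.diff mS) fun p hp => ?_
          have : {q | L.R p q} = {p} := by
            ext q
            constructor
            · rintro (rfl | h)
              · rfl
              · exact absurd h.1 hp.2
            · rintro rfl; exact Or.inl rfl
          simp [wt, this, cnt]
        _ ≤ L.v μ := lintegral_mono_set sdiff_subset
    calc nu μ I P ≤ nu μ I ((P \ S) ∪ S) := measure_mono (subset_sdiff_union _ _)
      _ ≤ nu μ I (P \ S) + nu μ I S := measure_union_le _ _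
      _ ≤ L.v μ + 1 := add_le_add h2 h1.le
  have hLL : L.v μ ≤ G.v μ + L.e μ := LL hL (ne_top_of_le_ne_top (hnuP ▸ hP) hLv)
  refine ⟨G, ⟨hG, hLΛ, fun ε _ => Orb.refl _, ?_, hst, hstar, fun p hp => hc.1 p.2 p.1 hp, hc.2⟩,
    ne_top_of_le_ne_top hE (hsplit ▸ le_add_self), ?_⟩
  · intro ε hε
    have : u ε.2 = a := (hu ε.2).resolve_left hε.2
    show Orb Λ (a • ε.1) (u ε.2 • ε.1)
    rw [this]; exact Orb.refl _
  · calc G.e μ + ∑' i, μ (Pt i) ≤ G.e μ + (G.v μ + L.e μ + 1) := by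
          rw [← hnuP]
          exact add_le_add le_rfl (hLv'.trans (add_le_add hLL le_rfl))
      _ = G.v μ + (L.e μ + G.e μ) + 1 := by ring
      _ = _ := by rw [hsplit]

/-- A system of steps `(α j • x, s j) → (β j • x, t j)`, `x ∈ D j`, with letters in
`Λ ∪ {a, a⁻¹}`. -/
theorem abs2 {Λ : Subgroup Γ} {a : Γ} (st : I) (Pt : I → Set X) (D : J → Set X) (α β : J → Γ)
    (s t : J → I) (hPt : ∀ i, MeasurableSet (Pt i)) (hD : ∀ j, MeasurableSet (D j))
    (hst : ∀ x, x ∈ Pt st)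
    (hu : ∀ j, β j * (α j)⁻¹ ∈ Λ ∨ β j * (α j)⁻¹ = a ∨ β j * (α j)⁻¹ = a⁻¹)
    (hs : ∀ j, ∀ x ∈ D j, α j • x ∈ Pt (s j)) (ht : ∀ j, ∀ x ∈ D j, β j • x ∈ Pt (t j))
    (hconn : ∀ Q : X × I → X × I → Prop, Equivalence Q →
      (∀ x, ∀ l ∈ Λ, Q (x, st) (l • x, st)) →
      (∀ j, ∀ x ∈ D j, Q (α j • x, s j) (β j • x, t j)) →
      (∀ i, ∀ x ∈ Pt i, ∃ y, Q (x, i) (y, st)) ∧ ∀ x, Q (x, st) (a • x, st))
    (hP : ∑' i, μ (Pt i) ≠ ⊤) (hE : ∑' j, μ (D j) ≠ ⊤) :
    ∃ G : Gr X I J, G.Adm Λ a st ∧ G.e μ ≠ ⊤ ∧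
      G.e μ + ∑' i, μ (Pt i) ≤ G.v μ + ∑' j, μ (D j) + 1 := by
  have hch : ∀ j, ∃ (α' β' : Γ) (s' t' : I),
      ((α' = α j ∧ s' = s j ∧ β' = β j ∧ t' = t j) ∨ (α' = β j ∧ s' = t j ∧ β' = α j ∧ t' = s j)) ∧
      (β' * α'⁻¹ ∈ Λ ∨ β' * α'⁻¹ = a) := by
    intro j
    rcases hu j with h | h | h
    · exact ⟨_, _, _, _, Or.inl ⟨rfl, rfl, rfl, rfl⟩, Or.inl h⟩
    · exact ⟨_, _, _, _, Or.inl ⟨rfl, rfl, rfl, rfl⟩, Or.inr h⟩
    · refine ⟨_, _, _, _, Or.inr ⟨rfl, rfl, rfl, rfl⟩, Or.inr ?_⟩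
      rw [← inv_inv a, ← h]; group
  choose α' β' s' t' hor hlet using hch
  have hμ : ∀ j, μ ((fun x => (α' j)⁻¹ • x) ⁻¹' D j) = μ (D j) := fun j =>
    measure_preimage_smul μ _ _
  have key := abs1 (μ := μ) (Λ := Λ) (a := a) st Pt (fun j => (fun x => (α' j)⁻¹ • x) ⁻¹' D j)
    (fun j => β' j * (α' j)⁻¹) s' t' hPt
    (fun j => (hD j).preimage (measurable_const_smul _)) hst hlet ?_ ?_ ?_ hP
    (by simpa only [hμ] using hE)
  · simpa only [hμ] using key
  · intro j x hx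
    rcases hor j with ⟨h1, h2, -, -⟩ | ⟨h1, h2, -, -⟩
    · have := hs j _ hx
      rwa [← h1, smul_inv_smul, ← h2] at this
    · have := ht j _ hx
      rwa [← h1, smul_inv_smul, ← h2] at this
  · intro j x hx
    rw [mul_smul]
    rcases hor j with ⟨-, -, h3, h4⟩ | ⟨-, -, h3, h4⟩
    · rw [h3, h4]; exact ht j _ hx
    · rw [h3, h4]; exact hs j _ hx
  · intro Q hQ h1 h2
    refine hconn Q hQ h1 fun j x hx => ?_
    have := h2 j (α' j • x) (by simpa using hx)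
    rw [mul_smul, inv_smul_smul] at this
    rcases hor j with ⟨e1, e2, e3, e4⟩ | ⟨e1, e2, e3, e4⟩
    · rwa [e1, e2, e3, e4] at this
    · rw [e1, e2, e3, e4] at this
      exact hQ.symm this

/-- every element is a word in `Λ ∪ {a, a⁻¹}` -/
theorem exists_word {Λ : Subgroup Γ} {a : Γ}
    (hgen : Subgroup.closure (insert a (Λ : Set Γ)) = ⊤) (g : Γ) :
    ∃ (k : ℕ) (w : ℕ → Γ), w 0 = 1 ∧ w k = g ∧
      ∀ r, w (r + 1) * (w r)⁻¹ ∈ Λ ∨ w (r + 1) * (w r)⁻¹ = a ∨ w (r + 1) * (w r)⁻¹ = a⁻¹ := by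
  have step : ∀ x y : Γ, (x ∈ Λ ∨ x = a ∨ x = a⁻¹) →
      (∃ (k : ℕ) (w : ℕ → Γ), w 0 = 1 ∧ w k = y ∧
        ∀ r, w (r + 1) * (w r)⁻¹ ∈ Λ ∨ w (r + 1) * (w r)⁻¹ = a ∨ w (r + 1) * (w r)⁻¹ = a⁻¹) →
      ∃ (k : ℕ) (w : ℕ → Γ), w 0 = 1 ∧ w k = x * y ∧
        ∀ r, w (r + 1) * (w r)⁻¹ ∈ Λ ∨ w (r + 1) * (w r)⁻¹ = a ∨ w (r + 1) * (w r)⁻¹ = a⁻¹ := by
    rintro x y hx ⟨k, w, h0, hk, hw⟩
    refine ⟨k + 1, fun r => if r ≤ k then w r else x * y, by simp [h0], by simp, fun r => ?_⟩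
    rcases lt_trichotomy r k with h | rfl | h
    · simp only [if_pos h.le, if_pos (Nat.succ_le_of_lt h)]
      exact hw r
    · simp only [le_refl, if_true, Nat.not_succ_le_self, if_false, hk, mul_inv_cancel_right]
      exact hx
    · have h1 : ¬ r ≤ k := by omega
      have h2 : ¬ r + 1 ≤ k := by omega
      simp only [if_neg h1, if_neg h2, mul_inv_cancel]
      exact Or.inl Λ.one_mem
  have hg : g ∈ Subgroup.closure (insert a (Λ : Set Γ)) := hgen ▸ Subgroup.mem_top g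
  induction hg using Subgroup.closure_induction_left with
  | one => exact ⟨0, fun _ => 1, rfl, rfl, fun _ => Or.inl (by simp)⟩
  | mul_left x hx y _ ih =>
    refine step x y ?_ ih
    rcases hx with rfl | hx
    · exact Or.inr (Or.inl rfl)
    · exact Or.inl hx
  | inv_mul_cancel x hx y _ ih =>
    refine step x⁻¹ y ?_ ih
    rcases hx with rfl | hx
    · exact Or.inr (Or.inr rfl)
    · exact Or.inl (Λ.inv_mem hx)

end Crest.Agent.R191.InitAux
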