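import Crest.Agent.R191.Meas

/-! # R191: markers and roots -/

set_option autoImplicit false
set_option linter.unusedSectionVars false

open MeasureTheory Set
open scoped ENNReal

namespace Crest.Agent.R191

variable {Γ X : Type} [Group Γ] [Countable Γ] [MeasurableSpace Γ]
  [MeasurableSingletonClass Γ] [MulAction Γ X] [MeasurableSpace X] [StandardBorelSpace X]
  [MeasurableSMul₂ Γ X] [IsCancelSMul Γ X]
  {μ : Measure X} [IsProbabilityMeasure μ] [SMulInvariantMeasure Γ X μ]
  {I J : Type} [Countable I] [MeasurableSpace I] [MeasurableSingletonClass I]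
  [Countable J] [MeasurableSpace J] [MeasurableSingletonClass J]

/-- A bounded injective measurable real function on `X × I`. -/
theorem BLAux.exists_rho (X I : Type) [MeasurableSpace X] [StandardBorelSpace X] [Countable I]
    [MeasurableSpace I] [MeasurableSingletonClass I] :
    ∃ ρ : X × I → ℝ, Measurable ρ ∧ Function.Injective ρ ∧ ∀ p, -2 < ρ p ∧ ρ p < 2 := by
  refine ⟨fun p => Real.arctan (embeddingReal (X × I) p), ?_, ?_, fun p => ⟨?_, ?_⟩⟩
  · exact Real.measurable_arctan.comp (measurableEmbedding_embeddingReal _).measurable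
  · exact Real.arctan_injective.comp (measurableEmbedding_embeddingReal _).injective
  · have := Real.neg_pi_div_two_lt_arctan (embeddingReal (X × I) p)
    have := Real.pi_lt_four
    linarith
  · have := Real.arctan_lt_pi_div_two (embeddingReal (X × I) p)
    have := Real.pi_lt_four
    linarith

/-- The threshold of an infinite set under a bounded function. -/
theorem BLAux.exists_threshold {N : Type} {ρ : N → ℝ} (hb : ∀ p, -2 < ρ p ∧ ρ p < 2) {C : Set N}
    (hC : C.Infinite) : ∃ r : ℝ, (∀ s, s < r → {q | q ∈ C ∧ ρ q < s}.Finite) ∧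
      ∀ s, r < s → {q | q ∈ C ∧ ρ q < s}.Infinite := by
  set S : Set ℝ := {s | {q | q ∈ C ∧ ρ q < s}.Finite} with hS
  have hne : S.Nonempty := by
    refine ⟨-2, ?_⟩
    have : {q | q ∈ C ∧ ρ q < -2} = ∅ := by
      ext q
      simp only [mem_ofPred_eq, mem_empty_iff_false, iff_false, not_and, not_lt]
      exact fun _ => (hb q).1.le
    change {q | q ∈ C ∧ ρ q < -2}.Finite
    rw [this]; exact finite_empty
  have hbd : BddAbove S := by
    refine ⟨2, fun s hs => ?_⟩
    by_contra h
    refine hC (Finite.subset (s := {q | q ∈ C ∧ ρ q < s}) hs fun q hq => ⟨hq, ?_⟩)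
    exact (hb q).2.trans (not_le.1 h)
  refine ⟨sSup S, fun s hs => ?_, fun s hs h => ?_⟩
  · obtain ⟨t, ht, hst⟩ := exists_lt_of_lt_csSup hne hs
    exact Finite.subset (s := {q | q ∈ C ∧ ρ q < t}) ht fun q hq => ⟨hq.1, hq.2.trans hst⟩
  · exact absurd (le_csSup hbd (show s ∈ S from h)) (not_le.2 hs)

/-- Markers: a decreasing sequence of sets with empty intersection meeting every infinite class.

Proof.  `X × I` is standard Borel; let `ρ : X × I → ℝ` be measurable, injective and bounded
(`embeddingReal` followed by `arctan`, say).  Let `V n` be the set of `p` such that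
`{q | R p q ∧ ρ q < ρ p - 1/(n+1)}` is finite and `{q | R p q ∧ ρ q < ρ p + 1/(n+1)}` is infinite
(measurable by `meas_finite`, antitone in `n`), and `U n = V n \ ⋂ k, V k`.  For an infinite class
`C` put `r = sSup {s | {q ∈ C | ρ q < s} finite}` (nonempty, bounded above).  For every `η > 0`,
`{q ∈ C | ρ q < r - η}` is finite and `{q ∈ C | ρ q < r + η}` is infinite, so infinitely many
`q ∈ C` have `|ρ q - r| < 1/(n+1)`; all of these are in `V n`; a point of `C ∩ ⋂ k, V k` has
`ρ = r`, so there is at most one. -/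
theorem exists_markers {R : X × I → X × I → Prop}
    (hR : Measurable fun z : (X × I) × (X × I) => R z.1 z.2)
    (ho : ∀ p q, R p q → Orb Γ p.1 q.1) (hE : Equivalence R) :
    ∃ U : ℕ → Set (X × I), (∀ n, MeasurableSet (U n)) ∧ Antitone U ∧ (⋂ n, U n) = ∅ ∧
      ∀ n p, {q | R p q}.Infinite → ∃ q ∈ U n, R p q := by
  obtain ⟨ρ, hρ, hinj, hb⟩ := BLAux.exists_rho X I
  let δ : ℕ → ℝ := fun n => 1 / ((n : ℝ) + 1)
  have hδ : ∀ n, 0 < δ n := fun n => Nat.one_div_pos_of_nat
  have hδa : Antitone δ := fun n m h => Nat.one_div_le_one_div h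
  let V : ℕ → Set (X × I) := fun n => {p | {q | R p q ∧ ρ q < ρ p - δ n}.Finite ∧
    ¬ {q | R p q ∧ ρ q < ρ p + δ n}.Finite}
  have hm : ∀ c : ℝ, Measurable fun p : X × I => {q | R p q ∧ ρ q < ρ p + c}.Finite := by
    intro c
    refine meas_finite Γ measurable_fst (f := fun p q => R p q ∧ ρ q < ρ p + c) (hR.and ?_)
      fun p q h => ho p q h.1
    exact measurableSet_setOfPred.1 (measurableSet_lt (hρ.comp measurable_snd)
      ((hρ.comp measurable_fst).add_const c))
  have hV : ∀ n, MeasurableSet (V n) := fun n => by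
    refine measurableSet_setOfPred.2 (Measurable.and ?_ (hm _).not)
    simpa only [sub_eq_add_neg] using hm (-δ n)
  have hVa : Antitone V := by
    intro n m h p hp
    have := hδa h
    refine ⟨hp.1.subset fun q hq => ⟨hq.1, ?_⟩, fun h' => hp.2 (h'.subset fun q hq => ⟨hq.1, ?_⟩)⟩
    · have := hq.2; linarith
    · have := hq.2; linarith
  refine ⟨fun n => V n \ ⋂ k, V k, fun n => (hV n).diff (MeasurableSet.iInter hV),
    fun n m h => sdiff_subset_sdiff_left (hVa h), ?_, ?_⟩
  · ext p
    simp only [mem_iInter, mem_sdiff, mem_empty_iff_false, iff_false]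
    exact fun h => (h 0).2 fun k => (h k).1
  · intro n p hp
    obtain ⟨r, h1, h2⟩ := BLAux.exists_threshold hb hp
    have hcl : ∀ q, R p q → ∀ s, {q' | R q q' ∧ ρ q' < s} =
        {q' | q' ∈ {q | R p q} ∧ ρ q' < s} := by
      intro q hq s
      ext q'
      exact ⟨fun h => ⟨hE.trans hq h.1, h.2⟩, fun h => ⟨hE.trans (hE.symm hq) h.1, h.2⟩⟩
    have hn := hδ n
    have hfin : {q | ρ q = r}.Finite :=
      Set.Subsingleton.finite fun q hq q' hq' => hinj (hq.trans hq'.symm)
    obtain ⟨q, ⟨⟨hq1, hq2⟩, hq3⟩, hq4⟩ :=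
      (((h2 (r + δ n / 2) (by linarith)).sdiff (h1 (r - δ n / 2) (by linarith))).sdiff hfin).nonempty
    have hq5 : r - δ n / 2 ≤ ρ q := not_lt.1 fun h => hq3 ⟨hq1, h⟩
    refine ⟨q, ⟨⟨?_, ?_⟩, fun h => ?_⟩, hq1⟩
    · rw [hcl q hq1]; exact h1 _ (by linarith)
    · rw [hcl q hq1]; exact h2 _ (by linarith)
    · rw [mem_iInter] at h
      rcases lt_or_gt_of_ne (show ρ q ≠ r from hq4) with h' | h'
      · obtain ⟨k, hk⟩ := exists_nat_one_div_lt (sub_pos.2 h')
        refine (h k).2 ?_
        rw [hcl q hq1]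
        exact h1 _ (by simp only [δ]; linarith)
      · obtain ⟨k, hk⟩ := exists_nat_one_div_lt (sub_pos.2 h')
        have := (h k).1
        rw [hcl q hq1] at this
        exact h2 _ (by simp only [δ]; linarith) this

/-- Roots: a measurable transversal of the finite classes.
Proof: `T = {p | ∀ q, R p q → ρ p ≤ ρ q}` (`meas_forall`) with `ρ` injective measurable. -/
theorem exists_roots {R : X × I → X × I → Prop}
    (hR : Measurable fun z : (X × I) × (X × I) => R z.1 z.2)
    (ho : ∀ p q, R p q → Orb Γ p.1 q.1) (hE : Equivalence R) :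
    ∃ T : Set (X × I), MeasurableSet T ∧ (∀ p, {q | R p q}.Finite → ∃ q ∈ T, R p q) ∧
      ∀ p ∈ T, ∀ q ∈ T, R p q → p = q := by
  obtain ⟨ρ, hρ, hinj, -⟩ := BLAux.exists_rho X I
  refine ⟨{p | ∀ q, R p q → ρ p ≤ ρ q}, ?_, fun p hp => ?_, fun p hp q hq h => ?_⟩
  · refine measurableSet_setOfPred.2 (meas_forall Γ measurable_fst (f := R)
      (g := fun p q => ρ p ≤ ρ q) hR ?_ ho)
    exact measurableSet_setOfPred.1 (measurableSet_le (hρ.comp measurable_fst)
      (hρ.comp measurable_snd))
  · obtain ⟨q, hq, hmin⟩ := exists_min_image _ ρ hp ⟨p, hE.refl p⟩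
    exact ⟨q, fun q' hq' => hmin q' (hE.trans hq hq'), hq⟩
  · exact hinj (le_antisymm (hp q h) (hq p (hE.symm h)))

/-- A small set meeting every orbit of an infinite subgroup.
Proof: `exists_markers` on `X × Unit` for `R p q := Orb Λ p.1 q.1` (`meas_orb`; classes are infinite by
freeness), and continuity of `μ` from above. -/
theorem exists_small (Λ : Subgroup Γ) (hΛ : Infinite Λ) {ε : ℝ≥0∞} (hε : ε ≠ 0) :
    ∃ U : Set X, MeasurableSet U ∧ μ U ≤ ε ∧ ∀ x, ∃ l ∈ Λ, l • x ∈ U := by
  have hm : Measurable fun z : (X × Unit) × (X × Unit) => Orb Λ z.1.1 z.2.1 :=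
    meas_orb (G := Λ) (by fun_prop) (by fun_prop)
  obtain ⟨U, hU, hUa, hU0, hUm⟩ := exists_markers (Γ := Γ) (I := Unit)
    (R := fun p q => Orb Λ p.1 q.1) hm (fun p q h => h.of_sub)
    ⟨fun p => Orb.refl _, Orb.symm, Orb.trans⟩
  let W : ℕ → Set X := fun n => {x | (x, ()) ∈ U n}
  have hW : ∀ n, MeasurableSet (W n) := fun n => (hU n).preimage measurable_prodMk_right
  have hWa : Antitone W := fun n m h x hx => hUa h hx
  have hW0 : (⋂ n, W n) = ∅ := by
    ext x
    simp only [mem_iInter, mem_empty_iff_false, iff_false]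
    intro h
    have : (x, ()) ∈ ⋂ n, U n := mem_iInter.2 h
    rw [hU0] at this; exact this
  have ht := tendsto_measure_iInter_atTop (μ := μ) (fun n => (hW n).nullMeasurableSet) hWa
    ⟨0, measure_ne_top _ _⟩
  rw [hW0, measure_empty] at ht
  obtain ⟨n, hn⟩ := (ht.eventually (ge_mem_nhds (pos_iff_ne_zero.2 hε))).exists
  refine ⟨W n, hW n, hn, fun x => ?_⟩
  have hinf : {q : X × Unit | Orb Λ x q.1}.Infinite := by
    refine infinite_of_injective_forall_mem (f := fun l : Λ => ((l : Γ) • x, ())) ?_ ?_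
    · intro l l' h
      exact Subtype.ext (IsCancelSMul.right_cancel _ _ _ (congrArg Prod.fst h))
    · exact fun l => ⟨l, rfl⟩
  obtain ⟨q, hq, hxq⟩ := hUm n (x, ()) hinf
  obtain ⟨l, hl, e⟩ := orb_sub_iff.1 hxq
  refine ⟨l, hl, ?_⟩
  change (l • x, ()) ∈ U n
  have : q = (l • x, ()) := Prod.ext e rfl
  rwa [← this]

end Crest.Agent.R191
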