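import Crest.Agent.R191.Defs

/-!
# R191: measurability over orbits, the mass transport principle, weights
-/

set_option autoImplicit false
set_option linter.unusedSectionVars false

open MeasureTheory Set
open scoped ENNReal

namespace Crest.Agent.R191

section orb
variable {G X : Type} [Group G] [MulAction G X]

theorem Orb.refl (x : X) : Orb G x x := ⟨1, (one_smul _ _).symm⟩

theorem Orb.symm {x y : X} (h : Orb G x y) : Orb G y x := by
  obtain ⟨g, rfl⟩ := h
  exact ⟨g⁻¹, (inv_smul_smul _ _).symm⟩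

theorem Orb.trans {x y z : X} (h : Orb G x y) (h' : Orb G y z) : Orb G x z := by
  obtain ⟨g, rfl⟩ := h
  obtain ⟨g', rfl⟩ := h'
  exact ⟨g' * g, (mul_smul _ _ _).symm⟩

theorem Orb.smul (g : G) (x : X) : Orb G x (g • x) := ⟨g, rfl⟩

theorem Orb.of_sub {Λ : Subgroup G} {x y : X} (h : Orb Λ x y) : Orb G x y := by
  obtain ⟨g, rfl⟩ := h
  exact ⟨g, rfl⟩

theorem orb_sub_iff {Λ : Subgroup G} {x y : X} : Orb Λ x y ↔ ∃ l ∈ Λ, y = l • x :=
  ⟨fun ⟨g, h⟩ => ⟨g, g.2, h⟩, fun ⟨l, hl, h⟩ => ⟨⟨l, hl⟩, h⟩⟩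

theorem orb_eqvGen {N : Type} {b : N → X} {r : N → N → Prop}
    (ho : ∀ p q, r p q → Orb G (b p) (b q)) {p q : N} (h : Relation.EqvGen r p q) :
    Orb G (b p) (b q) := by
  induction h with
  | rel _ _ h => exact ho _ _ h
  | refl _ => exact Orb.refl _
  | symm _ _ _ ih => exact ih.symm
  | trans _ _ _ _ _ ih ih' => exact ih.trans ih'

end orb

section cnt
variable {N : Type}

theorem cnt_eq_tsum (s : Set N) : cnt s = ∑' q, s.indicator (fun _ => (1 : ℝ≥0∞)) q := by
  rw [cnt, ← ENNReal.tsum_set_one, tsum_subtype s (fun _ => (1 : ℝ≥0∞))]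

theorem cnt_mono {s t : Set N} (h : s ⊆ t) : cnt s ≤ cnt t := by
  unfold cnt; exact_mod_cast encard_le_encard h

theorem cnt_eq_top {s : Set N} : cnt s = ⊤ ↔ s.Infinite := by
  unfold cnt; rw [ENat.toENNReal_eq_top, encard_eq_top_iff]

theorem cnt_eq_zero {s : Set N} : cnt s = 0 ↔ s = ∅ := by
  unfold cnt
  rw [← encard_eq_zero]
  exact_mod_cast Iff.rfl

theorem one_le_cnt {s : Set N} (h : s.Nonempty) : 1 ≤ cnt s := by
  unfold cnt; exact_mod_cast one_le_encard_iff_nonempty.2 h

theorem cnt_le_one {s : Set N} (h : s.Subsingleton) : cnt s ≤ 1 := by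
  unfold cnt; exact_mod_cast encard_le_one_iff_subsingleton.2 h

theorem tsum_indicator_const (s : Set N) (c : ℝ≥0∞) :
    ∑' q, s.indicator (fun _ => c) q = cnt s * c := by
  rw [cnt, ← ENNReal.tsum_set_const, tsum_subtype s (fun _ => c)]

variable {R : N → N → Prop}

theorem wt_congr (hR : Equivalence R) {p q : N} (h : R p q) : wt R p = wt R q := by
  have : {r | R p r} = {r | R q r} := by
    ext r; exact ⟨fun h' => hR.trans (hR.symm h) h', fun h' => hR.trans h h'⟩
  unfold wt; rw [this]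

theorem wt_eq_zero {p : N} : wt R p = 0 ↔ {q | R p q}.Infinite := by
  unfold wt; rw [ENNReal.inv_eq_zero, cnt_eq_top]

theorem wt_le_one (hR : Equivalence R) (p : N) : wt R p ≤ 1 :=
  ENNReal.inv_le_one.2 (one_le_cnt ⟨p, hR.refl p⟩)

theorem wt_anti {R' : N → N → Prop} {p : N} (h : ∀ q, R p q → R' p q) : wt R' p ≤ wt R p :=
  ENNReal.inv_le_inv.2 (cnt_mono h)

/-- total weight of a class -/
theorem tsum_wt (hR : Equivalence R) (p : N) :
    ∑' q, {q | R p q}.indicator (wt R) q = cnt {q | R p q} * wt R p := by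
  rw [← tsum_indicator_const]
  refine tsum_congr fun q => ?_
  by_cases h : R p q
  · rw [indicator_of_mem (by exact h), indicator_of_mem (by exact h), wt_congr hR h]
  · rw [indicator_of_notMem (by exact h), indicator_of_notMem (by exact h)]

theorem tsum_wt_le_one (hR : Equivalence R) (p : N) :
    ∑' q, {q | R p q}.indicator (wt R) q ≤ 1 := by
  rw [tsum_wt hR]; exact ENNReal.mul_inv_le_one _

theorem tsum_wt_eq_one (hR : Equivalence R) {p : N} (h : {q | R p q}.Finite) :
    ∑' q, {q | R p q}.indicator (wt R) q = 1 := by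
  rw [tsum_wt hR]
  refine ENNReal.mul_inv_cancel ?_ ?_
  · exact (lt_of_lt_of_le zero_lt_one (one_le_cnt ⟨p, hR.refl p⟩)).ne'
  · exact fun h' => (cnt_eq_top.1 h') h

end cnt

variable (Γ : Type) {X : Type} [Group Γ] [Countable Γ] [MeasurableSpace Γ]
  [MeasurableSingletonClass Γ] [MulAction Γ X] [MeasurableSpace X] [StandardBorelSpace X]
  [MeasurableSMul₂ Γ X] [IsCancelSMul Γ X]
  {A B : Type} [Countable A] [MeasurableSpace A] [MeasurableSingletonClass A]
  [Countable B] [MeasurableSpace B] [MeasurableSingletonClass B]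
  {W : Type} [MeasurableSpace W]

/-- Parametrisation of the orbit of `x` in `X × A`. -/
def par (x : X) (c : Γ × A) : X × A := (c.1 • x, c.2)

theorem par_injective (x : X) : Function.Injective (par Γ (A := A) x) := by
  rintro ⟨g, i⟩ ⟨g', i'⟩ h
  simp only [par, Prod.mk.injEq] at h
  exact Prod.ext (IsCancelSMul.right_cancel _ _ _ h.1) h.2

theorem mem_range_par {x : X} {q : X × A} : q ∈ range (par Γ x) ↔ Orb Γ x q.1 := by
  constructor
  · rintro ⟨c, rfl⟩; exact ⟨c.1, rfl⟩
  · rintro ⟨g, h⟩; exact ⟨(g, q.2), Prod.ext h.symm rfl⟩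

theorem meas_par {b : W → X} (hb : Measurable b) (c : Γ × A) :
    Measurable fun w => par Γ (b w) c := by
  unfold par; fun_prop

theorem meas_par₂ {b : W → X} (hb : Measurable b) {c : W → Γ × A} (hc : Measurable c) :
    Measurable fun w => par Γ (b w) (c w) := by
  unfold par; fun_prop

theorem meas_orb {G : Type} [Group G] [Countable G] [MulAction G X] [MeasurableConstSMul G X]
    {b c : W → X} (hb : Measurable b) (hc : Measurable c) :
    Measurable fun w => Orb G (b w) (c w) := by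
  unfold Orb
  refine Measurable.exists fun g => ?_
  exact measurableSet_setOfPred.1 (measurableSet_eq_fun hc (hb.const_smul g))

theorem meas_exists {b : W → X} (hb : Measurable b) {f : W → X × A → Prop}
    (hf : Measurable fun z : W × (X × A) => f z.1 z.2) (ho : ∀ w q, f w q → Orb Γ (b w) q.1) :
    Measurable fun w => ∃ q, f w q := by
  have : (fun w => ∃ q, f w q) = fun w => ∃ c : Γ × A, f w (par Γ (b w) c) := by
    ext w
    refine ⟨fun ⟨q, h⟩ => ?_, fun ⟨c, h⟩ => ⟨_, h⟩⟩
    obtain ⟨c, rfl⟩ := (mem_range_par Γ).2 (ho w q h)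
    exact ⟨c, h⟩
  rw [this]
  exact Measurable.exists fun c => hf.comp (measurable_id.prodMk (meas_par Γ hb c))

theorem meas_forall {b : W → X} (hb : Measurable b) {f g : W → X × A → Prop}
    (hf : Measurable fun z : W × (X × A) => f z.1 z.2)
    (hg : Measurable fun z : W × (X × A) => g z.1 z.2) (ho : ∀ w q, f w q → Orb Γ (b w) q.1) :
    Measurable fun w => ∀ q, f w q → g w q := by
  have : (fun w => ∀ q, f w q → g w q) = fun w => ¬ ∃ q, f w q ∧ ¬ g w q := by
    ext w; push Not; rfl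
  rw [this]
  exact (meas_exists Γ hb (f := fun w q => f w q ∧ ¬ g w q) (hf.and hg.not)
    fun w q h => ho w q h.1).not

/-- version of `meas_exists` for a quantifier over `X` -/
theorem meas_existsX {b : W → X} (hb : Measurable b) {f : W → X → Prop}
    (hf : Measurable fun z : W × X => f z.1 z.2) (ho : ∀ w x, f w x → Orb Γ (b w) x) :
    Measurable fun w => ∃ x, f w x := by
  have : (fun w => ∃ x, f w x) = fun w => ∃ g : Γ, f w (g • b w) := by
    ext w
    refine ⟨fun ⟨q, h⟩ => ?_, fun ⟨c, h⟩ => ⟨_, h⟩⟩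
    obtain ⟨c, rfl⟩ := ho w q h
    exact ⟨c, h⟩
  rw [this]
  exact Measurable.exists fun c => hf.comp (measurable_id.prodMk (hb.const_smul c))

theorem tsum_par {x : X} {f : X × A → ℝ≥0∞} (ho : ∀ q, f q ≠ 0 → Orb Γ x q.1) :
    ∑' q, f q = ∑' c : Γ × A, f (par Γ x c) :=
  ((par_injective Γ x).tsum_eq fun q hq => (mem_range_par Γ).2 (ho q hq)).symm

theorem meas_tsum {b : W → X} (hb : Measurable b) {f : W → X × A → ℝ≥0∞}
    (hf : Measurable fun z : W × (X × A) => f z.1 z.2)
    (ho : ∀ w q, f w q ≠ 0 → Orb Γ (b w) q.1) : Measurable fun w => ∑' q, f w q := by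
  have : (fun w => ∑' q, f w q) = fun w => ∑' c : Γ × A, f w (par Γ (b w) c) := by
    ext w; exact tsum_par Γ (ho w)
  rw [this]
  exact Measurable.tsum fun c => hf.comp (measurable_id.prodMk (meas_par Γ hb c))

theorem meas_encard {b : W → X} (hb : Measurable b) {f : W → X × A → Prop}
    (hf : Measurable fun z : W × (X × A) => f z.1 z.2) (ho : ∀ w q, f w q → Orb Γ (b w) q.1) :
    Measurable fun w => {q | f w q}.encard := by
  have : (fun w => {q | f w q}.encard) = fun w => {c : Γ × A | f w (par Γ (b w) c)}.encard := by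
    ext w
    rw [← (par_injective Γ (b w)).encard_image]
    congr 1
    ext q
    refine ⟨fun h => ?_, fun ⟨c, h, e⟩ => e ▸ h⟩
    obtain ⟨c, rfl⟩ := (mem_range_par Γ).2 (ho w q h)
    exact ⟨c, h, rfl⟩
  rw [this]
  refine measurable_encard.comp (measurable_set_iff.2 fun c => ?_)
  exact hf.comp (measurable_id.prodMk (meas_par Γ hb c))

theorem meas_cnt {b : W → X} (hb : Measurable b) {f : W → X × A → Prop}
    (hf : Measurable fun z : W × (X × A) => f z.1 z.2) (ho : ∀ w q, f w q → Orb Γ (b w) q.1) :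
    Measurable fun w => cnt {q | f w q} :=
  (Measurable.of_discrete (f := fun n : ℕ∞ => (n : ℝ≥0∞))).comp (meas_encard Γ hb hf ho)

theorem meas_finite {b : W → X} (hb : Measurable b) {f : W → X × A → Prop}
    (hf : Measurable fun z : W × (X × A) => f z.1 z.2) (ho : ∀ w q, f w q → Orb Γ (b w) q.1) :
    Measurable fun w => {q | f w q}.Finite := by
  have : (fun w => {q | f w q}.Finite) = fun w => {q | f w q}.encard < ⊤ := by
    ext w; exact encard_lt_top_iff.symm
  rw [this]
  exact (Measurable.of_discrete (f := fun n : ℕ∞ => n < ⊤)).comp (meas_encard Γ hb hf ho)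

theorem meas_wt {R : X × A → X × A → Prop}
    (hR : Measurable fun z : (X × A) × (X × A) => R z.1 z.2)
    (ho : ∀ p q, R p q → Orb Γ p.1 q.1) : Measurable (wt R) :=
  (meas_cnt Γ measurable_fst hR ho).inv

/-- Measurable choice of a witness in the orbit. -/
theorem meas_choice {b : W → X} (hb : Measurable b) {f : W → X × A → Prop}
    (hf : Measurable fun z : W × (X × A) => f z.1 z.2) (ho : ∀ w q, f w q → Orb Γ (b w) q.1)
    {d : W → X × A} (hd : Measurable d) :
    ∃ s : W → X × A, Measurable s ∧ (∀ w, (∃ q, f w q) → f w (s w)) ∧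
      ∀ w, (¬ ∃ q, f w q) → s w = d w := by
  classical
  rcases isEmpty_or_nonempty (Γ × A) with hE | hN
  · refine ⟨d, hd, fun w ⟨q, _⟩ => (hE.false (1, q.2)).elim, fun _ _ => rfl⟩
  obtain ⟨en, hen⟩ := exists_surjective_nat (Γ × A)
  have hex : ∀ w, ∃ n, (∃ q, f w q) → f w (par Γ (b w) (en n)) := by
    intro w
    by_cases h : ∃ q, f w q
    · obtain ⟨q, hq⟩ := h
      obtain ⟨c, rfl⟩ := (mem_range_par Γ).2 (ho w q hq)
      obtain ⟨n, rfl⟩ := hen c
      exact ⟨n, fun _ => hq⟩
    · exact ⟨0, fun h' => (h h').elim⟩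
  have hm := meas_exists Γ hb hf ho
  have hfind : Measurable fun w => Nat.find (hex w) := by
    refine measurable_find hex fun n => measurableSet_setOfPred.2 (hm.imp ?_)
    exact hf.comp (measurable_id.prodMk (meas_par Γ hb (en n)))
  refine ⟨fun w => if ∃ q, f w q then par Γ (b w) (en (Nat.find (hex w))) else d w, ?_, ?_, ?_⟩
  · refine Measurable.ite (measurableSet_setOfPred.2 hm) ?_ hd
    exact meas_par₂ Γ hb ((Measurable.of_discrete (f := en)).comp hfind)
  · intro w h
    simp only [if_pos h]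
    exact Nat.find_spec (hex w) h
  · intro w h
    simp only [if_neg h]

/-- Measurable choice of a witness in a countable index type. -/
theorem meas_choice_idx {f : W → A → Prop} (hf : ∀ i, Measurable fun w => f w i)
    (h : ∀ w, ∃ i, f w i) : ∃ s : W → A, Measurable s ∧ ∀ w, f w (s w) := by
  classical
  rcases isEmpty_or_nonempty W with hE | hN
  · exact ⟨fun w => (hE.false w).elim, measurable_of_empty _, fun w => (hE.false w).elim⟩
  have : Nonempty A := let ⟨w⟩ := hN; let ⟨i, _⟩ := h w; ⟨i⟩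
  obtain ⟨en, hen⟩ := exists_surjective_nat A
  have hex : ∀ w, ∃ n, f w (en n) := fun w => by
    obtain ⟨i, hi⟩ := h w
    obtain ⟨n, rfl⟩ := hen i
    exact ⟨n, hi⟩
  refine ⟨fun w => en (Nat.find (hex w)), ?_, fun w => Nat.find_spec (hex w)⟩
  exact (Measurable.of_discrete (f := en)).comp
    (measurable_find hex fun n => measurableSet_setOfPred.2 (hf _))

/-- `n`-step chains of a relation or its inverse -/
def chainN {N : Type} (r : N → N → Prop) : ℕ → N → N → Prop
  | 0, p, q => p = q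
  | n + 1, p, q => ∃ s, chainN r n p s ∧ (r s q ∨ r q s)

theorem chainN_trans {N : Type} {r : N → N → Prop} {m : ℕ} {p q : N} (h : chainN r m p q) :
    ∀ {n : ℕ} {s : N}, chainN r n q s → chainN r (m + n) p s
  | 0, s, h' => by cases h'; exact h
  | n + 1, s, ⟨u, h1, h2⟩ => ⟨u, chainN_trans h h1, h2⟩

theorem chainN_symm {N : Type} {r : N → N → Prop} :
    ∀ {n : ℕ} {p q : N}, chainN r n p q → chainN r n q p
  | 0, _, _, h => Eq.symm h
  | n + 1, p, q, ⟨u, h1, h2⟩ => by
    have h3 : chainN r 1 q u := ⟨q, rfl, h2.symm⟩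
    have := chainN_trans h3 (chainN_symm h1)
    rwa [Nat.add_comm] at this

theorem eqvGen_iff_chainN {N : Type} {r : N → N → Prop} {p q : N} :
    Relation.EqvGen r p q ↔ ∃ n, chainN r n p q := by
  constructor
  · intro h
    induction h with
    | rel p q h => exact ⟨1, p, rfl, Or.inl h⟩
    | refl _ => exact ⟨0, rfl⟩
    | symm _ _ _ ih => exact let ⟨n, h⟩ := ih; ⟨n, chainN_symm h⟩
    | trans _ _ _ _ _ ih ih' =>
      exact let ⟨_, h⟩ := ih; let ⟨_, h'⟩ := ih'; ⟨_, chainN_trans h h'⟩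
  · rintro ⟨n, h⟩
    induction n generalizing q with
    | zero => cases h; exact .refl _
    | succ n ih =>
      obtain ⟨s, h1, h2 | h2⟩ := h
      · exact .trans _ _ _ (ih h1) (.rel _ _ h2)
      · exact .trans _ _ _ (ih h1) (.symm _ _ (.rel _ _ h2))

theorem meas_chainN {r : X × A → X × A → Prop}
    (hr : Measurable fun z : (X × A) × (X × A) => r z.1 z.2)
    (ho : ∀ p q, r p q → Orb Γ p.1 q.1) (n : ℕ) :
    Measurable fun z : (X × A) × (X × A) => chainN r n z.1 z.2 := by
  induction n with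
  | zero => exact measurableSet_setOfPred.1 (measurableSet_eq_fun measurable_fst measurable_snd)
  | succ n ih =>
    refine meas_exists Γ (b := fun z : (X × A) × (X × A) => z.2.1) (by fun_prop)
      (f := fun z s => chainN r n z.1 s ∧ (r s z.2 ∨ r z.2 s)) ?_ ?_
    · refine Measurable.and (ih.comp (f := fun w : ((X × A) × (X × A)) × (X × A) => (w.1.1, w.2))
        (by fun_prop)) (Measurable.or ?_ ?_)
      · exact hr.comp (f := fun w : ((X × A) × (X × A)) × (X × A) => (w.2, w.1.2)) (by fun_prop)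
      · exact hr.comp (f := fun w : ((X × A) × (X × A)) × (X × A) => (w.1.2, w.2)) (by fun_prop)
    · rintro z s ⟨_, h | h⟩
      · exact (ho _ _ h).symm
      · exact ho _ _ h

theorem meas_eqvGen {r : X × A → X × A → Prop}
    (hr : Measurable fun z : (X × A) × (X × A) => r z.1 z.2)
    (ho : ∀ p q, r p q → Orb Γ p.1 q.1) :
    Measurable fun z : (X × A) × (X × A) => Relation.EqvGen r z.1 z.2 := by
  simp only [eqvGen_iff_chainN]
  exact Measurable.exists fun n => meas_chainN Γ hr ho n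

/-- version of `meas_eqvGen` on `X` itself -/
theorem meas_eqvGenX {r : X → X → Prop} (hr : Measurable fun z : X × X => r z.1 z.2)
    (ho : ∀ p q, r p q → Orb Γ p q) :
    Measurable fun z : X × X => Relation.EqvGen r z.1 z.2 := by
  have h := meas_eqvGen Γ (A := Unit) (r := fun p q => r p.1 q.1)
    (hr.comp (f := fun z : (X × Unit) × (X × Unit) => (z.1.1, z.2.1)) (by fun_prop))
    fun p q h => ho _ _ h
  have e : (fun z : X × X => Relation.EqvGen r z.1 z.2) = fun z : X × X =>
      Relation.EqvGen (fun p q : X × Unit => r p.1 q.1) (z.1, ()) (z.2, ()) := by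
    ext z
    constructor
    · intro h
      generalize z.1 = p at h
      generalize z.2 = q at h
      induction h with
      | rel _ _ h => exact .rel _ _ h
      | refl _ => exact .refl _
      | symm _ _ _ ih => exact .symm _ _ ih
      | trans _ _ _ _ _ ih ih' => exact .trans _ _ _ ih ih'
    · intro h
      have : ∀ p q : X × Unit, Relation.EqvGen (fun p q : X × Unit => r p.1 q.1) p q →
          Relation.EqvGen r p.1 q.1 := by
        intro p q h
        induction h with
        | rel _ _ h => exact .rel _ _ h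
        | refl _ => exact .refl _
        | symm _ _ _ ih => exact .symm _ _ ih
        | trans _ _ _ _ _ ih ih' => exact .trans _ _ _ ih ih'
      exact this _ _ h
  rw [e]
  exact h.comp (f := fun z : X × X => ((z.1, ()), (z.2, ()))) (by fun_prop)

section gr
variable {Γ} {G : Gr X A B}

theorem Gr.WF.mStep (h : G.WF Γ) : Measurable fun z : (X × A) × (X × A) => G.Step z.1 z.2 := by
  refine h.mR.or (meas_exists Γ (b := fun z : (X × A) × (X × A) => z.1.1) (by fun_prop)
    (f := fun z ε => ε ∈ G.E ∧ z.1 = G.o ε ∧ z.2 = G.t ε) ?_ ?_)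
  · refine Measurable.and (measurableSet_setOfPred.1 (h.mE.preimage measurable_snd))
      (Measurable.and ?_ ?_)
    · exact measurableSet_setOfPred.1
        (measurableSet_eq_fun (by fun_prop) (h.mo.comp measurable_snd))
    · exact measurableSet_setOfPred.1
        (measurableSet_eq_fun (by fun_prop) (h.mt.comp measurable_snd))
  · rintro z ε ⟨h1, h2, _⟩
    rw [h2]; exact (h.orbo ε h1).symm

theorem Gr.WF.orbStep (h : G.WF Γ) (p q : X × A) (hs : G.Step p q) : Orb Γ p.1 q.1 := by
  rcases hs with hs | ⟨ε, h1, rfl, rfl⟩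
  · exact h.orbR _ _ hs
  · exact (h.orbo ε h1).symm.trans (h.orbt ε h1)

theorem Gr.WF.mConn (h : G.WF Γ) : Measurable fun z : (X × A) × (X × A) => G.Conn z.1 z.2 :=
  meas_eqvGen Γ h.mStep h.orbStep

theorem Gr.WF.orbConn (h : G.WF Γ) (p q : X × A) (hs : G.Conn p q) : Orb Γ p.1 q.1 :=
  orb_eqvGen (b := Prod.fst) h.orbStep hs

theorem Gr.WF.mwt (h : G.WF Γ) : Measurable (wt G.R) := meas_wt Γ h.mR h.orbR

theorem Gr.WF.satConn (h : G.WF Γ) {p q : X × A} (hs : G.Conn p q) : p ∈ G.P ↔ q ∈ G.P := by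
  induction hs with
  | rel p q hs =>
    rcases hs with hs | ⟨ε, h1, rfl, rfl⟩
    · exact ⟨fun hp => h.sat p hp q hs, fun hq => h.sat q hq p (h.eqv.symm hs)⟩
    · exact ⟨fun _ => h.tP ε h1, fun _ => h.oP ε h1⟩
  | refl _ => rfl
  | symm _ _ _ ih => exact ih.symm
  | trans _ _ _ _ _ ih ih' => exact ih.trans ih'

end gr

variable {μ : Measure X} [IsProbabilityMeasure μ]

instance instSFiniteNu : SFinite (nu μ A) := by unfold nu; infer_instance

instance instSigmaFiniteNu : SigmaFinite (nu μ A) := by unfold nu; infer_instance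

theorem lintegral_nu {f : X × A → ℝ≥0∞} (hf : Measurable f) :
    ∫⁻ p, f p ∂(nu μ A) = ∑' a, ∫⁻ x, f (x, a) ∂μ := by
  unfold nu
  rw [lintegral_prod_symm _ hf.aemeasurable, lintegral_count]

theorem lintegral_nu' {f : X × A → ℝ≥0∞} (hf : Measurable f) :
    ∫⁻ p, f p ∂(nu μ A) = ∫⁻ x, ∑' a, f (x, a) ∂μ := by
  unfold nu
  rw [lintegral_prod _ hf.aemeasurable]
  simp only [lintegral_count]

theorem nu_apply {s : Set (X × A)} (hs : MeasurableSet s) :
    nu μ A s = ∑' a, μ {x | (x, a) ∈ s} := by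
  rw [← lintegral_indicator_one hs, lintegral_nu (measurable_one.indicator hs)]
  refine tsum_congr fun a => ?_
  rw [← lintegral_indicator_one (s := {x | (x, a) ∈ s}) (hs.preimage measurable_prodMk_right)]
  rfl

theorem nu_unit {s : Set X} (hs : MeasurableSet s) :
    nu μ Unit {p | p.1 ∈ s} = μ s := by
  rw [nu_apply (s := {p : X × Unit | p.1 ∈ s}) (hs.preimage measurable_fst)]
  simp

variable [SMulInvariantMeasure Γ X μ]

/-- Mass transport principle. -/
theorem mtp {f : X × A → X × B → ℝ≥0∞}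
    (hf : Measurable fun z : (X × A) × (X × B) => f z.1 z.2)
    (ho : ∀ p q, f p q ≠ 0 → Orb Γ p.1 q.1) :
    ∫⁻ p, ∑' q, f p q ∂(nu μ A) = ∫⁻ q, ∑' p, f p q ∂(nu μ B) := by
  have hf' : Measurable fun z : (X × B) × (X × A) => f z.2 z.1 := hf.comp measurable_swap
  have ho' : ∀ q p, f p q ≠ 0 → Orb Γ q.1 p.1 := fun q p h => (ho p q h).symm
  rw [lintegral_nu (meas_tsum Γ measurable_fst hf ho),
    lintegral_nu (meas_tsum Γ measurable_fst (f := fun q p => f p q) hf' ho')]
  have h1 : ∀ a, ∫⁻ x, ∑' q, f (x, a) q ∂μ =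
      ∑' c : Γ × B, ∫⁻ x, f (x, a) (c.1 • x, c.2) ∂μ := by
    intro a
    rw [← lintegral_tsum (f := fun (c : Γ × B) x => f (x, a) (c.1 • x, c.2)) fun c =>
      (hf.comp (f := fun x => ((x, a), (c.1 • x, c.2))) (by fun_prop)).aemeasurable]
    exact lintegral_congr fun x => tsum_par Γ (ho (x, a))
  have h2 : ∀ b, ∫⁻ x, ∑' p, f p (x, b) ∂μ =
      ∑' c : Γ × A, ∫⁻ x, f (c.1 • x, c.2) (x, b) ∂μ := by
    intro b
    rw [← lintegral_tsum (f := fun (c : Γ × A) x => f (c.1 • x, c.2) (x, b)) fun c =>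
      (hf.comp (f := fun x => ((c.1 • x, c.2), (x, b))) (by fun_prop)).aemeasurable]
    exact lintegral_congr fun x => tsum_par Γ (f := fun p => f p (x, b)) (ho' (x, b))
  simp only [h1, h2]
  simp only [ENNReal.tsum_prod']
  have h3 : ∀ (a : A) (b : B) (g : Γ), ∫⁻ x, f (x, a) (g • x, b) ∂μ =
      ∫⁻ x, f (g⁻¹ • x, a) (x, b) ∂μ := by
    intro a b g
    have := (measurePreserving_smul g μ).lintegral_comp
      (f := fun x => f (g⁻¹ • x, a) (x, b))
      (hf.comp (f := fun x => ((g⁻¹ • x, a), (x, b))) (by fun_prop))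
    simpa using this
  calc ∑' (a : A) (g : Γ) (b : B), ∫⁻ x, f (x, a) (g • x, b) ∂μ
      = ∑' (a : A) (b : B) (g : Γ), ∫⁻ x, f (g • x, a) (x, b) ∂μ := by
        refine tsum_congr fun a => ?_
        rw [ENNReal.tsum_comm]
        refine tsum_congr fun b => ?_
        simp only [h3]
        exact (Equiv.inv Γ).tsum_eq fun g => ∫⁻ x, f (g • x, a) (x, b) ∂μ
    _ = ∑' (b : B) (g : Γ) (a : A), ∫⁻ x, f (g • x, a) (x, b) ∂μ := by
        rw [ENNReal.tsum_comm]
        exact tsum_congr fun b => ENNReal.tsum_comm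

/-- Inequality form of the mass transport principle. -/
theorem mtp_le {f : X × A → X × B → ℝ≥0∞}
    (hf : Measurable fun z : (X × A) × (X × B) => f z.1 z.2)
    (ho : ∀ p q, f p q ≠ 0 → Orb Γ p.1 q.1) {u : X × A → ℝ≥0∞} {w : X × B → ℝ≥0∞}
    (hu : ∀ p, u p ≤ ∑' q, f p q) (hw : ∀ q, ∑' p, f p q ≤ w q) :
    ∫⁻ p, u p ∂(nu μ A) ≤ ∫⁻ q, w q ∂(nu μ B) :=
  (lintegral_mono hu).trans ((mtp Γ hf ho).le.trans (lintegral_mono hw))

/-- Double counting: every point of `s` has at least `c` partners in `t`, every point of `t` has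
at most `d` partners in `s`. -/
theorem nu_le_of_cnt {M : X × A → X × B → Prop}
    (hM : Measurable fun z : (X × A) × (X × B) => M z.1 z.2)
    (ho : ∀ p q, M p q → Orb Γ p.1 q.1) {s : Set (X × A)} {t : Set (X × B)}
    (hs : MeasurableSet s) (ht : MeasurableSet t) {c d : ℝ≥0∞}
    (h1 : ∀ p ∈ s, c ≤ cnt {q | q ∈ t ∧ M p q}) (h2 : ∀ q ∈ t, cnt {p | p ∈ s ∧ M p q} ≤ d) :
    c * nu μ A s ≤ d * nu μ B t := by
  rw [← lintegral_indicator_const hs, ← lintegral_indicator_const ht]
  have hm : MeasurableSet {z : (X × A) × (X × B) | z.1 ∈ s ∧ z.2 ∈ t ∧ M z.1 z.2} :=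
    (hs.preimage measurable_fst).inter
      ((ht.preimage measurable_snd).inter (measurableSet_setOfPred.2 hM))
  refine mtp_le Γ (f := fun p q => {z : (X × A) × (X × B) | z.1 ∈ s ∧ z.2 ∈ t ∧ M z.1 z.2}.indicator
    (fun _ => 1) (p, q)) (measurable_const.indicator hm) ?_ ?_ ?_
  · intro p q h
    exact ho p q (mem_of_indicator_ne_zero h).2.2
  · intro p
    by_cases hp : p ∈ s
    · rw [indicator_of_mem hp]
      refine (h1 p hp).trans (le_of_eq ?_)
      rw [cnt_eq_tsum]
      refine tsum_congr fun q => ?_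
      by_cases h : q ∈ t ∧ M p q
      · rw [indicator_of_mem (by exact h), indicator_of_mem (by exact ⟨hp, h⟩)]
      · rw [indicator_of_notMem (by exact h), indicator_of_notMem]
        exact fun h' => h h'.2
    · rw [indicator_of_notMem hp]; exact zero_le
  · intro q
    by_cases hq : q ∈ t
    · rw [indicator_of_mem hq]
      refine le_trans (le_of_eq ?_) (h2 q hq)
      rw [cnt_eq_tsum]
      refine tsum_congr fun p => ?_
      by_cases h : p ∈ s ∧ M p q
      · rw [indicator_of_mem (by exact ⟨h.1, hq, h.2⟩), indicator_of_mem (by exact h)]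
      · rw [indicator_of_notMem (s := {p | p ∈ s ∧ M p q}) (by exact h), indicator_of_notMem]
        exact fun h' => h ⟨h'.1, h'.2.2⟩
    · rw [indicator_of_notMem hq]
      refine le_of_eq (ENNReal.tsum_eq_zero.2 fun p => ?_)
      exact indicator_of_notMem (fun h => hq h.2.1) _

/-- An injective correspondence from `s` to `t`. -/
theorem nu_le_of_rel {M : X × A → X × B → Prop}
    (hM : Measurable fun z : (X × A) × (X × B) => M z.1 z.2)
    (ho : ∀ p q, M p q → Orb Γ p.1 q.1) {s : Set (X × A)} {t : Set (X × B)}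
    (hs : MeasurableSet s) (ht : MeasurableSet t)
    (h1 : ∀ p ∈ s, ∃ q ∈ t, M p q)
    (h2 : ∀ p ∈ s, ∀ p' ∈ s, ∀ q ∈ t, M p q → M p' q → p = p') :
    nu μ A s ≤ nu μ B t := by
  have := nu_le_of_cnt Γ (μ := μ) hM ho hs ht (c := 1) (d := 1)
    (fun p hp => one_le_cnt (h1 p hp))
    (fun q hq => cnt_le_one fun p hp p' hp' => h2 p hp.1 p' hp'.1 q hq hp.2 hp'.2)
  simpa using this

/-- An injective measurable orbital map from `s` into `t`. -/
theorem nu_le_of_injOn {φ : X × A → X × B} (hφ : Measurable φ) {s : Set (X × A)}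
    {t : Set (X × B)} (hs : MeasurableSet s) (ht : MeasurableSet t)
    (ho : ∀ p ∈ s, Orb Γ p.1 (φ p).1) (h1 : MapsTo φ s t) (h2 : InjOn φ s) :
    nu μ A s ≤ nu μ B t := by
  refine nu_le_of_rel Γ (M := fun p q => p ∈ s ∧ q = φ p) ?_ ?_ hs ht ?_ ?_
  · exact (measurableSet_setOfPred.1 (hs.preimage measurable_fst)).and
      (measurableSet_setOfPred.1 (measurableSet_eq_fun measurable_snd (hφ.comp measurable_fst)))
  · rintro p q ⟨hp, rfl⟩; exact ho p hp
  · exact fun p hp => ⟨φ p, h1 hp, hp, rfl⟩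
  · rintro p hp p' hp' q _ ⟨_, h⟩ ⟨_, h'⟩
    exact h2 hp hp' (h.symm.trans h')

/-- Transport between points of finite classes and objects `d ∈ D` attached to the class of
`n d`: `φ` is a class function. -/
theorem wt_mtp {R : X × A → X × A → Prop}
    (hR : Measurable fun z : (X × A) × (X × A) => R z.1 z.2)
    (hoR : ∀ p q, R p q → Orb Γ p.1 q.1) (hE : Equivalence R) {D : Set (X × B)}
    (hD : MeasurableSet D) {n : X × B → X × A} (hn : Measurable n)
    (hon : ∀ d ∈ D, Orb Γ d.1 (n d).1) {φ : X × A → ℝ≥0∞} (hφ : Measurable φ)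
    (hφR : ∀ p q, R p q → φ p = φ q) :
    ∫⁻ p, wt R p * φ p * cnt {d | d ∈ D ∧ R p (n d)} ∂(nu μ A) =
      ∫⁻ d in {d | d ∈ D ∧ {q | R (n d) q}.Finite}, φ (n d) ∂(nu μ B) := by
  have hm : MeasurableSet {z : (X × A) × (X × B) | z.2 ∈ D ∧ R z.1 (n z.2)} :=
    (hD.preimage measurable_snd).inter (measurableSet_setOfPred.2
      (hR.comp (f := fun z : (X × A) × (X × B) => (z.1, n z.2)) (by fun_prop)))
  have hfin : MeasurableSet {d | d ∈ D ∧ {q | R (n d) q}.Finite} :=
    hD.inter (measurableSet_setOfPred.2 ((meas_finite Γ measurable_fst hR hoR).comp hn))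
  have hw := meas_wt Γ hR hoR
  have := mtp Γ (μ := μ) (f := fun p d =>
    {z : (X × A) × (X × B) | z.2 ∈ D ∧ R z.1 (n z.2)}.indicator
      (fun z => wt R z.1 * φ z.1) (p, d))
    (((hw.comp measurable_fst).mul (hφ.comp measurable_fst)).indicator hm)
    (fun p d h => by
      have h' := mem_of_indicator_ne_zero h
      exact (hoR _ _ h'.2).trans (hon d h'.1).symm)
  rw [← lintegral_indicator hfin]
  refine Eq.trans (lintegral_congr fun p => ?_) (this.trans (lintegral_congr fun d => ?_))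
  · rw [mul_comm, ← tsum_indicator_const]
    refine tsum_congr fun d => ?_
    rfl
  · by_cases hd : d ∈ D
    · have e : ∀ p, {z : (X × A) × (X × B) | z.2 ∈ D ∧ R z.1 (n z.2)}.indicator
          (fun z => wt R z.1 * φ z.1) (p, d) = {q | R (n d) q}.indicator (wt R) p * φ (n d) := by
        intro p
        by_cases h : R p (n d)
        · rw [indicator_of_mem (by exact ⟨hd, h⟩), indicator_of_mem (by exact hE.symm h),
            hφR _ _ h]
        · rw [indicator_of_notMem (fun h' => h h'.2),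
            indicator_of_notMem (s := {q | R (n d) q}) (fun h' => h (hE.symm h')), zero_mul]
      simp only [e, ENNReal.tsum_mul_right]
      by_cases hf : {q | R (n d) q}.Finite
      · rw [tsum_wt_eq_one hE hf, one_mul, indicator_of_mem (by exact ⟨hd, hf⟩)]
      · rw [tsum_wt hE, wt_eq_zero.2 hf, indicator_of_notMem (fun h => hf h.2)]
        simp
    · rw [indicator_of_notMem (fun h => hd h.1)]
      exact ENNReal.tsum_eq_zero.2 fun p => indicator_of_notMem (fun h => hd h.1) _

end Crest.Agent.R191
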