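import Crest.Agent.R191.Closure

/-! # R191: the closure as a folded admissible graph -/

set_option autoImplicit false
set_option linter.unusedSectionVars false

open MeasureTheory Set
open scoped ENNReal

namespace Crest.Agent.R191

variable {Γ X : Type} [Group Γ] [Countable Γ] [MeasurableSpace Γ]
  [MeasurableSingletonClass Γ] [MulAction Γ X] [MeasurableSpace X] [StandardBorelSpace X]
  [MeasurableSMul₂ Γ X] [IsCancelSMul Γ X]
  {μ : Measure X} [IsProbabilityMeasure μ] [SMulInvariantMeasure Γ X μ]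
  {I J : Type} [Countable I] [MeasurableSpace I] [MeasurableSingletonClass I]
  [Countable J] [MeasurableSpace J] [MeasurableSingletonClass J]
  {Λ : Subgroup Γ} {a : Γ} {τ : Fin 100 → Γ} {st : I} {G : Gr X I J}

theorem meas_faces (τ : Fin 100 → Γ) (hG : G.WF Γ) {S : Set X} (hS : MeasurableSet S) :
    MeasurableSet (faces τ G S) := by
  have hsl : ∀ m, Measurable fun f : X × (Fin 100 → J) => slot τ f m := fun m => by
    unfold slot; fun_prop
  refine measurableSet_setOfPred.2 (Measurable.and ?_ (Measurable.forall fun m => Measurable.and ?_ ?_))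
  · exact measurableSet_setOfPred.1 (hS.preimage measurable_fst)
  · exact measurableSet_setOfPred.1 (hG.mE.preimage (hsl m))
  · exact hG.mR.comp ((hG.mt.comp (hsl m)).prodMk (hG.mo.comp (hsl (m + 1))))

namespace PackAux

/-- The closure as a graph: an edge `(x, (c, c'))` goes from `par x c` to `par x c'`; among the
edges labelled `x` with identified origins only the one with the least code is kept. -/
def packGr (τ : Fin 100 → Γ) (G : Gr X I J) (S : Set X) (enc : (Γ × I) × (Γ × I) → ℕ) :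
    Gr X I ((Γ × I) × (Γ × I)) where
  P := G.P
  R := Cl τ G S none
  E := {ε | Cl τ G S (some ε.1) (par Γ ε.1 ε.2.1) (par Γ ε.1 ε.2.2) ∧
    ∀ j' : (Γ × I) × (Γ × I), Cl τ G S (some ε.1) (par Γ ε.1 j'.1) (par Γ ε.1 j'.2) →
      Cl τ G S none (par Γ ε.1 ε.2.1) (par Γ ε.1 j'.1) → enc ε.2 ≤ enc j'}
  o := fun ε => par Γ ε.1 ε.2.1
  t := fun ε => par Γ ε.1 ε.2.2

variable {S : Set X} {enc : (Γ × I) × (Γ × I) → ℕ}

theorem pack_rep (hG : G.Adm Λ a st) (hcyc : ∀ m, τ (m + 1) * (a * τ m)⁻¹ ∈ Λ)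
    (enc : (Γ × I) × (Γ × I) → ℕ) {x : X} {p q : X × I} (h : Cl τ G S (some x) p q) :
    ∃ j, (x, j) ∈ (packGr τ G S enc).E ∧ (packGr τ G S enc).R p ((packGr τ G S enc).o (x, j)) ∧
      (packGr τ G S enc).R q ((packGr τ G S enc).t (x, j)) := by
  have hE := cl_equivalence (τ := τ) hG.wf S
  obtain ⟨h1, h2⟩ := (cl_orb hG hcyc h).2 x rfl
  obtain ⟨c, rfl⟩ := (mem_range_par Γ).2 h1.of_sub
  obtain ⟨c', rfl⟩ := (mem_range_par Γ).2 ((Orb.smul a x).trans h2.of_sub)
  let T : Set ((Γ × I) × (Γ × I)) := {j | Cl τ G S (some x) (par Γ x j.1) (par Γ x j.2) ∧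
    Cl τ G S none (par Γ x c) (par Γ x j.1)}
  have hT : T.Nonempty := ⟨(c, c'), h, hE.refl _⟩
  obtain ⟨hj1, hj2⟩ := Function.argminOn_mem enc T hT
  refine ⟨Function.argminOn enc T hT, ⟨hj1, fun j' h1 h2 => ?_⟩, hj2, ?_⟩
  · exact Function.argminOn_le enc T (show j' ∈ T from ⟨h1, hj2.trans h2⟩)
  · exact h.foldO (hj1.congr hj2.symm (hE.refl _))

theorem pack_folded (hG : G.WF Γ) (henc : Function.Injective enc) :
    (packGr τ G S enc).Folded := by
  have hE := cl_equivalence (τ := τ) hG S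
  rintro x j j' ⟨h1, h2⟩ ⟨h1', h2'⟩ h
  have ho : Cl τ G S none (par Γ x j.1) (par Γ x j'.1) := by
    rcases h with h | h
    · exact h
    · exact (h1.congr (hE.refl _) h).foldT h1'
  exact henc (le_antisymm (h2 j' h1' ho) (h2' j h1 ho.symm))

theorem pack_wf (hG : G.Adm Λ a st) (hcyc : ∀ m, τ (m + 1) * (a * τ m)⁻¹ ∈ Λ)
    (hS : MeasurableSet S) : (packGr τ G S enc).WF Γ := by
  obtain ⟨hm0, hm1⟩ := cl_meas hG hcyc hS
  have ho : Measurable fun ε : X × ((Γ × I) × (Γ × I)) => par Γ ε.1 ε.2.1 :=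
    meas_par₂ Γ measurable_fst (by fun_prop)
  have ht : Measurable fun ε : X × ((Γ × I) × (Γ × I)) => par Γ ε.1 ε.2.2 :=
    meas_par₂ Γ measurable_fst (by fun_prop)
  refine
    { mP := hG.wf.mP
      mR := hm0
      mE := ?_
      mo := ho
      mt := ht
      eqv := cl_equivalence hG.wf S
      orbR := fun p q h => ((cl_orb hG hcyc h).1 rfl).of_sub
      orbo := fun ε _ => ⟨ε.2.1.1, rfl⟩
      orbt := fun ε _ => ⟨ε.2.2.1, rfl⟩
      sat := fun p hp q h => ((cl_P hG.wf h).1 rfl).1 hp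
      oP := fun ε h => ((cl_P hG.wf h.1).2 _ rfl).1
      tP := fun ε h => ((cl_P hG.wf h.1).2 _ rfl).2 }
  refine measurableSet_setOfPred.2 (Measurable.and ?_ (Measurable.forall fun j' =>
    Measurable.imp ?_ (Measurable.imp ?_ ?_)))
  · exact hm1.comp (measurable_fst.prodMk (ho.prodMk ht))
  · exact hm1.comp (measurable_fst.prodMk
      ((meas_par Γ measurable_fst j'.1).prodMk (meas_par Γ measurable_fst j'.2)))
  · exact hm0.comp (ho.prodMk (meas_par Γ measurable_fst j'.1))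
  · exact (Measurable.of_discrete (f := fun j : (Γ × I) × (Γ × I) => enc j ≤ enc j')).comp
      measurable_snd

theorem pack_conn (hG : G.Adm Λ a st) (hcyc : ∀ m, τ (m + 1) * (a * τ m)⁻¹ ∈ Λ)
    {p q : X × I} (h : G.Conn p q) : (packGr τ G S enc).Conn p q := by
  induction h with
  | rel p q hs =>
    rcases hs with hs | ⟨ε, h1, rfl, rfl⟩
    · exact .rel _ _ (Or.inl (Cl.base hs))
    · obtain ⟨j, hj, ho, ht⟩ := pack_rep hG hcyc enc (Cl.orig (τ := τ) (S := S) h1)
      exact .trans _ _ _ (.rel _ _ (Or.inl ho)) (.trans _ _ _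
        (.rel _ _ (Or.inr ⟨_, hj, rfl, rfl⟩)) (.symm _ _ (.rel _ _ (Or.inl ht))))
  | refl _ => exact .refl _
  | symm _ _ _ ih => exact .symm _ _ ih
  | trans _ _ _ _ _ ih ih' => exact .trans _ _ _ ih ih'

theorem pack_adm (hG : G.Adm Λ a st) (hcyc : ∀ m, τ (m + 1) * (a * τ m)⁻¹ ∈ Λ)
    (hS : MeasurableSet S) : (packGr τ G S enc).Adm Λ a st where
  wf := pack_wf hG hcyc hS
  sR := fun _ _ h => (cl_orb hG hcyc h).1 rfl
  so := fun _ h => ((cl_orb hG hcyc h.1).2 _ rfl).1
  st' := fun _ h => ((cl_orb hG hcyc h.1).2 _ rfl).2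
  starP := hG.starP
  starR := fun x l hl => Cl.base (hG.starR x l hl)
  conn := fun p hp => let ⟨x, hx⟩ := hG.conn p hp; ⟨x, pack_conn hG hcyc hx⟩
  gen := fun x => pack_conn hG hcyc (hG.gen x)

theorem pack_lab (hG : G.Adm Λ a st) (hcyc : ∀ m, τ (m + 1) * (a * τ m)⁻¹ ∈ Λ)
    (hS : MeasurableSet S) (enc : (Γ × I) × (Γ × I) → ℕ) :
    ∃ lab : X × J → (Γ × I) × (Γ × I), Measurable lab ∧ ∀ ε ∈ G.E,
      (ε.1, lab ε) ∈ (packGr τ G S enc).E ∧
        (packGr τ G S enc).R (G.o ε) ((packGr τ G S enc).o (ε.1, lab ε)) := by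
  have hH : (packGr τ G S enc).WF Γ := pack_wf hG hcyc hS
  refine meas_choice_idx (f := fun (ε : X × J) (j : (Γ × I) × (Γ × I)) => ε ∈ G.E →
    (ε.1, j) ∈ (packGr τ G S enc).E ∧
      (packGr τ G S enc).R (G.o ε) ((packGr τ G S enc).o (ε.1, j))) (fun j => ?_) fun ε => ?_
  · have hj : Measurable fun ε : X × J => (ε.1, j) := by fun_prop
    refine Measurable.imp (measurableSet_setOfPred.1 hG.wf.mE) (Measurable.and ?_ ?_)
    · exact measurableSet_setOfPred.1 (hH.mE.preimage hj)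
    · exact hH.mR.comp (hG.wf.mo.prodMk (hH.mo.comp hj))
  · by_cases h : ε ∈ G.E
    · obtain ⟨j, hj, ho, _⟩ := pack_rep hG hcyc enc (Cl.orig (τ := τ) (S := S) h)
      exact ⟨j, fun _ => ⟨hj, ho⟩⟩
    · exact ⟨((1, st), (1, st)), fun h' => (h h').elim⟩

theorem pack_sp (hG : G.Adm Λ a st) (hcyc : ∀ m, τ (m + 1) * (a * τ m)⁻¹ ∈ Λ)
    (henc : Function.Injective enc) {lab : X × J → (Γ × I) × (Γ × I)}
    (hlab : ∀ ε ∈ G.E, (ε.1, lab ε) ∈ (packGr τ G S enc).E ∧
        (packGr τ G S enc).R (G.o ε) ((packGr τ G S enc).o (ε.1, lab ε))) :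
    SP τ (packGr τ G S enc) (faces τ (packGr τ G S enc) S) G lab id := by
  intro Z σ m hF hR hE
  have hfold : (packGr τ G S enc).Folded := pack_folded hG.wf henc
  have key : ∀ {o : Option X} {p q : X × I}, Cl τ G S o p q →
      (o = none → m p = m q) ∧ ∀ x, o = some x → ∀ j, (x, j) ∈ (packGr τ G S enc).E →
        Cl τ G S none p ((packGr τ G S enc).o (x, j)) → σ (x, j) (m p) = m q := by
    intro o p q h
    induction h with
    | base h => exact ⟨fun _ => hR _ _ h, fun x hx => by cases hx⟩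
    | symm _ ih => exact ⟨fun _ => (ih.1 rfl).symm, fun x hx => by cases hx⟩
    | trans _ _ ih ih' => exact ⟨fun _ => (ih.1 rfl).trans (ih'.1 rfl), fun x hx => by cases hx⟩
    | @orig ε hε =>
      refine ⟨fun h => (by cases h), fun x hx j hj ho => ?_⟩
      cases hx
      obtain ⟨h1, h2⟩ := hlab ε hε
      have : j = lab ε := hfold _ _ _ hj h1 (Or.inl (ho.symm.trans h2))
      rw [this]
      exact hE ε hε
    | congr _ hp _ ih ihp ihq =>
      refine ⟨fun h => (by cases h), fun x hx j hj ho => ?_⟩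
      rw [← ihp.1 rfl, ← ihq.1 rfl]
      exact ih.2 x hx j hj (hp.trans ho)
    | foldO h _ ih ih' =>
      refine ⟨fun _ => ?_, fun x hx => by cases hx⟩
      obtain ⟨j, hj, ho, _⟩ := pack_rep hG hcyc enc h
      rw [← ih.2 _ rfl j hj ho, ← ih'.2 _ rfl j hj ho]
    | foldT h h' ih ih' =>
      refine ⟨fun _ => ?_, fun x hx => by cases hx⟩
      obtain ⟨j, hj, ho, ht⟩ := pack_rep hG hcyc enc h
      obtain ⟨j', hj', ho', ht'⟩ := pack_rep hG hcyc enc h'
      have e : j = j' := hfold _ _ _ hj hj' (Or.inr (Cl.trans (Cl.symm ht) ht'))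
      subst e
      exact (σ _).injective ((ih.2 _ rfl j hj ho).trans (ih'.2 _ rfl j hj' ho').symm)
    | @close y c i hy hc ih =>
      refine ⟨fun h => (by cases h), fun x hx j hj ho => ?_⟩
      cases hx
      have hall : ∀ k, Cl τ G S (some (τ k • y)) (c k) (c (k + 1)) := fun k => by
        by_cases hk : k = i
        · subst hk; exact Cl.close c k hy hc
        · exact hc k hk
      choose r hr hro hrt using fun k => pack_rep hG hcyc enc (hall k)
      have hf : (y, r) ∈ faces τ (packGr τ G S enc) S :=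
        ⟨hy, fun k => ⟨hr k, Cl.trans (Cl.symm (hrt k)) (hro (k + 1))⟩⟩
      have e : j = r i := hfold _ _ _ hj (hr i) (Or.inl (ho.symm.trans (hro i)))
      rw [e]
      exact hF _ hf (fun k => m (c k)) i fun k hk => (ih k hk).2 _ rfl (r k) (hr k) (hro k)
  refine ⟨fun p q h => (key h).1 rfl, fun ε hε => ?_⟩
  exact (key hε.1).2 _ rfl ε.2 hε ((cl_equivalence hG.wf S).refl _)

end PackAux

/-- Proof.  Let `J₁ = (Γ × I) × (Γ × I)`, `H.o (x, (c, c')) = par Γ x c`, `H.t (x, (c, c')) = par Γ x c'`,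
`H.P = G.P`, `H.R = Cl none`, fix an injection `enc : J₁ → ℕ`, and let `(x, j) ∈ H.E` iff
`Cl (some x) (H.o (x, j)) (H.t (x, j))` and `enc j ≤ enc j'` for every `j'` with
`Cl (some x) (H.o (x, j')) (H.t (x, j'))` and `Cl none (H.o (x, j)) (H.o (x, j'))`.  Every
`Cl (some x) p q` has a unique representative `rep x p q` in `H.E` (existence: `cl_orb` and a minimal
`enc`; uniqueness = foldedness, by `foldO`, `foldT`).  `lab (x, j) = rep x (G.o (x, j)) (G.t (x, j))`
(`meas_choice_idx`, any value off `G.E`).  `G.Conn ≤ H.Conn` gives `conn` and `gen`.  `SP`: prove by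
induction on `Cl τ G S o p q` that `m p = m q` if `o = none`, and that `σ (x, j) (m p) = m q` for
every `(x, j) ∈ H.E` with `H.R p (H.o (x, j))` if `o = some x`.  (`foldT`: the representatives agree
and `σ` is injective.  `close`: all 100 edges have representatives, which form a face in
`faces τ H S`; use `FaceRel` with the points `m (c k)`.) -/
theorem cl_pack (hG : G.Adm Λ a st) (hcyc : ∀ m, τ (m + 1) * (a * τ m)⁻¹ ∈ Λ) {S : Set X}
    (hS : MeasurableSet S) :
    ∃ (J₁ : Type) (_ : Countable J₁) (_ : MeasurableSpace J₁) (_ : MeasurableSingletonClass J₁)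
      (H : Gr X I J₁) (lab : X × J → J₁),
      H.Adm Λ a st ∧ H.Folded ∧ H.P = G.P ∧ (∀ p q, H.R p q ↔ Cl τ G S none p q) ∧
      Measurable lab ∧ SP τ H (faces τ H S) G lab id ∧
      ∀ x p q, Cl τ G S (some x) p q →
        ∃ j, (x, j) ∈ H.E ∧ H.R p (H.o (x, j)) ∧ H.R q (H.t (x, j)) := by
  obtain ⟨enc, henc⟩ := Countable.exists_injective_nat ((Γ × I) × (Γ × I))
  obtain ⟨lab, hlab, hlab'⟩ := PackAux.pack_lab hG hcyc hS enc
  exact ⟨(Γ × I) × (Γ × I), inferInstance, inferInstance, inferInstance,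
    PackAux.packGr τ G S enc, lab, PackAux.pack_adm hG hcyc hS, PackAux.pack_folded hG.wf henc,
    rfl, fun _ _ => Iff.rfl, hlab, PackAux.pack_sp hG hcyc henc hlab',
    fun _ _ _ h => PackAux.pack_rep hG hcyc enc h⟩

end Crest.Agent.R191
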