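import Crest.Agent.R191.RMBase
import Crest.Agent.R191.Subdiv

/-! # R191: the Euler characteristic inequality for a collapsible family of faces -/

set_option autoImplicit false
set_option linter.unusedSectionVars false

open MeasureTheory Set
open scoped ENNReal

namespace Crest.Agent.R191

variable {Γ X : Type} [Group Γ] [Countable Γ] [MeasurableSpace Γ]
  [MeasurableSingletonClass Γ] [MulAction Γ X] [MeasurableSpace X] [StandardBorelSpace X]
  [MeasurableSMul₂ Γ X] [IsCancelSMul Γ X]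
  {μ : Measure X} [IsProbabilityMeasure μ] [SMulInvariantMeasure Γ X μ]
  {I₁ J₁ : Type} [Countable I₁] [MeasurableSpace I₁] [MeasurableSingletonClass I₁]
  [Countable J₁] [MeasurableSpace J₁] [MeasurableSingletonClass J₁]

theorem Gr.WF.withE {G : Gr X I₁ J₁} (h : G.WF Γ) {E' : Set (X × J₁)} (hE : MeasurableSet E')
    (hs : E' ⊆ G.E) : (G.withE E').WF Γ :=
  ⟨h.mP, h.mR, hE, h.mo, h.mt, h.eqv, h.orbR, fun ε hε => h.orbo ε (hs hε),
    fun ε hε => h.orbt ε (hs hε), h.sat, fun ε hε => h.oP ε (hs hε), fun ε hε => h.tP ε (hs hε)⟩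

theorem RM (τ : Fin 100 → Γ) {sl : X × (Fin 100 → J₁) → Fin 100} (hsl : Measurable sl) (T : ℕ) :
    ∀ {I J : Type} [Countable I] [MeasurableSpace I] [MeasurableSingletonClass I]
      [Countable J] [MeasurableSpace J] [MeasurableSingletonClass J]
      {H : Gr X I₁ J₁}, H.WF Γ → ∀ {F : Set (X × (Fin 100 → J₁))}, MeasurableSet F →
      ∀ {lev : X × (Fin 100 → J₁) → ℕ}, Measurable lev → (∀ f ∈ F, lev f < T) →
      (∀ f ∈ F, ∀ f' ∈ F, ∀ m, slot τ f' m = slot τ f (sl f) → lev f ≤ lev f' →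
        f' = f ∧ m = sl f) →
      ∀ {Θ : Gr X I J}, Θ.WF Γ → ∀ {lab : X × J → J₁}, Measurable lab → ∀ {ι : I₁ → I},
      Function.Injective ι → (∀ p ∈ Θ.P, ∃ q ∈ H.P, Θ.Conn p (q.1, ι q.2)) →
      SP τ H F Θ lab ι → Θ.e μ ≠ ⊤ → Θ.v μ ≠ ⊤ →
      nu μ J₁ (H.E \ removed τ F sl) + Θ.v μ ≤ Θ.e μ + H.v μ := by
  induction T with
  | zero =>
    intro I J _ _ _ _ _ _ H hH F _ lev _ hT _ Θ hΘ lab hlab ι hι hconn hSP he hv
    have hF0 : F = ∅ := eq_empty_of_forall_notMem fun f hf => Nat.not_lt_zero _ (hT f hf)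
    subst hF0
    refine le_trans ?_ (RM_base τ hH hΘ hlab hι hconn hSP he hv)
    exact add_le_add (measure_mono sdiff_subset) le_rfl
  | succ T ih =>
    intro I J _ _ _ _ _ _ H hH F hF lev hlev hT hfree Θ hΘ lab hlab ι hι hconn hSP he hv
    set F₀ : Set (X × (Fin 100 → J₁)) := F ∩ lev ⁻¹' {0} with hF₀
    set F₁ : Set (X × (Fin 100 → J₁)) := F \ lev ⁻¹' {0} with hF₁
    have mF₀ : MeasurableSet F₀ := hF.inter (hlev (measurableSet_singleton 0))
    have mF₁ : MeasurableSet F₁ := hF.diff (hlev (measurableSet_singleton 0))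
    have hU : F₀ ∪ F₁ = F := inter_union_sdiff _ _
    obtain ⟨I', J', _, _, _, _, _, _, Θ', lab', ι', hΘ', hlab', hι', hconn', hSP', he', hv',
      hle⟩ := subdivide (μ := μ) τ (H := H) (F₁ := F₁) mF₀ hsl
      (fun f hf f' hf' m h => hfree f hf.1 f' (hU ▸ hf') m h
        (by rw [show lev f = 0 from hf.2]; exact Nat.zero_le _))
      hΘ hlab hι hconn (hU.symm ▸ hSP) he hv
    have hH' : (H.withE (H.E \ removed τ F₀ sl)).WF Γ :=
      hH.withE (hH.mE.diff (meas_removed τ mF₀ hsl)) sdiff_subset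
    have key := ih hH' mF₁ (lev := fun f => lev f - 1) (hlev.sub_const 1)
      (fun f hf => by
        have h1 := hT f hf.1
        have h2 : lev f ≠ 0 := hf.2
        omega)
      (fun f hf f' hf' m h hl => hfree f hf.1 f' hf'.1 m h (by
        have h2 : lev f ≠ 0 := hf.2
        have h3 : lev f' ≠ 0 := hf'.2
        omega))
      hΘ' hlab' hι' hconn' hSP' he' hv'
    have hsub : H.E \ removed τ F sl ⊆
        (H.withE (H.E \ removed τ F₀ sl)).E \ removed τ F₁ sl := by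
      rintro ε ⟨h1, h2⟩
      exact ⟨⟨h1, fun ⟨f, hf, e⟩ => h2 ⟨f, hf.1, e⟩⟩, fun ⟨f, hf, e⟩ => h2 ⟨f, hf.1, e⟩⟩
    have key' : nu μ J₁ (H.E \ removed τ F sl) + Θ'.v μ ≤ Θ'.e μ + H.v μ :=
      (add_le_add (measure_mono hsub) le_rfl).trans key
    refine (ENNReal.add_le_add_iff_right hv').1 ?_
    calc nu μ J₁ (H.E \ removed τ F sl) + Θ.v μ + Θ'.v μ
        = (nu μ J₁ (H.E \ removed τ F sl) + Θ'.v μ) + Θ.v μ := by ring
      _ ≤ (Θ'.e μ + H.v μ) + Θ.v μ := add_le_add key' le_rfl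
      _ = (Θ.v μ + Θ'.e μ) + H.v μ := by ring
      _ ≤ (Θ'.v μ + Θ.e μ) + H.v μ := add_le_add hle le_rfl
      _ = Θ.e μ + H.v μ + Θ'.v μ := by ring

end Crest.Agent.R191
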