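import Crest.Agent.R191.Fold

/-! # R191: a map of graphs that is onto on fundamental groups decreases `e - v` -/

set_option autoImplicit false
set_option linter.unusedSectionVars false

open MeasureTheory Set
open scoped ENNReal

namespace Crest.Agent.R191

variable {Γ X : Type} [Group Γ] [Countable Γ] [MeasurableSpace Γ]
  [MeasurableSingletonClass Γ] [MulAction Γ X] [MeasurableSpace X] [StandardBorelSpace X]
  [MeasurableSMul₂ Γ X] [IsCancelSMul Γ X]
  {μ : Measure X} [IsProbabilityMeasure μ] [SMulInvariantMeasure Γ X μ]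
  {I J : Type} [Countable I] [MeasurableSpace I] [MeasurableSingletonClass I]
  [Countable J] [MeasurableSpace J] [MeasurableSingletonClass J]
  {I₁ J₁ : Type} [Countable I₁] [MeasurableSpace I₁] [MeasurableSingletonClass I₁]
  [Countable J₁] [MeasurableSpace J₁] [MeasurableSingletonClass J₁]

/-- A partial injection of `V` extends to a permutation of `V × ℤ` with no new relations inside
the level `0`.  Proof: `σ (v, 0) = (w, 0)` if `D v w`, `(v, 1)` if `v ∉ dom`; for `n > 0`,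
`σ (v, n) = (v, n)` if `v ∈ dom`, else `(v, n+1)`; for `n < 0`, `σ (v, n) = (v, n)` if `v ∈ ran`, else
`(v, n+1)`. -/
theorem exists_perm_ext {V : Type} (D : V → V → Prop)
    (h1 : ∀ v w w', D v w → D v w' → w = w') (h2 : ∀ v v' w, D v w → D v' w → v = v') :
    ∃ σ : Equiv.Perm (V × ℤ), ∀ v w, σ (v, 0) = (w, 0) ↔ D v w := by
  classical
  let f : V × ℤ → V × ℤ := fun z =>
    if z.2 = 0 then (if h : ∃ w, D z.1 w then (h.choose, 0) else (z.1, 1))
    else if 0 < z.2 then (if ∃ w, D z.1 w then z else (z.1, z.2 + 1))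
    else (if ∃ u, D u z.1 then z else (z.1, z.2 + 1))
  let g : V × ℤ → V × ℤ := fun z =>
    if z.2 = 0 then (if h : ∃ u, D u z.1 then (h.choose, 0) else (z.1, -1))
    else if 0 < z.2 then (if ∃ w, D z.1 w then z else (z.1, z.2 - 1))
    else (if ∃ u, D u z.1 then z else (z.1, z.2 - 1))
  have f0 : ∀ v w, D v w → f (v, 0) = (w, 0) := fun v w h => by
    have h' : ∃ w, D v w := ⟨w, h⟩
    simp only [f, if_true, dif_pos h', h1 v _ _ h'.choose_spec h]
  have g0 : ∀ v w, D v w → g (w, 0) = (v, 0) := fun v w h => by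
    have h' : ∃ u, D u w := ⟨v, h⟩
    simp only [g, if_true, dif_pos h', h2 _ _ w h'.choose_spec h]
  have f1 : ∀ v (n : ℤ), (∃ w, D v w) → 0 < n → f (v, n) = (v, n) := fun v n h hn => by
    simp only [f, if_neg hn.ne', if_pos hn, if_pos h]
  have g1 : ∀ v (n : ℤ), (∃ w, D v w) → 0 < n → g (v, n) = (v, n) := fun v n h hn => by
    simp only [g, if_neg hn.ne', if_pos hn, if_pos h]
  have f2 : ∀ v (n : ℤ), (¬ ∃ w, D v w) → 0 ≤ n → f (v, n) = (v, n + 1) := fun v n h hn => by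
    rcases hn.eq_or_lt with rfl | hn
    · simp only [f, if_true, dif_neg h, zero_add]
    · simp only [f, if_neg hn.ne', if_pos hn, if_neg h]
  have g2 : ∀ v (n : ℤ), (¬ ∃ w, D v w) → 0 < n → g (v, n) = (v, n - 1) := fun v n h hn => by
    simp only [g, if_neg hn.ne', if_pos hn, if_neg h]
  have f3 : ∀ v (n : ℤ), (∃ u, D u v) → n < 0 → f (v, n) = (v, n) := fun v n h hn => by
    simp only [f, if_neg hn.ne, if_neg hn.not_gt, if_pos h]
  have g3 : ∀ v (n : ℤ), (∃ u, D u v) → n < 0 → g (v, n) = (v, n) := fun v n h hn => by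
    simp only [g, if_neg hn.ne, if_neg hn.not_gt, if_pos h]
  have f4 : ∀ v (n : ℤ), (¬ ∃ u, D u v) → n < 0 → f (v, n) = (v, n + 1) := fun v n h hn => by
    simp only [f, if_neg hn.ne, if_neg hn.not_gt, if_neg h]
  have g4 : ∀ v (n : ℤ), (¬ ∃ u, D u v) → n ≤ 0 → g (v, n) = (v, n - 1) := fun v n h hn => by
    rcases hn.eq_or_lt with rfl | hn
    · simp only [g, if_true, dif_neg h, zero_sub]
    · simp only [g, if_neg hn.ne, if_neg hn.not_gt, if_neg h]
  have gf : Function.LeftInverse g f := by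
    rintro ⟨v, n⟩
    rcases lt_or_ge n 0 with hn | hn
    · by_cases h : ∃ u, D u v
      · rw [f3 v n h hn, g3 v n h hn]
      · rw [f4 v n h hn, g4 v _ h (by omega), add_sub_cancel_right]
    · by_cases h : ∃ w, D v w
      · rcases hn.eq_or_lt with rfl | hn
        · obtain ⟨w, hw⟩ := h
          rw [f0 v w hw, g0 v w hw]
        · rw [f1 v n h hn, g1 v n h hn]
      · rw [f2 v n h hn, g2 v _ h (by omega), add_sub_cancel_right]
  have fg : Function.RightInverse g f := by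
    rintro ⟨v, n⟩
    rcases lt_or_ge 0 n with hn | hn
    · by_cases h : ∃ w, D v w
      · rw [g1 v n h hn, f1 v n h hn]
      · rw [g2 v n h hn, f2 v _ h (by omega), sub_add_cancel]
    · by_cases h : ∃ u, D u v
      · rcases hn.eq_or_lt with rfl | hn
        · obtain ⟨u, hu⟩ := h
          rw [g0 u v hu, f0 u v hu]
        · rw [g3 v n h hn, f3 v n h hn]
      · rw [g4 v n h hn, f4 v _ h (by omega), sub_add_cancel]
  refine ⟨⟨f, g, gf, fg⟩, fun v w => ⟨fun h => ?_, f0 v w⟩⟩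
  change f (v, 0) = (w, 0) at h
  by_cases h' : ∃ w, D v w
  · obtain ⟨w', hw'⟩ := h'
    rw [f0 v w' hw'] at h
    cases h
    exact hw'
  · rw [f2 v 0 h' le_rfl] at h
    simp at h

namespace RMBaseAux

/-- The nodes of `G` that contain a point of `H` are at most as many as the nodes of `H`. -/
theorem vOn_le {H : Gr X I₁ J₁} (hH : H.WF Γ) {G : Gr X I J} (hG : G.WF Γ) {ι : I₁ → I}
    (hι : Function.Injective ι) (ha : ∀ p q, H.R p q → G.R (p.1, ι p.2) (q.1, ι q.2))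
    (hZ : MeasurableSet {p | ∃ q, q ∈ H.P ∧ G.R p (q.1, ι q.2)}) :
    G.vOn μ {p | ∃ q, q ∈ H.P ∧ G.R p (q.1, ι q.2)} ≤ H.v μ := by
  have mι : Measurable ι := Measurable.of_discrete
  have hm : MeasurableSet {z : (X × I) × (X × I₁) | z.2 ∈ H.P ∧ G.R z.1 (z.2.1, ι z.2.2)} :=
    (hH.mP.preimage measurable_snd).inter (measurableSet_setOfPred.2
      (hG.mR.comp (f := fun z : (X × I) × (X × I₁) => (z.1, (z.2.1, ι z.2.2))) (by fun_prop)))
  unfold Gr.v Gr.vOn
  rw [← lintegral_indicator hZ, ← lintegral_indicator hH.mP]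
  refine mtp_le Γ (f := fun p q =>
    {z : (X × I) × (X × I₁) | z.2 ∈ H.P ∧ G.R z.1 (z.2.1, ι z.2.2)}.indicator
      (fun z => wt G.R z.1 * wt H.R z.2) (p, q))
    (((hG.mwt.comp measurable_fst).mul (hH.mwt.comp measurable_snd)).indicator hm) ?_ ?_ ?_
  · intro p q h
    exact hG.orbR _ _ (mem_of_indicator_ne_zero h).2
  · intro p
    by_cases hp : p ∈ {p | ∃ q, q ∈ H.P ∧ G.R p (q.1, ι q.2)}
    · rw [indicator_of_mem hp]
      obtain ⟨q₀, hq₀, hR⟩ := hp
      by_cases hf : {q | H.R q₀ q}.Finite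
      · calc wt G.R p = ∑' q, wt G.R p * {q | H.R q₀ q}.indicator (wt H.R) q := by
              rw [ENNReal.tsum_mul_left, tsum_wt_eq_one hH.eqv hf, mul_one]
          _ ≤ _ := by
              refine ENNReal.tsum_le_tsum fun q => ?_
              by_cases hq : H.R q₀ q
              · rw [indicator_of_mem (by exact hq), indicator_of_mem
                  (by exact ⟨hH.sat q₀ hq₀ q hq, hG.eqv.trans hR (ha _ _ hq)⟩)]
              · rw [indicator_of_notMem (by exact hq), mul_zero]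
                exact zero_le
      · have hinj : Function.Injective fun q : X × I₁ => (q.1, ι q.2) := by
          rintro ⟨x, i⟩ ⟨y, j⟩ h
          simp only [Prod.mk.injEq] at h
          exact Prod.ext h.1 (hι h.2)
        have : {r | G.R p r}.Infinite := by
          refine ((Set.Infinite.image hinj.injOn hf).mono ?_)
          rintro _ ⟨q, hq, rfl⟩
          exact hG.eqv.trans hR (ha _ _ hq)
        rw [wt_eq_zero.2 this]
        exact zero_le
    · rw [indicator_of_notMem hp]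
      exact zero_le
  · intro q
    by_cases hq : q ∈ H.P
    · rw [indicator_of_mem hq]
      calc _ = ∑' p, {p | G.R (q.1, ι q.2) p}.indicator (wt G.R) p * wt H.R q := by
            refine tsum_congr fun p => ?_
            by_cases h : G.R p (q.1, ι q.2)
            · rw [indicator_of_mem (by exact ⟨hq, h⟩), indicator_of_mem (by exact hG.eqv.symm h)]
            · rw [indicator_of_notMem (fun h' => h h'.2), indicator_of_notMem
                (s := {p | G.R (q.1, ι q.2) p}) (fun h' => h (hG.eqv.symm h')), zero_mul]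
        _ ≤ wt H.R q := by
            rw [ENNReal.tsum_mul_right]
            exact mul_le_of_le_one_left' (tsum_wt_le_one hG.eqv _)
    · rw [indicator_of_notMem hq]
      exact le_of_eq (ENNReal.tsum_eq_zero.2 fun p => indicator_of_notMem (fun h => hq h.1) _)

end RMBaseAux

/-- Proof.  Fold `Θ` (`fold`) to `G'`.  Let `V` be the quotient of `X × I` by `G'.R`; for
`(x, j₁) : X × J₁` let `D v w` say that some `(x, j) ∈ G'.E` with `lab (x, j) = j₁` goes from class `v`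
to class `w` (a partial injection since `G'` is folded); extend by `exists_perm_ext` and apply
`hSP` with `m p = (⟦p⟧, 0)` (edges of `Θ` are parallel to edges of `G'`).  So (a) `H.R p q` implies
`G'.R (ι p) (ι q)`, (b) every `ε₁ ∈ H.E` is the label of an edge of `G'` whose ends are
`G'.R`-related to `ι (H.o ε₁)`, `ι (H.t ε₁)`.  Let `Z = {p | ∃ q ∈ H.P, G'.R p (ι q)}`.
* `H.e ≤ ν {α ∈ G'.E | both ends in Z}` by `nu_le_of_rel` (`M ε₁ α := α.1 = ε₁.1 ∧ lab α = ε₁.2`).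
* `BL` for `G'` and `Z` (`Θ.Conn ≤ G'.Conn`): `vOn (P \ Z) ≤ ν {α ∈ G'.E | not both ends in Z}`.
* `G'.vOn Z ≤ H.v` by `mtp_le` with `f p q = wt G'.R p * wt H.R q` if `q ∈ H.P` and `G'.R p (ι q)`:
  `p ∈ Z` sends at least `wt G'.R p` (the receivers contain a whole `H.R`-class by (a); if that class
  is infinite then so is the class of `p` as `ι` is injective), `q` receives at most `wt H.R q`.
Hence `G'.v + H.e ≤ H.v + G'.e`; add `Θ.v + G'.e ≤ G'.v + Θ.e` and cancel the finite numbers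
`G'.e ≤ Θ.e`, `G'.v ≤ Θ.v` (`wt_anti`). -/
theorem RM_base (τ : Fin 100 → Γ) {H : Gr X I₁ J₁} (hH : H.WF Γ) {Θ : Gr X I J} (hΘ : Θ.WF Γ)
    {lab : X × J → J₁} (hlab : Measurable lab) {ι : I₁ → I} (hι : Function.Injective ι)
    (hconn : ∀ p ∈ Θ.P, ∃ q ∈ H.P, Θ.Conn p (q.1, ι q.2))
    (hSP : SP τ H ∅ Θ lab ι) (he : Θ.e μ ≠ ⊤) (hv : Θ.v μ ≠ ⊤) :
    H.e μ + Θ.v μ ≤ Θ.e μ + H.v μ := by
  obtain ⟨G', hG', hP, ho, ht, hE, hR, hfold, hpar, hle⟩ := fold (μ := μ) hΘ hlab hv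
  have mι : Measurable ι := Measurable.of_discrete
  let s : Setoid (X × I) := ⟨G'.R, hG'.eqv⟩
  have hperm := fun ε₁ : X × J₁ => exists_perm_ext (V := Quotient s)
    (fun v w => ∃ j, (ε₁.1, j) ∈ G'.E ∧ lab (ε₁.1, j) = ε₁.2 ∧
      v = Quotient.mk s (G'.o (ε₁.1, j)) ∧ w = Quotient.mk s (G'.t (ε₁.1, j)))
    (by
      rintro v w w' ⟨j, h1, h2, h3, rfl⟩ ⟨j', h1', h2', h3', rfl⟩
      rw [hfold _ j j' h1 h1' (h2.trans h2'.symm) (Or.inl (Quotient.exact (h3.symm.trans h3')))])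
    (by
      rintro v v' w ⟨j, h1, h2, rfl, h3⟩ ⟨j', h1', h2', rfl, h3'⟩
      rw [hfold _ j j' h1 h1' (h2.trans h2'.symm) (Or.inr (Quotient.exact (h3.symm.trans h3')))])
  choose σ hσ using hperm
  obtain ⟨ha, hb⟩ := hSP (Quotient s × ℤ) σ (fun p => (Quotient.mk s p, 0))
    (fun f hf => hf.elim)
    (fun p q h => by rw [Quotient.sound (s := s) (hR p q h)])
    (by
      rintro ⟨x, j⟩ hε
      obtain ⟨j', h1, h2, h3, h4⟩ := hpar x j hε
      refine (hσ _ _ _).2 ⟨j', h1, h2, ?_, ?_⟩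
      · rw [ho]; exact Quotient.sound (s := s) h3
      · rw [ht]; exact Quotient.sound (s := s) h4)
  have ha' : ∀ p q, H.R p q → G'.R (p.1, ι p.2) (q.1, ι q.2) := fun p q h =>
    Quotient.exact (s := s) (Prod.mk.inj (ha p q h)).1
  set Z : Set (X × I) := {p | ∃ q, q ∈ H.P ∧ G'.R p (q.1, ι q.2)} with hZdef
  have hZ : MeasurableSet Z := by
    refine measurableSet_setOfPred.2 (meas_exists Γ (b := Prod.fst) measurable_fst
      (f := fun (p : X × I) (q : X × I₁) => q ∈ H.P ∧ G'.R p (q.1, ι q.2)) ?_ ?_)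
    · exact (measurableSet_setOfPred.1 (hH.mP.preimage measurable_snd)).and
        (hG'.mR.comp (f := fun z : (X × I) × (X × I₁) => (z.1, (z.2.1, ι z.2.2))) (by fun_prop))
    · intro p q h
      exact hG'.orbR _ _ h.2
  have mB : MeasurableSet {ε : X × J | G'.o ε ∈ Z ∧ G'.t ε ∈ Z} :=
    (hZ.preimage hG'.mo).inter (hZ.preimage hG'.mt)
  have h1 : H.e μ ≤ nu μ J (G'.E ∩ {ε | G'.o ε ∈ Z ∧ G'.t ε ∈ Z}) := by
    refine nu_le_of_rel Γ (M := fun (ε₁ : X × J₁) (α : X × J) => α.1 = ε₁.1 ∧ lab α = ε₁.2) ?_ ?_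
      hH.mE (hG'.mE.inter mB) ?_ ?_
    · exact (measurableSet_setOfPred.1 (measurableSet_eq_fun (by fun_prop) (by fun_prop))).and
        (measurableSet_setOfPred.1 (measurableSet_eq_fun (hlab.comp measurable_snd) (by fun_prop)))
    · intro p q h
      rw [h.1]
      exact Orb.refl _
    · intro ε₁ hε₁
      obtain ⟨j, e1, e2, e3, e4⟩ := (hσ _ _ _).1 (hb ε₁ hε₁)
      exact ⟨(ε₁.1, j), ⟨e1, ⟨H.o ε₁, hH.oP ε₁ hε₁, hG'.eqv.symm (Quotient.exact (s := s) e3)⟩,
        ⟨H.t ε₁, hH.tP ε₁ hε₁, hG'.eqv.symm (Quotient.exact (s := s) e4)⟩⟩, rfl, e2⟩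
    · rintro p _ p' _ q _ ⟨e1, e2⟩ ⟨e1', e2'⟩
      exact Prod.ext (e1.symm.trans e1') (e2.symm.trans e2')
  have hC : ∀ p q, Θ.Conn p q → G'.Conn p q := by
    intro p q h
    induction h with
    | rel p q h =>
      rcases h with h | ⟨⟨x, j⟩, hε, rfl, rfl⟩
      · exact .rel _ _ (Or.inl (hR _ _ h))
      · obtain ⟨j', e1, _, e3, e4⟩ := hpar x j hε
        refine .trans _ _ _ (.rel _ _ (Or.inl e3)) (.trans _ (Θ.t (x, j')) _
          (.rel _ _ (Or.inr ⟨(x, j'), e1, by rw [ho], by rw [ht]⟩))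
          (.rel _ _ (Or.inl (hG'.eqv.symm e4))))
    | refl _ => exact .refl _
    | symm _ _ _ ih => exact .symm _ _ ih
    | trans _ _ _ _ _ ih ih' => exact .trans _ _ _ ih ih'
  have h2 : G'.vOn μ (G'.P \ Z) ≤ nu μ J (G'.E \ {ε | G'.o ε ∈ Z ∧ G'.t ε ∈ Z}) :=
    BL hG' hZ (fun p ⟨q', e1, e2⟩ q h => ⟨q', e1, hG'.eqv.trans (hG'.eqv.symm h) e2⟩)
      (fun p hp => by
        obtain ⟨q, hq, hc⟩ := hconn p (hP ▸ hp)
        exact ⟨_, ⟨q, hq, hG'.eqv.refl _⟩, hC _ _ hc⟩)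
  have h3 : G'.vOn μ Z ≤ H.v μ := RMBaseAux.vOn_le hH hG' hι ha' hZ
  have h4 : G'.v μ ≤ G'.vOn μ Z + G'.vOn μ (G'.P \ Z) := by
    unfold Gr.v Gr.vOn
    refine (lintegral_mono_set ?_).trans (lintegral_union_le _ _ _)
    intro p hp
    by_cases h : p ∈ Z
    · exact Or.inl h
    · exact Or.inr ⟨hp, h⟩
  have h5 : nu μ J (G'.E ∩ {ε | G'.o ε ∈ Z ∧ G'.t ε ∈ Z}) +
      nu μ J (G'.E \ {ε | G'.o ε ∈ Z ∧ G'.t ε ∈ Z}) = G'.e μ := measure_inter_add_sdiff _ mB
  have h6 : G'.v μ + H.e μ ≤ H.v μ + G'.e μ := by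
    calc G'.v μ + H.e μ ≤ (H.v μ + nu μ J (G'.E \ {ε | G'.o ε ∈ Z ∧ G'.t ε ∈ Z})) +
          nu μ J (G'.E ∩ {ε | G'.o ε ∈ Z ∧ G'.t ε ∈ Z}) :=
          add_le_add (h4.trans (add_le_add h3 h2)) h1
      _ = H.v μ + G'.e μ := by rw [← h5]; ring
  have he' : G'.e μ ≠ ⊤ := ne_top_of_le_ne_top he (measure_mono hE)
  have hv' : G'.v μ ≠ ⊤ := by
    refine ne_top_of_le_ne_top hv ?_
    unfold Gr.v Gr.vOn
    rw [hP]
    exact lintegral_mono fun p => wt_anti (hR p)
  refine (ENNReal.add_le_add_iff_right (ENNReal.add_ne_top.2 ⟨he', hv'⟩)).1 ?_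
  calc H.e μ + Θ.v μ + (G'.e μ + G'.v μ) = (G'.v μ + H.e μ) + (Θ.v μ + G'.e μ) := by ring
    _ ≤ (H.v μ + G'.e μ) + (G'.v μ + Θ.e μ) := add_le_add h6 hle
    _ = Θ.e μ + H.v μ + (G'.e μ + G'.v μ) := by ring

end Crest.Agent.R191
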