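import Crest.Agent.R191.RM
import Crest.Agent.R191.Choose
import Crest.Agent.R191.Count
import Crest.Agent.R191.Init

/-! # R191: one round of surgery, and the lower bound for the cost -/

set_option autoImplicit false
set_option linter.unusedSectionVars false

open MeasureTheory Set
open scoped ENNReal

namespace Crest.Agent.R191

variable {Γ X : Type} [Group Γ] [Countable Γ] [MeasurableSpace Γ]
  [MeasurableSingletonClass Γ] [MulAction Γ X] [MeasurableSpace X] [StandardBorelSpace X]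
  [MeasurableSMul₂ Γ X] [IsCancelSMul Γ X]
  {μ : Measure X} [IsProbabilityMeasure μ] [SMulInvariantMeasure Γ X μ]
  {Λ : Subgroup Γ} {a : Γ} {τ : Fin 100 → Γ}
  {I : Type} [Countable I] [MeasurableSpace I] [MeasurableSingletonClass I] {st : I}

theorem round {J : Type} [Countable J] [MeasurableSpace J] [MeasurableSingletonClass J]
    (hD : GD Λ a τ) {δ : ℝ≥0∞} (hδ : δ ≠ 0) (hδ1 : 20 * δ ≤ 1) (hexp : Exp τ μ (20 * δ))
    {G : Gr X I J} (hG : G.Adm Λ a st) (he : G.e μ ≠ ⊤) (hk : G.e μ ≤ G.v μ + 5 * δ) :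
    ∃ (J' : Type) (_ : Countable J') (_ : MeasurableSpace J') (_ : MeasurableSingletonClass J')
      (G' : Gr X I J'), G'.Adm Λ a st ∧ G'.e μ + 2 * δ ≤ G.e μ ∧ G'.e μ ≤ G'.v μ + 5 * δ := by
  obtain ⟨S, T, lev, hS, hlev, hT, hbig⟩ := choose_faces hG hD hδ hδ1 hexp
  obtain ⟨J₁, _, _, _, H, lab, hH, hfold, hP, hR, hlab, hSP, hrep⟩ := cl_pack hG hD.cyc hS
  obtain ⟨sl, g, hsl, hfr, hc1, hc2⟩ :=
    count_faces (μ := μ) hH hfold hS hlev fun y hy => (hT y hy).2
  obtain ⟨hH', hsum, hσ⟩ := collapse (μ := μ) hH hfold hS hlev hT hsl hfr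
  have hδt : δ ≠ ⊤ := by
    rintro rfl
    simp at hδ1
  have hv : G.v μ ≠ ⊤ := ne_top_of_le_ne_top he (le_self_add.trans (true_le hG hD.inf))
  have hF := meas_faces τ hH.wf hS
  have hrm := RM (μ := μ) τ hsl T hH.wf hF (lev := fun f => lev f.1) (hlev.comp measurable_fst)
    (fun f hf => (hT f.1 hf.1).1)
    (fun f hf f' hf' m h hl => face_free hfold hH.wf hf hf' (hfr f hf) h hl)
    hG.wf hlab Function.injective_id (fun p hp => ⟨p, hP ▸ hp, .refl _⟩) hSP he hv
  have hvH : H.v μ ≤ G.v μ := by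
    unfold Gr.v Gr.vOn
    rw [hP]
    exact lintegral_mono fun p => wt_anti fun q h => (hR p q).2 (.base h)
  have hbr := branch_count (μ := μ) hH hD.inf
  have htr := true_le (μ := μ) hH hD.inf
  obtain ⟨G', hG', hp1, hp2⟩ := prune (μ := μ) hH' hD.inf
  -- the number of faces is large
  have hbig' : 5 * δ ≤ nu μ (Fin 100 → J₁) (faces τ H S) ∨ 2⁻¹ ≤ nu μ J₁ (H.trueE a st) := by
    rcases hbig with h | h
    · left
      have hm : MeasurableSet {y | y ∈ S ∧ Readable τ G S y} :=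
        hS.inter (meas_readable hG hD.cyc hS)
      refine h.trans ?_
      rw [← nu_unit hm]
      refine nu_le_of_rel Γ (M := fun p f => p.1 = f.1) ?_ ?_ (hm.preimage measurable_fst) hF ?_ ?_
      · exact measurableSet_setOfPred.1 (measurableSet_eq_fun (by fun_prop) (by fun_prop))
      · intro p f h; rw [h]; exact Orb.refl _
      · rintro ⟨y, u⟩ ⟨hy, i, c, hc⟩
        have hall : ∀ m, Cl τ G S (some (τ m • y)) (c m) (c (m + 1)) := fun m => by
          by_cases hm : m = i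
          · subst hm; exact .close c m hy hc
          · exact hc m hm
        choose js hjs using fun m => hrep _ _ _ (hall m)
        exact ⟨(y, js), ⟨hy, fun m => ⟨(hjs m).1,
          hH.wf.eqv.trans (hH.wf.eqv.symm (hjs m).2.2) (hjs (m + 1)).2.1⟩⟩, rfl⟩
      · intro p _ p' _ f _ h h'
        exact Prod.ext (h.trans h'.symm) rfl
    · right
      have hm : MeasurableSet {x | Cl τ G S (some x) (x, st) (a • x, st)} :=
        measurableSet_setOfPred.2 ((cl_meas hG hD.cyc hS).2.comp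
          (f := fun x : X => (x, (x, st), (a • x, st))) (by fun_prop))
      refine h.trans ?_
      rw [← nu_unit hm]
      refine nu_le_of_rel Γ (M := fun p f => p.1 = f.1) ?_ ?_ (hm.preimage measurable_fst)
        hH.wf.mtrueE ?_ ?_
      · exact measurableSet_setOfPred.1 (measurableSet_eq_fun (by fun_prop) (by fun_prop))
      · intro p f h; rw [h]; exact Orb.refl _
      · rintro ⟨x, u⟩ hx
        obtain ⟨j, h1, h2, h3⟩ := hrep _ _ _ hx
        exact ⟨(x, j), ⟨h1, hH.wf.eqv.symm h2, hH.wf.eqv.symm h3⟩, rfl⟩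
      · intro p _ p' _ f _ h h'
        exact Prod.ext (h.trans h'.symm) rfl
  refine ⟨J₁, inferInstance, inferInstance, inferInstance, G', hG', ?_⟩
  change G'.e μ + H.vOn μ _ ≤ nu μ J₁ (H.E \ removed τ (faces τ H S) sl) at hp1
  change H.v μ ≤ G'.v μ + H.vOn μ _ at hp2
  rw [hsum] at hbr htr
  generalize H.vOn μ (H.withE (H.E \ removed τ (faces τ H S) sl)).hair = h' at *
  generalize nu μ J₁ (H.E \ removed τ (faces τ H S) sl) = e' at *
  generalize nu μ (Fin 100 → J₁) (faces τ H S) = σ at *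
  generalize nu μ J₁ (H.trueE a st) = tr at *
  generalize nu μ (J₁ × Bool) H.branch = B at *
  generalize H.vOn μ H.hair = h₁ at *
  generalize H.v μ = v₁ at *
  generalize G'.e μ = e'' at *
  generalize G'.v μ = v'' at *
  generalize G.e μ = e at *
  generalize G.v μ = v at *
  have he' : e' ≤ e := by
    refine (ENNReal.add_le_add_iff_right hv).1 (hrm.trans (add_le_add le_rfl hvH))
  have he't : e' ≠ ⊤ := ne_top_of_le_ne_top he he'
  have hσt : σ ≠ ⊤ := ne_top_of_le_ne_top he't hσ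
  have hv₁t : v₁ ≠ ⊤ := ne_top_of_le_ne_top hv hvH
  have hh't : h' ≠ ⊤ := ne_top_of_le_ne_top he't (le_add_self.trans hp1)
  have he''t : e'' ≠ ⊤ := ne_top_of_le_ne_top he't (le_self_add.trans hp1)
  have hh₁t : h₁ ≠ ⊤ := ne_top_of_le_ne_top hh't (le_self_add.trans hc2)
  have hgt : g ≠ ⊤ := ne_top_of_le_ne_top hh't (le_add_self.trans hc2)
  have htrt : tr ≠ ⊤ :=
    ne_top_of_le_ne_top (ENNReal.add_ne_top.2 ⟨he't, hσt⟩) (le_add_self.trans htr)
  have hBt : B ≠ ⊤ := by
    refine ne_top_of_le_ne_top ?_ (le_self_add.trans hbr)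
    finiteness
  have hmain : 2 * δ ≤ h' ∧ e' ≤ v₁ + 5 * δ := by
    clear hp1 hp2 hG hH hH' hSP hrep hexp hbig
    lift e to NNReal using he
    lift v to NNReal using hv
    lift e' to NNReal using he't
    lift σ to NNReal using hσt
    lift v₁ to NNReal using hv₁t
    lift h' to NNReal using hh't
    lift h₁ to NNReal using hh₁t
    lift g to NNReal using hgt
    lift tr to NNReal using htrt
    lift B to NNReal using hBt
    lift δ to NNReal using hδt
    have hb2 : (5 * δ : ℝ) ≤ σ ∨ (2⁻¹ : ℝ) ≤ tr := by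
      rcases hbig' with h | h
      · left; exact_mod_cast h
      · right
        have h2 : ((2⁻¹ : NNReal) : ℝ≥0∞) ≤ tr := by simpa using h
        have h3 : (2⁻¹ : NNReal) ≤ tr := by exact_mod_cast h2
        exact_mod_cast h3
    have a1 : (20 * δ : ℝ) ≤ 1 := by exact_mod_cast hδ1
    have a2 : (e : ℝ) ≤ v + 5 * δ := by exact_mod_cast hk
    have a3 : (20 * σ : ℝ) ≤ B + 20 * g := by exact_mod_cast hc1
    have a4 : (h₁ + g : ℝ) ≤ h' := by exact_mod_cast hc2
    have a5 : (e' + v : ℝ) ≤ e + v₁ := by exact_mod_cast hrm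
    have a6 : (B + 6 * v₁ : ℝ) ≤ 6 * (e' + σ) + 3 * h₁ := by exact_mod_cast hbr
    have a7 : (v₁ + tr : ℝ) ≤ e' + σ := by exact_mod_cast htr
    have a8 : (0 : ℝ) ≤ h₁ := h₁.2
    have b1 : (2 * δ : ℝ) ≤ h' := by rcases hb2 with h | h <;> linarith
    have b2 : (e' : ℝ) ≤ v₁ + 5 * δ := by linarith
    exact ⟨by exact_mod_cast b1, by exact_mod_cast b2⟩
  refine ⟨(add_le_add le_rfl hmain.1).trans (hp1.trans he'), ?_⟩
  refine (ENNReal.add_le_add_iff_right hh't).1 (hp1.trans (hmain.2.trans ?_))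
  calc v₁ + 5 * δ ≤ v'' + h' + 5 * δ := add_le_add hp2 le_rfl
    _ = v'' + 5 * δ + h' := by ring

theorem lower (hD : GD Λ a τ) {δ : ℝ≥0∞} (hδ : δ ≠ 0) (hδ1 : 20 * δ ≤ 1)
    (hexp : Exp τ μ (20 * δ)) : 1 + 5 * δ ≤ Crest.Dynamics.actionCost Γ X μ := by
  refine le_sInf ?_
  rintro c ⟨Φ, hΦ, rfl⟩
  by_contra hlt
  rw [not_le] at hlt
  obtain ⟨η, hη, hη'⟩ := ENNReal.lt_iff_exists_add_pos_lt.1 hlt
  obtain ⟨I, J, _, _, _, _, _, _, st, G, hG, he, hle⟩ :=
    init hD.inf hD.gen hΦ (η := η) (by exact_mod_cast hη.ne')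
  have hk : G.e μ ≤ G.v μ + 5 * δ := by
    refine (ENNReal.add_le_add_iff_right ENNReal.one_ne_top).1 (hle.trans ?_)
    rw [add_assoc, add_assoc, add_comm (5 * δ)]
    exact add_le_add le_rfl hη'.le
  have key : ∀ n : ℕ, ∃ (J' : Type) (_ : Countable J') (_ : MeasurableSpace J')
      (_ : MeasurableSingletonClass J') (G' : Gr X I J'), G'.Adm Λ a st ∧
      G'.e μ + n * (2 * δ) ≤ G.e μ ∧ G'.e μ ≤ G'.v μ + 5 * δ := by
    intro n
    induction n with
    | zero => exact ⟨J, inferInstance, inferInstance, inferInstance, G, hG, by simp, hk⟩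
    | succ n ih =>
      obtain ⟨J', _, _, _, G', hG', h1, h2⟩ := ih
      obtain ⟨J'', _, _, _, G'', hG'', h3, h4⟩ := round hD hδ hδ1 hexp hG'
        (ne_top_of_le_ne_top he (le_self_add.trans h1)) h2
      refine ⟨J'', inferInstance, inferInstance, inferInstance, G'', hG'', ?_, h4⟩
      calc G''.e μ + ((n + 1 : ℕ) : ℝ≥0∞) * (2 * δ) = (G''.e μ + 2 * δ) + n * (2 * δ) := by
            push_cast; ring
        _ ≤ G'.e μ + n * (2 * δ) := add_le_add h3 le_rfl
        _ ≤ G.e μ := h1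
  obtain ⟨n, hn⟩ := ENNReal.exists_nat_mul_gt (a := 2 * δ) (b := G.e μ)
    (mul_ne_zero two_ne_zero hδ) he
  obtain ⟨J', _, _, _, G', _, h1, _⟩ := key n
  exact absurd (le_add_self.trans h1) (not_le.2 hn)

end Crest.Agent.R191
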