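import Crest.Agent.R191.Expand

/-! # R191: the free part of the Bernoulli shift -/

set_option autoImplicit false

open MeasureTheory Set
open scoped ENNReal

namespace Crest.Agent.R191

/-- Take `X = {x : Om Γ // ∀ g, g • x = x → g = 1}`, an invariant, measurable, conull set
(`bern_free`; `MeasurableSet.standardBorel`), with `μ = (bern Γ).comap Subtype.val`; for a measurable
`A ⊆ X`, `μ A = bern Γ (val '' A)`. -/
theorem exists_setting {Γ : Type} [Group Γ] [Countable Γ] [MeasurableSpace Γ]
    [MeasurableSingletonClass Γ] {τ : Fin 100 → Γ} (hinj : Function.Injective τ)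
    (hleaf : Leaf τ) :
    ∃ (X : Type) (_ : MeasurableSpace X) (_ : StandardBorelSpace X) (μ : Measure X)
      (_ : IsProbabilityMeasure μ) (_ : MulAction Γ X) (_ : MeasurableSMul₂ Γ X)
      (_ : IsCancelSMul Γ X) (_ : SMulInvariantMeasure Γ X μ),
      Exp τ μ (ENNReal.ofReal 1e-14) := by
  classical
  let F : Set (Om Γ) := {x | ∀ g : Γ, g • x = x → g = 1}
  have hfix : ∀ g : Γ, MeasurableSet {x : Om Γ | g • x = x} := fun g =>
    measurableSet_eq_fun (bern_mp g).measurable measurable_id
  have hFc : Fᶜ = ⋃ g : {g : Γ // g ≠ 1}, {x : Om Γ | g.1 • x = x} := by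
    ext x
    simp only [F, mem_compl_iff, mem_ofPred_eq, not_forall, mem_iUnion, Subtype.exists]
    constructor
    · rintro ⟨g, h1, h2⟩
      exact ⟨g, h2, h1⟩
    · rintro ⟨g, h1, h2⟩
      exact ⟨g, h2, h1⟩
  have hF : MeasurableSet F := by
    rw [← MeasurableSet.compl_iff, hFc]
    exact MeasurableSet.iUnion fun g => hfix g.1
  have hF0 : bern Γ Fᶜ = 0 := by
    rw [hFc]
    exact measure_iUnion_null fun g => bern_free g.2
  have hinv : ∀ (h : Γ) (x : Om Γ), x ∈ F → h • x ∈ F := by
    intro h x hx g hg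
    have h1 : (h⁻¹ * g * h) • x = x := by
      rw [mul_smul, mul_smul, hg, inv_smul_smul]
    have h2 := hx _ h1
    calc g = h * (h⁻¹ * g * h) * h⁻¹ := by group
      _ = 1 := by rw [h2]; simp
  let act : MulAction Γ F :=
    { smul := fun g x => ⟨g • x.1, hinv g x.1 x.2⟩
      one_smul := fun x => Subtype.ext (one_smul Γ x.1)
      mul_smul := fun g h x => Subtype.ext (mul_smul g h x.1) }
  have hval : ∀ (g : Γ) (x : F), ((g • x : F) : Om Γ) = g • x.1 := fun _ _ => rfl
  let μ : Measure F := (bern Γ).comap Subtype.val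
  have hμ : ∀ A : Set F, μ A = bern Γ (Subtype.val '' A) := fun A =>
    (MeasurableEmbedding.subtype_coe hF).comap_apply _ _
  have hpre : ∀ B : Set (Om Γ), μ (Subtype.val ⁻¹' B) = bern Γ B := by
    intro B
    rw [hμ, Subtype.image_preimage_coe, inter_comm]
    exact measure_inter_conull hF0
  have hback : ∀ A : Set F, A = Subtype.val ⁻¹' (Subtype.val '' A) := fun A =>
    (preimage_image_eq A Subtype.val_injective).symm
  have hmc : ∀ g : Γ, Measurable fun x : F => g • x := fun g =>
    ((bern_mp g).measurable.comp measurable_subtype_coe).subtype_mk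
  refine ⟨F, inferInstance, hF.standardBorel, μ, ⟨?_⟩, act, ⟨?_⟩, ?_, ⟨?_⟩, ?_⟩
  · exact (hpre univ).trans measure_univ
  · exact measurable_from_prod_countable_right hmc
  · refine { left_cancel' := fun a b c h => MulAction.injective a h, right_cancel' := ?_ }
    intro a b c h
    have h1 : (b⁻¹ * a) • c.1 = c.1 := by
      have := congrArg Subtype.val h
      rw [hval, hval] at this
      rw [mul_smul, this, inv_smul_smul]
    exact (inv_mul_eq_one.1 (c.2 _ h1)).symm
  · intro g A hA
    have hA' : MeasurableSet (Subtype.val '' A) := hF.subtype_image hA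
    have h1 : (fun x : F => g • x) ⁻¹' A =
        Subtype.val ⁻¹' ((fun x : Om Γ => g • x) ⁻¹' (Subtype.val '' A)) := by
      conv_lhs => rw [hback A]
      rfl
    rw [h1, hpre, (bern_mp g).measure_preimage hA'.nullMeasurableSet, hμ]
  · intro A hA hc
    have hA' : MeasurableSet (Subtype.val '' A) := hF.subtype_image hA
    have h1 : {x : F | ∃ i, (τ i)⁻¹ • x ∈ A} =
        Subtype.val ⁻¹' {x : Om Γ | ∃ i, (τ i)⁻¹ • x ∈ Subtype.val '' A} := by
      conv_lhs => rw [hback A]
      rfl
    rw [h1, hpre, hμ]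
    exact bern_exp hinj hleaf _ hA' (by rwa [← hμ])

end Crest.Agent.R191
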