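import Crest.Agent.R191.Meas

/-! # R191: the subdivided graph (auxiliary file of `Subdiv.lean`) -/

set_option autoImplicit false
set_option linter.unusedSectionVars false

open MeasureTheory Set
open scoped ENNReal

namespace Crest.Agent.R191.SubdivAux

theorem cyc_ind {P : Fin 100 → Prop} (i : Fin 100) (h0 : P (i + 1))
    (h : ∀ m, m ≠ i → P m → P (m + 1)) (m : Fin 100) : P m := by
  have key : ∀ k : Fin 100, P (i + 1 + k) := by
    intro k
    induction k using Fin.induction with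
    | zero => simpa using h0
    | succ k ih =>
      rw [← Fin.coeSucc_eq_succ, ← add_assoc]
      refine h _ (fun he => ?_) ih
      rw [add_assoc, add_eq_left, add_comm, Fin.coeSucc_eq_succ] at he
      exact Fin.succ_ne_zero k he
  have := key (m - (i + 1))
  rwa [add_sub_cancel] at this

variable {Γ X : Type} [Group Γ] [Countable Γ] [MeasurableSpace Γ]
  [MeasurableSingletonClass Γ] [MulAction Γ X] [MeasurableSpace X] [StandardBorelSpace X]
  [MeasurableSMul₂ Γ X] [IsCancelSMul Γ X]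
  {μ : Measure X} [IsProbabilityMeasure μ] [SMulInvariantMeasure Γ X μ]
  {I J : Type} [Countable I] [MeasurableSpace I] [MeasurableSingletonClass I]
  [Countable J] [MeasurableSpace J] [MeasurableSingletonClass J]
  {J₁ : Type} [Countable J₁] [MeasurableSpace J₁] [MeasurableSingletonClass J₁]

theorem lintegral_nu_sum {f : X × (I ⊕ J) → ℝ≥0∞} (hf : Measurable f) :
    ∫⁻ p, f p ∂(nu μ (I ⊕ J)) =
      ∫⁻ p, f (p.1, Sum.inl p.2) ∂(nu μ I) + ∫⁻ p, f (p.1, Sum.inr p.2) ∂(nu μ J) := by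
  rw [lintegral_nu hf,
    lintegral_nu (f := fun p : X × I => f (p.1, Sum.inl p.2)) (hf.comp (by fun_prop)),
    lintegral_nu (f := fun p : X × J => f (p.1, Sum.inr p.2)) (hf.comp (by fun_prop))]
  exact Summable.tsum_sum ENNReal.summable ENNReal.summable

theorem nu_sum {s : Set (X × (I ⊕ J))} (hs : MeasurableSet s) :
    nu μ (I ⊕ J) s =
      nu μ I {p | (p.1, Sum.inl p.2) ∈ s} + nu μ J {p | (p.1, Sum.inr p.2) ∈ s} := by
  have h1 : MeasurableSet {p : X × I | (p.1, Sum.inl p.2) ∈ s} := hs.preimage (by fun_prop)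
  have h2 : MeasurableSet {p : X × J | (p.1, Sum.inr p.2) ∈ s} := hs.preimage (by fun_prop)
  rw [← lintegral_indicator_one hs, ← lintegral_indicator_one h1, ← lintegral_indicator_one h2,
    lintegral_nu_sum (measurable_one.indicator hs)]
  rfl

theorem meas_slot (τ : Fin 100 → Γ) {sl : X × (Fin 100 → J₁) → Fin 100} (hsl : Measurable sl) :
    Measurable fun f => slot τ f (sl f) := by
  refine Measurable.prodMk (((Measurable.of_discrete (f := τ)).comp hsl).smul measurable_fst) ?_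
  exact (Measurable.of_discrete (f := fun z : (Fin 100 → J₁) × Fin 100 => z.1 z.2)).comp
    (measurable_snd.prodMk hsl)

theorem meas_removed' (τ : Fin 100 → Γ) {F : Set (X × (Fin 100 → J₁))} (hF : MeasurableSet F)
    {sl : X × (Fin 100 → J₁) → Fin 100} (hsl : Measurable sl) :
    MeasurableSet (removed τ F sl) := by
  refine measurableSet_setOfPred.2 (meas_exists Γ (b := Prod.fst) measurable_fst
    (f := fun ε f => f ∈ F ∧ ε = slot τ f (sl f)) ?_ ?_)
  · exact (measurableSet_setOfPred.1 (hF.preimage measurable_snd)).and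
      (measurableSet_setOfPred.1 (measurableSet_eq_fun measurable_fst
        ((meas_slot τ hsl).comp measurable_snd)))
  · rintro ε f ⟨-, rfl⟩
    exact (Orb.smul _ _).symm

/-- index of the subdivided edges -/
abbrev Wd (J J₁ : Type) : Type := J × (Fin 100 → J₁)

/-- old points -/
def up {A B : Type} (p : X × A) : X × (A ⊕ B) := (p.1, Sum.inl p.2)

theorem up_injective {A B : Type} : Function.Injective (up : X × A → X × (A ⊕ B)) := by
  rintro ⟨x, a⟩ ⟨y, b⟩ h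
  simpa [up] using h

variable (τ : Fin 100 → Γ) (F₀ : Set (X × (Fin 100 → J₁))) (sl : X × (Fin 100 → J₁) → Fin 100)
  (Θ : Gr X I J) (lab : X × J → J₁)

/-- the face of a subdivided edge -/
def fc (d : X × Wd J J₁) : X × (Fin 100 → J₁) := (d.1, d.2.2)

/-- the subdivided edge -/
def eps (d : X × Wd J J₁) : X × J := (τ (sl (fc d)) • d.1, d.2.1)

/-- parameters of the subdivided edges -/
def D : Set (X × Wd J J₁) :=
  {d | fc d ∈ F₀ ∧ eps τ sl d ∈ Θ.E ∧ lab (eps τ sl d) = d.2.2 (sl (fc d))}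

/-- the vertices of the new path -/
def cc (d : X × Wd J J₁) (m : Fin 100) : X × (I ⊕ (Wd J J₁ × Fin 100)) :=
  if m = sl (fc d) then up (Θ.o (eps τ sl d))
  else if m = sl (fc d) + 1 then up (Θ.t (eps τ sl d)) else (d.1, Sum.inr (d.2, m))

/-- new nodes -/
def NN : Set (X × (Wd J J₁ × Fin 100)) :=
  {q | (q.1, q.2.1) ∈ D τ F₀ sl Θ lab ∧ q.2.2 ≠ sl (fc (q.1, q.2.1)) ∧
    q.2.2 ≠ sl (fc (q.1, q.2.1)) + 1}

/-- the parameter of a new edge -/
def par' (q : X × (Wd J J₁ × Fin 100)) : X × Wd J J₁ := ((τ q.2.2)⁻¹ • q.1, q.2.1)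

/-- new edges -/
def NE : Set (X × (Wd J J₁ × Fin 100)) :=
  {q | par' τ q ∈ D τ F₀ sl Θ lab ∧ q.2.2 ≠ sl (fc (par' τ q))}

/-- kept edges -/
def KE : Set (X × J) := {ε | ε ∈ Θ.E ∧ (ε.1, lab ε) ∉ removed τ F₀ sl}

/-- the subdivided graph -/
def sub : Gr X (I ⊕ (Wd J J₁ × Fin 100)) (J ⊕ (Wd J J₁ × Fin 100)) where
  P := {p | Sum.elim (fun i => (p.1, i) ∈ Θ.P) (fun w => (p.1, w) ∈ NN τ F₀ sl Θ lab) p.2}
  R p q := (∃ i i', p.2 = Sum.inl i ∧ q.2 = Sum.inl i' ∧ Θ.R (p.1, i) (q.1, i')) ∨ p = q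
  E := {ε | Sum.elim (fun j => (ε.1, j) ∈ KE τ F₀ sl Θ lab)
    (fun w => (ε.1, w) ∈ NE τ F₀ sl Θ lab) ε.2}
  o ε := Sum.elim (fun j => up (Θ.o (ε.1, j))) (fun w => cc τ sl Θ (par' τ (ε.1, w)) w.2) ε.2
  t ε := Sum.elim (fun j => up (Θ.t (ε.1, j))) (fun w => cc τ sl Θ (par' τ (ε.1, w)) (w.2 + 1)) ε.2

/-- labels of the subdivided graph -/
def lab' (ε : X × (J ⊕ (Wd J J₁ × Fin 100))) : J₁ :=
  Sum.elim (fun j => lab (ε.1, j)) (fun w => w.1.2 w.2) ε.2

variable {τ F₀ sl Θ lab}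

theorem meas_fc : Measurable (fc : X × Wd J J₁ → _) := by unfold fc; fun_prop

theorem meas_par' : Measurable (par' τ : X × (Wd J J₁ × Fin 100) → _) :=
  Measurable.prodMk (((Measurable.of_discrete (f := fun m => (τ m)⁻¹)).comp
    (by fun_prop)).smul measurable_fst) (by fun_prop)

theorem meas_eps (hsl : Measurable sl) : Measurable (eps τ sl : X × Wd J J₁ → _) :=
  Measurable.prodMk (((Measurable.of_discrete (f := τ)).comp (hsl.comp meas_fc)).smul
    measurable_fst) (by fun_prop)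

theorem meas_D (hF₀ : MeasurableSet F₀) (hsl : Measurable sl) (hΘ : Θ.WF Γ)
    (hlab : Measurable lab) : MeasurableSet (D τ F₀ sl Θ lab) :=
  (hF₀.preimage meas_fc).inter ((hΘ.mE.preimage (meas_eps hsl)).inter
    (measurableSet_eq_fun (hlab.comp (meas_eps hsl))
      (measurable_snd.comp ((meas_slot τ hsl).comp meas_fc))))

theorem meas_NN (hF₀ : MeasurableSet F₀) (hsl : Measurable sl) (hΘ : Θ.WF Γ)
    (hlab : Measurable lab) : MeasurableSet (NN τ F₀ sl Θ lab) := by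
  have h1 : Measurable fun q : X × (Wd J J₁ × Fin 100) => sl (fc (q.1, q.2.1)) :=
    hsl.comp (meas_fc.comp (by fun_prop))
  refine ((meas_D hF₀ hsl hΘ hlab).preimage (by fun_prop)).inter
    ((measurableSet_eq_fun (by fun_prop) h1).compl.inter
      (measurableSet_eq_fun (by fun_prop)
        ((Measurable.of_discrete (f := fun m : Fin 100 => m + 1)).comp h1)).compl)

theorem meas_NE (hF₀ : MeasurableSet F₀) (hsl : Measurable sl) (hΘ : Θ.WF Γ)
    (hlab : Measurable lab) : MeasurableSet (NE τ F₀ sl Θ lab) :=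
  ((meas_D hF₀ hsl hΘ hlab).preimage meas_par').inter
    (measurableSet_eq_fun (by fun_prop) (hsl.comp (meas_fc.comp meas_par'))).compl

theorem meas_KE (hF₀ : MeasurableSet F₀) (hsl : Measurable sl) (hΘ : Θ.WF Γ)
    (hlab : Measurable lab) : MeasurableSet (KE τ F₀ sl Θ lab) :=
  hΘ.mE.inter ((meas_removed' τ hF₀ hsl).preimage (measurable_fst.prodMk hlab)).compl

theorem meas_up {A B : Type} [MeasurableSpace A] [MeasurableSpace B] :
    Measurable (up : X × A → X × (A ⊕ B)) := by unfold up; fun_prop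

theorem meas_cc (hsl : Measurable sl) (hΘ : Θ.WF Γ) (m : Fin 100) :
    Measurable fun d => cc τ sl Θ d m := by
  have h1 : Measurable fun d : X × Wd J J₁ => sl (fc d) := hsl.comp meas_fc
  refine Measurable.ite (measurableSet_eq_fun measurable_const h1)
    (meas_up.comp (hΘ.mo.comp (meas_eps hsl))) (Measurable.ite (measurableSet_eq_fun
      measurable_const ((Measurable.of_discrete (f := fun m : Fin 100 => m + 1)).comp h1))
      (meas_up.comp (hΘ.mt.comp (meas_eps hsl))) (by fun_prop))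

theorem cc_sl (d : X × Wd J J₁) : cc τ sl Θ d (sl (fc d)) = up (Θ.o (eps τ sl d)) := if_pos rfl

theorem cc_sl_succ (d : X × Wd J J₁) : cc τ sl Θ d (sl (fc d) + 1) = up (Θ.t (eps τ sl d)) := by
  unfold cc
  rw [if_neg (by simp), if_pos rfl]

theorem orb_cc (hΘ : Θ.WF Γ) {d : X × Wd J J₁} (hd : d ∈ D τ F₀ sl Θ lab) (m : Fin 100) :
    Orb Γ d.1 (cc τ sl Θ d m).1 := by
  unfold cc
  split_ifs
  · exact (Orb.smul _ _).trans (hΘ.orbo _ hd.2.1)
  · exact (Orb.smul _ _).trans (hΘ.orbt _ hd.2.1)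
  · exact Orb.refl _

theorem cc_mem (hΘ : Θ.WF Γ) {d : X × Wd J J₁} (hd : d ∈ D τ F₀ sl Θ lab) (m : Fin 100) :
    cc τ sl Θ d m ∈ (sub τ F₀ sl Θ lab).P := by
  unfold cc
  split_ifs with h1 h2
  · exact hΘ.oP _ hd.2.1
  · exact hΘ.tP _ hd.2.1
  · exact ⟨hd, h1, h2⟩

theorem R_up (hΘ : Θ.WF Γ) {p : X × I} {q : X × (I ⊕ (Wd J J₁ × Fin 100))} :
    (sub τ F₀ sl Θ lab).R (up p) q ↔ ∃ q', Θ.R p q' ∧ up q' = q := by
  constructor
  · rintro (⟨i, i', h1, h2, h3⟩ | rfl)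
    · obtain rfl : p.2 = i := Sum.inl.inj h1
      exact ⟨(q.1, i'), h3, Prod.ext rfl h2.symm⟩
    · exact ⟨p, hΘ.eqv.refl p, rfl⟩
  · rintro ⟨q', h, rfl⟩
    exact Or.inl ⟨p.2, q'.2, rfl, rfl, h⟩

theorem R_inr {x : X} {w : Wd J J₁ × Fin 100} {q : X × (I ⊕ (Wd J J₁ × Fin 100))} :
    (sub τ F₀ sl Θ lab).R (x, Sum.inr w) q ↔ q = (x, Sum.inr w) := by
  constructor
  · rintro (⟨i, i', h1, -⟩ | rfl)
    · cases h1
    · rfl
  · rintro rfl
    exact Or.inr rfl

theorem sub_WF (hF₀ : MeasurableSet F₀) (hsl : Measurable sl) (hΘ : Θ.WF Γ)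
    (hlab : Measurable lab) : (sub τ F₀ sl Θ lab).WF Γ where
  mP := by
    refine measurableSet_setOfPred.2 (measurable_from_prod_countable_left ?_)
    rintro (i | w)
    · exact measurableSet_setOfPred.1 (hΘ.mP.preimage measurable_prodMk_right)
    · exact measurableSet_setOfPred.1 ((meas_NN hF₀ hsl hΘ hlab).preimage measurable_prodMk_right)
  mR := by
    refine Measurable.or (Measurable.exists fun i => Measurable.exists fun i' => ?_)
      (measurableSet_setOfPred.1 (measurableSet_eq_fun measurable_fst measurable_snd))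
    refine (measurableSet_setOfPred.1 (measurableSet_eq_fun (by fun_prop) measurable_const)).and
      ((measurableSet_setOfPred.1 (measurableSet_eq_fun (by fun_prop) measurable_const)).and ?_)
    exact hΘ.mR.comp (f := fun z : (X × (I ⊕ (Wd J J₁ × Fin 100))) ×
      (X × (I ⊕ (Wd J J₁ × Fin 100))) => ((z.1.1, i), (z.2.1, i'))) (by fun_prop)
  mE := by
    refine measurableSet_setOfPred.2 (measurable_from_prod_countable_left ?_)
    rintro (j | w)
    · exact measurableSet_setOfPred.1 ((meas_KE hF₀ hsl hΘ hlab).preimage measurable_prodMk_right)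
    · exact measurableSet_setOfPred.1 ((meas_NE hF₀ hsl hΘ hlab).preimage measurable_prodMk_right)
  mo := by
    refine measurable_from_prod_countable_left ?_
    rintro (j | w)
    · exact meas_up.comp (hΘ.mo.comp measurable_prodMk_right)
    · exact (meas_cc hsl hΘ _).comp (meas_par'.comp measurable_prodMk_right)
  mt := by
    refine measurable_from_prod_countable_left ?_
    rintro (j | w)
    · exact meas_up.comp (hΘ.mt.comp measurable_prodMk_right)
    · exact (meas_cc hsl hΘ _).comp (meas_par'.comp measurable_prodMk_right)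
  eqv := by
    refine ⟨fun p => Or.inr rfl, ?_, ?_⟩
    · rintro p q (⟨i, i', h1, h2, h3⟩ | rfl)
      · exact Or.inl ⟨i', i, h2, h1, hΘ.eqv.symm h3⟩
      · exact Or.inr rfl
    · rintro p q r (⟨i, i', h1, h2, h3⟩ | rfl) (⟨k, k', h4, h5, h6⟩ | rfl)
      · obtain rfl : i' = k := Sum.inl.inj (h2.symm.trans h4)
        exact Or.inl ⟨i, k', h1, h5, hΘ.eqv.trans h3 h6⟩
      · exact Or.inl ⟨i, i', h1, h2, h3⟩
      · exact Or.inl ⟨k, k', h4, h5, h6⟩
      · exact Or.inr rfl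
  orbR := by
    rintro p q (⟨i, i', -, -, h3⟩ | rfl)
    · exact hΘ.orbR _ _ h3
    · exact Orb.refl _
  orbo := by
    rintro ⟨x, j | w⟩ h
    · exact hΘ.orbo _ h.1
    · exact (Orb.smul _ _).trans (orb_cc hΘ h.1 _)
  orbt := by
    rintro ⟨x, j | w⟩ h
    · exact hΘ.orbt _ h.1
    · exact (Orb.smul _ _).trans (orb_cc hΘ h.1 _)
  sat := by
    rintro ⟨x, a⟩ hp ⟨y, b⟩ (⟨i, i', rfl, rfl, h3⟩ | h)
    · exact hΘ.sat _ hp _ h3
    · rwa [← h]
  oP := by
    rintro ⟨x, j | w⟩ h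
    · exact hΘ.oP _ h.1
    · exact cc_mem hΘ h.1 _
  tP := by
    rintro ⟨x, j | w⟩ h
    · exact hΘ.tP _ h.1
    · exact cc_mem hΘ h.1 _

theorem meas_lab' (hlab : Measurable lab) :
    Measurable (lab' lab : X × (J ⊕ (Wd J J₁ × Fin 100)) → J₁) := by
  refine measurable_from_prod_countable_left ?_
  rintro (j | w)
  · exact hlab.comp measurable_prodMk_right
  · exact measurable_const

theorem par'_new (d : X × Wd J J₁) (m : Fin 100) : par' τ (τ m • d.1, (d.2, m)) = d :=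
  Prod.ext (inv_smul_smul _ _) rfl

theorem new_mem {d : X × Wd J J₁} (hd : d ∈ D τ F₀ sl Θ lab) {m : Fin 100} (hm : m ≠ sl (fc d)) :
    (τ m • d.1, Sum.inr (d.2, m)) ∈ (sub τ F₀ sl Θ lab).E := by
  change par' τ (τ m • d.1, (d.2, m)) ∈ D τ F₀ sl Θ lab ∧ m ≠ sl (fc (par' τ (τ m • d.1, (d.2, m))))
  rw [par'_new]
  exact ⟨hd, hm⟩

theorem new_o (d : X × Wd J J₁) (m : Fin 100) :
    (sub τ F₀ sl Θ lab).o (τ m • d.1, Sum.inr (d.2, m)) = cc τ sl Θ d m := by
  change cc τ sl Θ (par' τ (τ m • d.1, (d.2, m))) m = _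
  rw [par'_new]

theorem new_t (d : X × Wd J J₁) (m : Fin 100) :
    (sub τ F₀ sl Θ lab).t (τ m • d.1, Sum.inr (d.2, m)) = cc τ sl Θ d (m + 1) := by
  change cc τ sl Θ (par' τ (τ m • d.1, (d.2, m))) (m + 1) = _
  rw [par'_new]

theorem exists_D {ε : X × J} (h1 : ε ∈ Θ.E) (h2 : (ε.1, lab ε) ∈ removed τ F₀ sl) :
    ∃ d ∈ D τ F₀ sl Θ lab, eps τ sl d = ε := by
  obtain ⟨f, hf, h⟩ := h2
  have h3 : eps τ sl (f.1, (ε.2, f.2)) = ε := Prod.ext (congrArg Prod.fst h).symm rfl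
  refine ⟨(f.1, (ε.2, f.2)), ⟨hf, h3.symm ▸ h1, ?_⟩, h3⟩
  rw [h3]
  exact congrArg Prod.snd h

theorem slot_eps {d : X × Wd J J₁} (hd : d ∈ D τ F₀ sl Θ lab) :
    slot τ (fc d) (sl (fc d)) = ((eps τ sl d).1, lab (eps τ sl d)) :=
  Prod.ext rfl hd.2.2.symm

theorem conn_cc {d : X × Wd J J₁} (hd : d ∈ D τ F₀ sl Θ lab) (m : Fin 100) :
    (sub τ F₀ sl Θ lab).Conn (up (Θ.t (eps τ sl d))) (cc τ sl Θ d m) := by
  refine cyc_ind (P := fun m => (sub τ F₀ sl Θ lab).Conn (up (Θ.t (eps τ sl d))) (cc τ sl Θ d m))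
    (sl (fc d)) ?_ (fun k hk ih => ?_) m
  · rw [cc_sl_succ]; exact .refl _
  · exact .trans _ _ _ ih (.rel _ _ (Or.inr ⟨_, new_mem hd hk, (new_o d k).symm, (new_t d k).symm⟩))

theorem conn_up {p q : X × I} (h : Θ.Conn p q) : (sub τ F₀ sl Θ lab).Conn (up p) (up q) := by
  induction h with
  | rel p q h =>
    rcases h with h | ⟨ε, h1, rfl, rfl⟩
    · exact .rel _ _ (Or.inl (Or.inl ⟨p.2, q.2, rfl, rfl, h⟩))
    · by_cases h2 : (ε.1, lab ε) ∈ removed τ F₀ sl
      · obtain ⟨d, hd, rfl⟩ := exists_D h1 h2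
        have := conn_cc hd (sl (fc d))
        rw [cc_sl] at this
        exact .symm _ _ this
      · exact .rel _ _ (Or.inr ⟨up ε, ⟨h1, h2⟩, rfl, rfl⟩)
  | refl _ => exact .refl _
  | symm _ _ _ ih => exact .symm _ _ ih
  | trans _ _ _ _ _ ih ih' => exact .trans _ _ _ ih ih'

theorem sub_v (hF₀ : MeasurableSet F₀) (hsl : Measurable sl) (hΘ : Θ.WF Γ)
    (hlab : Measurable lab) :
    (sub τ F₀ sl Θ lab).v μ = Θ.v μ + nu μ _ (NN τ F₀ sl Θ lab) := by
  have hW := sub_WF (τ := τ) hF₀ hsl hΘ hlab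
  unfold Gr.v Gr.vOn
  rw [← lintegral_indicator hW.mP, ← lintegral_indicator hΘ.mP,
    lintegral_nu_sum (hW.mwt.indicator hW.mP), ← lintegral_indicator_one (meas_NN hF₀ hsl hΘ hlab)]
  congr 1
  · refine lintegral_congr fun p => ?_
    have h1 : wt (sub τ F₀ sl Θ lab).R (up p) = wt Θ.R p := by
      have : {q | (sub τ F₀ sl Θ lab).R (up p) q} = up '' {q | Θ.R p q} := by
        ext q; exact R_up (τ := τ) (F₀ := F₀) (sl := sl) (lab := lab) hΘ
      unfold wt cnt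
      rw [this, up_injective.encard_image]
    by_cases hp : p ∈ Θ.P
    · rw [indicator_of_mem hp, indicator_of_mem (by exact hp)]; exact h1
    · rw [indicator_of_notMem hp, indicator_of_notMem (by exact hp)]
  · refine lintegral_congr fun q => ?_
    by_cases hq : q ∈ NN τ F₀ sl Θ lab
    · rw [indicator_of_mem hq, indicator_of_mem (by exact hq)]
      have : {r | (sub τ F₀ sl Θ lab).R (q.1, Sum.inr q.2) r} = {(q.1, Sum.inr q.2)} := by
        ext r; exact R_inr (τ := τ) (F₀ := F₀) (sl := sl) (Θ := Θ) (lab := lab)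
      unfold wt cnt
      rw [this]
      simp
    · rw [indicator_of_notMem hq, indicator_of_notMem (by exact hq)]

theorem sub_e (hF₀ : MeasurableSet F₀) (hsl : Measurable sl) (hΘ : Θ.WF Γ)
    (hlab : Measurable lab) :
    (sub τ F₀ sl Θ lab).e μ = nu μ _ (KE τ F₀ sl Θ lab) + nu μ _ (NE τ F₀ sl Θ lab) :=
  nu_sum (sub_WF (τ := τ) hF₀ hsl hΘ hlab).mE

theorem nu_slice_le (hF₀ : MeasurableSet F₀) (hsl : Measurable sl) (hΘ : Θ.WF Γ)
    (hlab : Measurable lab) {g : X × Wd J J₁ → Fin 100} (hg : Measurable g) :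
    nu μ _ {q : X × (Wd J J₁ × Fin 100) | (q.1, q.2.1) ∈ D τ F₀ sl Θ lab ∧ q.2.2 = g (q.1, q.2.1)} ≤
      nu μ _ (D τ F₀ sl Θ lab) := by
  refine nu_le_of_injOn Γ (φ := fun q => (q.1, q.2.1)) (by fun_prop)
    (((meas_D hF₀ hsl hΘ hlab).preimage (by fun_prop)).inter
      (measurableSet_eq_fun (by fun_prop) (hg.comp (by fun_prop)))) (meas_D hF₀ hsl hΘ hlab)
    (fun _ _ => Orb.refl _) (fun q hq => hq.1) ?_
  intro q hq q' hq' h
  have h1 := Prod.mk.inj h
  refine Prod.ext h1.1 (Prod.ext h1.2 ?_)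
  rw [hq.2, hq'.2, h1.1, h1.2]

theorem nu_NE_le (hF₀ : MeasurableSet F₀) (hsl : Measurable sl) (hΘ : Θ.WF Γ)
    (hlab : Measurable lab) :
    nu μ _ (NE τ F₀ sl Θ lab) ≤ nu μ _ (NN τ F₀ sl Θ lab) + nu μ _ (D τ F₀ sl Θ lab) := by
  have hg : Measurable fun d : X × Wd J J₁ => sl (fc d) + 1 :=
    (Measurable.of_discrete (f := fun m : Fin 100 => m + 1)).comp (hsl.comp meas_fc)
  refine le_trans ?_ ((measure_union_le _ _).trans
    (add_le_add le_rfl (nu_slice_le (τ := τ) hF₀ hsl hΘ hlab hg)))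
  refine nu_le_of_injOn Γ (φ := fun q => ((par' τ q).1, q.2))
    ((measurable_fst.comp meas_par').prodMk measurable_snd) (meas_NE hF₀ hsl hΘ hlab)
    ((meas_NN hF₀ hsl hΘ hlab).union (((meas_D hF₀ hsl hΘ hlab).preimage (by fun_prop)).inter
      (measurableSet_eq_fun (by fun_prop) (hg.comp (by fun_prop)))))
    (fun _ _ => Orb.smul _ _) (fun q hq => ?_) ?_
  · by_cases h : q.2.2 = sl (fc (par' τ q)) + 1
    · exact Or.inr ⟨hq.1, h⟩
    · exact Or.inl ⟨hq.1, hq.2, h⟩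
  · rintro ⟨x, w⟩ - ⟨x', w'⟩ - h
    obtain ⟨h1, rfl⟩ := Prod.mk.inj h
    exact Prod.ext (MulAction.injective _ h1) rfl

theorem nu_NN_ne_top (hF₀ : MeasurableSet F₀) (hsl : Measurable sl) (hΘ : Θ.WF Γ)
    (hlab : Measurable lab) (hD : nu μ _ (D τ F₀ sl Θ lab) ≠ ⊤) :
    nu μ _ (NN τ F₀ sl Θ lab) ≠ ⊤ := by
  have h1 : NN τ F₀ sl Θ lab ⊆ ⋃ m : Fin 100,
      {q : X × (Wd J J₁ × Fin 100) | (q.1, q.2.1) ∈ D τ F₀ sl Θ lab ∧ q.2.2 = m} :=
    fun q hq => mem_iUnion.2 ⟨q.2.2, hq.1, rfl⟩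
  refine ne_top_of_le_ne_top ?_ ((measure_mono h1).trans (measure_iUnion_fintype_le _ _))
  exact ENNReal.sum_ne_top.2 fun m _ => ne_top_of_le_ne_top hD
    (nu_slice_le (τ := τ) hF₀ hsl hΘ hlab (g := fun _ => m) measurable_const)

theorem nu_KE_D_le (hF₀ : MeasurableSet F₀) (hsl : Measurable sl) (hΘ : Θ.WF Γ)
    (hlab : Measurable lab)
    (hfree : ∀ f ∈ F₀, ∀ f' ∈ F₀, slot τ f' (sl f') = slot τ f (sl f) → f' = f) :
    nu μ _ (KE τ F₀ sl Θ lab) + nu μ _ (D τ F₀ sl Θ lab) ≤ Θ.e μ := by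
  have hK := meas_KE (τ := τ) hF₀ hsl hΘ hlab
  have h1 : nu μ _ (D τ F₀ sl Θ lab) ≤ nu μ _ (Θ.E \ KE τ F₀ sl Θ lab) := by
    refine nu_le_of_injOn Γ (meas_eps hsl) (meas_D hF₀ hsl hΘ hlab) (hΘ.mE.diff hK)
      (fun _ _ => Orb.smul _ _) (fun d hd => ⟨hd.2.1, fun h => h.2 ⟨_, hd.1, (slot_eps hd).symm⟩⟩) ?_
    intro d hd d' hd' h
    have h2 := hfree _ hd'.1 _ hd.1 (by rw [slot_eps hd, slot_eps hd', h])
    have h3 := Prod.mk.inj h2
    have h4 := Prod.mk.inj h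
    exact Prod.ext h3.1 (Prod.ext h4.2 h3.2)
  refine (add_le_add le_rfl h1).trans (le_of_eq ?_)
  rw [← measure_union disjoint_sdiff_right (hΘ.mE.diff hK), union_sdiff_cancel fun _ h => h.1]
  rfl

end Crest.Agent.R191.SubdivAux
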