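import Crest.Agent.R191.Marker

/-! # R191: actions of small cost -/

set_option autoImplicit false

open MeasureTheory Set
open scoped ENNReal

namespace Crest.Agent.R191

namespace UpperAux

/-- The combinatorial part: the three families of steps generate the orbit relation. -/
theorem gen_all {Γ Y : Type} [Group Γ] [MulAction Γ Y] {r : Y → Y → Prop} (hr : Equivalence r)
    {Λ : Subgroup Γ} {a z : Γ} {s τ : Fin 100 → Γ} (hcomm : ∀ i, Commute z (s i))
    (hΛ : Λ = Subgroup.closure (insert z (range s)))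
    (hgen : Subgroup.closure (insert a (Λ : Set Γ)) = ⊤)
    (hcyc : ∀ m, τ (m + 1) * (a * τ m)⁻¹ ∈ Λ) {U : Set Y} (v : Y → ℕ)
    (hz : ∀ p, r p (z • p)) (hs : ∀ i, ∀ p ∈ U, r p (s i • p))
    (hU : ∀ p, ∃ n : ℤ, z ^ n • p ∈ U) (ha : ∀ p, v p < 99 → r p (a • p))
    (hv : ∀ p, 99 ≤ v p → ∀ m : Fin 100, (m : ℕ) < 99 → v (τ m • (τ 99)⁻¹ • p) < v p)
    (g : Γ) (p : Y) : r p (g • p) := by
  let H : Subgroup Γ :=
    { carrier := {g | ∀ p, r p (g • p)}
      one_mem' := fun p => by rw [one_smul]; exact hr.refl p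
      mul_mem' := fun {g h} hg hh p => by
        rw [mul_smul]; exact hr.trans (hh p) (hg _)
      inv_mem' := fun {g} hg p => by
        have := hg (g⁻¹ • p)
        rw [smul_inv_smul] at this
        exact hr.symm this }
  have hmem : ∀ g, g ∈ H ↔ ∀ p, r p (g • p) := fun g => Iff.rfl
  have hzH : z ∈ H := hz
  have hzn : ∀ (n : ℤ) p, r p (z ^ n • p) := fun n => (hmem _).1 (H.zpow_mem hzH n)
  have hsH : ∀ i, s i ∈ H := by
    intro i p
    obtain ⟨n, hn⟩ := hU p
    have h1 := hs i _ hn
    have h2 : s i • z ^ n • p = z ^ n • s i • p := by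
      rw [← mul_smul, ← mul_smul, ((hcomm i).zpow_left n).eq]
    rw [h2] at h1
    exact hr.trans (hzn n p) (hr.trans h1 (hr.symm (hzn n _)))
  have hΛH : Λ ≤ H := by
    rw [hΛ, Subgroup.closure_le]
    rintro g (rfl | ⟨i, rfl⟩)
    · exact hzH
    · exact hsH i
  have hstep : ∀ (m : Fin 100) (y : Y), r (a • τ m • y) (τ (m + 1) • y) := by
    intro m y
    have := (hmem _).1 (hΛH (hcyc m)) (a • τ m • y)
    rwa [← mul_smul a, ← mul_smul, inv_mul_cancel_right, mul_smul] at this
  have haH : a ∈ H := by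
    have key : ∀ n p, v p = n → r p (a • p) := by
      intro n
      induction n using Nat.strong_induction_on with
      | _ n ih =>
        intro p hp
        by_cases h : v p < 99
        · exact ha p h
        · rw [not_lt] at h
          set y := (τ 99)⁻¹ • p with hy
          have hp' : τ 99 • y = p := smul_inv_smul _ _
          have chain : ∀ k : ℕ, ∀ hk : k < 100, r (τ 0 • y) (τ ⟨k, hk⟩ • y) := by
            intro k
            induction k with
            | zero => intro hk; exact hr.refl _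
            | succ k ihk =>
              intro hk
              have hk' : k < 100 := by omega
              have h1 := ih _ (hp ▸ hv p h ⟨k, hk'⟩ (by simp only; omega)) _ rfl
              have h2 := hstep ⟨k, hk'⟩ y
              have e : (⟨k, hk'⟩ : Fin 100) + 1 = ⟨k + 1, hk⟩ := by
                apply Fin.ext
                rw [Fin.val_add]
                simp only [Fin.coe_ofNat_eq_mod]
                omega
              rw [e] at h2
              exact hr.trans (ihk hk') (hr.trans h1 h2)
          have h3 := chain 99 (by norm_num)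
          have h4 := hstep 99 y
          have e : (99 : Fin 100) + 1 = 0 := rfl
          rw [e, hp'] at h4
          have e' : (⟨99, by norm_num⟩ : Fin 100) = 99 := rfl
          rw [e', hp'] at h3
          exact hr.symm (hr.trans h4 h3)
    exact fun p => key _ p rfl
  have : (⊤ : Subgroup Γ) ≤ H := by
    rw [← hgen, Subgroup.closure_le]
    rintro g (rfl | hg)
    · exact haH
    · exact hΛH hg
  exact (hmem g).1 (this (Subgroup.mem_top g)) p

/-- The action through a character on `ZMod M`. -/
@[reducible] def cycAct {Γ : Type} [Group Γ] (χ : Γ →* Multiplicative ℤ) (M : ℕ) :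
    MulAction Γ (ZMod M) where
  smul g c := ((Multiplicative.toAdd (χ g) : ℤ) : ZMod M) + c
  one_smul c := by
    change ((Multiplicative.toAdd (χ 1) : ℤ) : ZMod M) + c = c
    simp
  mul_smul g h c := by
    change ((Multiplicative.toAdd (χ (g * h)) : ℤ) : ZMod M) + c =
      ((Multiplicative.toAdd (χ g) : ℤ) : ZMod M) +
        (((Multiplicative.toAdd (χ h) : ℤ) : ZMod M) + c)
    simp [add_assoc]

/-- uniform measure -/
noncomputable def unif (M : ℕ) : Measure (ZMod M) := (M : ℝ≥0∞)⁻¹ • Measure.count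

theorem unif_prob {M : ℕ} [NeZero M] : IsProbabilityMeasure (unif M) := by
  constructor
  unfold unif
  rw [Measure.smul_apply, Measure.count_univ, smul_eq_mul]
  simp only [ENat.card_eq_coe_fintype_card, ZMod.card, ENat.toENNReal_coe]
  exact ENNReal.inv_mul_cancel (by simpa using NeZero.ne M) (by simp)

theorem unif_small {M : ℕ} [NeZero M] : unif M {c | c.val < 99} ≤ 99 / (M : ℝ≥0∞) := by
  unfold unif
  rw [Measure.smul_apply, smul_eq_mul, ENNReal.div_eq_inv_mul]
  gcongr
  rw [Measure.count_apply MeasurableSet.of_discrete]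
  have h : ({c : ZMod M | c.val < 99}).encard ≤ (Finset.range 99 : Set ℕ).encard := by
    refine Set.encard_le_encard_of_injOn (f := ZMod.val) ?_ (ZMod.val_injective M).injOn
    intro c hc
    simpa using hc
  rw [Set.encard_coe_eq_coe_finsetCard, Finset.card_range] at h
  exact_mod_cast h

theorem unif_pres {M : ℕ} (d : ZMod M) : MeasurePreserving (fun c => d + c) (unif M) (unif M) := by
  unfold unif
  exact measurePreserving_add_left _ d

theorem val_drop {M : ℕ} (hM : 100 < M) (c : ZMod M) (hc : 99 ≤ c.val) {m : ℕ} (hm : m < 99) :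
    (((m : ℤ) : ZMod M) + (((-(99 : ℤ) : ℤ) : ZMod M) + c)).val < c.val := by
  have : NeZero M := ⟨by omega⟩
  have hlt := ZMod.val_lt c
  have e : ((m : ℤ) : ZMod M) + (((-(99 : ℤ) : ℤ) : ZMod M) + c) =
      ((c.val - 99 + m : ℕ) : ZMod M) := by
    rw [Nat.cast_add, Nat.cast_sub hc, ZMod.natCast_zmod_val]
    push_cast
    ring
  rw [e, ZMod.val_natCast, Nat.mod_eq_of_lt (by omega)]
  omega

/-- The graphing. -/
def phi {Γ Y : Type} [Group Γ] (a z : Γ) (s : Fin 100 → Γ) (U V : Set Y) (n : ℕ) : Γ × Set Y :=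
  if h : n < 100 then (s ⟨n, h⟩, U) else if n = 100 then (z, univ) else
    if n = 101 then (a, V) else (1, ∅)

theorem phi_cost {Γ Y : Type} [Group Γ] [MeasurableSpace Y] (ν : Measure Y) (a z : Γ)
    (s : Fin 100 → Γ) (U V : Set Y) :
    Crest.Dynamics.graphingCost ν (phi a z s U V) = 100 * ν U + ν univ + ν V := by
  unfold Crest.Dynamics.graphingCost
  rw [tsum_eq_sum (s := Finset.range 102)]
  · rw [Finset.sum_range_succ, Finset.sum_range_succ]
    have h : ∑ n ∈ Finset.range 100, ν (phi a z s U V n).2 = ∑ n ∈ Finset.range 100, ν U := by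
      refine Finset.sum_congr rfl fun n hn => ?_
      rw [Finset.mem_range] at hn
      simp [phi, hn]
    rw [h]
    simp [phi]
  · intro n hn
    rw [Finset.mem_range, not_lt] at hn
    have h1 : ¬ n < 100 := by omega
    have h2 : n ≠ 100 := by omega
    have h3 : n ≠ 101 := by omega
    simp [phi, h1, h2, h3]

theorem phi_meas {Γ Y : Type} [Group Γ] [MeasurableSpace Y] (a z : Γ)
    (s : Fin 100 → Γ) {U V : Set Y} (hU : MeasurableSet U) (hV : MeasurableSet V) (n : ℕ) :
    MeasurableSet (phi a z s U V n).2 := by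
  unfold phi
  split_ifs
  · exact hU
  · exact MeasurableSet.univ
  · exact hV
  · exact MeasurableSet.empty

end UpperAux

open UpperAux in
/-- Proof.  `Y = X × ZMod M` (discrete sigma-algebra, uniform measure on `ZMod M`),
`g • (x, c) = (g • x, c + χ g)`.  Given `ε`, take `U` from `exists_small (zpowers z)` with
`μ U ≤ ε`.  Graphing: `z` on `univ`, `s i` on `U ×ˢ univ` (`i < 100`), `a` on `{(x, c) | c.val < 99}`,
empty sets otherwise; its cost is at most `1 + 100 ε + 99 / M`.  It generates everywhere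
(`N = ∅`).  Write `~` for the generated relation.  `p ~ z ^ n • p`; `p ~ s i • p` because
`p ~ z^n p ~ s i z^n p = z^n s i p ~ s i p` when `z^n • x ∈ U`; so `p ~ l • p` for `l ∈ Λ` (the set of
`g` with `∀ p, p ~ g • p` is a subgroup).  `p ~ a • p` by strong induction on `c.val`: if
`c.val ≥ 99` put `y = (τ 99)⁻¹ • p`; for `m < 99` the point `τ m • y` has second coordinate
`c - 99 + m` of smaller value, so `τ m y ~ a τ m y ~ τ (m+1) y` (`hcyc`), whence `τ 0 y ~ p`, and
`a • p = a τ 99 y ~ τ 0 y`. -/
theorem upper {Γ X : Type} [Group Γ] [Countable Γ] [MeasurableSpace Γ]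
    [MeasurableSingletonClass Γ] [MulAction Γ X] [MeasurableSpace X] [StandardBorelSpace X]
    [MeasurableSMul₂ Γ X] [IsCancelSMul Γ X] (μ : Measure X) [IsProbabilityMeasure μ]
    [SMulInvariantMeasure Γ X μ] {Λ : Subgroup Γ} {a z : Γ} {s τ : Fin 100 → Γ}
    (hz : ¬ IsOfFinOrder z) (hcomm : ∀ i, Commute z (s i))
    (hΛ : Λ = Subgroup.closure (insert z (range s)))
    (hgen : Subgroup.closure (insert a (Λ : Set Γ)) = ⊤)
    (hcyc : ∀ m, τ (m + 1) * (a * τ m)⁻¹ ∈ Λ) (χ : Γ →* Multiplicative ℤ)
    (hχ : ∀ i, χ (τ i) = Multiplicative.ofAdd ((i : ℕ) : ℤ)) {M : ℕ} (hM : 100 < M) :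
    ∃ (Y : Type) (_ : MeasurableSpace Y) (_ : StandardBorelSpace Y) (ν : Measure Y)
      (_ : IsProbabilityMeasure ν) (_ : MulAction Γ Y),
      Crest.Dynamics.IsFreePMPAction Γ Y ν ∧
      Crest.Dynamics.actionCost Γ Y ν ≤ 1 + 99 / (M : ENNReal) := by
  have : NeZero M := ⟨by omega⟩
  let : MulAction Γ (ZMod M) := cycAct χ M
  have : IsProbabilityMeasure (unif M) := unif_prob
  have hsm : ∀ (g : Γ) (c : ZMod M),
      g • c = ((Multiplicative.toAdd (χ g) : ℤ) : ZMod M) + c := fun _ _ => rfl
  refine ⟨X × ZMod M, inferInstance, inferInstance, μ.prod (unif M), inferInstance,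
    inferInstance, ⟨fun g => ?_, fun g hg => ?_⟩, ?_⟩
  · exact (measurePreserving_smul g μ).prod (unif_pres _)
  · have : {p : X × ZMod M | g • p = p} = ∅ :=
      Set.eq_empty_of_forall_notMem fun p hp =>
        hg (IsCancelSMul.eq_one_of_smul (congrArg Prod.fst hp : g • p.1 = p.1))
    rw [this, measure_empty]
  · refine ENNReal.le_of_forall_pos_le_add fun ε hε _ => ?_
    have hinf : Infinite (Subgroup.zpowers z) := (infinite_zpowers.2 hz).to_subtype
    have hε' : (ε : ℝ≥0∞) / 100 ≠ 0 := by
      simp [hε.ne']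
    obtain ⟨U, hUm, hUε, hU⟩ := exists_small (μ := μ) (Subgroup.zpowers z) hinf hε'
    set U' : Set (X × ZMod M) := U ×ˢ univ with hU'
    set V : Set (X × ZMod M) := univ ×ˢ {c | c.val < 99} with hV
    have hU'm : MeasurableSet U' := hUm.prod MeasurableSet.univ
    have hVm : MeasurableSet V := MeasurableSet.univ.prod MeasurableSet.of_discrete
    have hgenr : Crest.Dynamics.Generates (μ.prod (unif M)) (phi a z s U' V) := by
      refine ⟨phi_meas a z s hU'm hVm, ∅, measure_empty, fun p _ g => ?_⟩
      refine gen_all (Relation.EqvGen.is_equivalence _) hcomm hΛ hgen hcyc (U := U')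
        (fun p => p.2.val) ?_ ?_ ?_ ?_ ?_ g p
      · intro p
        exact .rel _ _ ⟨100, by simp [phi], by simp [phi]⟩
      · intro i p hp
        exact .rel _ _ ⟨i, by simpa [phi] using hp, by simp [phi]⟩
      · intro p
        obtain ⟨l, hl, h⟩ := hU p.1
        obtain ⟨n, rfl⟩ := Subgroup.mem_zpowers_iff.1 hl
        exact ⟨n, h, mem_univ _⟩
      · intro p hp
        exact .rel _ _ ⟨101, by simpa [phi, hV] using hp, by simp [phi]⟩
      · intro p hp m hm
        simp only [Prod.smul_snd, hsm, map_inv, hχ, toAdd_inv, toAdd_ofAdd]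
        exact val_drop hM p.2 hp hm
    refine le_trans (sInf_le ⟨_, hgenr, rfl⟩) ?_
    rw [phi_cost, measure_univ, hU', hV, Measure.prod_prod, Measure.prod_prod, measure_univ,
      measure_univ, mul_one, one_mul]
    have h1 : 100 * μ U ≤ ε := by
      calc 100 * μ U ≤ 100 * ((ε : ℝ≥0∞) / 100) := by gcongr
        _ = ε := ENNReal.mul_div_cancel (by norm_num) (by norm_num)
    calc 100 * μ U + 1 + unif M {c | c.val < 99} ≤ ε + 1 + 99 / (M : ℝ≥0∞) := by
          gcongr
          exact unif_small
      _ = 1 + 99 / (M : ℝ≥0∞) + ε := by ring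

end Crest.Agent.R191
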