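import Crest.Agent.R191.WordAux

/-! # R191: the word lemma (a Freiheitssatz / Dehn type statement for `NN`) -/

set_option autoImplicit false

namespace Crest.Agent.R191

namespace WordAux

open SemidirectProduct

variable {A : Type} [Group A] (b : Lam → A) (f : Lam) (i0 : Fin 100)

/-- the invariant of a prefix containing a B-letter -/
def Good (v : List (Lam × Bool)) : Prop :=
  ∃ (v₀ u : List (Lam × Bool)) (L₀ : List ((A × Fin 100) × Bool)) (h : A) (P : Fin 100) (d : Bool)
    (r : ℕ), v = v₀ ++ seg f d P (r + 1) ++ u ∧ (∀ x ∈ u, ¬ IsB f i0 x.1) ∧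
    Arr i0 d (pos d P (r + 1)) ∧
    FreeGroup.IsReduced (L₀ ++ [((h, XX i0 P), false), ((h, XX i0 (pos d P (r + 1))), true)]) ∧
    (ψ b f i0 (FreeGroup.mk (v₀ ++ seg f d P (r + 1)))).left =
      FreeGroup.mk (L₀ ++ [((h, XX i0 P), false), ((h, XX i0 (pos d P (r + 1))), true)]) ∧
    (ψ b f i0 (FreeGroup.mk (v₀ ++ seg f d P (r + 1)))).right = h * δ b f i0 (pos d P (r + 1))

theorem exists_letter {x : Lam × Bool} (h : IsB f i0 x.1) :
    ∃ d p, x = letter f d p ∧ Dep i0 d p := by
  obtain ⟨i, hi, e⟩ := h
  rcases x with ⟨x, _ | _⟩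
  · refine ⟨false, i + 1, by simp [letter, ← e], ?_⟩
    simp only [Dep, Bool.false_eq_true, if_false]
    exact fun e => hi (add_right_cancel e)
  · exact ⟨true, i, by simp [letter, ← e], by simpa [Dep] using hi⟩

theorem reduced_snoc {α : Type} {L : List (α × Bool)} {x y : α × Bool}
    (h : FreeGroup.IsReduced (L ++ [x])) (hxy : x.1 ≠ y.1) :
    FreeGroup.IsReduced (L ++ [x, y]) := by
  unfold FreeGroup.IsReduced at h ⊢
  rw [List.isChain_append_cons_cons]
  exact ⟨h, fun e => (hxy e).elim, List.isChain_singleton _⟩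

theorem good_start {v : List (Lam × Bool)} {d : Bool} {p : Fin 100} (hd : Dep i0 d p)
    {L : List ((A × Fin 100) × Bool)} (hL : (ψ b f i0 (FreeGroup.mk v)).left = FreeGroup.mk L)
    (hr : FreeGroup.IsReduced
      (L ++ [(((ψ b f i0 (FreeGroup.mk v)).right * (δ b f i0 p)⁻¹, XX i0 p), false)])) :
    Good b f i0 (v ++ [letter f d p]) := by
  have hs := mul_step b f i0 (ψ b f i0 (FreeGroup.mk v)) p (nxt d p)
  rw [← ψ_letter, ← map_mul, FreeGroup.mul_mk, hL, FreeGroup.mul_mk] at hs
  refine ⟨v, [], L, _, p, d, 0, by simp [seg, pos], by simp, hd.arr, ?_, hs.1, hs.2⟩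
  exact reduced_snoc hr fun e => hd.XX_ne (congrArg Prod.snd e)

theorem good_extend {v₀ v : List (Lam × Bool)} {L₀ : List ((A × Fin 100) × Bool)} {h : A}
    {P q p : Fin 100} {d : Bool} {r : ℕ} (hn : NoRun (v ++ [letter f d p]))
    (hv : v ++ [letter f d p] = v₀ ++ seg f d P (r + 2)) (hp : pos d P (r + 1) = p)
    (hd : Dep i0 d p)
    (hr : FreeGroup.IsReduced (L₀ ++ [((h, XX i0 P), false), ((h, XX i0 q), true)]))
    (hL : (ψ b f i0 (FreeGroup.mk v)).left =
      FreeGroup.mk (L₀ ++ [((h, XX i0 P), false), ((h, XX i0 q), true)]))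
    (hh : (ψ b f i0 (FreeGroup.mk v)).right * (δ b f i0 p)⁻¹ = h) (hX : XX i0 p = XX i0 q) :
    Good b f i0 (v ++ [letter f d p]) := by
  have hs := mul_step b f i0 (ψ b f i0 (FreeGroup.mk v)) p (nxt d p)
  rw [← ψ_letter, ← map_mul, FreeGroup.mul_mk, hL, hh, hX, hv] at hs
  have hq : pos d P (r + 1 + 1) = nxt d p := by rw [← hp]; rfl
  have h98 : r + 2 ≤ 98 := le_of_noRun (f := f) (d := d) (P := P) hn
    (by rw [hv]; exact (List.suffix_append _ _).isInfix)
  refine ⟨v₀, [], L₀, h, P, d, r + 1, by simp [hv], by simp, hq ▸ hd.arr, ?_, ?_, hq ▸ hs.2⟩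
  · refine reduced_snoc (hr.infix ⟨[], [((h, XX i0 q), true)], by simp⟩) fun e => ?_
    exact XX_ne_pos i0 P d (r := r + 2) (by omega) h98 (congrArg Prod.snd e)
  · rw [hs.1, hq, FreeGroup.mul_mk]
    refine Quot.sound (r := FreeGroup.Red.Step) ?_
    have := @FreeGroup.Red.Step.not _ (L₀ ++ [((h, XX i0 P), false)])
      [((h, XX i0 (nxt d p)), true)] (h, XX i0 q) true
    simpa using this

theorem good_or_notB
    (H1 : ∀ u, FreeGroup.IsReduced u → NoRun u → ∀ k : ℤ,
      FreeGroup.lift b (FreeGroup.mk u) = b (sg i0 * f) ^ k → ∀ x ∈ u, x.1 = sg i0 * f)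
    (H2 : ∀ m n : ℤ, b (sg i0 * f) ^ m = b (sg i0 * f) ^ n → m = n)
    (v : List (Lam × Bool)) (hr : FreeGroup.IsReduced v) (hn : NoRun v) :
    (∀ x ∈ v, ¬ IsB f i0 x.1) ∨ Good b f i0 v := by
  induction v using List.reverseRecOn with
  | nil => simp
  | append_singleton v x ih =>
    have hpre : v <:+: v ++ [x] := (List.prefix_append _ _).isInfix
    have ih := ih (hr.infix hpre) (NoRun.infix hn hpre)
    by_cases hx : IsB f i0 x.1
    swap
    · rcases ih with ih | ⟨v₀, u, L₀, h, P, d, r, e, hu, h3⟩
      · left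
        intro y hy
        rcases List.mem_append.1 hy with hy | hy
        · exact ih y hy
        · rw [List.mem_singleton.1 hy]; exact hx
      · right
        refine ⟨v₀, u ++ [x], L₀, h, P, d, r, by rw [e, List.append_assoc _ u], ?_, h3⟩
        intro y hy
        rcases List.mem_append.1 hy with hy | hy
        · exact hu y hy
        · rw [List.mem_singleton.1 hy]; exact hx
    right
    obtain ⟨d', p, rfl, hd⟩ := exists_letter f i0 hx
    rcases ih with ih | ⟨v₀, u, L₀, h, P, d, r, e, hu, harr, hred, hL, hR⟩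
    · exact good_start b f i0 hd (L := []) (by rw [ψ_notB b f i0 ih]; rfl) (by simp)
    set q := pos d P (r + 1) with hq
    have hψ : ψ b f i0 (FreeGroup.mk v) = ψ b f i0 (FreeGroup.mk (v₀ ++ seg f d P (r + 1))) *
        inr (FreeGroup.lift b (FreeGroup.mk u)) := by
      rw [e, ← FreeGroup.mul_mk, map_mul, ψ_notB b f i0 hu]
    have hL' : (ψ b f i0 (FreeGroup.mk v)).left =
        FreeGroup.mk (L₀ ++ [((h, XX i0 P), false), ((h, XX i0 q), true)]) := by
      rw [hψ, mul_left, hL]; simp
    have hR' : (ψ b f i0 (FreeGroup.mk v)).right =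
        h * δ b f i0 q * FreeGroup.lift b (FreeGroup.mk u) := by
      rw [hψ, mul_right, hR]; simp
    by_cases hc : ((ψ b f i0 (FreeGroup.mk v)).right * (δ b f i0 p)⁻¹, XX i0 p) = (h, XX i0 q)
    swap
    · refine good_start b f i0 hd hL' ?_
      have := reduced_snoc (L := L₀ ++ [((h, XX i0 P), false)]) (x := ((h, XX i0 q), true))
        (y := (((ψ b f i0 (FreeGroup.mk v)).right * (δ b f i0 p)⁻¹, XX i0 p), false))
        (by simpa using hred) (fun e => hc e.symm)
      simpa using this
    have hh := congrArg Prod.fst hc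
    have hX : XX i0 p = XX i0 q := congrArg Prod.snd hc
    simp only at hh
    have hu' : u <:+: v ++ [letter f d' p] :=
      List.IsInfix.trans (e ▸ (List.suffix_append _ _).isInfix) hpre
    have key : ∀ k : ℤ, (δ b f i0 q)⁻¹ * δ b f i0 p = b (sg i0 * f) ^ k →
        ∃ n s, u = List.replicate n (sg i0 * f, s) ∧ (if s then (n : ℤ) else -n) = k := by
      intro k hk
      have h1 : FreeGroup.lift b (FreeGroup.mk u) = b (sg i0 * f) ^ k := by
        rw [← hk]
        rw [hR'] at hh
        calc FreeGroup.lift b (FreeGroup.mk u)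
            = (δ b f i0 q)⁻¹ * h⁻¹ * (h * δ b f i0 q * FreeGroup.lift b (FreeGroup.mk u) *
              (δ b f i0 p)⁻¹) * δ b f i0 p := by group
          _ = (δ b f i0 q)⁻¹ * δ b f i0 p := by rw [hh]; group
      obtain ⟨n, s, e'⟩ := replicate_of_all (hr.infix hu')
        (H1 u (hr.infix hu') (NoRun.infix hn hu') k h1)
      refine ⟨n, s, e', H2 _ _ ?_⟩
      rw [← lift_replicate, ← e', h1]
    rcases XX_eq hX with hpq | ⟨hp, hq'⟩ | ⟨hp, hq'⟩
    · -- same position: the block is empty and the direction is kept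
      obtain ⟨n, s, e', hk⟩ := key 0 (by rw [hpq]; simp)
      have hn0 : n = 0 := by cases s <;> simp at hk <;> omega
      subst hn0
      simp only [List.replicate_zero] at e'
      subst e'
      have hdd : d' = d := by
        rw [e, seg, List.append_nil, ← List.append_assoc, List.append_assoc, List.singleton_append]
          at hr
        unfold FreeGroup.IsReduced at hr
        have h2 := (List.isChain_append_cons_cons.1 hr).2.1
        have h3 : p = nxt d (pos d P r) := hpq
        rw [h3] at h2
        cases d <;> cases d' <;> simp [letter, nxt] at h2 ⊢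
      subst hdd
      refine good_extend b f i0 hn (v₀ := v₀) (r := r) ?_ hpq.symm hd hred hL' hh hX
      rw [e, List.append_nil, hpq, List.append_assoc]
      rfl
    · -- the block is `c`
      obtain ⟨n, s, e', hk⟩ := key 1 (by rw [hp, hq']; simp [δ, succ_ne i0])
      have hs : s = true ∧ n = 1 := by cases s <;> simp at hk ⊢ <;> omega
      obtain ⟨rfl, rfl⟩ := hs
      have hd1 : d = true := by
        cases d
        · exact absurd hq' (by simpa [Arr] using harr)
        · rfl
      have hd2 : d' = true := by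
        cases d'
        · exact absurd hp (by simpa [Dep] using hd)
        · rfl
      subst hd1 hd2
      have hp' : pos true P (r + 1 + 1) = p := by
        rw [hp, ← hq']; rfl
      refine good_extend b f i0 hn (v₀ := v₀) (r := r + 1) ?_ hp' hd hred hL' hh hX
      rw [e, e', show seg f _ P (r + 1 + 2) = seg f _ P (r + 1) ++ [letter f _ q] ++
        [letter f _ (pos _ P (r + 1 + 1))] from rfl, hp', hq']
      simp [letter]
    · -- the block is `c⁻¹`
      obtain ⟨n, s, e', hk⟩ := key (-1) (by rw [hp, hq']; simp [δ, succ_ne i0])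
      have hs : s = false ∧ n = 1 := by cases s <;> simp at hk ⊢ <;> omega
      obtain ⟨rfl, rfl⟩ := hs
      have hd1 : d = false := by
        cases d
        · rfl
        · exact absurd hq' (by simpa [Arr] using harr)
      have hd2 : d' = false := by
        cases d'
        · rfl
        · exact absurd hp (by simpa [Dep] using hd)
      subst hd1 hd2
      have hp' : pos false P (r + 1 + 1) = p := by
        rw [hp, show pos false P (r + 1 + 1) = q - 1 from rfl, hq', add_sub_cancel_right]
      refine good_extend b f i0 hn (v₀ := v₀) (r := r + 1) ?_ hp' hd hred hL' hh hX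
      rw [e, e', show seg f _ P (r + 1 + 2) = seg f _ P (r + 1) ++ [letter f _ q] ++
        [letter f _ (pos _ P (r + 1 + 1))] from rfl, hp', hq']
      simp [letter]

theorem Good.left_ne {v : List (Lam × Bool)} (h : Good b f i0 v) :
    (ψ b f i0 (FreeGroup.mk v)).left ≠ 1 := by
  classical
  obtain ⟨v₀, u, L₀, h, P, d, r, e, hu, _, hred, hL, _⟩ := h
  rw [e, ← FreeGroup.mul_mk, map_mul, ψ_notB b f i0 hu, mul_left, hL]
  simp only [left_inr, map_one, mul_one]
  intro h1
  have := FreeGroup.toWord_eq_nil_iff.2 h1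
  rw [FreeGroup.toWord_mk, hred.reduce_eq] at this
  simp at this

theorem lift_of_eq (rs : Set (FreeGroup Lam)) (x : FreeGroup Lam) :
    FreeGroup.lift (PresentedGroup.of : Lam → PresentedGroup rs) x = PresentedGroup.mk rs x := by
  have : FreeGroup.lift (PresentedGroup.of : Lam → PresentedGroup rs) = PresentedGroup.mk rs := by
    ext y; simp [PresentedGroup.of]
  rw [this]

end WordAux

open WordAux in
/-- The word lemma for finitely many relators.

Proof.  Induction on `S.card`, for all `w`, `l`, `m`.  For `S = ∅` the presented group is free and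
`w` is the reduced word of `of l ^ m`.  Otherwise pick `f ∈ S` maximising `norm (f * l⁻¹).1`, put
`i0 = leafIdx (f * l⁻¹).1`, `c = sg i0 * f`, and call the 99 letters `sg i * f`, `i ≠ i0`, the
*B-letters*.  By `leaf_lam` (applied to `y * l⁻¹`) they do not occur in the other relators
`y ∈ S' = S.erase f`, and they differ from `l` (`leafIdx_of_norm_le`).  Let `A` be the group
presented by `S'`, `Ω = FreeGroup (A × Fin 100) × A`, `X i = if i = i0 + 1 then i0 else i`,
`δ i = if i = i0 + 1 then c else 1 ∈ A`.  Let `x i` be the permutation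
`(φ, g) ↦ (φ * of (g, X i), g * δ i)` of `Ω`.  Let words act on `Ω` from the right: a non-B letter
`μ` by `(φ, g) ↦ (φ, g * b_μ)`, the B-letter `sg i * f` by "`(x i)⁻¹` then `x (i+1)`"; note that `c` acts
as "`(x i0)⁻¹` then `x (i0+1)`" as well, so the relator `f` telescopes to the identity, and the other
relators of `S` act trivially.  (Use inverse permutations or `MulOpposite` to get a homomorphism.)
Hence `w` maps `(1, 1)` to `(1, b_l ^ m)`.  If `w` has no B-letter, then `mk w = b_l ^ m` in `A` and the
induction hypothesis applies.  Otherwise we show that the first coordinate is not `1`.  A B-letter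
(or its inverse) moves from a *position* `p` to `q = p ± 1` of the cycle `Fin 100` and, at state
`(φ, g)`, multiplies `φ` by `of (h, X p)⁻¹ * of (h, X q)` where `h = g * (δ p)⁻¹`; the new state has
second coordinate `h * δ q`.  Invariant after a prefix ending with a B-letter: `φ = mk L` with
`L = L₀ ++ [((h, X P), false), ((h, X q), true)]` reduced, the second coordinate is `h * δ q`, and
the prefix ends with the `r` consecutive letters of the cyclic relator `f` (or of its inverse) that
lead from position `P` to position `q = P ± r`, `1 ≤ r`, the first and last of them B-letters.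
Let `u` be the following B-free block and `p → q'` the next B-letter, `h' = h * δ q * u * (δ p)⁻¹`.
If `(h', X p) ≠ (h, X q)` nothing cancels and a new run starts (`X p ≠ X q'` for a single
B-letter).  If `(h', X p) = (h, X q)`, then `u = c ^ k` in `A` with `k ∈ {0, 1, -1}` (`k = 0` iff
`p = q`); by the induction hypothesis (for the letter `c`; `u` is a reduced infix without runs) and
`of_zpow_inj`, `u` is literally `[]`, `[c]` or `[c⁻¹]`; since `w` is reduced the direction is kept, so the
run extends; by `NoRun` its length is at most 98, therefore `X P ≠ X q'` (equality would force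
`q' = P`, or `{P, q'} = {i0, i0 + 1}`, i.e. length `≡ 0, ±1` mod 100, and a run of length one
is a B-letter).  So `L` stays reduced and nonempty. -/
theorem word_lemma_fin (S : Finset Lam) (w : List (Lam × Bool)) (hr : FreeGroup.IsReduced w)
    (hn : NoRun w) (l : Lam) (m : ℤ)
    (h : PresentedGroup.mk ((fun y => FreeGroup.mk (relw y)) '' (S : Set Lam)) (FreeGroup.mk w) =
      PresentedGroup.of l ^ m) :
    ∀ x ∈ w, x.1 = l := by
  classical
  induction hS : S.card generalizing S w l m with
  | zero =>
    rw [Finset.card_eq_zero] at hS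
    subst hS
    have hk : ∀ r ∈ (fun y => FreeGroup.mk (relw y)) '' ((∅ : Finset Lam) : Set Lam),
        FreeGroup.lift FreeGroup.of r = 1 := by simp
    have h1 := congrArg (PresentedGroup.toGroup hk) h
    rw [map_zpow, PresentedGroup.toGroup.of] at h1
    have h2 : FreeGroup.mk w = FreeGroup.of l ^ m := by
      rw [← h1]
      exact (FreeGroup.lift_of_apply _).symm
    have h3 := congrArg FreeGroup.toWord h2
    rw [FreeGroup.toWord_mk, hr.reduce_eq] at h3
    intro x hx
    rw [h3] at hx
    obtain ⟨n, rfl | rfl⟩ := m.eq_nat_or_neg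
    · rw [zpow_natCast, FreeGroup.toWord_of_pow] at hx
      rw [List.eq_of_mem_replicate hx]
    · rw [zpow_neg, zpow_natCast, FreeGroup.toWord_inv, FreeGroup.toWord_of_pow] at hx
      simp only [FreeGroup.invRev, List.map_replicate, List.reverse_replicate] at hx
      rw [List.eq_of_mem_replicate hx]
  | succ n ih =>
    obtain ⟨f, hf, hmax⟩ := S.exists_max_image (fun y => FreeGroup.norm (y * l⁻¹).1)
      (Finset.card_pos.1 (by omega))
    set i0 := leafIdx (f * l⁻¹).1 with hi0
    set rs : Set (FreeGroup Lam) := (fun y => FreeGroup.mk (relw y)) '' (S.erase f : Set Lam)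
      with hrs
    set b : Lam → PresentedGroup rs := PresentedGroup.of with hb
    have hcard : (S.erase f).card = n := by rw [Finset.card_erase_of_mem hf]; omega
    have hl : ¬ IsB f i0 l := by
      rintro ⟨i, hi, e⟩
      refine hi (leafIdx_of_norm_le ?_)
      have : sg i * (f * l⁻¹) = 1 := by rw [← mul_assoc, ← e, mul_inv_cancel]
      have h1 := congrArg Prod.fst this
      simp only [sg, Prod.fst_mul, Prod.fst_one] at h1 ⊢
      rw [h1, FreeGroup.norm_one]
      exact Nat.zero_le _
    have hk : ∀ r ∈ (fun y => FreeGroup.mk (relw y)) '' (S : Set Lam),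
        FreeGroup.lift (gen b f i0) r = 1 := by
      rintro _ ⟨y, hy, rfl⟩
      by_cases hyf : y = f
      · subst hyf; exact ψ_relw b y i0
      have hB : ∀ x ∈ relw y, ¬ IsB f i0 x.1 := by
        intro x hx
        obtain ⟨j, rfl⟩ := List.mem_ofFn.1 hx
        rintro ⟨i, hi, e⟩
        refine hi (leaf_lam (y' := y * l⁻¹) (j := j) ?_ ?_ (hmax y hy))
        · rw [← mul_assoc, ← mul_assoc]; exact congrArg (· * l⁻¹) e.symm
        · exact fun e' => hyf (mul_right_cancel e').symm
      refine (ψ_notB b f i0 hB).trans ?_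
      rw [hb, lift_of_eq, PresentedGroup.one_of_mem, map_one]
      exact ⟨y, Finset.mem_coe.2 (Finset.mem_erase.2 ⟨hyf, hy⟩), rfl⟩
    have h1 := congrArg (PresentedGroup.toGroup hk) h
    rw [map_zpow, PresentedGroup.toGroup.of, gen_notB b f i0 hl, ← map_zpow] at h1
    change ψ b f i0 (FreeGroup.mk w) = _ at h1
    rcases good_or_notB b f i0
      (fun u hu hnu k hk => ih (S.erase f) u hu hnu _ k ((lift_of_eq _ _).symm.trans hk) hcard)
      (fun m n => of_zpow_inj (by rintro _ ⟨y, _, rfl⟩; exact ⟨y, rfl⟩) _) w hr hn with hw | hw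
    · rw [ψ_notB b f i0 hw, SemidirectProduct.inr_inj] at h1
      exact ih (S.erase f) w hr hn l m ((lift_of_eq _ _).symm.trans h1) hcard
    · exact absurd (by rw [h1]; rfl) (hw.left_ne b f i0)

/-- Reduction to finitely many relators: an element of the normal closure of `rels` is in the
normal closure of finitely many relators (closure induction). -/
theorem word_lemma (w : List (Lam × Bool)) (hr : FreeGroup.IsReduced w) (hn : NoRun w)
    (l : Lam) (m : ℤ) (h : PresentedGroup.mk rels (FreeGroup.mk w) = bb l ^ m) :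
    ∀ x ∈ w, x.1 = l := by
  classical
  have key : ∀ g ∈ Subgroup.normalClosure rels, ∃ S : Finset Lam,
      g ∈ Subgroup.normalClosure ((fun y => FreeGroup.mk (relw y)) '' (S : Set Lam)) := by
    intro g hg
    have mono : ∀ {S T : Finset Lam}, S ⊆ T →
        Subgroup.normalClosure ((fun y => FreeGroup.mk (relw y)) '' (S : Set Lam)) ≤
          Subgroup.normalClosure ((fun y => FreeGroup.mk (relw y)) '' (T : Set Lam)) :=
      fun h => Subgroup.normalClosure_mono (Set.image_mono (Finset.coe_subset.2 h))
    induction hg using Subgroup.closure_induction with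
    | mem x hx =>
      obtain ⟨_, ⟨y, rfl⟩, hc⟩ := Group.mem_conjugatesOfSet_iff.1 hx
      refine ⟨{y}, Subgroup.conjugatesOfSet_subset_normalClosure ?_⟩
      exact Group.mem_conjugatesOfSet_iff.2 ⟨_, ⟨y, by simp, rfl⟩, hc⟩
    | one => exact ⟨∅, one_mem _⟩
    | mul x y _ _ hx hy =>
      obtain ⟨S, hS⟩ := hx
      obtain ⟨T, hT⟩ := hy
      exact ⟨S ∪ T, mul_mem (mono Finset.subset_union_left hS)
        (mono Finset.subset_union_right hT)⟩
    | inv x _ hx =>
      obtain ⟨S, hS⟩ := hx
      exact ⟨S, inv_mem hS⟩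
  have h1 : PresentedGroup.mk rels (FreeGroup.mk w * (FreeGroup.of l ^ m)⁻¹) = 1 := by
    rw [map_mul, map_inv, map_zpow, h]
    exact mul_inv_cancel _
  obtain ⟨S, hS⟩ := key _ (PresentedGroup.mk_eq_one_iff.1 h1)
  refine word_lemma_fin S w hr hn l m ?_
  have h2 := PresentedGroup.mk_eq_one_iff.2 hS
  rw [map_mul, map_inv, map_zpow, mul_inv_eq_one] at h2
  exact h2

end Crest.Agent.R191
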