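import Crest.Agent.R191.GrpDefs

/-! # R191: auxiliary constructions for the word lemma -/

set_option autoImplicit false

namespace Crest.Agent.R191.WordAux

open SemidirectProduct

/-- one step on the cycle of positions -/
def nxt (d : Bool) (p : Fin 100) : Fin 100 := if d then p + 1 else p - 1

def pos (d : Bool) (P : Fin 100) : ℕ → Fin 100
  | 0 => P
  | r + 1 => nxt d (pos d P r)

/-- the letter of the relator `f` leading from position `p` in direction `d` -/
def letter (f : Lam) (d : Bool) (p : Fin 100) : Lam × Bool :=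
  if d then (sg p * f, true) else (sg (p - 1) * f, false)

def seg (f : Lam) (d : Bool) (P : Fin 100) : ℕ → List (Lam × Bool)
  | 0 => []
  | r + 1 => seg f d P r ++ [letter f d (pos d P r)]

theorem pos_true_val (P : Fin 100) (r : ℕ) : (pos true P r).val = (P.val + r) % 100 := by
  induction r with
  | zero => simp [pos, Nat.mod_eq_of_lt P.2]
  | succ r ih =>
    simp only [pos, nxt, if_true, Fin.val_add, ih]
    norm_num
    omega

theorem pos_false_val (P : Fin 100) (r : ℕ) : (pos false P r).val = (P.val + 99 * r) % 100 := by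
  induction r with
  | zero => simp [pos, Nat.mod_eq_of_lt P.2]
  | succ r ih =>
    simp only [pos, nxt, Bool.false_eq_true, if_false, Fin.val_sub, ih]
    norm_num
    omega

theorem seg_eq_ofFn (f : Lam) (d : Bool) (P : Fin 100) (r : ℕ) :
    seg f d P r = List.ofFn fun k : Fin r => letter f d (pos d P k) := by
  induction r with
  | zero => simp [seg]
  | succ r ih => rw [seg, ih, List.ofFn_succ_last]; simp

theorem seg_prefix (f : Lam) (d : Bool) (P : Fin 100) {r r' : ℕ} (h : r ≤ r') :
    seg f d P r <+: seg f d P r' := by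
  induction h with
  | refl => exact List.prefix_rfl
  | step _ ih => exact ih.trans (List.prefix_append _ _)

theorem seg_true (f : Lam) (P : Fin 100) : seg f true P 99 = run f (P - 1) := by
  rw [seg_eq_ofFn, run]
  congr 1
  funext k
  have : pos true P k = P - 1 + 1 + k.castSucc := by
    rw [sub_add_cancel]
    ext
    rw [pos_true_val, Fin.val_add]
    rfl
  simp [letter, this]

theorem seg_false (f : Lam) (P : Fin 100) : seg f false P 99 = FreeGroup.invRev (run f P) := by
  rw [seg_eq_ofFn, run, FreeGroup.invRev, List.map_ofFn]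
  refine List.ext_getElem (by simp only [List.length_ofFn, List.length_reverse])
    fun k h1 h2 => ?_
  have hk : k < 99 := by simpa only [List.length_ofFn] using h1
  have : pos false P k - 1 = P + 1 + (⟨99 - 1 - k, by omega⟩ : Fin 99).castSucc := by
    ext
    simp only [Fin.val_sub, Fin.val_add, pos_false_val, Fin.val_castSucc]
    norm_num
    omega
  rw [List.getElem_reverse]
  simp only [List.getElem_ofFn, List.length_ofFn, letter, this, Function.comp_def]
  rfl

theorem le_of_noRun {w : List (Lam × Bool)} (hn : NoRun w) {f : Lam} {d : Bool} {P : Fin 100}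
    {r : ℕ} (h : seg f d P r <:+: w) : r ≤ 98 := by
  by_contra hr
  have h' := (seg_prefix f d P (show 99 ≤ r by omega)).isInfix.trans h
  cases d
  · rw [seg_false] at h'; exact (hn f P).2 h'
  · rw [seg_true] at h'; exact (hn f _).1 h'

theorem NoRun.infix {w w' : List (Lam × Bool)} (hn : NoRun w) (h : w' <:+: w) : NoRun w' :=
  fun y i => ⟨fun h' => (hn y i).1 (h'.trans h), fun h' => (hn y i).2 (h'.trans h)⟩

/-- the free generator attached to a position -/
def XX (i0 p : Fin 100) : Fin 100 := if p = i0 + 1 then i0 else p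

theorem XX_eq {i0 p q : Fin 100} (h : XX i0 p = XX i0 q) :
    p = q ∨ (p = i0 + 1 ∧ q = i0) ∨ (p = i0 ∧ q = i0 + 1) := by
  unfold XX at h
  split_ifs at h with h1 h2 h2
  · exact Or.inl (h1.trans h2.symm)
  · exact Or.inr (Or.inl ⟨h1, h.symm⟩)
  · exact Or.inr (Or.inr ⟨h, h2⟩)
  · exact Or.inl h

theorem XX_ne_pos (i0 P : Fin 100) (d : Bool) {r : ℕ} (h2 : 2 ≤ r) (h98 : r ≤ 98) :
    XX i0 P ≠ XX i0 (pos d P r) := by
  intro h
  have hP := P.2
  have hi := i0.2
  rcases XX_eq h with h | ⟨h, h'⟩ | ⟨h, h'⟩
  · have := congrArg Fin.val h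
    cases d
    · rw [pos_false_val] at this; omega
    · rw [pos_true_val] at this; omega
  all_goals
    have h1 := congrArg Fin.val h
    have h2 := congrArg Fin.val h'
    simp only [Fin.val_add] at h1 h2
    norm_num at h1 h2
    cases d
    · rw [pos_false_val] at h2; omega
    · rw [pos_true_val] at h2; omega

/-- leaving `p` in direction `d` uses a B-letter -/
def Dep (i0 : Fin 100) (d : Bool) (p : Fin 100) : Prop := if d then p ≠ i0 else p ≠ i0 + 1

/-- arriving at `q` in direction `d` uses a B-letter -/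
def Arr (i0 : Fin 100) (d : Bool) (q : Fin 100) : Prop := if d then q ≠ i0 + 1 else q ≠ i0

theorem Dep.arr {i0 : Fin 100} {d : Bool} {p : Fin 100} (h : Dep i0 d p) : Arr i0 d (nxt d p) := by
  cases d
  · simp only [Dep, Arr, nxt, Bool.false_eq_true, if_false] at h ⊢
    exact fun e => h (by rw [← e, sub_add_cancel])
  · simp only [Dep, Arr, nxt, if_true] at h ⊢
    exact fun e => h (add_right_cancel e)

theorem Dep.XX_ne {i0 : Fin 100} {d : Bool} {p : Fin 100} (h : Dep i0 d p) :
    XX i0 p ≠ XX i0 (nxt d p) := by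
  intro e
  have hp := p.2
  have hi := i0.2
  cases d
  · simp only [Dep, nxt, Bool.false_eq_true, if_false] at h e
    rcases XX_eq e with e | ⟨e, _⟩ | ⟨e, e'⟩
    · have := congrArg Fin.val e
      simp only [Fin.val_sub] at this
      norm_num at this
      omega
    · exact h e
    · have h1 := congrArg Fin.val e
      have h2 := congrArg Fin.val e'
      simp only [Fin.val_sub, Fin.val_add] at h2
      norm_num at h2
      omega
  · simp only [Dep, nxt, if_true] at h e
    rcases XX_eq e with e | ⟨e, e'⟩ | ⟨e, _⟩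
    · have := congrArg Fin.val e
      simp only [Fin.val_add] at this
      norm_num at this
      omega
    · have h1 := congrArg Fin.val e
      have h2 := congrArg Fin.val e'
      simp only [Fin.val_add] at h1 h2
      norm_num at h1 h2
      omega
    · exact h e

theorem succ_ne (i : Fin 100) : i ≠ i + 1 := by
  intro e
  have hi := i.2
  have := congrArg Fin.val e
  simp only [Fin.val_add] at this
  norm_num at this
  omega

variable {A : Type} [Group A]

/-- `A` acts on the free group on `A × Fin 100` by left translation -/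
def act (A : Type) [Group A] : A →* MulAut (FreeGroup (A × Fin 100)) where
  toFun g := FreeGroup.freeGroupCongr (Equiv.prodCongr (Equiv.mulLeft g) (Equiv.refl _))
  map_one' := by
    apply MulEquiv.toMonoidHom_injective
    ext x
    simp
  map_mul' g h := by
    apply MulEquiv.toMonoidHom_injective
    ext ⟨x, i⟩
    simp [mul_assoc]

@[simp] theorem act_of (g h : A) (i : Fin 100) :
    act A g (FreeGroup.of (h, i)) = FreeGroup.of (g * h, i) := by
  simp [act]

/-- a model of the free product `A * F(Fin 100)` -/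
abbrev GG (A : Type) [Group A] : Type := FreeGroup (A × Fin 100) ⋊[act A] A

variable (b : Lam → A) (f : Lam) (i0 : Fin 100)

def δ (p : Fin 100) : A := if p = i0 + 1 then b (sg i0 * f) else 1

def xx (p : Fin 100) : GG A := inl (FreeGroup.of (1, XX i0 p)) * inr (δ b f i0 p)

def IsB (μ : Lam) : Prop := ∃ i, i ≠ i0 ∧ μ = sg i * f

open Classical in
noncomputable def gen (μ : Lam) : GG A :=
  if h : IsB f i0 μ then (xx b f i0 h.choose)⁻¹ * xx b f i0 (h.choose + 1) else inr (b μ)

noncomputable def ψ : FreeGroup Lam →* GG A := FreeGroup.lift (gen b f i0)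

theorem gen_sg (i : Fin 100) : gen b f i0 (sg i * f) = (xx b f i0 i)⁻¹ * xx b f i0 (i + 1) := by
  unfold gen
  split_ifs with h
  · have : h.choose = i := (sg_injective (mul_right_cancel h.choose_spec.2)).symm
    rw [this]
  · have : i = i0 := by
      by_contra hi
      exact h ⟨i, hi, rfl⟩
    subst this
    simp [xx, XX, δ, succ_ne i]

theorem gen_notB {μ : Lam} (h : ¬ IsB f i0 μ) : gen b f i0 μ = inr (b μ) := dif_neg h

theorem ψ_letter (d : Bool) (p : Fin 100) :
    ψ b f i0 (FreeGroup.mk [letter f d p]) = (xx b f i0 p)⁻¹ * xx b f i0 (nxt d p) := by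
  cases d <;> simp [ψ, letter, nxt, gen_sg]

theorem ψ_notB {u : List (Lam × Bool)} (h : ∀ x ∈ u, ¬ IsB f i0 x.1) :
    ψ b f i0 (FreeGroup.mk u) = inr (FreeGroup.lift b (FreeGroup.mk u)) := by
  simp only [ψ, FreeGroup.lift_mk, map_list_prod, List.map_map]
  congr 1
  refine List.map_congr_left fun x hx => ?_
  rw [gen_notB b f i0 (h x hx)]
  rcases x with ⟨x, _ | _⟩ <;> simp

theorem prod_tele {G : Type} [Group G] (x : ℕ → G) (n : ℕ) :
    (List.ofFn fun i : Fin n => (x i)⁻¹ * x (i + 1)).prod = (x 0)⁻¹ * x n := by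
  induction n with
  | zero => simp
  | succ n ih =>
    rw [List.ofFn_succ_last, List.prod_append]
    simp only [Fin.val_castSucc, ih, Fin.val_last, List.prod_cons, List.prod_nil]
    group

theorem ψ_relw : ψ b f i0 (FreeGroup.mk (relw f)) = 1 := by
  have := prod_tele (fun n => xx b f i0 (Fin.ofNat 100 n)) 100
  rw [show Fin.ofNat 100 100 = Fin.ofNat 100 0 from rfl, inv_mul_cancel] at this
  rw [← this, ψ, relw, FreeGroup.lift_mk, List.map_ofFn]
  congr 2
  funext i
  have e1 : Fin.ofNat 100 i = i := by
    ext; simp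
  have e2 : Fin.ofNat 100 (i + 1) = i + 1 := by
    ext; simp [Fin.val_add]
  simp only [Function.comp_def, cond_true, gen_sg, e1, e2]

theorem mul_step (s : GG A) (p q : Fin 100) :
    (s * ((xx b f i0 p)⁻¹ * xx b f i0 q)).left =
        s.left * FreeGroup.mk [((s.right * (δ b f i0 p)⁻¹, XX i0 p), false),
          ((s.right * (δ b f i0 p)⁻¹, XX i0 q), true)] ∧
      (s * ((xx b f i0 p)⁻¹ * xx b f i0 q)).right = s.right * (δ b f i0 p)⁻¹ * δ b f i0 q := by
  have e : ∀ u v : A × Fin 100, FreeGroup.mk [(u, false), (v, true)] =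
      (FreeGroup.of u)⁻¹ * FreeGroup.of v := fun u v => by
    simp [FreeGroup.of, FreeGroup.inv_mk, FreeGroup.mul_mk, FreeGroup.invRev]
  have e2 : ∀ (g h : A) (i : Fin 100), (act A g).symm (FreeGroup.of (h, i)) =
      FreeGroup.of (g⁻¹ * h, i) := fun g h i => by
    rw [← act_of, map_inv]; rfl
  rw [e]
  simp [xx, mul_assoc, e2]

theorem replicate_of_all {c : Lam} :
    ∀ {u : List (Lam × Bool)}, FreeGroup.IsReduced u → (∀ x ∈ u, x.1 = c) →
      ∃ n s, u = List.replicate n (c, s)
  | [], _, _ => ⟨0, true, rfl⟩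
  | [x], _, h => ⟨1, x.2, by rw [← h x (by simp)]; rfl⟩
  | x :: y :: u, hr, h => by
    rw [FreeGroup.isReduced_cons_cons] at hr
    obtain ⟨n, s, e⟩ := replicate_of_all hr.2 fun z hz => h z (List.mem_cons_of_mem _ hz)
    have hx := h x (by simp)
    have hy := h y (by simp)
    have hy' : y = (c, s) := List.eq_of_mem_replicate (e ▸ List.mem_cons_self)
    refine ⟨n + 1, s, ?_⟩
    rw [e, List.replicate_succ]
    congr 1
    exact Prod.ext hx ((hr.1 (hx.trans hy.symm)).trans (by rw [hy']))

theorem lift_replicate (c : Lam) (n : ℕ) (s : Bool) :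
    FreeGroup.lift b (FreeGroup.mk (List.replicate n (c, s))) =
      b c ^ (if s then (n : ℤ) else -n) := by
  cases s <;> simp [FreeGroup.lift_mk]

end Crest.Agent.R191.WordAux
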